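import Vale.Agent.P192.StCoverAux2

/-!
P192, StCover auxiliary file 3: locality for the cyclic shift.
-/

namespace Vale.Agent.P192.Cover

open scoped commutatorElement Matrix

variable {X A : Type} [Ring A] (P : Pres X A) {ι : Type} [LinearOrder ι]

/-- A submonoid containing the generators of degree zero and one is everything. -/
theorem eq_top_of_gens (h3 : ∀ i j : ι, ∃ k, k ≠ i ∧ k ≠ j) (H : Submonoid (St P.K ι))
    (h0 : ∀ i j : ι, i < j → x P.K i j 1 ∈ H)
    (h1 : ∀ i j : ι, i ≠ j → ∀ c, x P.K i j (P.w [c]) ∈ H) (g : St P.K ι) : g ∈ H := by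
  have hw : ∀ u : List X, u ≠ [] → ∀ i j : ι, i ≠ j → x P.K i j (P.w u) ∈ H := by
    intro u
    induction u with
    | nil => intro h; exact (h rfl).elim
    | cons c u ih =>
      intro _ i j hij
      by_cases hu : u = []
      · rw [hu]; exact h1 i j hij c
      · obtain ⟨k, hki, hkj⟩ := h3 i j
        have a1 : Adm P.K i k (P.w [c]) := ⟨hki.symm, Or.inr (P.w_mem _ (by simp))⟩
        have a2 : Adm P.K k j (P.w u) := ⟨hkj, Or.inr (P.w_mem _ hu)⟩
        have e := (isFam_x P.K).bra i k j _ _ a1 a2 hij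
        rw [← P.w_append, commutatorElement_def, x_inv, x_inv] at e
        have m1 := h1 i k hki.symm c
        have m2 := ih hu k j hkj
        change x P.K i j (P.w ([c] ++ u)) ∈ H
        rw [← e]
        exact mul_mem (mul_mem (mul_mem m1 m2) m1) m2
  have hneg : ∀ a : A, -a = a := fun a => neg_eq_of_add_eq_zero_left (P.K.two a)
  have hx : ∀ i j a, Adm P.K i j a → x P.K i j a ∈ H := by
    intro i j a ha
    rcases ha.2 with h | h
    · have hadm : ∀ b, Adm P.K i j b := fun b => ⟨ha.1, Or.inl h⟩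
      clear ha
      induction P.span_top a using AddSubgroup.closure_induction with
      | mem a ha =>
        obtain ⟨u, rfl⟩ := ha
        by_cases hu : u = []
        · rw [hu, P.w_nil]; exact h0 i j h
        · exact hw u hu i j h.ne
      | zero => rw [x_zero]; exact one_mem _
      | add a b _ _ h1 h2 => rw [x_add P.K (hadm a) (hadm b)]; exact mul_mem h1 h2
      | neg a _ h1 => rwa [hneg]
    · have hij := ha.1
      have key : ∀ b ∈ AddSubgroup.closure (P.w '' {u | u ≠ []}),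
          b ∈ P.K.J ∧ x P.K i j b ∈ H := by
        intro b hb
        induction hb using AddSubgroup.closure_induction with
        | mem a ha =>
          obtain ⟨u, hu, rfl⟩ := ha
          exact ⟨P.w_mem u hu, hw u hu i j hij⟩
        | zero => exact ⟨zero_mem _, by rw [x_zero]; exact one_mem _⟩
        | add a b _ _ h1 h2 =>
          refine ⟨add_mem h1.1 h2.1, ?_⟩
          rw [x_add P.K ⟨hij, Or.inr h1.1⟩ ⟨hij, Or.inr h2.1⟩]
          exact mul_mem h1.2 h2.2
        | neg a _ h1 => rwa [hneg]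
      exact (key a (P.span_J a h)).2
  induction g using St.induction with
  | h1 => exact one_mem _
  | hx i j a g ha ih => exact mul_mem (hx i j a ha) ih

variable [Fintype ι]

/-- The corner relation. -/
def Vr {κ : Type} [LinearOrder κ] {q : ℕ} (L : Lay ι κ q) (D : ℕ) (s t : κ) : Prop :=
  (L.e s).1.val < D ∧ q ≤ (L.e t).1.val + D

/-- The descending relation. -/
def Ur {κ : Type} [LinearOrder κ] {q : ℕ} (L : Lay ι κ q) (s t : κ) : Prop :=
  (L.e t).1.val < (L.e s).1.val ∨ ((L.e s).1.val = (L.e t).1.val ∧ (L.e s).2 < (L.e t).2)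

/-- Locality. -/
def Loc (g : St P.K ι) : Prop :=
  ∃ D : ℕ, ∀ (q : ℕ) (κ : Type) [LinearOrder κ] [Fintype κ] (L : Lay ι κ q)
    (θ : A →+* Matrix (Fin q) (Fin q) A)
    (hθ : ∀ u, θ (P.w u) = cyc A q ^ u.length * Matrix.scalar (Fin q) (P.w u)),
    2 * D + 3 ≤ q → ∃ v ∈ gen P.K (Vr L D), ∃ u ∈ gen P.K (Ur L),
      rho P.K L (theta_good P hθ) g = v * u

theorem loc_zero {i j : ι} (hij : i < j) {g : St P.K ι} (hg : Loc P g) :
    Loc P (x P.K i j 1 * g) := by
  obtain ⟨D, hD⟩ := hg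
  refine ⟨D, fun q κ _ _ L θ hθ hq => ?_⟩
  obtain ⟨v, hv, u, hu, e⟩ := hD q κ L θ hθ hq
  have hn : Blk P.K L i j (1 : Matrix (Fin q) (Fin q) A) ∈
      gen P.K (fun s t => (L.e s).1.val = (L.e t).1.val ∧ (L.e s).2 < (L.e t).2) := by
    refine gen_mono P.K (fun s t h => ⟨?_, by rw [h.1, h.2.1]; exact hij⟩) (Blk_mem P.K L i j _)
    by_contra hcon
    exact h.2.2 (Matrix.one_apply_ne fun e => hcon (congrArg Fin.val e))
  have m1 := gen_normalizes' P.K (Q := Vr L D) (by
      intro s t h1 h2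
      unfold Vr at h2
      omega)
    (by
      intro s t r _ h1 h2
      unfold Vr at h2 ⊢
      omega)
    (by
      intro s t r _ h1 h2
      unfold Vr at h1 ⊢
      omega) hn hv
  refine ⟨_, m1, _, mul_mem (gen_mono P.K (fun s t h => Or.inr h) hn) hu, ?_⟩
  rw [map_mul, rho_x P.K L _ ⟨hij.ne, Or.inl hij⟩, map_one, e]
  simp only [mul_assoc, inv_mul_cancel_left]

theorem loc_one {i j : ι} (hij : i ≠ j) (c : X) {g : St P.K ι} (hg : Loc P g) :
    Loc P (x P.K i j (P.w [c]) * g) := by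
  obtain ⟨D, hD⟩ := hg
  refine ⟨D + 1, fun q κ _ _ L θ hθ hq => ?_⟩
  obtain ⟨v, hv, u, hu, e⟩ := hD q κ L θ hθ (by omega)
  have hn : Blk P.K L i j (θ (P.w [c])) ∈ gen P.K (fun s t => Rt L i j s t ∧
      ((L.e s).1.val = (L.e t).1.val + 1 ∨ ((L.e s).1.val = 0 ∧ (L.e t).1.val + 1 = q))) := by
    refine gen_mono P.K (fun s t h => ⟨⟨h.1, h.2.1⟩, ?_⟩) (Blk_mem P.K L i j _)
    by_contra hcon
    apply h.2.2
    rw [hθ, List.length_singleton, pow_one, Matrix.scalar_apply, Matrix.mul_diagonal]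
    unfold cyc
    rw [Matrix.of_apply, if_neg hcon, zero_mul]
  obtain ⟨g1, h1, n, hn', e1⟩ := gen_split P.K
    (fun s t s' t' h h' e => hij (by rw [← h'.1.1, ← h.1.2, e]))
    (fun s t => (L.e s).1.val = 0 ∧ (L.e t).1.val + 1 = q) hn
  obtain ⟨n1, hn1, n2, hn2, e2⟩ := gen_split P.K
    (fun s t s' t' h h' e => hij (by rw [← h'.1.1.1, ← h.1.1.2, e]))
    (fun _ t => (L.e t).1.val < D ∨ q ≤ (L.e t).1.val + D + 1) hn'
  have hn1' : n1 ∈ gen P.K (fun s t => (L.e s).1.val = (L.e t).1.val + 1 ∧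
      ((L.e t).1.val < D ∨ q ≤ (L.e t).1.val + D + 1)) :=
    gen_mono P.K (fun s t h => ⟨h.1.1.2.resolve_right h.1.2, h.2⟩) hn1
  have hn2' : n2 ∈ gen P.K (fun s t => (L.e s).1.val = (L.e t).1.val + 1 ∧
      ¬ ((L.e t).1.val < D ∨ q ≤ (L.e t).1.val + D + 1)) :=
    gen_mono P.K (fun s t h => ⟨h.1.1.2.resolve_right h.1.2, h.2⟩) hn2
  have hc : Commute n2 v := gen_commute P.K (by
      intro s t s' t' h h'
      unfold Vr at h'
      constructor
      · rintro rfl
        omega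
      · rintro rfl
        omega) hn2' hv
  have hv' : v ∈ gen P.K (Vr L (D + 1)) := gen_mono P.K (by
      intro s t h
      unfold Vr at h ⊢
      omega) hv
  have m1 := gen_normalizes' P.K (Q := Vr L (D + 1)) (by
      intro s t h1 h2
      unfold Vr at h2
      omega)
    (by
      intro s t r _ h1 h2
      unfold Vr at h2 ⊢
      omega)
    (by
      intro s t r _ h1 h2
      unfold Vr at h1 ⊢
      omega) hn1' hv'
  have m0 : g1 ∈ gen P.K (Vr L (D + 1)) := gen_mono P.K (by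
      intro s t h
      unfold Vr
      omega) h1
  have m2 : n1 ∈ gen P.K (Ur L) := gen_mono P.K (by
      intro s t h
      unfold Ur
      omega) hn1'
  have m3 : n2 ∈ gen P.K (Ur L) := gen_mono P.K (by
      intro s t h
      unfold Ur
      omega) hn2'
  refine ⟨_, mul_mem m0 m1, _, mul_mem (mul_mem m2 m3) hu, ?_⟩
  rw [map_mul, rho_x P.K L _ ⟨hij, Or.inr (P.w_mem _ (by simp))⟩, e, e1, e2]
  simp only [mul_assoc, inv_mul_cancel_left]
  rw [← mul_assoc n2, hc.eq, mul_assoc]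

theorem loc_all (h3 : ∀ i j : ι, ∃ k, k ≠ i ∧ k ≠ j) (g : St P.K ι) : Loc P g := by
  let H : Submonoid (St P.K ι) :=
    { carrier := {g | ∀ h, Loc P h → Loc P (g * h)}
      one_mem' := fun h hh => by rwa [one_mul]
      mul_mem' := fun {a b} ha hb h hh => by
        rw [mul_assoc]
        exact ha _ (hb _ hh) }
  have := eq_top_of_gens P h3 H (fun i j hij h hh => loc_zero P hij hh)
    (fun i j hij c h hh => loc_one P hij c hh) g 1
    ⟨0, fun q κ _ _ L θ hθ _ => ⟨1, one_mem _, 1, one_mem _, by simp⟩⟩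
  rwa [mul_one] at this

/-- The cyclic cover kills the kernel. -/
theorem rho_cyc (h3 : ∀ i j : ι, ∃ k, k ≠ i ∧ k ≠ j) {z : St P.K ι} (hz : pi P.K z = 1) :
    ∃ D : ℕ, ∀ (q : ℕ) (κ : Type) [LinearOrder κ] [Fintype κ] (L : Lay ι κ q)
    (θ : A →+* Matrix (Fin q) (Fin q) A)
    (hθ : ∀ u, θ (P.w u) = cyc A q ^ u.length * Matrix.scalar (Fin q) (P.w u)),
    D ≤ q → rho P.K L (theta_good P hθ) z = 1 := by
  obtain ⟨D, hD⟩ := loc_all P h3 z
  refine ⟨2 * D + 3, fun q κ _ _ L θ hθ hq => ?_⟩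
  obtain ⟨v, hv, u, hu, e⟩ := hD q κ L θ hθ hq
  have p1 : pi P.K (v * u) = 1 := by
    rw [← e, pi_rho, hz, map_one, map_one]
  have p2 : pi P.K v = pi P.K u⁻¹ := by
    rw [← mul_one (pi P.K v), ← pi_mul_inv P.K u, ← mul_assoc, ← map_mul, p1, one_mul]
  have hv' : v ∈ gen P.K (fun s t => (L.e s).1.val < (L.e t).1.val) := gen_mono P.K (by
      intro s t h
      unfold Vr at h
      omega) hv
  have hUtr : ∀ a b c, Ur L a b → Ur L b c → Ur L a c := by
    intro a b c h1 h2
    unfold Ur at *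
    rcases h1 with h1 | h1 <;> rcases h2 with h2 | h2
    · exact Or.inl (by omega)
    · exact Or.inl (by omega)
    · exact Or.inl (by omega)
    · exact Or.inr ⟨h1.1.trans h2.1, h1.2.trans h2.2⟩
  have hUir : ∀ a, ¬ Ur L a a := by
    intro a h
    unfold Ur at h
    simp at h
  have p3 : pi P.K v = pi P.K (1 : St P.K κ) := by
    rw [map_one]
    ext s t
    by_cases h : (L.e s).1.val < (L.e t).1.val
    · rw [p2]
      refine pi_gen_apply P.K hUtr (inv_mem hu) s t ?_
      unfold Ur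
      omega
    · exact pi_gen_apply P.K (P := fun s t => (L.e s).1.val < (L.e t).1.val)
        (fun a b c h1 h2 => lt_trans h1 h2) hv' s t h
  have hv1 : v = 1 := unip_eq P.K (P := fun s t => (L.e s).1.val < (L.e t).1.val)
    (fun a b c h1 h2 => lt_trans h1 h2) (fun a h => lt_irrefl _ h) hv' (one_mem _) p3
  have hu1 : u = 1 := by
    refine unip_eq P.K hUtr hUir hu (one_mem _) ?_
    rw [hv1, one_mul] at p1
    rw [p1, map_one]
  rw [e, hv1, hu1, mul_one]

/-- For large powers of two the product of all layer embeddings kills a kernel element. -/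
theorem diagHom_ker (h3 : ∀ i j : ι, ∃ k, k ≠ i ∧ k ≠ j) {z : St P.K ι} (hz : pi P.K z = 1) :
    ∃ k : ℕ, ∀ (κ : Type) [LinearOrder κ] [Fintype κ] (L : Lay ι κ (2 ^ k)),
      diagHom P.K L z = 1 := by
  obtain ⟨D, hD⟩ := rho_cyc P h3 hz
  refine ⟨D + 1, fun κ _ _ L => ?_⟩
  have hlt : D + 1 < 2 ^ (D + 1) := Nat.lt_two_pow_self
  obtain ⟨θ, hθ⟩ := exists_theta P (cyc A (2 ^ (D + 1))) cyc_comm
  obtain ⟨θ', hθ'⟩ := exists_theta P (jor A (2 ^ (D + 1))) jor_comm
  obtain ⟨γ, hγ⟩ := rho_conj P.K L (theta_good P hθ) (theta_good P hθ') (pas A _) pas_tri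
    (theta_conj P hθ hθ' pas_comm (pas_jor P.K (D + 1) (by omega)))
  have h1 := hγ z
  rw [hD _ κ L θ hθ (by omega), mul_inv_eq_one, mul_eq_left] at h1
  exact rho_tri P.K L (theta_good P hθ') (theta_tri P hθ' jor_tri) hz h1

end Vale.Agent.P192.Cover
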