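import Vale.Agent.P192.StDiag

/-!
P192, group side, part B3a: on the kernel of the matrix representation, moving one index does not
change the image.
-/

namespace Vale.Agent.P192

open scoped Matrix

variable {A : Type} [Ring A] (K : Coef A) {ι κ : Type} [LinearOrder ι] [LinearOrder κ]
  [Fintype ι] [Fintype κ]

omit [Fintype κ] in
theorem shift_colAdm_zero (j : κ) : ColAdm K j 0 :=
  ⟨rfl, fun _ hm => ⟨hm, Or.inr K.J.zero_mem⟩⟩

omit [Fintype κ] in
theorem shift_rowAdm_zero (j : κ) : RowAdm K j 0 :=
  ⟨rfl, fun _ hm => ⟨hm.symm, Or.inr K.J.zero_mem⟩⟩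

theorem shift_mulVec {s t : κ} {a : A} (h : Adm K s t a) (q : κ) :
    pi K (x K s t a) *ᵥ Pi.single q 1 = (if t = q then Pi.single s a else 0) + Pi.single q 1 := by
  rw [pi_x K h, Matrix.add_mulVec, Matrix.one_mulVec, Matrix.single_mulVec, add_comm]
  congr 1
  by_cases e : t = q
  · subst e; simp [Pi.single]
  · simp [e]

theorem shift_vecMul {s t : κ} {a : A} (h : Adm K s t a) (q : κ) :
    Pi.single q 1 ᵥ* pi K (x K s t a) = (if s = q then Pi.single t a else 0) + Pi.single q 1 := by
  rw [pi_x K h, Matrix.vecMul_add, Matrix.vecMul_one, Matrix.single_one_vecMul, add_comm]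
  congr 1
  funext m
  by_cases e : s = q
  · subst e; simp [Matrix.single_apply, Pi.single_apply, eq_comm]
  · simp [e]

/-- The statement transported along the generators. -/
def ShiftP (f g : ι ↪o κ) (p' p : κ) (w : St K ι) : Prop :=
  ∃ c r : κ → A, ColAdm K p' c ∧ RowAdm K p r ∧
    pi K (smap K g w) *ᵥ Pi.single p 1 = c + Pi.single p 1 ∧
    Pi.single p' 1 ᵥ* pi K (smap K f w) = r + Pi.single p' 1 ∧
    x K p' p 1 * (col K p' c * smap K g w) * (x K p' p 1)⁻¹ = smap K f w * row K p r

omit [Fintype ι] in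
theorem shiftP_one (f g : ι ↪o κ) (p' p : κ) : ShiftP K f g p' p 1 :=
  ⟨0, 0, shift_colAdm_zero K _, shift_rowAdm_zero K _, by simp [-Matrix.mulVec_single], by simp,
    by simp [col_zero, row_zero]⟩

omit [Fintype ι] in
theorem shiftP_mul {f g : ι ↪o κ} {p' p : κ} (hf : ∀ j, f j ≠ p) (hg : ∀ j, g j ≠ p')
    {u w : St K ι} (hu : ShiftP K f g p' p u) (hw : ShiftP K f g p' p w) :
    ShiftP K f g p' p (u * w) := by
  obtain ⟨c1, r1, hc1, hr1, e1, e1', k1⟩ := hu
  obtain ⟨c2, r2, hc2, hr2, e2, e2', k2⟩ := hw
  have mg : smap K g u ∈ gen K (fun k _ => k ≠ p') :=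
    smap_mem_gen K g (P := fun _ _ => True) (fun a _ _ => hg a) (by rw [gen_true]; trivial)
  have mf : (smap K f w)⁻¹ ∈ gen K (fun _ l => l ≠ p) :=
    inv_mem (smap_mem_gen K f (P := fun _ _ => True) (fun _ b _ => hf b)
      (by rw [gen_true]; trivial))
  obtain ⟨a1, b1⟩ := conj_col K mg hc2
  obtain ⟨a2, b2⟩ := conj_row K mf hr1
  rw [inv_inv] at a2 b2
  refine ⟨c1 + pi K (smap K g u) *ᵥ c2, r1 ᵥ* pi K (smap K f w) + r2, hc1.add K a1, a2.add K hr2,
    ?_, ?_, ?_⟩
  · rw [map_mul, map_mul, ← Matrix.mulVec_mulVec, e2, Matrix.mulVec_add, e1]; abel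
  · rw [map_mul, map_mul, ← Matrix.vecMul_vecMul, e1', Matrix.add_vecMul, e2']; abel
  · rw [col_add K hc1 a1, row_add K a2 hr2, ← b1, ← b2, map_mul, map_mul]
    calc x K p' p 1 * (col K p' c1 * (smap K g u * col K p' c2 * (smap K g u)⁻¹) *
          (smap K g u * smap K g w)) * (x K p' p 1)⁻¹
        = (x K p' p 1 * (col K p' c1 * smap K g u) * (x K p' p 1)⁻¹) *
          (x K p' p 1 * (col K p' c2 * smap K g w) * (x K p' p 1)⁻¹) := by group
      _ = _ := by rw [k1, k2]; group

omit [Fintype ι] in
theorem shiftP_x {f g : ι ↪o κ} {i : ι} (h : ∀ j, j ≠ i → f j = g j) (hlt : f i < g i)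
    (hf : ∀ j, f j ≠ g i) (hg : ∀ j, g j ≠ f i) {k l : ι} {a : A} (ha : Adm K k l a) :
    ShiftP K f g (f i) (g i) (x K k l a) := by
  have af : Adm K (f k) (f l) a := (adm_map K f k l a).2 ha
  have ag : Adm K (g k) (g l) a := (adm_map K g k l a).2 ha
  have a1 : Adm K (f i) (g i) (1 : A) := ⟨hlt.ne, Or.inl hlt⟩
  unfold ShiftP
  rw [smap_x, smap_x, shift_mulVec K ag, shift_vecMul K af]
  by_cases hl : l = i
  · subst hl
    have hk : k ≠ l := ha.1
    rw [← h k hk] at ag ⊢
    refine ⟨Pi.single (f k) a, 0, ColAdm.single K af, shift_rowAdm_zero K _, by simp,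
      by simp [hk], ?_⟩
    rw [col_single, row_zero, mul_one, ← mul_assoc, x_swap' K af a1 ag.1, mul_one,
      mul_assoc _ _ (x K (f k) (g l) a), (commute_col K (g l) (f l) (f k) 1 a).eq, ← mul_assoc,
      mul_inv_cancel_right, (commute_row K (f k) (g l) (f l) a a).eq, mul_assoc, x_mul_self,
      mul_one]
  · by_cases hk : k = i
    · subst hk
      rw [h l hl] at af ⊢
      refine ⟨0, Pi.single (g l) a, shift_colAdm_zero K _, RowAdm.single K ag, by simp [hl],
        by simp, ?_⟩
      rw [row_single, col_zero, one_mul, x_swap K a1 ag af.1, one_mul, mul_inv_cancel_right]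
    · refine ⟨0, 0, shift_colAdm_zero K _, shift_rowAdm_zero K _, by simp [hl], by simp [hk], ?_⟩
      rw [col_zero, row_zero, one_mul, mul_one, h k hk, h l hl,
        (x_comm K (1 : A) a (g.injective.ne hk).symm (hg l).symm).eq, mul_inv_cancel_right]

theorem smap_move_lt (h5 : Five κ) (f g : ι ↪o κ) (i : ι) (h : ∀ j, j ≠ i → f j = g j)
    (hlt : f i < g i) {z : St K ι} (hz : pi K z = 1) : smap K f z = smap K g z := by
  have hf : ∀ j, f j ≠ g i := by
    intro j
    by_cases e : j = i
    · subst e; exact hlt.ne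
    · rw [h j e]; exact g.injective.ne e
  have hg : ∀ j, g j ≠ f i := by
    intro j
    by_cases e : j = i
    · subst e; exact hlt.ne'
    · rw [← h j e]; exact f.injective.ne e
  have key : ShiftP K f g (f i) (g i) z :=
    St.induction K (C := ShiftP K f g (f i) (g i)) (shiftP_one K f g _ _)
      (fun k l a w ha hw => shiftP_mul K hf hg (shiftP_x K h hlt hf hg ha) hw) z
  obtain ⟨c, r, -, -, e1, e2, k⟩ := key
  have zf : pi K (smap K f z) = 1 := (pi_smap_eq_one_iff K f z).2 hz
  have zg : pi K (smap K g z) = 1 := (pi_smap_eq_one_iff K g z).2 hz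
  rw [zg, Matrix.one_mulVec, right_eq_add] at e1
  rw [zf, Matrix.vecMul_one, right_eq_add] at e2
  rw [e1, e2, col_zero, row_zero, one_mul, mul_one, ← (central_of_pi K h5 zg _).eq,
    mul_inv_cancel_right] at k
  exact k.symm

theorem smap_move (h5 : Five κ) (f g : ι ↪o κ) (i : ι) (h : ∀ j, j ≠ i → f j = g j)
    {z : St K ι} (hz : pi K z = 1) : smap K f z = smap K g z := by
  rcases lt_trichotomy (f i) (g i) with hlt | heq | hgt
  · exact smap_move_lt K h5 f g i h hlt hz
  · have : f = g := by
      ext j
      by_cases e : j = i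
      · rw [e, heq]
      · exact h j e
    rw [this]
  · exact (smap_move_lt K h5 g f i (fun j hj => (h j hj).symm) hgt hz).symm

omit [Fintype κ] in
theorem shift_exists (f g : ι ↪o κ) (h : ∃ i, g i < f i) :
    ∃ (f' : ι ↪o κ) (i : ι), (∀ j, j ≠ i → f j = f' j) ∧ f' i = g i ∧ f i ≠ g i := by
  classical
  obtain ⟨i, hi, hmin⟩ := (Finset.univ.filter fun i => g i < f i).exists_min_image id
    (by obtain ⟨i, hi⟩ := h; exact ⟨i, by simpa using hi⟩)
  have hi' : g i < f i := by simpa using hi
  have hmin' : ∀ j, j < i → f j ≤ g j := by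
    intro j hj
    by_contra hc
    exact absurd (hmin j (by simpa using hc)) (not_le.2 hj)
  have hmono : StrictMono (Function.update f i (g i)) := by
    intro a b hab
    by_cases ea : a = i
    · subst ea
      rw [Function.update_self, Function.update_of_ne hab.ne']
      exact hi'.trans (f.strictMono hab)
    · by_cases eb : b = i
      · subst eb
        rw [Function.update_self, Function.update_of_ne ea]
        exact (hmin' a hab).trans_lt (g.strictMono hab)
      · rw [Function.update_of_ne ea, Function.update_of_ne eb]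
        exact f.strictMono hab
  refine ⟨OrderEmbedding.ofStrictMono _ hmono, i, ?_, ?_, hi'.ne'⟩
  · intro j hj
    simp [Function.update_of_ne hj]
  · simp

/-- All order embeddings agree on the kernel. -/
theorem smap_eq_of_ker (h5 : Five κ) (f g : ι ↪o κ) {z : St K ι} (hz : pi K z = 1) :
    smap K f z = smap K g z := by
  classical
  have main : ∀ n : ℕ, ∀ f g : ι ↪o κ, (Finset.univ.filter fun i => f i ≠ g i).card = n →
      smap K f z = smap K g z := by
    intro n
    induction n using Nat.strong_induction_on with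
    | _ n ih =>
      have step : ∀ f g : ι ↪o κ, (Finset.univ.filter fun i => f i ≠ g i).card = n →
          (∃ i, g i < f i) → smap K f z = smap K g z := by
        intro f g hn hex
        obtain ⟨f', i, h1, h2, h3⟩ := shift_exists f g hex
        rw [smap_move K h5 f f' i h1 hz]
        refine ih _ ?_ f' g rfl
        rw [← hn]
        apply Finset.card_lt_card
        rw [Finset.ssubset_iff_of_subset]
        · exact ⟨i, by simpa using h3, by simpa using h2⟩
        · intro j hj
          simp only [Finset.mem_filter, Finset.mem_univ, true_and] at hj ⊢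
          by_cases e : j = i
          · subst e; exact h3
          · rwa [h1 j e]
      intro f g hn
      by_cases h1 : ∃ i, g i < f i
      · exact step f g hn h1
      by_cases h2 : ∃ i, f i < g i
      · refine (step g f ?_ h2).symm
        rw [← hn]
        congr 1
        ext j
        simp [eq_comm]
      · push Not at h1 h2
        have : f = g := by
          ext j
          exact le_antisymm (h1 j) (h2 j)
        rw [this]
  exact main _ f g rfl

end Vale.Agent.P192
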