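import Vale.Agent.P192.StStab
import Vale.Agent.P192.StShift
import Vale.Agent.P192.StCoverAux3

/-!
P192, group side, part B3b: the kernel is torsion (cyclic cover argument); the group is periodic
and infinite.
-/

namespace Vale.Agent.P192

variable {X A : Type} [Ring A] (P : Pres X A)

theorem ker_torsion {z : St P.K (Fin 5)} (hz : pi P.K z = 1) : IsOfFinOrder z := by
  obtain ⟨k, hk⟩ := Cover.diagHom_ker P (ι := Fin 5) (by decide) hz
  have hq : 0 < 2 ^ k := Nat.two_pow_pos k
  generalize 2 ^ k = q at hk hq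
  have hc : Fintype.card (Fin q ×ₗ Fin 5) = q * 5 := by
    rw [Fintype.card_lex, Fintype.card_prod, Fintype.card_fin, Fintype.card_fin]
  let e := monoEquivOfFin (Fin q ×ₗ Fin 5) hc
  let L : Cover.Lay (Fin 5) (Fin (q * 5)) q :=
    { e := e.toEquiv.trans ofLex
      lt_iff := fun s t => by
        rw [← e.lt_iff_lt]
        exact Prod.Lex.lt_iff }
  have h5 : 5 ≤ q * 5 := by omega
  have hF : Five (Fin (q * 5)) :=
    ⟨⟨0, by omega⟩, ⟨1, by omega⟩, ⟨2, by omega⟩, ⟨3, by omega⟩, ⟨4, by omega⟩,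
      by simp, by simp, by simp, by simp⟩
  have h1 := hk (Fin (q * 5)) L
  rw [Cover.diagHom_apply, Finset.noncommProd_eq_pow_card _ _ _
    (smap P.K (Fin.castLEOrderEmb h5) z) (fun l _ => smap_eq_of_ker P.K hF _ _ hz),
    Finset.card_univ, Fintype.card_fin, ← map_pow] at h1
  have h2 : z ^ q = 1 := stab_le P.K le_rfl h5 (by rw [h1, map_one])
  exact isOfFinOrder_iff_pow_eq_one.2 ⟨q, hq, h2⟩

theorem exists_pow_pi (g : St P.K (Fin 5)) : ∃ n : ℕ, 0 < n ∧ pi P.K (g ^ n) = 1 := by
  obtain ⟨N, hN⟩ : ∃ N, N = pi P.K g - 1 := ⟨_, rfl⟩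
  have h1 : ∀ s t, ¬ s < t → N s t ∈ P.K.J := fun s t h => by
    rw [hN]
    exact pi_entry_mem P.K g h
  have h2 : ∀ n : ℕ, ∀ s t : Fin 5, ¬ s.val + (n + 1) ≤ t.val → (N ^ (n + 1)) s t ∈ P.K.J := by
    intro n
    induction n with
    | zero =>
      intro s t h
      rw [zero_add, pow_one]
      exact h1 s t (fun h' => h h')
    | succ n ih =>
      intro s t h
      rw [pow_succ, Matrix.mul_apply]
      refine sum_mem fun m _ => ?_
      by_cases hm : m < t
      · refine P.K.mul_right _ _ (ih s m ?_)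
        have : m.val < t.val := hm
        omega
      · exact P.K.mul_left _ _ (h1 m t hm)
  obtain ⟨m, hm⟩ := P.nil 5 (N ^ 5) (fun s t => h2 4 s t (by have := t.2; omega))
  rw [← pow_mul] at hm
  have h3 : ∀ M : Matrix (Fin 5) (Fin 5) A, M + M = 0 := fun M => by
    ext s t
    exact P.K.two _
  have h4 : ∀ k : ℕ, (1 + N) ^ (2 ^ k) = 1 + N ^ (2 ^ k) := by
    intro k
    induction k with
    | zero => simp
    | succ k ih =>
      rw [pow_succ, pow_mul, pow_mul, ih, pow_two, pow_two, add_mul, mul_add, mul_add, one_mul,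
        one_mul, mul_one, add_assoc, ← add_assoc (N ^ 2 ^ k), h3, zero_add]
  refine ⟨2 ^ (5 * m), Nat.two_pow_pos _, ?_⟩
  have h5 : pi P.K g = 1 + N := by rw [hN, add_sub_cancel]
  rw [map_pow, h5, h4, pow_eq_zero_of_le Nat.lt_two_pow_self.le hm, add_zero]

theorem St_periodic (g : St P.K (Fin 5)) : IsOfFinOrder g := by
  obtain ⟨n, hn, h⟩ := exists_pow_pi P g
  exact (isOfFinOrder_pow.mp (ker_torsion P h)).resolve_right hn.ne'

theorem St_infinite : Infinite (St P.K (Fin 5)) := by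
  have := P.inf
  refine Infinite.of_injective (fun a : A => x P.K (0 : Fin 5) 1 a) fun a b h => ?_
  have h1 : ∀ c : A, pi P.K (x P.K (0 : Fin 5) 1 c) 0 1 = c := by
    intro c
    rw [pi_x P.K ⟨by decide, Or.inl (by decide)⟩]
    simp
  have := congrArg (fun g => pi P.K g 0 1) h
  simpa only [h1] using this

end Vale.Agent.P192
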