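import Vale.Agent.P192.StDefs

/-!
P192, group side: the Steinberg relations on words follow from those of degree at most one.
-/

namespace Vale.Agent.P192.FP

open scoped commutatorElement

variable {X G H : Type} [Group G] [Group H]

/-- An index different from two given ones. -/
def third (i j : Fin 5) : Fin 5 :=
  if i ≠ 0 ∧ j ≠ 0 then 0 else if i ≠ 1 ∧ j ≠ 1 then 1 else 2

theorem third_ne : ∀ i j : Fin 5, third i j ≠ i ∧ third i j ≠ j := by decide

theorem exists_fifth : ∀ i j k l : Fin 5, ∃ m : Fin 5, m ≠ i ∧ m ≠ j ∧ m ≠ k ∧ m ≠ l := by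
  decide

/-- Root elements of words, from those of words of length at most one. -/
def yy (g : Fin 5 → Fin 5 → Option X → G) : List X → Fin 5 → Fin 5 → G
  | [], i, j => g i j none
  | [a], i, j => g i j (some a)
  | a :: b :: w, i, j => ⁅g i (third i j) (some a), yy g (b :: w) (third i j) j⁆

theorem map_yy (f : G →* H) (g : Fin 5 → Fin 5 → Option X → G) :
    ∀ (w : List X) (i j : Fin 5), f (yy g w i j) = yy (fun i j o => f (g i j o)) w i j
  | [], _, _ => rfl
  | [_], _, _ => rfl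
  | a :: b :: w, i, j => by
      simp only [yy, map_commutatorElement]
      rw [map_yy f g (b :: w)]

/-- Admissible words. -/
def adm (i j : Fin 5) (w : List X) : Prop := i ≠ j ∧ (i < j ∨ w ≠ [])

theorem adm_of_ne {i j : Fin 5} {w : List X} (h : i ≠ j) (hw : w ≠ []) : adm i j w :=
  ⟨h, Or.inr hw⟩

theorem adm.append {i j k : Fin 5} {u v : List X} (h : adm i j u) (h' : adm j k v) (hik : i ≠ k) :
    adm i k (u ++ v) := by
  refine ⟨hik, ?_⟩
  rcases h.2 with h1 | h1
  · rcases h'.2 with h2 | h2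
    · exact Or.inl (h1.trans h2)
    · exact Or.inr (by simp [h2])
  · exact Or.inr (by simp [h1])

theorem comm_ident {x y z : G} (hxz : Commute x z) (hAB : Commute ⁅x, y⁆ ⁅y, z⁆) :
    ⁅x, ⁅y, z⁆⁆ = ⁅y, z⁆ * ⁅⁅x, y⁆, z⁆ * ⁅y, z⁆⁻¹ := by
  have h1 : x * ⁅y, z⁆ * x⁻¹ = ⁅⁅x, y⁆ * y, z⁆ := by
    have : x * z * x⁻¹ = z := by rw [hxz.eq]; group
    have h2 : x * ⁅y, z⁆ * x⁻¹ = ⁅x * y * x⁻¹, x * z * x⁻¹⁆ := by
      simp only [commutatorElement_def]; group
    rw [h2, this]
    congr 1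
    simp only [commutatorElement_def]; group
  have h3 : ⁅⁅x, y⁆ * y, z⁆ = ⁅x, y⁆ * ⁅y, z⁆ * ⁅x, y⁆⁻¹ * ⁅⁅x, y⁆, z⁆ := by
    generalize ⁅x, y⁆ = A
    simp only [commutatorElement_def]; group
  have h4 : ⁅x, y⁆ * ⁅y, z⁆ * ⁅x, y⁆⁻¹ = ⁅y, z⁆ := by
    rw [hAB.eq]; group
  rw [commutatorElement_def x ⁅y, z⁆, h1, h3, h4]

theorem commute_commutator {b x y : G} (h1 : Commute b x) (h2 : Commute b y) :
    Commute b ⁅x, y⁆ := by
  rw [commutatorElement_def]
  exact ((h1.mul_right h2).mul_right h1.inv_right).mul_right h2.inv_right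

theorem conj_of_commute {b c : G} (h : Commute b c) : b * c * b⁻¹ = c := by
  rw [h.eq]; group

variable (g : Fin 5 → Fin 5 → Option X → G)

/-- Commutation relations up to length `N`. -/
def S2 (N : ℕ) : Prop :=
  ∀ (i j k l : Fin 5) (u v : List X), adm i j u → adm k l v → u.length ≤ N → v.length ≤ N →
    j ≠ k → i ≠ l → Commute (yy g u i j) (yy g v k l)

/-- Commutator relations up to total length `N`. -/
def S3 (N : ℕ) : Prop :=
  ∀ (i j k : Fin 5) (u v : List X), adm i j u → adm j k v → u.length + v.length ≤ N →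
    i ≠ k → ⁅yy g u i j, yy g v j k⁆ = yy g (u ++ v) i k

variable {g}

theorem shift_split {N : ℕ} (h2 : S2 g N) (h3 : S3 g N) {i j j' k : Fin 5} {a b c : List X}
    (ha : a ≠ []) (hc : c ≠ []) (hb : adm j j' b) (hl : a.length + b.length + c.length ≤ N + 1)
    (hij : i ≠ j) (hij' : i ≠ j') (hik : i ≠ k) (hjk : j ≠ k) (hj'k : j' ≠ k) :
    ⁅yy g a i j, yy g (b ++ c) j k⁆ = ⁅yy g (a ++ b) i j', yy g c j' k⁆ := by
  have la : 0 < a.length := List.length_pos_iff.mpr ha
  have lc : 0 < c.length := List.length_pos_iff.mpr hc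
  have hA : ⁅yy g a i j, yy g b j j'⁆ = yy g (a ++ b) i j' :=
    h3 _ _ _ _ _ (adm_of_ne hij ha) hb (by omega) hij'
  have hB : ⁅yy g b j j', yy g c j' k⁆ = yy g (b ++ c) j k :=
    h3 _ _ _ _ _ hb (adm_of_ne hj'k hc) (by omega) hjk
  have hab : adm i j' (a ++ b) := adm_of_ne hij' (by simp [ha])
  have hbc : adm j k (b ++ c) := adm_of_ne hjk (by simp [hc])
  have hxz : Commute (yy g a i j) (yy g c j' k) :=
    h2 _ _ _ _ _ _ (adm_of_ne hij ha) (adm_of_ne hj'k hc) (by omega) (by omega) hb.1 hik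
  have hAB : Commute (yy g (a ++ b) i j') (yy g (b ++ c) j k) :=
    h2 _ _ _ _ _ _ hab hbc (by simp; omega) (by simp; omega) hb.1.symm hik
  have hBz : Commute (yy g (b ++ c) j k) (yy g c j' k) :=
    h2 _ _ _ _ _ _ hbc (adm_of_ne hj'k hc) (by simp; omega) (by omega) hj'k.symm hjk
  have key := comm_ident hxz (y := yy g b j j') (by rw [hA, hB]; exact hAB)
  rw [hA, hB] at key
  rw [key]
  exact conj_of_commute (commute_commutator hAB.symm hBz)

theorem vertex_split {N : ℕ} (h2 : S2 g N) (h3 : S3 g N) {i j j' k : Fin 5} {a c : List X}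
    (ha : a ≠ []) (hc : c ≠ []) (hl : a.length + c.length ≤ N + 1)
    (hij : i ≠ j) (hij' : i ≠ j') (hik : i ≠ k) (hjk : j ≠ k) (hj'k : j' ≠ k) :
    ⁅yy g a i j, yy g c j k⁆ = ⁅yy g a i j', yy g c j' k⁆ := by
  rcases lt_trichotomy j j' with h | h | h
  · simpa using shift_split h2 h3 (b := []) ha hc ⟨h.ne, Or.inl h⟩ (by simpa using hl)
      hij hij' hik hjk hj'k
  · rw [h]
  · simpa using (shift_split h2 h3 (b := []) ha hc ⟨h.ne, Or.inl h⟩ (by simpa using hl)
      hij' hij hik hj'k hjk).symm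

theorem proper_split {N : ℕ} (h2 : S2 g N) (h3 : S3 g N) {i j k : Fin 5} {a c : List X}
    (ha : a ≠ []) (hc : c ≠ []) (hl : a.length + c.length ≤ N + 1)
    (hij : i ≠ j) (hik : i ≠ k) (hjk : j ≠ k) :
    ⁅yy g a i j, yy g c j k⁆ = yy g (a ++ c) i k := by
  obtain ⟨x, a', rfl⟩ := List.exists_cons_of_ne_nil ha
  obtain ⟨t1, t2⟩ := third_ne i k
  have e : yy g (x :: a' ++ c) i k =
      ⁅yy g [x] i (third i k), yy g (a' ++ c) (third i k) k⁆ := by
    obtain ⟨y, r, hr⟩ := List.exists_cons_of_ne_nil (l := a' ++ c) (by simp [hc])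
    rw [List.cons_append, hr]
    rfl
  rw [e]
  by_cases ha' : a' = []
  · subst ha'
    simpa using vertex_split h2 h3 ha hc hl hij t1.symm hik hjk t2
  · obtain ⟨m, m1, m2, m3, -⟩ := exists_fifth i j k k
    rw [vertex_split h2 h3 (j := third i k) (j' := m) (by simp) (by simp [hc])
      (by simpa [add_assoc, add_comm, add_left_comm] using hl) t1.symm m1.symm hik t2 m3]
    have := shift_split h2 h3 (a := [x]) (b := a') (c := c) (j := m) (j' := j) (by simp) hc
      (adm_of_ne m2 ha') (by simpa [add_assoc, add_comm, add_left_comm] using hl)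
      m1.symm hij hik m3 hjk
    simpa using this.symm

theorem exists_split {w : List X} (h : 2 ≤ w.length) :
    ∃ a c : List X, a ≠ [] ∧ c ≠ [] ∧ w = a ++ c := by
  match w, h with
  | x :: y :: r, _ => exact ⟨[x], y :: r, by simp, by simp, rfl⟩

theorem S2_half {N : ℕ} (hN : 1 ≤ N) (h2 : S2 g N) (h3 : S3 g N) {i j k l : Fin 5} {u v : List X}
    (hu : adm i j u) (hlu : u.length ≤ N + 1)
    (hv : ∀ (i' j' : Fin 5) (u' : List X), adm i' j' u' → u'.length ≤ N → j' ≠ k → i' ≠ l →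
      Commute (yy g u' i' j') (yy g v k l))
    (hjk : j ≠ k) (hil : i ≠ l) : Commute (yy g u i j) (yy g v k l) := by
  by_cases hl : u.length ≤ N
  · exact hv _ _ _ hu hl hjk hil
  obtain ⟨a, c, ha, hc, rfl⟩ := exists_split (w := u) (by omega)
  have la : 0 < a.length := List.length_pos_iff.mpr ha
  have lc : 0 < c.length := List.length_pos_iff.mpr hc
  rw [List.length_append] at hlu
  obtain ⟨m, m1, m2, m3, m4⟩ := exists_fifth i j k l
  rw [← proper_split h2 h3 ha hc hlu m1.symm hu.1 m2]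
  exact (commute_commutator (hv _ _ _ (adm_of_ne m1.symm ha) (by omega) m3 hil).symm
    (hv _ _ _ (adm_of_ne m2 hc) (by omega) hjk m4).symm).symm

theorem S2_succ {N : ℕ} (hN : 1 ≤ N) (h2 : S2 g N) (h3 : S3 g N) : S2 g (N + 1) := by
  intro i j k l u v hu hv hlu hlv hjk hil
  refine S2_half hN h2 h3 hu hlu ?_ hjk hil
  intro i' j' u' hu' hlu' hjk' hil'
  refine (S2_half hN h2 h3 hv hlv ?_ hil'.symm hjk'.symm).symm
  intro k' l' v' hv' hlv' h1 h2'
  exact h2 _ _ _ _ _ _ hv' hu' hlv' hlu' h1 h2'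

theorem S3_succ {N : ℕ} (hN : 1 ≤ N) (h2 : S2 g N) (h3 : S3 g N) : S3 g (N + 1) := by
  have h2' := S2_succ hN h2 h3
  intro i j k u v hu hv hl hik
  by_cases hlt : u.length + v.length ≤ N
  · exact h3 _ _ _ _ _ hu hv hlt hik
  obtain ⟨m, m1, m2, m3, -⟩ := exists_fifth i j k k
  by_cases hu0 : u = []
  · subst hu0
    obtain ⟨b, c, hb, hc, rfl⟩ := exists_split (w := v) (by simp at hlt; omega)
    have lb : 0 < b.length := List.length_pos_iff.mpr hb
    have lc : 0 < c.length := List.length_pos_iff.mpr hc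
    simp only [List.length_nil, List.length_append, zero_add] at hl
    have hB : ⁅yy g b j m, yy g c m k⁆ = yy g (b ++ c) j k :=
      proper_split h2 h3 hb hc hl m2.symm hv.1 m3
    have hA : ⁅yy g [] i j, yy g b j m⁆ = yy g b i m := by
      simpa using h3 i j m [] b hu (adm_of_ne m2.symm hb) (by simp; omega) m1.symm
    have hxz : Commute (yy g [] i j) (yy g c m k) :=
      h2 _ _ _ _ _ _ hu (adm_of_ne m3 hc) (by simp) (by omega) m2.symm hik
    have hAB : Commute (yy g b i m) (yy g (b ++ c) j k) :=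
      h2' _ _ _ _ _ _ (adm_of_ne m1.symm hb) hv (by omega) (by simp; omega) m2 hik
    have key := comm_ident hxz (y := yy g b j m) (by rw [hA, hB]; exact hAB)
    rw [hA, hB, proper_split h2 h3 hb hc hl m1.symm hik m3] at key
    rw [key, List.nil_append]
    refine conj_of_commute ?_
    exact h2' _ _ _ _ _ _ hv (adm_of_ne hik (by simp [hb])) (by simp; omega) (by simp; omega)
      hik.symm hv.1
  by_cases hv0 : v = []
  · subst hv0
    obtain ⟨a, b, ha, hb, rfl⟩ := exists_split (w := u) (by simp at hlt; omega)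
    have la : 0 < a.length := List.length_pos_iff.mpr ha
    have lb : 0 < b.length := List.length_pos_iff.mpr hb
    simp only [List.length_nil, List.length_append, add_zero] at hl
    have hA : ⁅yy g a i m, yy g b m j⁆ = yy g (a ++ b) i j :=
      proper_split h2 h3 ha hb hl m1.symm hu.1 m2
    have hB : ⁅yy g b m j, yy g [] j k⁆ = yy g b m k := by
      simpa using h3 m j k b [] (adm_of_ne m2 hb) hv (by simp; omega) m3
    have hxz : Commute (yy g a i m) (yy g [] j k) :=
      h2 _ _ _ _ _ _ (adm_of_ne m1.symm ha) hv (by omega) (by simp) m2 hik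
    have hAB : Commute (yy g (a ++ b) i j) (yy g b m k) :=
      h2' _ _ _ _ _ _ hu (adm_of_ne m3 hb) (by simp; omega) (by omega) m2.symm hik
    have key := comm_ident hxz (y := yy g b m j) (by rw [hA, hB]; exact hAB)
    rw [hA, hB, proper_split h2 h3 ha hb hl m1.symm hik m3] at key
    have hc : Commute (yy g b m k) (yy g (a ++ b) i k) :=
      h2' _ _ _ _ _ _ (adm_of_ne m3 hb) (adm_of_ne hik (by simp [ha])) (by omega)
        (by simp; omega) hik.symm m3
    rw [List.append_nil]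
    have : ⁅yy g (a ++ b) i j, yy g [] j k⁆ =
        (yy g b m k)⁻¹ * yy g (a ++ b) i k * yy g b m k := by
      rw [key]; group
    rw [this, mul_assoc, ← hc.eq]; group
  exact proper_split h2 h3 hu0 hv0 hl hu.1 hik hv.1

theorem S_all (h2 : S2 g 1) (h3 : S3 g 1) (N : ℕ) : S2 g (N + 1) ∧ S3 g (N + 1) := by
  induction N with
  | zero => exact ⟨h2, h3⟩
  | succ n ih => exact ⟨S2_succ (by omega) ih.1 ih.2, S3_succ (by omega) ih.1 ih.2⟩

theorem yy_comm (h2 : S2 g 1) (h3 : S3 g 1) {i j k l : Fin 5} {u v : List X} (hu : adm i j u)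
    (hv : adm k l v) (hjk : j ≠ k) (hil : i ≠ l) : Commute (yy g u i j) (yy g v k l) :=
  (S_all h2 h3 (u.length + v.length)).1 _ _ _ _ _ _ hu hv (by omega) (by omega) hjk hil

theorem yy_bra (h2 : S2 g 1) (h3 : S3 g 1) {i j k : Fin 5} {u v : List X} (hu : adm i j u)
    (hv : adm j k v) (hik : i ≠ k) : ⁅yy g u i j, yy g v j k⁆ = yy g (u ++ v) i k :=
  (S_all h2 h3 (u.length + v.length)).2 _ _ _ _ _ hu hv (by omega) hik

theorem yy_sq (h2 : S2 g 1) (h3 : S3 g 1)
    (hs : ∀ (i j : Fin 5) (u : List X), adm i j u → u.length ≤ 1 → yy g u i j * yy g u i j = 1)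
    {i j : Fin 5} {u : List X} (hu : adm i j u) : yy g u i j * yy g u i j = 1 := by
  by_cases hl : u.length ≤ 1
  · exact hs _ _ _ hu hl
  match u, hl with
  | [], hl => simp at hl
  | [_], hl => simp at hl
  | a :: b :: w, _ =>
    obtain ⟨t1, t2⟩ := third_ne i j
    have ha : adm i (third i j) [a] := adm_of_ne t1.symm (by simp)
    have hb : adm (third i j) j (b :: w) := adm_of_ne t2 (by simp)
    have e : ⁅yy g [a] i (third i j), yy g (b :: w) (third i j) j⁆ = yy g (a :: b :: w) i j :=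
      yy_bra h2 h3 ha hb hu.1
    have hc : Commute (yy g [a] i (third i j)) (yy g (a :: b :: w) i j) :=
      yy_comm h2 h3 ha hu t1 hu.1
    have hx := hs _ _ _ ha (by simp)
    have h5 : ∀ x z : G, ⁅x * x, z⁆ = x * ⁅x, z⁆ * x⁻¹ * ⁅x, z⁆ := by
      intro x z; simp only [commutatorElement_def]; group
    have h6 := h5 (yy g [a] i (third i j)) (yy g (b :: w) (third i j) j)
    rw [hx, e, conj_of_commute hc] at h6
    rw [← h6]; simp

theorem yy_ctx (h2 : S2 g 1) (h3 : S3 g 1) {s t : List X} (hs : s ≠ []) (ht : t ≠ [])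
    (h : ∀ i j : Fin 5, i ≠ j → yy g s i j = yy g t i j) (u v : List X) {i j : Fin 5}
    (hij : i ≠ j) : yy g (u ++ s ++ v) i j = yy g (u ++ t ++ v) i j := by
  have h1 : ∀ i j : Fin 5, i ≠ j → yy g (u ++ s) i j = yy g (u ++ t) i j := by
    intro i j hij
    by_cases hu : u = []
    · subst hu; exact h i j hij
    obtain ⟨t1, t2⟩ := third_ne i j
    rw [← yy_bra h2 h3 (adm_of_ne t1.symm hu) (adm_of_ne t2 hs) hij,
      ← yy_bra h2 h3 (adm_of_ne t1.symm hu) (adm_of_ne t2 ht) hij, h _ _ t2]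
  by_cases hv : v = []
  · subst hv; simpa using h1 i j hij
  obtain ⟨t1, t2⟩ := third_ne i j
  rw [← yy_bra h2 h3 (adm_of_ne t1.symm (by simp [hs])) (adm_of_ne t2 hv) hij,
    ← yy_bra h2 h3 (adm_of_ne t1.symm (by simp [ht])) (adm_of_ne t2 hv) hij, h1 _ _ t1.symm]

theorem yy_ctx_one (h2 : S2 g 1) (h3 : S3 g 1) {s : List X} (hs : s ≠ [])
    (h : ∀ i j : Fin 5, i ≠ j → yy g s i j = 1) (u v : List X) {i j : Fin 5}
    (hij : i ≠ j) : yy g (u ++ s ++ v) i j = 1 := by
  have h1 : ∀ i j : Fin 5, i ≠ j → yy g (u ++ s) i j = 1 := by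
    intro i j hij
    by_cases hu : u = []
    · subst hu; exact h i j hij
    obtain ⟨t1, t2⟩ := third_ne i j
    rw [← yy_bra h2 h3 (adm_of_ne t1.symm hu) (adm_of_ne t2 hs) hij, h _ _ t2]
    simp
  by_cases hv : v = []
  · subst hv; simpa using h1 i j hij
  obtain ⟨t1, t2⟩ := third_ne i j
  rw [← yy_bra h2 h3 (adm_of_ne t1.symm (by simp [hs])) (adm_of_ne t2 hv) hij, h1 _ _ t1.symm]
  simp

end Vale.Agent.P192.FP
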