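import Vale.Agent.P192.StBasic
import Vale.Agent.P192.StFPAux

/-!
P192, group side, part B4: finite presentation.
-/

namespace Vale.Agent.P192

open scoped commutatorElement

variable {X A : Type} [Ring A] (P : Pres X A)

namespace FP

theorem adm_w {i j : Fin 5} {u : List X} (h : adm i j u) : Adm P.K i j (P.w u) :=
  ⟨h.1, h.2.imp id (P.w_mem u)⟩

include P in
theorem neg_self (a : A) : -a = a := by
  have := P.K.two a
  exact neg_eq_of_add_eq_zero_right this

/-- Induction over admissible coefficients. -/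
theorem adm_induction {i j : Fin 5} {C : A → Prop} (h0 : C 0)
    (hw : ∀ u, adm i j u → C (P.w u))
    (hadd : ∀ a b, Adm P.K i j a → Adm P.K i j b → C a → C b → C (a + b))
    {a : A} (ha : Adm P.K i j a) : C a := by
  have hz : Adm P.K i j (0 : A) := ⟨ha.1, Or.inr P.K.J.zero_mem⟩
  have key : ∀ S : Set A, (∀ s ∈ S, ∃ u, adm i j u ∧ s = P.w u) →
      ∀ b ∈ AddSubgroup.closure S, Adm P.K i j b ∧ C b := by
    intro S hS b hb
    induction hb using AddSubgroup.closure_induction with
    | mem s hs =>
        obtain ⟨u, hu, rfl⟩ := hS s hs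
        exact ⟨adm_w P hu, hw u hu⟩
    | zero => exact ⟨hz, h0⟩
    | add b c _ _ hb hc => exact ⟨hb.1.add P.K hc.1, hadd _ _ hb.1 hc.1 hb.2 hc.2⟩
    | neg b _ hb => rwa [neg_self P]
  rcases ha.2 with h | h
  · refine (key _ ?_ a (P.span_top a)).2
    rintro _ ⟨u, rfl⟩
    exact ⟨u, ⟨ha.1, Or.inl h⟩, rfl⟩
  · refine (key _ ?_ a (P.span_J a h)).2
    rintro _ ⟨u, hu, rfl⟩
    exact ⟨u, ⟨ha.1, Or.inr hu⟩, rfl⟩

section fam
variable {G : Type} [Group G] (g : Fin 5 → Fin 5 → Option X → G)

/-- The finitely many relations. -/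
structure Base : Prop where
  s2 : S2 g 1
  s3 : S3 g 1
  sq : ∀ (i j : Fin 5) (u : List X), adm i j u → u.length ≤ 1 → yy g u i j * yy g u i j = 1
  step : ∀ a b a' b', P.Step a b a' b' → ∀ i j : Fin 5, i ≠ j → yy g [a, b] i j = yy g [a', b'] i j
  forb : ∀ a b, P.Forb a b → ∀ i j : Fin 5, i ≠ j → yy g [a, b] i j = 1

/-- The root subgroup. -/
def rootGrp (i j : Fin 5) : Subgroup G := Subgroup.closure {z | ∃ u, adm i j u ∧ z = yy g u i j}

variable {P g}

theorem rootGrp_comm (B : Base P g) {i j k l : Fin 5} (hjk : j ≠ k) (hil : i ≠ l) {s t : G}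
    (hs : s ∈ rootGrp g i j) (ht : t ∈ rootGrp g k l) : Commute s t := by
  induction hs using Subgroup.closure_induction with
  | mem s hs =>
      obtain ⟨u, hu, rfl⟩ := hs
      induction ht using Subgroup.closure_induction with
      | mem t ht =>
          obtain ⟨v, hv, rfl⟩ := ht
          exact yy_comm B.s2 B.s3 hu hv hjk hil
      | one => exact Commute.one_right _
      | mul a b _ _ ha hb => exact ha.mul_right hb
      | inv a _ ha => exact ha.inv_right
  | one => exact Commute.one_left _
  | mul a b _ _ ha hb => exact ha.mul_left hb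
  | inv a _ ha => exact ha.inv_left

theorem exists_root (B : Base P g) (i j : Fin 5) (hij : i ≠ j) :
    ∃ F : A → G, (∀ a, F a ∈ rootGrp g i j) ∧ (∀ a b, F (a + b) = F a * F b) ∧
      ∀ u, adm i j u → F (P.w u) = yy g u i j := by
  classical
  let _ : CommGroup (rootGrp g i j) :=
    { (inferInstance : Group (rootGrp g i j)) with
      mul_comm := fun s t => Subtype.ext (rootGrp_comm B hij.symm hij s.2 t.2).eq }
  let f : List X → Additive (rootGrp g i j) := fun u =>
    if h : adm i j u then
      Additive.ofMul ⟨yy g u i j, Subgroup.subset_closure ⟨u, h, rfl⟩⟩ else 0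
  have hf : ∀ u, adm i j u → ((f u).toMul : G) = yy g u i j := by
    intro u hu
    simp only [f, dif_pos hu]
    rfl
  have hinj : ∀ s t : Additive (rootGrp g i j), (s.toMul : G) = (t.toMul : G) → s = t :=
    fun s t h => Additive.toMul.injective (Subtype.ext h)
  obtain ⟨F, hF⟩ := P.lift (Additive (rootGrp g i j)) f
    (by
      intro u
      by_cases hu : adm i j u
      · refine hinj _ _ ?_
        change ((f u).toMul : G) * ((f u).toMul : G) = 1
        rw [hf u hu]
        exact yy_sq B.s2 B.s3 B.sq hu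
      · simp only [f, dif_neg hu, add_zero])
    (by
      intro u v a b a' b' h
      refine hinj _ _ ?_
      rw [hf _ (adm_of_ne hij (by simp)), hf _ (adm_of_ne hij (by simp))]
      simpa using yy_ctx B.s2 B.s3 (s := [a, b]) (t := [a', b']) (by simp) (by simp)
        (B.step a b a' b' h) u v hij)
    (by
      intro u v a b h
      refine hinj _ _ ?_
      rw [hf _ (adm_of_ne hij (by simp))]
      simpa using yy_ctx_one B.s2 B.s3 (s := [a, b]) (by simp) (B.forb a b h) u v hij)
  refine ⟨fun a => ((F a).toMul : G), fun a => (F a).toMul.2, ?_, ?_⟩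
  · intro a b
    simp only [map_add]
    rfl
  · intro u hu
    simp only [hF]
    exact hf u hu

theorem exists_fam (B : Base P g) :
    ∃ Y : Fin 5 → Fin 5 → A → G, IsFam P.K Y ∧
      ∀ i j u, adm i j u → Y i j (P.w u) = yy g u i j := by
  classical
  have h : ∀ i j : Fin 5, ∃ F : A → G, i ≠ j → (∀ a, F a ∈ rootGrp g i j) ∧
      (∀ a b, F (a + b) = F a * F b) ∧ ∀ u, adm i j u → F (P.w u) = yy g u i j := by
    intro i j
    by_cases hij : i = j
    · exact ⟨fun _ => 1, fun h => absurd hij h⟩
    · obtain ⟨F, hF⟩ := exists_root B i j hij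
      exact ⟨F, fun _ => hF⟩
  choose F hF using h
  have hz : ∀ i j : Fin 5, i ≠ j → F i j 0 = 1 := by
    intro i j hij
    have := (hF i j hij).2.1 0 0
    rw [add_zero] at this
    exact (mul_eq_left.mp this.symm)
  refine ⟨fun i j a => if Adm P.K i j a then F i j a else 1, ⟨?_, ?_, ?_, ?_⟩, ?_⟩
  · intro i j a h
    simp only [if_neg h]
  · intro i j a b ha hb
    simp only [if_pos ha, if_pos hb, if_pos (ha.add P.K hb)]
    exact (hF i j ha.1).2.1 a b
  · intro i j k l a b ha hb h1 h2
    simp only [if_pos ha, if_pos hb]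
    exact rootGrp_comm B h1 h2 ((hF i j ha.1).1 a) ((hF k l hb.1).1 b)
  · intro i j l a b ha hb hil
    simp only [if_pos ha, if_pos hb, if_pos (ha.mul P.K hb hil)]
    refine adm_induction P (C := fun a => ⁅F i j a, F j l b⁆ = F i l (a * b)) ?_ ?_ ?_ ha
    · simp [hz i j ha.1, hz i l hil]
    · intro u hu
      refine adm_induction P
        (C := fun b => ⁅F i j (P.w u), F j l b⁆ = F i l (P.w u * b)) ?_ ?_ ?_ hb
      · simp [hz j l hb.1, hz i l hil]
      · intro v hv
        rw [← P.w_append, (hF i j ha.1).2.2 u hu, (hF j l hb.1).2.2 v hv,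
          (hF i l hil).2.2 _ (hu.append hv hil)]
        exact yy_bra B.s2 B.s3 hu hv hil
      · intro c d _ _ hc hd
        have e : ∀ x z z' : G, ⁅x, z * z'⁆ = ⁅x, z⁆ * (z * ⁅x, z'⁆ * z⁻¹) := by
          intro x z z'; simp only [commutatorElement_def]; group
        rw [(hF j l hb.1).2.1, e, hc, hd, mul_add, (hF i l hil).2.1, conj_of_commute]
        exact rootGrp_comm B hil.symm hb.1 ((hF j l hb.1).1 _) ((hF i l hil).1 _)
    · intro c d _ _ hc hd
      have e : ∀ x x' z : G, ⁅x * x', z⁆ = (x * ⁅x', z⁆ * x⁻¹) * ⁅x, z⁆ := by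
        intro x x' z; simp only [commutatorElement_def]; group
      rw [(hF i j ha.1).2.1, e, hc, hd, add_mul, add_comm, (hF i l hil).2.1, conj_of_commute]
      exact rootGrp_comm B ha.1.symm hil ((hF i j ha.1).1 _) ((hF i l hil).1 _)
  · intro i j u hu
    simp only [if_pos (adm_w P hu)]
    exact (hF i j hu.1).2.2 u hu

end fam

open Classical in
/-- Images of the free generators. -/
noncomputable def gSt (i j : Fin 5) (o : Option X) : St P.K (Fin 5) :=
  if adm i j o.toList then x P.K i j (P.w o.toList) else 1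

theorem yy_gSt : ∀ (u : List X) (i j : Fin 5), adm i j u → yy (gSt P) u i j = x P.K i j (P.w u)
  | [], i, j, h => by simp [yy, gSt, h]
  | [a], i, j, h => by simp [yy, gSt, h]
  | a :: b :: w, i, j, h => by
      obtain ⟨t1, t2⟩ := third_ne i j
      have ha : adm i (third i j) [a] := adm_of_ne t1.symm (by simp)
      have hb : adm (third i j) j (b :: w) := adm_of_ne t2 (by simp)
      have e1 : gSt P i (third i j) (some a) = x P.K i (third i j) (P.w [a]) := by
        simp [gSt, ha]
      rw [yy, e1, yy_gSt (b :: w) _ _ hb,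
        (isFam_x P.K).bra _ _ _ _ _ (adm_w P ha) (adm_w P hb) h.1, ← P.w_append]
      rfl

/-- The free generators. -/
def gFree (i j : Fin 5) (o : Option X) : FreeGroup (Fin 5 × Fin 5 × Option X) :=
  FreeGroup.of (i, j, o)

/-- The presentation map. -/
noncomputable def phi : FreeGroup (Fin 5 × Fin 5 × Option X) →* St P.K (Fin 5) :=
  FreeGroup.lift fun p => gSt P p.1 p.2.1 p.2.2

theorem phi_yy {u : List X} {i j : Fin 5} (h : adm i j u) :
    phi P (yy gFree u i j) = x P.K i j (P.w u) := by
  rw [map_yy, ← yy_gSt P u i j h]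
  simp [phi, gFree]

theorem x_zero' (i j : Fin 5) (h : i ≠ j) : x P.K i j (0 : A) = 1 := by
  have hz : Adm P.K i j (0 : A) := ⟨h, Or.inr P.K.J.zero_mem⟩
  have := (isFam_x P.K).add i j 0 0 hz hz
  rw [add_zero] at this
  exact mul_eq_left.mp this.symm

theorem phi_surjective : Function.Surjective (phi P) := by
  rw [← MonoidHom.range_eq_top, eq_top_iff, ← gen_true P.K, gen, Subgroup.closure_le]
  rintro _ ⟨i, j, a, -, ha, rfl⟩
  refine adm_induction P (C := fun a => x P.K i j a ∈ (phi P).range) ?_ ?_ ?_ ha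
  · rw [x_zero' P i j ha.1]; exact one_mem _
  · intro u hu
    exact ⟨_, phi_yy P hu⟩
  · intro c d hc hd h1 h2
    rw [(isFam_x P.K).add i j c d hc hd]
    exact mul_mem h1 h2

/-- Short root words in the free group. -/
def short : Set (FreeGroup (Fin 5 × Fin 5 × Option X)) :=
  insert 1 ((fun p : List X × Fin 5 × Fin 5 => yy gFree p.1 p.2.1 p.2.2) ''
    ({u : List X | u.length ≤ 2} ×ˢ Set.univ))

theorem short_finite [Finite X] : (short (X := X)).Finite :=
  (((List.finite_length_le X 2).prod Set.finite_univ).image _).insert _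

theorem yy_mem_short {u : List X} (h : u.length ≤ 2) (i j : Fin 5) :
    yy gFree u i j ∈ short (X := X) :=
  Or.inr ⟨(u, i, j), ⟨h, trivial⟩, rfl⟩

theorem one_mem_short : (1 : FreeGroup (Fin 5 × Fin 5 × Option X)) ∈ short (X := X) := Or.inl rfl

/-- The relators. -/
def rels : Set (FreeGroup (Fin 5 × Fin 5 × Option X)) :=
  {r | phi P r = 1 ∧ ∃ s ∈ short (X := X), ∃ t ∈ short (X := X), ∃ u ∈ short (X := X),
    ∃ v ∈ short (X := X), ∃ z ∈ short (X := X), r = ⁅s, t⁆ * u * v * z⁻¹}

theorem rels_finite [Finite X] : (rels P).Finite := by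
  have h := short_finite (X := X)
  refine ((h.prod (h.prod (h.prod (h.prod h)))).image
    (fun p => ⁅p.1, p.2.1⁆ * p.2.2.1 * p.2.2.2.1 * p.2.2.2.2⁻¹)).subset ?_
  rintro r ⟨-, s, hs, t, ht, u, hu, v, hv, z, hz, rfl⟩
  exact ⟨(s, t, u, v, z), ⟨hs, ht, hu, hv, hz⟩, rfl⟩

theorem rel_eq {s t u v z : FreeGroup (Fin 5 × Fin 5 × Option X)} (hs : s ∈ short)
    (ht : t ∈ short) (hu : u ∈ short) (hv : v ∈ short) (hz : z ∈ short)
    (h : ⁅phi P s, phi P t⁆ * phi P u * phi P v = phi P z) :
    ⁅PresentedGroup.mk (rels P) s, PresentedGroup.mk (rels P) t⁆ * PresentedGroup.mk (rels P) u *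
      PresentedGroup.mk (rels P) v = PresentedGroup.mk (rels P) z := by
  have hr : ⁅s, t⁆ * u * v * z⁻¹ ∈ rels P := by
    refine ⟨?_, s, hs, t, ht, u, hu, v, hv, z, hz, rfl⟩
    simp only [map_mul, map_inv, map_commutatorElement, h, mul_inv_cancel]
  have := PresentedGroup.one_of_mem hr
  simp only [map_mul, map_inv, map_commutatorElement] at this
  exact mul_inv_eq_one.mp this

theorem base_rels :
    Base P (fun i j o => PresentedGroup.mk (rels P) (gFree i j o)) := by
  have o := one_mem_short (X := X)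
  refine ⟨?_, ?_, ?_, ?_, ?_⟩
  · intro i j k l u v hu hv h1 h2 hjk hil
    rw [← map_yy, ← map_yy, ← commutatorElement_eq_one_iff_commute]
    have := rel_eq P (yy_mem_short (u := u) (by omega) i j) (yy_mem_short (u := v) (by omega) k l)
      o o o (by
        rw [phi_yy P hu, phi_yy P hv]
        simp only [map_one, mul_one, commutatorElement_eq_one_iff_commute]
        exact (isFam_x P.K).comm _ _ _ _ _ _ (adm_w P hu) (adm_w P hv) hjk hil)
    simpa using this
  · intro i j k u v hu hv h1 hik
    rw [← map_yy, ← map_yy, ← map_yy]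
    have := rel_eq P (yy_mem_short (u := u) (by omega) i j) (yy_mem_short (u := v) (by omega) j k)
      o o (yy_mem_short (u := u ++ v) (by simp; omega) i k) (by
        rw [phi_yy P hu, phi_yy P hv, phi_yy P (hu.append hv hik), P.w_append]
        simp only [map_one, mul_one]
        exact (isFam_x P.K).bra _ _ _ _ _ (adm_w P hu) (adm_w P hv) hik)
    simpa using this
  · intro i j u hu h1
    rw [← map_yy]
    have := rel_eq P o o (yy_mem_short (u := u) (by omega) i j)
      (yy_mem_short (u := u) (by omega) i j) o (by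
        rw [phi_yy P hu, mul_assoc, ← (isFam_x P.K).add _ _ _ _ (adm_w P hu) (adm_w P hu), P.K.two,
          x_zero' P i j hu.1]
        simp)
    simpa using this
  · intro a b a' b' h i j hij
    rw [← map_yy, ← map_yy]
    have := rel_eq P o o o (yy_mem_short (u := [a, b]) (by simp) i j)
      (yy_mem_short (u := [a', b']) (by simp) i j) (by
        rw [phi_yy P (adm_of_ne hij (by simp)), phi_yy P (adm_of_ne hij (by simp)),
          P.w_step _ _ _ _ h]
        simp)
    simpa using this
  · intro a b h i j hij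
    rw [← map_yy]
    have := rel_eq P o o o (yy_mem_short (u := [a, b]) (by simp) i j) o (by
        rw [phi_yy P (adm_of_ne hij (by simp)), P.w_forb _ _ h, x_zero' P i j hij]
        simp)
    simpa using this

theorem yy_toList {G : Type} [Group G] (g : Fin 5 → Fin 5 → Option X → G) (i j : Fin 5)
    (o : Option X) : yy g o.toList i j = g i j o := by
  cases o <;> rfl

theorem ker_phi : Subgroup.normalClosure (rels P) = (phi P).ker := by
  apply le_antisymm
  · exact Subgroup.normalClosure_le_normal fun r hr => hr.1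
  obtain ⟨Y, hY, hw⟩ := exists_fam (base_rels P)
  have key : hY.lift.comp (phi P) = PresentedGroup.mk (rels P) := by
    refine FreeGroup.ext_hom _ _ ?_
    rintro ⟨i, j, o⟩
    have e : FreeGroup.of (i, j, o) = yy gFree o.toList i j := (yy_toList gFree i j o).symm
    by_cases h : adm i j o.toList
    · rw [MonoidHom.comp_apply, e, phi_yy P h, hY.lift_x, hw _ _ _ h, map_yy]
    · have h1 : phi P (FreeGroup.of (i, j, o)) = 1 := by
        simp [phi, gSt, h]
      have o1 := one_mem_short (X := X)
      have := rel_eq P o1 o1 o1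
        (yy_mem_short (u := o.toList) (by cases o <;> simp) i j) o1 (by
          rw [← e, h1]; simp)
      rw [MonoidHom.comp_apply, h1, map_one, e]
      simpa using this.symm
  intro r hr
  have h2 : PresentedGroup.mk (rels P) r = 1 := by
    rw [← key, MonoidHom.comp_apply, (MonoidHom.mem_ker).mp hr, map_one]
  exact (QuotientGroup.eq_one_iff r).mp h2

end FP

theorem St_fp [Finite X] : Group.IsFinitelyPresented (St P.K (Fin 5)) :=
  Group.IsFinitelyPresented.of_surjective (FP.phi P) (FP.phi_surjective P)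
    ⟨FP.rels P, FP.rels_finite P, FP.ker_phi P⟩

end Vale.Agent.P192
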