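import Mathlib

/-!
P192, group side: the Iwahori type Steinberg group `St K ι` of a ring `A` of characteristic two
with a quasi-regular ideal `J`.  Generators `x i j a` (`i ≠ j`, and `a ∈ J` unless `i < j`).
-/

namespace Vale.Agent.P192

open scoped commutatorElement

/-- Coefficient data: a ring of characteristic two with a quasi-regular two-sided ideal `J`. -/
structure Coef (A : Type) [Ring A] where
  J : AddSubgroup A
  mul_left : ∀ a b : A, b ∈ J → a * b ∈ J
  mul_right : ∀ a b : A, a ∈ J → a * b ∈ J
  two : ∀ a : A, a + a = 0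
  unit : ∀ a ∈ J, IsUnit (1 + a)

variable {A : Type} [Ring A] (K : Coef A) {ι κ : Type} [LinearOrder ι] [LinearOrder κ]

/-- Admissible root data. -/
def Adm (i j : ι) (a : A) : Prop := i ≠ j ∧ (i < j ∨ a ∈ K.J)

/-- A family of group elements satisfying the Steinberg relations. -/
structure IsFam {G : Type} [Group G] (X : ι → ι → A → G) : Prop where
  nadm : ∀ i j a, ¬ Adm K i j a → X i j a = 1
  add : ∀ i j a b, Adm K i j a → Adm K i j b → X i j (a + b) = X i j a * X i j b
  comm : ∀ i j k l a b, Adm K i j a → Adm K k l b → j ≠ k → i ≠ l → Commute (X i j a) (X k l b)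
  bra : ∀ i j l a b, Adm K i j a → Adm K j l b → i ≠ l → ⁅X i j a, X j l b⁆ = X i l (a * b)

/-- The Steinberg relators. -/
inductive IsRel : FreeGroup (ι × ι × A) → Prop
  | nadm (i j : ι) (a : A) : ¬ Adm K i j a → IsRel (FreeGroup.of (i, j, a))
  | add (i j : ι) (a b : A) : Adm K i j a → Adm K i j b →
      IsRel (FreeGroup.of (i, j, a + b) * (FreeGroup.of (i, j, a) * FreeGroup.of (i, j, b))⁻¹)
  | comm (i j k l : ι) (a b : A) : Adm K i j a → Adm K k l b → j ≠ k → i ≠ l →
      IsRel ⁅FreeGroup.of (i, j, a), FreeGroup.of (k, l, b)⁆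
  | bra (i j l : ι) (a b : A) : Adm K i j a → Adm K j l b → i ≠ l →
      IsRel (⁅FreeGroup.of (i, j, a), FreeGroup.of (j, l, b)⁆ * (FreeGroup.of (i, l, a * b))⁻¹)

/-- The Iwahori type Steinberg group. -/
def St (ι : Type) [LinearOrder ι] : Type := PresentedGroup {r : FreeGroup (ι × ι × A) | IsRel K r}

instance : Group (St K ι) :=
  inferInstanceAs (Group (PresentedGroup {r : FreeGroup (ι × ι × A) | IsRel K r}))

/-- The generators. -/
def x (i j : ι) (a : A) : St K ι :=
  (PresentedGroup.of (i, j, a) : PresentedGroup {r : FreeGroup (ι × ι × A) | IsRel K r})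

theorem isFam_x : IsFam K (x K : ι → ι → A → St K ι) where
  nadm i j a h := PresentedGroup.one_of_mem (rels := {r | IsRel K r}) (IsRel.nadm i j a h)
  add i j a b ha hb :=
    PresentedGroup.mk_eq_mk_of_mul_inv_mem (rels := {r | IsRel K r}) (IsRel.add i j a b ha hb)
  comm i j k l a b ha hb h1 h2 := by
    rw [← commutatorElement_eq_one_iff_commute]
    exact PresentedGroup.one_of_mem (rels := {r | IsRel K r}) (IsRel.comm i j k l a b ha hb h1 h2)
  bra i j l a b ha hb h :=
    PresentedGroup.mk_eq_mk_of_mul_inv_mem (rels := {r | IsRel K r}) (IsRel.bra i j l a b ha hb h)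

variable {K}

theorem IsFam.rel {G : Type} [Group G] {X : ι → ι → A → G} (h : IsFam K X) :
    ∀ r ∈ {r : FreeGroup (ι × ι × A) | IsRel K r},
      FreeGroup.lift (fun p : ι × ι × A => X p.1 p.2.1 p.2.2) r = 1 := by
  intro r hr
  cases hr with
  | nadm i j a hn => simpa using h.nadm i j a hn
  | add i j a b ha hb => simp [h.add i j a b ha hb]
  | comm i j k l a b ha hb h1 h2 =>
      simpa [map_commutatorElement, commutatorElement_eq_one_iff_commute]
        using h.comm i j k l a b ha hb h1 h2
  | bra i j l a b ha hb h1 => simp [map_commutatorElement, h.bra i j l a b ha hb h1]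

/-- Universal property. -/
def IsFam.lift {G : Type} [Group G] {X : ι → ι → A → G} (h : IsFam K X) : St K ι →* G :=
  PresentedGroup.toGroup h.rel

@[simp] theorem IsFam.lift_x {G : Type} [Group G] {X : ι → ι → A → G} (h : IsFam K X)
    (i j : ι) (a : A) : h.lift (x K i j a) = X i j a :=
  PresentedGroup.toGroup.of h.rel

theorem x_nadm {i j : ι} {a : A} (h : ¬ Adm K i j a) : x K i j a = 1 := (isFam_x K).nadm i j a h

theorem St.hom_ext {G : Type} [Group G] {f g : St K ι →* G}
    (h : ∀ i j a, Adm K i j a → f (x K i j a) = g (x K i j a)) : f = g := by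
  refine PresentedGroup.ext (rels := {r : FreeGroup (ι × ι × A) | IsRel K r}) ?_
  rintro ⟨i, j, a⟩
  by_cases ha : Adm K i j a
  · exact h i j a ha
  · change f (x K i j a) = g (x K i j a)
    rw [x_nadm ha, map_one, map_one]

variable (K)

/-- The subgroup generated by the admissible `x i j a` with `P i j`. -/
def gen (P : ι → ι → Prop) : Subgroup (St K ι) :=
  Subgroup.closure {g | ∃ i j a, P i j ∧ Adm K i j a ∧ g = x K i j a}

theorem gen_true : gen K (fun _ _ : ι => True) = ⊤ := by
  rw [eq_top_iff]
  intro g _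
  refine PresentedGroup.generated_by {r : FreeGroup (ι × ι × A) | IsRel K r} _ ?_ g
  rintro ⟨i, j, a⟩
  by_cases ha : Adm K i j a
  · exact Subgroup.subset_closure ⟨i, j, a, trivial, ha, rfl⟩
  · change x K i j a ∈ _
    rw [x_nadm ha]; exact one_mem _

theorem adm_map (f : ι ↪o κ) (i j : ι) (a : A) : Adm K (f i) (f j) a ↔ Adm K i j a := by
  simp [Adm]

theorem isFam_map (f : ι ↪o κ) : IsFam K (fun i j a => x K (f i) (f j) a) where
  nadm i j a h := x_nadm (by rwa [adm_map])
  add i j a b ha hb := (isFam_x K).add _ _ _ _ (by rwa [adm_map]) (by rwa [adm_map])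
  comm i j k l a b ha hb h1 h2 := (isFam_x K).comm _ _ _ _ _ _ (by rwa [adm_map])
    (by rwa [adm_map]) (f.injective.ne h1) (f.injective.ne h2)
  bra i j l a b ha hb h := (isFam_x K).bra _ _ _ _ _ (by rwa [adm_map]) (by rwa [adm_map])
    (f.injective.ne h)

/-- Functoriality in the ordered index set. -/
def smap (f : ι ↪o κ) : St K ι →* St K κ := (isFam_map K f).lift

@[simp] theorem smap_x (f : ι ↪o κ) (i j : ι) (a : A) :
    smap K f (x K i j a) = x K (f i) (f j) a := IsFam.lift_x _ i j a

theorem commute_row (i : ι) (j k : ι) (a b : A) : Commute (x K i j a) (x K i k b) := by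
  by_cases ha : Adm K i j a
  · by_cases hb : Adm K i k b
    · exact (isFam_x K).comm _ _ _ _ _ _ ha hb ha.1.symm hb.1
    · rw [x_nadm hb]; exact Commute.one_right _
  · rw [x_nadm ha]; exact Commute.one_left _

theorem commute_col (j : ι) (i k : ι) (a b : A) : Commute (x K i j a) (x K k j b) := by
  by_cases ha : Adm K i j a
  · by_cases hb : Adm K k j b
    · exact (isFam_x K).comm _ _ _ _ _ _ ha hb hb.1.symm ha.1
    · rw [x_nadm hb]; exact Commute.one_right _
  · rw [x_nadm ha]; exact Commute.one_left _

section fin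
variable [Fintype ι]

/-- The row element `∏ m, x i m (r m)`. -/
def row (i : ι) (r : ι → A) : St K ι :=
  Finset.univ.noncommProd (fun m => x K i m (r m)) (fun m _ k _ _ => commute_row K i m k _ _)

/-- The column element `∏ m, x m j (c m)`. -/
def col (j : ι) (c : ι → A) : St K ι :=
  Finset.univ.noncommProd (fun m => x K m j (c m)) (fun m _ k _ _ => commute_col K j m k _ _)

/-- Admissible row vectors. -/
def RowAdm (i : ι) (r : ι → A) : Prop := r i = 0 ∧ ∀ m, m ≠ i → Adm K i m (r m)

/-- Admissible column vectors. -/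
def ColAdm (j : ι) (c : ι → A) : Prop := c j = 0 ∧ ∀ m, m ≠ j → Adm K m j (c m)

include K in
theorem elem_mul_self {i j : ι} (h : i ≠ j) (a : A) :
    (1 + Matrix.single i j a) * (1 + Matrix.single i j a) = (1 : Matrix ι ι A) := by
  have h0 : Matrix.single i j a * Matrix.single i j a = (0 : Matrix ι ι A) :=
    Matrix.single_mul_single_of_ne _ _ _ _ h.symm _
  have h1 : Matrix.single i j a + Matrix.single i j a = (0 : Matrix ι ι A) := by
    rw [← Matrix.single_add, K.two, Matrix.single_zero]
  rw [add_mul, mul_add, mul_add, h0]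
  simp only [mul_one, one_mul, add_zero]
  rw [add_assoc, h1, add_zero]

open Classical in
/-- Elementary matrices as units. -/
noncomputable def elem (i j : ι) (a : A) : (Matrix ι ι A)ˣ :=
  if h : Adm K i j a then
    ⟨1 + Matrix.single i j a, 1 + Matrix.single i j a, elem_mul_self K h.1 a, elem_mul_self K h.1 a⟩
  else 1

theorem elem_val {i j : ι} {a : A} (h : Adm K i j a) :
    (elem K i j a : Matrix ι ι A) = 1 + Matrix.single i j a := by
  simp [elem, h]

theorem elem_inv_val {i j : ι} {a : A} (h : Adm K i j a) :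
    ((elem K i j a)⁻¹ : (Matrix ι ι A)ˣ).val = 1 + Matrix.single i j a := by
  simp [elem, h]

omit [Fintype ι] in
theorem Adm.add {i j : ι} {a b : A} (ha : Adm K i j a) (hb : Adm K i j b) : Adm K i j (a + b) :=
  ⟨ha.1, ha.2.elim Or.inl fun h => hb.2.elim Or.inl fun h' => Or.inr (K.J.add_mem h h')⟩

omit [Fintype ι] in
theorem Adm.mul {i j l : ι} {a b : A} (ha : Adm K i j a) (hb : Adm K j l b) (h : i ≠ l) :
    Adm K i l (a * b) :=
  ⟨h, ha.2.elim (fun h1 => hb.2.elim (fun h2 => Or.inl (h1.trans h2))
    fun h2 => Or.inr (K.mul_left _ _ h2)) fun h1 => Or.inr (K.mul_right _ _ h1)⟩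

theorem isFam_elem : IsFam K (elem K : ι → ι → A → (Matrix ι ι A)ˣ) where
  nadm i j a h := by simp [elem, h]
  add i j a b ha hb := by
    ext1
    have h0 : Matrix.single i j a * Matrix.single i j b = (0 : Matrix ι ι A) :=
      Matrix.single_mul_single_of_ne _ _ _ _ ha.1.symm _
    rw [Units.val_mul, elem_val K ha, elem_val K hb, elem_val K (ha.add K hb), Matrix.single_add,
      add_mul, mul_add, mul_add, h0]
    simp only [mul_one, one_mul, add_zero]
    abel
  comm i j k l a b ha hb h1 h2 := by
    unfold Commute SemiconjBy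
    ext1
    have h0 : Matrix.single i j a * Matrix.single k l b = (0 : Matrix ι ι A) :=
      Matrix.single_mul_single_of_ne _ _ _ _ h1 _
    have h0' : Matrix.single k l b * Matrix.single i j a = (0 : Matrix ι ι A) :=
      Matrix.single_mul_single_of_ne _ _ _ _ h2.symm _
    simp only [Units.val_mul, elem_val K ha, elem_val K hb, add_mul, mul_add, h0, h0', mul_one,
      one_mul, add_zero]
    abel
  bra i j l a b ha hb h := by
    ext1
    have e1 : Matrix.single i j a * Matrix.single j l b = Matrix.single i l (a * b) :=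
      Matrix.single_mul_single_same _ _ _ _ _
    have e2 : Matrix.single j l b * Matrix.single i j a = (0 : Matrix ι ι A) :=
      Matrix.single_mul_single_of_ne _ _ _ _ h.symm _
    have e3 : Matrix.single i l (a * b) * Matrix.single i j a = (0 : Matrix ι ι A) :=
      Matrix.single_mul_single_of_ne _ _ _ _ h.symm _
    have e4 : Matrix.single i l (a * b) * Matrix.single j l b = (0 : Matrix ι ι A) :=
      Matrix.single_mul_single_of_ne _ _ _ _ hb.1.symm _
    have key : (1 + Matrix.single i j a) * (1 + Matrix.single j l b) =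
        (1 + Matrix.single i l (a * b)) * ((1 + Matrix.single j l b) * (1 + Matrix.single i j a)) := by
      simp only [add_mul, mul_add, mul_one, one_mul, e1, e2, e3, e4, add_zero]
      abel
    rw [commutatorElement_def, Units.val_mul, Units.val_mul, Units.val_mul, elem_val K ha,
      elem_val K hb, elem_inv_val K ha, elem_inv_val K hb, elem_val K (ha.mul K hb h), key,
      mul_assoc, mul_assoc, mul_assoc, ← mul_assoc (1 + Matrix.single i j a), elem_mul_self K ha.1,
      one_mul, elem_mul_self K hb.1, mul_one]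

/-- The matrix representation. -/
noncomputable def pi : St K ι →* Matrix ι ι A := (Units.coeHom _).comp (isFam_elem K).lift

theorem pi_x {i j : ι} {a : A} (h : Adm K i j a) : pi K (x K i j a) = 1 + Matrix.single i j a := by
  simp [pi, elem_val K h]

/-- `t` maps to the diagonal matrix `u` and acts on the generators like that matrix. -/
def IsDiag (t : St K ι) (u : ι → Aˣ) : Prop :=
  pi K t = Matrix.diagonal (fun i => (u i : A)) ∧
    ∀ i j a, Adm K i j a → t * x K i j a * t⁻¹ = x K i j (u i * a * ((u j)⁻¹ : Aˣ))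

end fin

/-- The index set has at least five elements. -/
def Five (ι : Type) [LinearOrder ι] : Prop := ∃ a b c d e : ι, a < b ∧ b < c ∧ c < d ∧ d < e

/-- A graded algebra over the field with two elements, presented by generators `X`, binomial
relations `Step` and monomial relations `Forb` of degree two, whose positive part is matrix nil. -/
structure Pres (X A : Type) [Ring A] where
  K : Coef A
  w : List X → A
  w_nil : w [] = 1
  w_append : ∀ u v, w (u ++ v) = w u * w v
  w_mem : ∀ u, u ≠ [] → w u ∈ K.J
  span_top : ∀ a, a ∈ AddSubgroup.closure (Set.range w)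
  span_J : ∀ a ∈ K.J, a ∈ AddSubgroup.closure (w '' {u | u ≠ []})
  Step : X → X → X → X → Prop
  Forb : X → X → Prop
  w_step : ∀ a b a' b', Step a b a' b' → w [a, b] = w [a', b']
  w_forb : ∀ a b, Forb a b → w [a, b] = 0
  lift : ∀ (M : Type) [AddCommGroup M] (f : List X → M), (∀ u, f u + f u = 0) →
    (∀ u v a b a' b', Step a b a' b' → f (u ++ a :: b :: v) = f (u ++ a' :: b' :: v)) →
    (∀ u v a b, Forb a b → f (u ++ a :: b :: v) = 0) → ∃ F : A →+ M, ∀ u, F (w u) = f u
  nil : ∀ (n : ℕ) (P : Matrix (Fin n) (Fin n) A), (∀ i j, P i j ∈ K.J) → IsNilpotent P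
  inf : Infinite A

end Vale.Agent.P192
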