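import Vale.Agent.P192.Sys
import Vale.Agent.P192.StDefs

/-!
P192, part A1: the algebra of a rewriting system with the vanishing property.
-/

namespace Vale.Agent.P192

namespace SysAlg

open Polynomial

variable {X : Type}

/-! ### Weights -/

theorem map_wt {B B' : Type} [Ring B] [Ring B'] (e : B →+* B') (M : X → B) (I : X → X → B) :
    ∀ w : List X, e (wt M I w) = wt (fun a => e (M a)) (fun a b => e (I a b)) w
  | [] => by simp [wt]
  | [a] => by simp [wt]
  | a :: b :: w => by
    simp only [wt, map_add, map_mul]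
    rw [map_wt e M I (b :: w), map_wt e M I w]

theorem wt_zero {B : Type} [Ring B] (M : X → B) :
    ∀ w : List X, wt M (fun _ _ => 0) w = (w.map M).prod
  | [] => by simp [wt]
  | [a] => by simp [wt]
  | a :: b :: w => by
    simp only [wt, zero_mul, add_zero]
    rw [wt_zero M (b :: w)]
    simp

theorem van_of_equiv [Finite X] {S : Sys X} {B B' : Type} [Ring B] [Ring B'] (e : B ≃+* B')
    (h : S.Van B) : S.Van B' := by
  obtain ⟨N, hN⟩ := h
  refine ⟨N, fun M I w hw hl => ?_⟩
  have h1 := congrArg e.toRingHom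
    (hN (fun a => e.symm (M a)) (fun a b => e.symm (I a b)) w hw hl)
  rw [map_sum, map_zero] at h1
  rw [← h1]
  refine Finset.sum_congr rfl fun w' _ => ?_
  rw [map_wt]
  simp

/-! ### Powers of a linear element -/

/-- The words of length `N`. -/
noncomputable def words (X : Type) [Finite X] (N : ℕ) : Finset (List X) :=
  (List.finite_length_eq X N).toFinset

theorem mem_words [Finite X] {N : ℕ} {u : List X} : u ∈ words X N ↔ u.length = N := by
  simp [words]

theorem sum_pow_eq [Fintype X] {T : Type} [Ring T] (g : X → T) (N : ℕ) :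
    (∑ x, g x) ^ N = ∑ u ∈ words X N, (u.map g).prod := by
  classical
  induction N with
  | zero =>
    have : words X 0 = {[]} := by
      ext u
      simp [mem_words]
    simp [this]
  | succ N ih =>
    have : words X (N + 1) =
        (Finset.univ ×ˢ words X N).image fun p : X × List X => p.1 :: p.2 := by
      ext u
      simp only [mem_words, Finset.mem_image, Finset.mem_product, Finset.mem_univ, true_and,
        Prod.exists]
      constructor
      · intro h
        cases u with
        | nil => simp at h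
        | cons a t => exact ⟨a, t, by simpa using h, rfl⟩
      · rintro ⟨a, t, ht, rfl⟩
        simp [ht]
    rw [this, Finset.sum_image, pow_succ', ih, Finset.sum_mul_sum, Finset.sum_product]
    · simp
    · rintro ⟨a, t⟩ - ⟨b, s⟩ - h
      simp only [List.cons.injEq] at h
      exact Prod.ext h.1 h.2

/-- A multiplicative system of words compatible with the rules. -/
structure Rep (S : Sys X) {T : Type} [Ring T] (c : List X → T) : Prop where
  nil : c [] = 1
  append : ∀ u v, c (u ++ v) = c u * c v
  one : ∀ u v, S.One u v → c u = c v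
  forb : ∀ u, S.HasForb u → c u = 0

theorem Rep.eqv {S : Sys X} {T : Type} [Ring T] {c : List X → T} (h : Rep S c) {u v : List X}
    (e : S.Eqv u v) : c u = c v := by
  induction e with
  | rel _ _ e => exact h.one _ _ e
  | refl => rfl
  | symm _ _ _ ih => exact ih.symm
  | trans _ _ _ _ _ ih1 ih2 => exact ih1.trans ih2

theorem Rep.dead {S : Sys X} {T : Type} [Ring T] {c : List X → T} (h : Rep S c) {u : List X}
    (hu : ¬ S.Alive u) : c u = 0 := by
  unfold Sys.Alive at hu
  push Not at hu
  obtain ⟨v, e, hv⟩ := hu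
  rw [h.eqv e, h.forb v hv]

theorem Rep.cons {S : Sys X} {T : Type} [Ring T] {c : List X → T} (h : Rep S c) (a : X)
    (u : List X) : c (a :: u) = c [a] * c u := h.append [a] u

theorem Rep.map {S : Sys X} {T T' : Type} [Ring T] [Ring T'] {c : List X → T} (h : Rep S c)
    (f : T →+* T') : Rep S fun u => f (c u) where
  nil := by rw [h.nil, map_one]
  append u v := by rw [h.append, map_mul]
  one u v e := by rw [h.one u v e]
  forb u e := by rw [h.forb u e, map_zero]

theorem linear_nil [Fintype X] {S : Sys X} {B T : Type} [Ring B] [Ring T] (hv : S.Van B)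
    (Φ : B →+* T) {c : List X → T} (hc : Rep S c) (hcomm : ∀ b u, Commute (Φ b) (c u))
    (M : X → B) : IsNilpotent (∑ x, Φ (M x) * c [x]) := by
  obtain ⟨N, hN⟩ := hv
  refine ⟨N, ?_⟩
  rw [sum_pow_eq]
  have hprod : ∀ u : List X, (u.map fun x => Φ (M x) * c [x]).prod = Φ (u.map M).prod * c u := by
    intro u
    induction u with
    | nil => simp [hc.nil]
    | cons a t ih =>
      rw [List.map_cons, List.prod_cons, ih, List.map_cons, List.prod_cons, map_mul, hc.cons a t,
        mul_assoc, mul_assoc, ← mul_assoc (c [a]), ← (hcomm _ [a]).eq, mul_assoc]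
  simp only [hprod]
  refine sum_eq_zero_of_blocks _ _ S.cls (fun w _ => Sys.mem_cls.mpr (Sys.Eqv.refl w))
    (fun w hw w' hw' => ?_) (fun w _ w' hw' => ?_) (fun w hw => ?_)
  · rw [mem_words] at hw ⊢
    rw [← hw, (Sys.mem_cls.mp hw').length_eq]
  · have e := Sys.mem_cls.mp hw'
    ext z
    simp only [Sys.mem_cls]
    exact ⟨e.trans, e.symm.trans⟩
  · have h1 : ∑ w' ∈ S.cls w, Φ (w'.map M).prod * c w' =
        Φ (∑ w' ∈ S.cls w, wt M (fun _ _ => 0) w') * c w := by
      rw [map_sum, Finset.sum_mul]
      refine Finset.sum_congr rfl fun w' hw' => ?_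
      rw [wt_zero, hc.eqv (Sys.mem_cls.mp hw')]
    rw [h1]
    by_cases ha : S.Alive w
    · rw [hN M _ w ha (mem_words.mp hw).ge, map_zero, zero_mul]
    · rw [hc.dead ha, mul_zero]

/-! ### Linearisation -/

/-- The states: words of length at most `e`. -/
abbrev Sta (X : Type) (e : ℕ) : Type := {s : List X // s.length ≤ e}

instance [Finite X] (e : ℕ) : Finite (Sta X e) := (List.finite_length_le X e).to_subtype

theorem exists_right_inv [Fintype X] [DecidableEq X] {S : Sys X} {R₀ R : Type} [Ring R₀] [Ring R]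
    (ψ : R₀ →+* R) {c : List X → R} (hc : Rep S c) (hcomm : ∀ r u, Commute (ψ r) (c u)) (e : ℕ)
    [Fintype (Sta X e)] (hv : S.Van (Matrix (Sta X e) (Sta X e) R₀)) (p : List X → R₀) :
    ∃ G : R, G = 1 + (∑ s : Sta X e, ∑ x, ψ (p (x :: s.1)) * c (x :: s.1)) * G := by
  let M : X → Matrix (Sta X e) (Sta X e) R₀ := fun x => Matrix.of fun s s' =>
    if s.1 = [] then p (x :: s'.1) else if s.1 = x :: s'.1 then 1 else 0
  have hcomm' : ∀ (b : Matrix (Sta X e) (Sta X e) R₀) u,
      Commute (ψ.mapMatrix b) (Matrix.scalar (Sta X e) (c u)) := by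
    intro b u
    unfold Commute SemiconjBy
    ext i j
    simp [Matrix.scalar_apply, Matrix.mul_diagonal, Matrix.diagonal_mul, (hcomm _ _).eq]
  obtain ⟨N, hN⟩ := linear_nil hv ψ.mapMatrix (hc.map (Matrix.scalar (Sta X e))) hcomm' M
  set E := ∑ x, ψ.mapMatrix (M x) * Matrix.scalar (Sta X e) (c [x]) with hE
  have hEe : ∀ s s', E s s' = ∑ x, ψ (M x s s') * c [x] := by
    intro s s'
    simp [hE, Matrix.sum_apply, Matrix.scalar_apply, Matrix.mul_diagonal]
  have hZ : ∃ Z : Matrix (Sta X e) (Sta X e) R, Z = 1 + E * Z := by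
    refine ⟨∑ j ∈ Finset.range N, E ^ j, ?_⟩
    have := mul_geom_sum E N
    rw [hN, sub_mul, one_mul, sub_eq_iff_eq_add] at this
    rw [this]
    abel
  obtain ⟨Z, hZ⟩ := hZ
  let s₀ : Sta X e := ⟨[], Nat.zero_le _⟩
  have hz : ∀ s, Z s s₀ = (if s = s₀ then 1 else 0) + ∑ s', E s s' * Z s' s₀ := by
    intro s
    have := congrFun (congrFun hZ s) s₀
    rw [Matrix.add_apply, Matrix.mul_apply, Matrix.one_apply] at this
    exact this
  have hs : ∀ (t : List X) (h : t.length ≤ e), Z ⟨t, h⟩ s₀ = c t * Z s₀ s₀ := by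
    intro t
    induction t with
    | nil => intro h; rw [hc.nil, one_mul]
    | cons a t ih =>
      intro h
      have h' : t.length ≤ e := by simp at h; omega
      rw [hz, if_neg (by simp [s₀]), zero_add, Finset.sum_eq_single ⟨t, h'⟩, hEe,
        Finset.sum_eq_single a, ih h', hc.cons a t]
      · simp [M, mul_assoc]
      · intro b _ hb
        simp [M, hb.symm]
      · simp
      · intro s' _ hs'
        have : ¬ t = s'.1 := fun h2 => hs' (Subtype.ext h2.symm)
        simp [hEe, M, this]
      · simp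
  refine ⟨Z s₀ s₀, ?_⟩
  have h0 := hz s₀
  rw [if_pos rfl] at h0
  refine h0.trans ?_
  rw [Finset.sum_mul]
  refine congrArg _ (Finset.sum_congr rfl fun s _ => ?_)
  rw [hEe, hs s.1 s.2, ← mul_assoc, Finset.sum_mul]
  refine congrArg (· * Z s₀ s₀) (Finset.sum_congr rfl fun x _ => ?_)
  rw [hc.cons x s.1, mul_assoc]
  simp [M, s₀]

theorem nil_of_right_inv {T : Type} [Ring T] (P : T) (G : T[X])
    (h : G = 1 + (Polynomial.X * C P) * G) : IsNilpotent P := by
  have hk : ∀ k, G.coeff k = P ^ k := by
    intro k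
    induction k with
    | zero =>
      have := congrArg (fun q => q.coeff 0) h
      simpa [mul_assoc] using this
    | succ k ih =>
      have := congrArg (fun q => q.coeff (k + 1)) h
      simp only [mul_assoc, coeff_add, coeff_X_mul, coeff_C_mul, coeff_one, ih] at this
      rw [this, pow_succ']
      simp
  exact ⟨G.natDegree + 1, by rw [← hk]; exact coeff_eq_zero_of_natDegree_lt (Nat.lt_succ_self _)⟩

theorem sum_nil [Finite X] {S : Sys X} {T₀ T : Type} [Ring T₀] [Ring T] (θ : T₀ →+* T)
    {c : List X → T} (hc : Rep S c) (hcomm : ∀ r u, Commute (θ r) (c u))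
    (hv : ∀ (σ : Type) [Fintype σ] [DecidableEq σ], S.Van (Matrix σ σ T₀[X]))
    (p : List X →₀ T₀) (hp : p [] = 0) : IsNilpotent (p.sum fun v m => θ m * c v) := by
  classical
  have := Fintype.ofFinite X
  obtain ⟨e, he⟩ : ∃ e, ∀ v ∈ p.support, v.length ≤ e :=
    ⟨p.support.sup List.length, fun v hv => Finset.le_sup (f := List.length) hv⟩
  have := Fintype.ofFinite (Sta X e)
  have hcomm' : ∀ (r : T₀[X]) u, Commute (mapRingHom θ r) (C (c u)) := by
    intro r u
    unfold Commute SemiconjBy
    ext k
    simp [coeff_mul_C, coeff_C_mul, (hcomm _ _).eq]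
  obtain ⟨G, hG⟩ := exists_right_inv (mapRingHom θ) (hc.map C) hcomm' e (hv _)
    (fun v => Polynomial.X * C (p v))
  refine nil_of_right_inv _ G ?_
  have hsum : (p.sum fun v m => θ m * c v) =
      ∑ s : Sta X e, ∑ x, θ (p (x :: s.1)) * c (x :: s.1) := by
    rw [Finsupp.sum_of_support_subset p
      (s := Finset.univ.image fun q : Sta X e × X => q.2 :: q.1.1), Finset.sum_image,
      Fintype.sum_prod_type]
    · rintro ⟨s, a⟩ - ⟨t, b⟩ - h
      simp only [List.cons.injEq] at h
      exact Prod.ext (Subtype.ext h.2) h.1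
    · intro v hv'
      cases v with
      | nil => exact absurd hp (Finsupp.mem_support_iff.mp hv')
      | cons a t =>
        have := he _ hv'
        exact Finset.mem_image.mpr ⟨(⟨t, by simp at this; omega⟩, a), Finset.mem_univ _, rfl⟩
    · intro v _
      simp
  rw [hsum]
  refine hG.trans ?_
  simp only [map_sum, Finset.mul_sum, map_mul, coe_mapRingHom, map_X, map_C, mul_assoc]

/-! ### The algebra -/

/-- Functions on words that respect the relations. -/
def Valid (S : Sys X) {M : Type} [AddCommGroup M] (f : List X → M) : Prop :=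
  (∀ u, f u + f u = 0) ∧
    (∀ u v a b a' b', S.Step a b a' b' → f (u ++ a :: b :: v) = f (u ++ a' :: b' :: v)) ∧
    ∀ u v a b, S.Forb a b → f (u ++ a :: b :: v) = 0

theorem Valid.left {S : Sys X} {M : Type} [AddCommGroup M] {f : List X → M} (h : Valid S f)
    (p : List X) : Valid S fun u => f (p ++ u) :=
  ⟨fun _ => h.1 _, fun u v a b a' b' hs => by
    simpa using h.2.1 (p ++ u) v a b a' b' hs, fun u v a b hs => by
    simpa using h.2.2 (p ++ u) v a b hs⟩

theorem Valid.right {S : Sys X} {M : Type} [AddCommGroup M] {f : List X → M} (h : Valid S f)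
    (q : List X) : Valid S fun u => f (u ++ q) :=
  ⟨fun _ => h.1 _, fun u v a b a' b' hs => by
    simpa using h.2.1 u (v ++ q) a b a' b' hs, fun u v a b hs => by
    simpa using h.2.2 u (v ++ q) a b hs⟩

/-- The free ring. -/
abbrev FR (X : Type) : Type := FreeAbelianGroup (FreeMonoid X)

/-- A word in the free ring. -/
def mon (u : List X) : FR X := FreeAbelianGroup.of (FreeMonoid.ofList u)

/-- The additive extension of a function on words. -/
def ext {M : Type} [AddCommGroup M] (f : List X → M) : FR X →+ M :=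
  FreeAbelianGroup.lift fun u => f (FreeMonoid.toList u)

@[simp] theorem ext_mon {M : Type} [AddCommGroup M] (f : List X → M) (u : List X) :
    ext f (mon u) = f u := FreeAbelianGroup.lift_apply_of _ _

theorem mon_append (u v : List X) : mon (u ++ v) = mon u * mon v := by
  rw [mon, mon, mon, FreeAbelianGroup.of_mul_of, FreeMonoid.ofList_append]

theorem FR_induction {C : FR X → Prop} (z : FR X) (h0 : C 0) (h1 : ∀ u, C (mon u))
    (hn : ∀ y, C y → C (-y)) (ha : ∀ y y', C y → C y' → C (y + y')) : C z :=
  FreeAbelianGroup.induction_on z h0 (fun u => h1 (FreeMonoid.toList u)) (fun _ h => hn _ h) ha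

theorem ext_mon_mul {M : Type} [AddCommGroup M] (f : List X → M) (p : List X) (z : FR X) :
    ext f (mon p * z) = ext (fun u => f (p ++ u)) z := by
  induction z using FR_induction with
  | h0 => simp
  | h1 u => rw [← mon_append, ext_mon, ext_mon]
  | hn y h => rw [mul_neg, map_neg, map_neg, h]
  | ha y y' h h' => rw [mul_add, map_add, map_add, h, h']

theorem ext_mul_mon {M : Type} [AddCommGroup M] (f : List X → M) (q : List X) (z : FR X) :
    ext f (z * mon q) = ext (fun u => f (u ++ q)) z := by
  induction z using FR_induction with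
  | h0 => simp
  | h1 u => rw [← mon_append, ext_mon, ext_mon]
  | hn y h => rw [neg_mul, map_neg, map_neg, h]
  | ha y y' h h' => rw [add_mul, map_add, map_add, h, h']

/-- The relation ideal as a set. -/
def relSet (S : Sys X) : Set (FR X) :=
  {z | ∀ (M : Type) [AddCommGroup M] (f : List X → M), Valid S f → ext f z = 0}

theorem relSet_left (S : Sys X) (y : FR X) {z : FR X} (hz : z ∈ relSet S) : y * z ∈ relSet S := by
  intro M _ f hf
  induction y using FR_induction with
  | h0 => simp
  | h1 u => rw [ext_mon_mul]; exact hz M _ (hf.left u)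
  | hn y h => rw [neg_mul, map_neg, h, neg_zero]
  | ha y y' h h' => rw [add_mul, map_add, h, h', add_zero]

theorem relSet_right (S : Sys X) (y : FR X) {z : FR X} (hz : z ∈ relSet S) :
    z * y ∈ relSet S := by
  intro M _ f hf
  induction y using FR_induction with
  | h0 => simp
  | h1 u => rw [ext_mul_mon]; exact hz M _ (hf.right u)
  | hn y h => rw [mul_neg, map_neg, h, neg_zero]
  | ha y y' h h' => rw [mul_add, map_add, h, h', add_zero]

/-- The relation ideal. -/
def relId (S : Sys X) : TwoSidedIdeal (FR X) :=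
  TwoSidedIdeal.mk' (relSet S) (fun _ _ _ _ => map_zero _)
    (fun ha hb M _ f hf => by rw [map_add, ha M f hf, hb M f hf, add_zero])
    (fun ha M _ f hf => by rw [map_neg, ha M f hf, neg_zero])
    (fun hb => relSet_left S _ hb) (fun ha => relSet_right S _ ha)

/-- The algebra of the system. -/
abbrev Alg (S : Sys X) : Type := (relId S).ringCon.Quotient

/-- The quotient map. -/
def qt (S : Sys X) : FR X →+* Alg S := RingCon.mk' _

theorem qt_eq_iff (S : Sys X) (y z : FR X) : qt S y = qt S z ↔
    ∀ (M : Type) [AddCommGroup M] (f : List X → M), Valid S f → ext f y = ext f z := by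
  refine (RingCon.eq _).trans ?_
  rw [TwoSidedIdeal.rel_iff]
  refine (TwoSidedIdeal.mem_mk' (relSet S) _ _ _ _ _ _).trans ?_
  simp only [relSet, Set.mem_ofPred_eq, map_sub, sub_eq_zero]

theorem qt_surj (S : Sys X) : Function.Surjective (qt S) := Quotient.mk''_surjective

/-- Words in the algebra. -/
def wd (S : Sys X) (u : List X) : Alg S := qt S (mon u)

theorem rep_wd (S : Sys X) : Rep S (wd S) where
  nil := map_one (qt S)
  append u v := by rw [wd, mon_append, map_mul]; rfl
  one u v h := by
    obtain ⟨p, q, a, b, a', b', hs, rfl, rfl⟩ := h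
    refine (qt_eq_iff S _ _).mpr fun M _ f hf => ?_
    rw [ext_mon, ext_mon, hf.2.1 p q a b a' b' hs]
  forb u h := by
    obtain ⟨p, q, a, b, hs, rfl⟩ := h
    rw [← map_zero (qt S)]
    refine (qt_eq_iff S _ _).mpr fun M _ f hf => ?_
    rw [ext_mon, hf.2.2 p q a b hs, map_zero]

theorem alg_two (S : Sys X) (a : Alg S) : a + a = 0 := by
  have h : (1 : Alg S) + 1 = 0 := by
    rw [← (rep_wd S).nil, wd, ← map_add, ← map_zero (qt S)]
    refine (qt_eq_iff S _ _).mpr fun M _ f hf => ?_
    rw [map_add, ext_mon, hf.1, map_zero]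
  rw [← mul_one a, ← mul_add, h, mul_zero]

theorem alg_span (S : Sys X) (a : Alg S) : a ∈ AddSubgroup.closure (Set.range (wd S)) := by
  obtain ⟨z, rfl⟩ := qt_surj S a
  induction z using FR_induction with
  | h0 => rw [map_zero]; exact zero_mem _
  | h1 u => exact AddSubgroup.subset_closure ⟨u, rfl⟩
  | hn y h => rw [map_neg]; exact neg_mem h
  | ha y y' h h' => rw [map_add]; exact add_mem h h'

theorem alg_lift (S : Sys X) (M : Type) [AddCommGroup M] (f : List X → M) (hf : Valid S f) :
    ∃ F : Alg S →+ M, ∀ u, F (wd S u) = f u := by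
  have hs := qt_surj S
  have key : ∀ z, ext f (Function.surjInv hs (qt S z)) = ext f z := fun z =>
    (qt_eq_iff S _ _).mp (Function.surjInv_eq hs _) M f hf
  refine ⟨AddMonoidHom.mk' (fun a => ext f (Function.surjInv hs a)) fun a b => ?_, fun u => ?_⟩
  · obtain ⟨y, rfl⟩ := hs a
    obtain ⟨z, rfl⟩ := hs b
    rw [← map_add (qt S), key, key, key, map_add]
  · exact (key _).trans (ext_mon f u)

theorem eqv_of_wd_eq (S : Sys X) {u v : List X} (hu : S.Alive u) (h : wd S u = wd S v) :
    S.Eqv u v := by
  classical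
  have hf : Valid S fun z => if S.Eqv u z then (1 : ZMod 2) else 0 := by
    refine ⟨fun z => CharTwo.add_self_eq_zero _, fun p q a b a' b' hs => ?_,
      fun p q a b hs => ?_⟩
    · have e : S.Eqv (p ++ a :: b :: q) (p ++ a' :: b' :: q) := Sys.Sym.eqv (Or.inl hs) p q
      exact if_congr ⟨fun h => h.trans e, fun h => h.trans e.symm⟩ rfl rfl
    · exact if_neg fun e => hu _ e ⟨p, q, a, b, hs, rfl⟩
  obtain ⟨F, hF⟩ := alg_lift S _ _ hf
  have h1 := hF u
  rw [h, hF v, if_pos (Sys.Eqv.refl u)] at h1
  by_contra hne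
  rw [if_neg hne] at h1
  exact zero_ne_one h1

theorem alg_infinite (S : Sys X) (hal : ∀ N : ℕ, ∃ w, S.Alive w ∧ N ≤ w.length) :
    Infinite (Alg S) := by
  classical
  refine ⟨fun hfin => ?_⟩
  let len : Alg S → ℕ := fun a =>
    if h : ∃ u, S.Alive u ∧ wd S u = a then h.choose.length else 0
  obtain ⟨B, hB⟩ := (Set.finite_range len).bddAbove
  obtain ⟨u, hu, hl⟩ := hal (B + 1)
  have h : ∃ v, S.Alive v ∧ wd S v = wd S u := ⟨u, hu, rfl⟩
  have h1 : len (wd S u) = u.length := by
    simp only [len, dif_pos h]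
    exact (eqv_of_wd_eq S h.choose_spec.1 h.choose_spec.2).length_eq
  have h2 := hB ⟨wd S u, rfl⟩
  omega

/-- The augmentation ideal. -/
def aug (S : Sys X) : AddSubgroup (Alg S) := AddSubgroup.closure (wd S '' {u | u ≠ []})

theorem wd_mem_aug (S : Sys X) {u : List X} (hu : u ≠ []) : wd S u ∈ aug S :=
  AddSubgroup.subset_closure ⟨u, hu, rfl⟩

theorem aug_left (S : Sys X) (a b : Alg S) (hb : b ∈ aug S) : a * b ∈ aug S := by
  have ha := alg_span S a
  induction ha using AddSubgroup.closure_induction with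
  | mem a ha =>
    obtain ⟨u, rfl⟩ := ha
    induction hb using AddSubgroup.closure_induction with
    | mem b hb =>
      obtain ⟨v, hv, rfl⟩ := hb
      rw [← (rep_wd S).append]
      exact wd_mem_aug S (by simp [show v ≠ [] from hv])
    | zero => rw [mul_zero]; exact zero_mem _
    | add _ _ _ _ h h' => rw [mul_add]; exact add_mem h h'
    | neg _ _ h => rw [mul_neg]; exact neg_mem h
  | zero => rw [zero_mul]; exact zero_mem _
  | add _ _ _ _ h h' => rw [add_mul]; exact add_mem h h'
  | neg _ _ h => rw [neg_mul]; exact neg_mem h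

theorem aug_right (S : Sys X) (a b : Alg S) (ha : a ∈ aug S) : a * b ∈ aug S := by
  have hb := alg_span S b
  induction hb using AddSubgroup.closure_induction with
  | mem b hb =>
    obtain ⟨u, rfl⟩ := hb
    induction ha using AddSubgroup.closure_induction with
    | mem a ha =>
      obtain ⟨v, hv, rfl⟩ := ha
      rw [← (rep_wd S).append]
      exact wd_mem_aug S (by simp [show v ≠ [] from hv])
    | zero => rw [zero_mul]; exact zero_mem _
    | add _ _ _ _ h h' => rw [add_mul]; exact add_mem h h'
    | neg _ _ h => rw [neg_mul]; exact neg_mem h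
  | zero => rw [mul_zero]; exact zero_mem _
  | add _ _ _ _ h h' => rw [mul_add]; exact add_mem h h'
  | neg _ _ h => rw [mul_neg]; exact neg_mem h

theorem alg_nil [Finite X] (S : Sys X) (hal : ∀ N : ℕ, ∃ w, S.Alive w ∧ N ≤ w.length)
    (hv : ∀ (σ : Type) [Fintype σ] [DecidableEq σ], S.Van (Matrix σ σ (Polynomial (ZMod 2))))
    (n : ℕ) (P : Matrix (Fin n) (Fin n) (Alg S)) (hP : ∀ i j, P i j ∈ aug S) :
    IsNilpotent P := by
  classical
  have := alg_infinite S hal
  have : CharP (Alg S) 2 := CharTwo.of_one_ne_zero_of_two_eq_zero one_ne_zero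
    (by rw [← one_add_one_eq_two]; exact alg_two S 1)
  let θ : Matrix (Fin n) (Fin n) (ZMod 2) →+* Matrix (Fin n) (Fin n) (Alg S) :=
    (ZMod.castHom (dvd_refl 2) (Alg S)).mapMatrix
  have hcast : ∀ (r : ZMod 2) (a : Alg S),
      ZMod.castHom (dvd_refl 2) (Alg S) r * a = a * ZMod.castHom (dvd_refl 2) (Alg S) r := by
    intro r a
    have h01 : ∀ r : ZMod 2, r = 0 ∨ r = 1 := by decide
    rcases h01 r with rfl | rfl
    · rw [map_zero, zero_mul, mul_zero]
    · rw [map_one, one_mul, mul_one]
  have hcomm : ∀ r u, Commute (θ r) (Matrix.scalar (Fin n) (wd S u)) := by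
    intro r u
    unfold Commute SemiconjBy
    ext i j
    rw [Matrix.scalar_apply, Matrix.mul_diagonal, Matrix.diagonal_mul]
    exact hcast _ _
  have hv' : ∀ (σ : Type) [Fintype σ] [DecidableEq σ],
      S.Van (Matrix σ σ (Matrix (Fin n) (Fin n) (ZMod 2))[X]) := fun σ _ _ =>
    van_of_equiv ((Matrix.compRingEquiv σ (Fin n) (ZMod 2)[X]).symm.trans
      (matPolyEquiv (n := Fin n) (R := ZMod 2)).toRingEquiv.mapMatrix) (hv (σ × Fin n))
  let L : (List X →₀ Matrix (Fin n) (Fin n) (ZMod 2)) →+ Matrix (Fin n) (Fin n) (Alg S) :=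
    Finsupp.liftAddHom fun v =>
      (AddMonoidHom.mulRight (Matrix.scalar (Fin n) (wd S v))).comp θ.toAddMonoidHom
  let H : AddSubgroup (Matrix (Fin n) (Fin n) (Alg S)) :=
    (Finsupp.applyAddHom ([] : List X)).ker.map L
  have hsingle : ∀ i j a, a ∈ aug S → Matrix.single i j a ∈ H := by
    intro i j a ha
    induction ha using AddSubgroup.closure_induction with
    | mem a ha =>
      obtain ⟨v, hv, rfl⟩ := ha
      refine ⟨Finsupp.single v (Matrix.single i j 1), ?_, ?_⟩
      · exact Finsupp.single_eq_of_ne (Ne.symm hv)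
      · rw [Finsupp.liftAddHom_apply_single]
        ext k l
        change (θ (Matrix.single i j 1) * Matrix.scalar (Fin n) (wd S v)) k l = _
        rw [Matrix.scalar_apply, Matrix.mul_diagonal]
        change ZMod.castHom (dvd_refl 2) (Alg S) (Matrix.single i j 1 k l) * _ = _
        rw [Matrix.single_apply, Matrix.single_apply]
        split_ifs
        · rw [map_one, one_mul]
        · rw [map_zero, zero_mul]
    | zero => rw [Matrix.single_zero]; exact zero_mem _
    | add _ _ _ _ h h' => rw [Matrix.single_add]; exact add_mem h h'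
    | neg _ _ h => rw [← Matrix.single_neg]; exact neg_mem h
  have hPH : P ∈ H := by
    rw [Matrix.matrix_eq_sum_single P]
    exact sum_mem fun i _ => sum_mem fun j _ => hsingle i j _ (hP i j)
  obtain ⟨p, hp, rfl⟩ := hPH
  exact sum_nil θ ((rep_wd S).map (Matrix.scalar (Fin n))) hcomm hv' p hp

end SysAlg

open SysAlg in
theorem exists_pres {X : Type} [Finite X] (S : Sys X)
    (hal : ∀ N : ℕ, ∃ w, S.Alive w ∧ N ≤ w.length)
    (hv : ∀ (σ : Type) [Fintype σ] [DecidableEq σ], S.Van (Matrix σ σ (Polynomial (ZMod 2)))) :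
    ∃ (A : Type) (_ : Ring A), Nonempty (Pres X A) := by
  have hunit : ∀ a ∈ aug S, IsUnit (1 + a) := by
    intro a ha
    obtain ⟨k, hk⟩ := alg_nil S hal hv 1 (Matrix.scalar (Fin 1) a) fun i j => by
      rw [Subsingleton.elim i j, Matrix.scalar_apply, Matrix.diagonal_apply_eq]
      exact ha
    rw [← map_pow] at hk
    have h0 := congrFun (congrFun hk 0) 0
    rw [Matrix.scalar_apply, Matrix.diagonal_apply_eq] at h0
    exact IsNilpotent.isUnit_one_add ⟨k, h0⟩
  exact ⟨Alg S, inferInstance, ⟨
    { K := ⟨aug S, aug_left S, aug_right S, alg_two S, hunit⟩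
      w := wd S
      w_nil := (rep_wd S).nil
      w_append := (rep_wd S).append
      w_mem := fun _ hu => wd_mem_aug S hu
      span_top := alg_span S
      span_J := fun _ ha => ha
      Step := S.Step
      Forb := S.Forb
      w_step := fun a b a' b' h => (rep_wd S).one _ _ ⟨[], [], a, b, a', b', h, rfl, rfl⟩
      w_forb := fun a b h => (rep_wd S).forb _ ⟨[], [], a, b, h, rfl⟩
      lift := fun M _ f h1 h2 h3 => alg_lift S M f ⟨h1, h2, h3⟩
      nil := alg_nil S hal hv
      inf := alg_infinite S hal }⟩⟩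

end Vale.Agent.P192
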