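import Vale.Agent.P192.MachSim
import Vale.Agent.P192.SysAlg
import Vale.Agent.P192.StCover
import Vale.Agent.P192.StFP

/-!
P192: assembly.
-/

namespace Vale.Agent.P192

namespace Mach

theorem mach_kind {m : ℕ} (hm : m0 ≤ m) (a b a' b' : Ltr m) (h : (mach m).Step a b a' b') :
    (a.1.1.1 = .Lb ↔ a'.1.1.1 = .Lb) ∧ (b.1.1.1 = .Lb ↔ b'.1.1.1 = .Lb) := by
  rcases (step_iff hm a b a' b').mp h with ⟨h, -, -⟩ | ⟨⟨kp, t, -, h1, h2, h3, h4⟩, -, -⟩ |
    ⟨-, -, h1, h2, -, -⟩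
  · obtain ⟨h1, h2, -⟩ := h.ck_eq
    simp only [← ck_eq_two, h1, h2, and_self]
  · rw [h3, h4, h2]; simp
  · rw [h1, h2]; simp

theorem zone_of_ck {m : ℕ} {g : List (Ltr m)} {r : List (Fin 4)}
    (h : g.map (fun x => ck x.1.1.1) = ckSeg m ++ r) :
    ∃ p z q, g = p ++ z ++ q ∧ z.length = m ∧ ∀ y ∈ z, y.1.1.1 = .Lb := by
  have h' : g.map (fun x => ck x.1.1.1) =
      (0 :: List.replicate m 1) ++ (List.replicate m 2 ++ (3 :: r)) := by
    rw [h]; simp [ckSeg]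
  obtain ⟨p, g₂, rfl, -, h2⟩ := List.map_eq_append_iff.mp h'
  obtain ⟨z, q, rfl, h3, -⟩ := List.map_eq_append_iff.mp h2
  refine ⟨p, z, q, by simp, ?_, fun y hy => ?_⟩
  · simpa using congrArg List.length h3
  · have : ck y.1.1.1 ∈ List.replicate m (2 : Fin 4) := h3 ▸ List.mem_map_of_mem hy
    exact ck_eq_two.mp (List.eq_of_mem_replicate this)

theorem m0_pos : 0 < m0 := Nat.succ_pos _

theorem van_direct {m : ℕ} [NeZero m] (hm : m0 ≤ m) (k : Type) [CommRing k] [CharP k 2]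
    (σ : Type) [Fintype σ] [DecidableEq σ]
    (h : 2 * (((nF + 2) + (nF + 2) ^ 2 + 2) * Fintype.card σ ^ 2 + 1) ≤ m) :
    (mach m).Van (Matrix σ σ k) := by
  classical
  obtain ⟨hs, h1, h2⟩ := exists_sim hm
  refine van_of_zone (mach m) (fun s => s.1.1 = .Lb) (mach_kind hm) (mach_swap hm)
    (mach_forb_eq hm) ?_ (nF + 2) (fun z hz hL => by convert zone_shapes hm hz hL) k σ h
  obtain ⟨N, hN⟩ := hs.exists_block
  refine ⟨N, fun w hw hl => ?_⟩
  obtain ⟨p, g, q, rfl, hg⟩ := hN w hw hl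
  have : ∃ r, g.map (fun x => ck x.1.1.1) = ckSeg m ++ r := by
    rcases hg with ⟨c, hg⟩ | ⟨c, d, hg⟩
    · exact ⟨[], by simpa using h1 c g hg⟩
    · exact ⟨_, h2 c d g hg⟩
  obtain ⟨r, hr⟩ := this
  obtain ⟨p', z, q', rfl, hz, hL⟩ := zone_of_ck hr
  exact ⟨p ++ p', z, q' ++ q, by simp, hz, hL⟩

theorem van_level (k : Type) [CommRing k] [CharP k 2] (C : ℕ)
    (hC : C = (nF + 2) + (nF + 2) ^ 2 + 2) (r : ℕ) :
    ∀ (m : ℕ) [NeZero m], m0 ≤ m → ∀ (σ : Type) [Fintype σ] [DecidableEq σ],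
      2 * (C * (16 ^ r * Fintype.card σ ^ 2) + 1) ≤ 17 ^ r * m → (mach m).Van (Matrix σ σ k) := by
  induction r with
  | zero =>
    intro m _ hm σ _ _ h
    exact van_direct hm k σ (by subst hC; simpa using h)
  | succ r ih =>
    intro m _ hm σ _ _ h
    obtain ⟨hs, -, -⟩ := exists_sim hm
    have : NeZero (17 * m) := ⟨by have := NeZero.ne m; omega⟩
    refine hs.van _ ?_
    refine Sys.Van.of_injective
      (Matrix.compRingEquiv (Option (Option Bool)) σ k).toRingHom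
      (Matrix.compRingEquiv (Option (Option Bool)) σ k).injective ?_
    refine ih (17 * m) (by omega) (Option (Option Bool) × σ) ?_
    have e1 : Fintype.card (Option (Option Bool) × σ) = 4 * Fintype.card σ := by simp
    rw [e1]
    calc 2 * (C * (16 ^ r * (4 * Fintype.card σ) ^ 2) + 1)
        = 2 * (C * (16 ^ (r + 1) * Fintype.card σ ^ 2) + 1) := by ring
      _ ≤ 17 ^ (r + 1) * m := h
      _ = 17 ^ r * (17 * m) := by ring

theorem exists_pow_bound (a : ℕ) : ∃ r : ℕ, 2 * (a * 16 ^ r + 1) ≤ 17 ^ r := by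
  have h : ∀ r : ℕ, 16 ^ r * (16 + r) ≤ 16 * 17 ^ r := by
    intro r
    induction r with
    | zero => simp
    | succ r ih =>
      have h16 : (16 : ℕ) ^ r * 16 ≤ 16 ^ r * (16 + r) := Nat.mul_le_mul_left _ (by omega)
      calc 16 ^ (r + 1) * (16 + (r + 1)) = 16 * (16 ^ r * (16 + r)) + 16 ^ r * 16 := by ring
        _ ≤ 16 * (16 ^ r * (16 + r)) + 16 ^ r * (16 + r) := by omega
        _ = 17 * (16 ^ r * (16 + r)) := by ring
        _ ≤ 17 * (16 * 17 ^ r) := Nat.mul_le_mul_left _ ih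
        _ = 16 * 17 ^ (r + 1) := by ring
  refine ⟨32 * a + 32, ?_⟩
  have h1 := h (32 * a + 32)
  have h2 : 1 ≤ 16 ^ (32 * a + 32) := Nat.one_le_pow _ _ (by norm_num)
  generalize 16 ^ (32 * a + 32) = x at h1 h2
  generalize 17 ^ (32 * a + 32) = y at h1
  nlinarith

theorem van_all {m : ℕ} [NeZero m] (hm : m0 ≤ m) (k : Type) [CommRing k] [CharP k 2]
    (σ : Type) [Fintype σ] [DecidableEq σ] : (mach m).Van (Matrix σ σ k) := by
  obtain ⟨r, hr⟩ := exists_pow_bound (((nF + 2) + (nF + 2) ^ 2 + 2) * Fintype.card σ ^ 2)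
  refine van_level k _ rfl r m hm σ ?_
  have hm1 : 1 ≤ m := Nat.pos_of_ne_zero (NeZero.ne m)
  calc 2 * (((nF + 2) + (nF + 2) ^ 2 + 2) * (16 ^ r * Fintype.card σ ^ 2) + 1)
      = 2 * (((nF + 2) + (nF + 2) ^ 2 + 2) * Fintype.card σ ^ 2 * 16 ^ r + 1) := by ring
    _ ≤ 17 ^ r := hr
    _ ≤ 17 ^ r * m := Nat.le_mul_of_pos_right _ hm1

theorem alive_long (r : ℕ) : ∀ (m : ℕ) [NeZero m], m0 ≤ m →
    ∃ w, (mach m).Alive w ∧ r ≤ w.length := by
  induction r with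
  | zero =>
    intro m _ _
    exact ⟨[(((.H, .L0), 0, 0), 0)], Sys.alive_singleton _, Nat.zero_le _⟩
  | succ r ih =>
    intro m _ hm
    rcases Nat.eq_zero_or_pos r with rfl | hr
    · exact ⟨[(((.H, .L0), 0, 0), 0)], Sys.alive_singleton _, le_rfl⟩
    obtain ⟨hs, -, -⟩ := exists_sim hm
    have : NeZero (17 * m) := ⟨by have := NeZero.ne m; omega⟩
    obtain ⟨w, hw, hl⟩ := ih (17 * m) (by omega)
    refine ⟨w.flatMap hs.root, hs.alive_root hw, ?_⟩
    rw [hs.length_root]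
    have := hs.two_le_len
    nlinarith

end Mach

theorem exists_group : ∃ (G : Type) (_ : Group G),
    Group.IsFinitelyPresented G ∧ Infinite G ∧ ∀ g : G, IsOfFinOrder g := by
  have : NeZero Mach.m0 := ⟨Mach.m0_pos.ne'⟩
  obtain ⟨A, _, ⟨P⟩⟩ := exists_pres (Mach.mach Mach.m0)
    (fun N => Mach.alive_long N _ le_rfl) (fun σ _ _ => Mach.van_all le_rfl _ σ)
  exact ⟨St P.K (Fin 5), inferInstance, St_fp P, St_infinite P, St_periodic P⟩

end Vale.Agent.P192
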