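import Vale.Agent.P192.MachLocal

/-!
P192, part M3a: structural facts on the trees `T1sk`, `T2sk`.
-/

namespace Vale.Agent.P192

namespace Mach

variable {m : ℕ} [NeZero m]

/-- Kinds of the cells of a segment. -/
def ckSeg (m : ℕ) : List (Fin 4) := 0 :: (List.replicate m 1 ++ (List.replicate m 2 ++ [3]))

namespace Str

theorem cF_lt (f : F) : codeF f < nF := (Finite.equivFin F f).isLt

theorem cF_inj {f f' : F} (h : codeF f = codeF f') : f = f' :=
  (Finite.equivFin F).injective (Fin.ext h)

omit [NeZero m] in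
theorem nF_le (hm : m0 ≤ m) : nF ≤ m := by
  unfold m0 at hm
  omega

omit [NeZero m] in
theorem enc_mark {n a : ℕ} {χ : Col} (h : enc m n a = .mark χ) :
    a = n % m ∧ χ = Fin.ofNat 17 (n / m) := by
  unfold enc at h
  split_ifs at h with h1 h2
  exact ⟨h2, (Sym.mark.inj h).symm⟩

omit [NeZero m] in
theorem enc_zero (n : ℕ) : enc m n 0 ≠ .aft := by
  unfold enc
  split_ifs with h1 h2
  · exact fun h => Sym.noConfusion h
  · exact fun h => Sym.noConfusion h
  · omega

omit [NeZero m] in
theorem enc_step (n a : ℕ) : stepS (enc m n a) (enc m n (a + 1)) := by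
  unfold stepS enc
  by_cases h1 : a < n % m
  · left
    refine ⟨if_pos h1, ?_⟩
    split_ifs with h2 h3
    · exact fun h => Sym.noConfusion h
    · exact fun h => Sym.noConfusion h
    · omega
  · right
    rw [if_neg h1, if_neg (show ¬ a + 1 < n % m by omega), if_neg (show ¬ a + 1 = n % m by omega)]
    refine ⟨?_, rfl⟩
    split_ifs with h2
    · exact fun h => Sym.noConfusion h
    · exact fun h => Sym.noConfusion h

theorem enc_last (n a : ℕ) (ha : a + 1 = m) : enc m n a ≠ .bef := by
  have := Nat.mod_lt n (Nat.pos_of_ne_zero (NeZero.ne m))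
  unfold enc
  rw [if_neg (show ¬ a < n % m by omega)]
  split_ifs with h2
  · exact fun h => Sym.noConfusion h
  · exact fun h => Sym.noConfusion h

theorem enc_inj {n n' : ℕ} (hn : n < 17 * m) (hn' : n' < 17 * m)
    (h : ∀ a : Fin m, enc m n a.val = enc m n' a.val) : n = n' := by
  have hm := Nat.pos_of_ne_zero (NeZero.ne m)
  have h1 := h ⟨n % m, Nat.mod_lt n hm⟩
  have h2 : enc m n (n % m) = .mark (Fin.ofNat 17 (n / m)) := by
    unfold enc
    rw [if_neg (lt_irrefl _), if_pos rfl]
  obtain ⟨h3, h4⟩ := enc_mark (h1.symm.trans h2)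
  have h5 : n / m < 17 := by
    rw [Nat.div_lt_iff_lt_mul hm]; exact hn
  have h6 : n' / m < 17 := by
    rw [Nat.div_lt_iff_lt_mul hm]; exact hn'
  have h7 : n / m = n' / m := by
    have := congrArg Fin.val h4
    simp only [Fin.ofNat] at this
    rwa [Nat.mod_eq_of_lt h5, Nat.mod_eq_of_lt h6] at this
  rw [← Nat.div_add_mod n m, ← Nat.div_add_mod n' m, h7]
  exact congrArg _ h3

/-- Data cell of a root form. -/
def dC (n : Fin 4 → ℕ) (a : Fin m) : Sk m := ((.D (.raw fun i => enc m (n i) a.val), .R0), a, 0)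

theorem rootR_eq (r : ℕ) (n : Fin 4 → ℕ) : (rootR r n : List (Sk m)) =
    ((.H, .hd .root), 0, 0) :: ((List.finRange m).map (dC n) ++
      (List.replicate r ((.Lb, .R0), 0, 0) ++ [((.E, .R0), 0, 0)])) := rfl

theorem valid_dC (hm : nF ≤ m) {n : Fin 4 → ℕ} (h0 : n 0 < nF) (a : Fin m) :
    validF (dC n a).1 ∧ UOK (dC n a) := by
  have hlt : n 0 < m := lt_of_lt_of_le h0 hm
  refine ⟨⟨fun h => Ctl.noConfusion h, fun β h => Ctl.noConfusion h,
    fun h => Cell.noConfusion h, ?_⟩, fun h => Bool.noConfusion h, fun _ => rfl, ?_⟩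
  · intro o χ ho hχ
    have ho' : (fun i => enc m (n i) a.val) = o := Tape.raw.inj (Cell.D.inj ho)
    subst ho'
    rw [(enc_mark hχ).2, Nat.div_eq_of_lt hlt]
    rfl
  · intro o χ ho hχ
    have ho' : (fun i => enc m (n i) a.val) = o := Tape.raw.inj (Cell.D.inj ho)
    subst ho'
    have := (enc_mark hχ).1
    rw [Nat.mod_eq_of_lt hlt] at this
    change a.val < nF
    omega

theorem valid_root : validF (.H, .hd .root) ∧ UOK (((.H, .hd .root), 0, 0) : Sk m) :=
  ⟨⟨fun _ => rfl, fun _ h => Hd.noConfusion (Ctl.hd.inj h), fun h => Cell.noConfusion h,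
    fun _ _ h => Cell.noConfusion h⟩, fun _ => rfl, fun _ => rfl, fun _ _ h => Cell.noConfusion h⟩

theorem valid_Lb : validF (.Lb, .R0) ∧ UOK (((.Lb, .R0), 0, 0) : Sk m) :=
  ⟨⟨fun h => Ctl.noConfusion h, fun _ h => Ctl.noConfusion h, fun h => Cell.noConfusion h,
    fun _ _ h => Cell.noConfusion h⟩, fun _ => rfl, fun _ => rfl, fun _ _ h => Cell.noConfusion h⟩

theorem valid_eSk (o : Option Bool) : validF (eSk o : Sk m).1 ∧ UOK (eSk o : Sk m) := by
  cases o with
  | none =>
    exact ⟨⟨fun h => Ctl.noConfusion h, fun _ h => Ctl.noConfusion h,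
      fun _ => ⟨fun h => Pos.noConfusion h, fun h => Pos.noConfusion h⟩,
      fun _ _ h => Cell.noConfusion h⟩, fun _ => rfl, fun _ => rfl,
      fun _ _ h => Cell.noConfusion h⟩
  | some β =>
    exact ⟨⟨fun h => Hd.noConfusion (Ctl.hd.inj h), fun _ _ h => Cell.noConfusion h,
      fun _ => ⟨fun h => Pos.noConfusion h, fun h => Pos.noConfusion h⟩,
      fun _ _ h => Cell.noConfusion h⟩, fun _ => rfl, fun _ => rfl,
      fun _ _ h => Cell.noConfusion h⟩

theorem rootR_chain (hm : nF ≤ m) {n : Fin 4 → ℕ} (h0 : n 0 < nF) (r : ℕ) :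
    (rootR (r + 1) n : List (Sk m)).IsChain SOK := by
  have hpos := Nat.pos_of_ne_zero (NeZero.ne m)
  rw [rootR_eq, List.isChain_cons]
  refine ⟨?_, ?_⟩
  · intro y hy
    have hne : (List.finRange m).map (dC n) ≠ [] := by
      intro h
      have := congrArg List.length h
      simp at this
      omega
    rw [List.head?_append_of_ne_nil _ hne, List.head?_map, List.head?_eq_getElem?,
      List.getElem?_eq_getElem (by simpa using hpos), List.getElem_finRange] at hy
    simp only [Option.map_some, Option.mem_def, Option.some.injEq] at hy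
    subst hy
    exact ⟨⟨rfl, valid_root (m := m).1, (valid_dC hm h0 _).1, rfl, fun i => enc_zero _⟩,
      valid_root.2, (valid_dC hm h0 _).2, fun _ => rfl, fun h => Bool.noConfusion h,
      fun h => Bool.noConfusion h⟩
  · rw [List.isChain_append]
    refine ⟨?_, ?_, ?_⟩
    · rw [List.isChain_map, List.isChain_iff_getElem]
      intro i hi
      rw [List.getElem_finRange, List.getElem_finRange]
      exact ⟨⟨rfl, (valid_dC hm h0 _).1, (valid_dC hm h0 _).1, rfl, fun j => enc_step _ _⟩,
        (valid_dC hm h0 _).2, (valid_dC hm h0 _).2, fun h => Cell.noConfusion h,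
        fun _ _ => rfl, fun _ h => Cell.noConfusion h⟩
    · rw [List.isChain_append]
      refine ⟨?_, List.isChain_singleton _, ?_⟩
      · apply List.isChain_replicate_of_rel
        exact ⟨⟨rfl, valid_Lb (m := m).1, valid_Lb (m := m).1, rfl, trivial⟩,
          valid_Lb.2, valid_Lb.2, fun h => Cell.noConfusion h, fun h => Bool.noConfusion h,
          fun h => Bool.noConfusion h⟩
      · intro x hx y hy
        have hx' := List.eq_of_mem_replicate (List.mem_of_getLast? hx)
        simp only [List.head?_cons, Option.mem_def, Option.some.injEq] at hy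
        subst hx' hy
        exact ⟨⟨rfl, valid_Lb (m := m).1, (valid_eSk (m := m) none).1, rfl, trivial⟩,
          valid_Lb.2, (valid_eSk none).2, fun h => Cell.noConfusion h, fun h => Bool.noConfusion h,
          fun h => Bool.noConfusion h⟩
    · intro x hx y hy
      rw [List.getLast?_map, List.getLast?_eq_getElem?,
        List.getElem?_eq_getElem (by simp; omega), List.getElem_finRange] at hx
      simp only [List.replicate_succ, List.cons_append, List.head?_cons, Option.mem_def,
        Option.some.injEq] at hy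
      simp only [Option.map_some, Option.mem_def, Option.some.injEq] at hx
      subst hx hy
      have hl : (List.finRange m).length - 1 + 1 = m := by simp; omega
      exact ⟨⟨rfl, (valid_dC hm h0 _).1, valid_Lb (m := m).1, rfl, fun j => enc_last _ _ hl⟩,
        (valid_dC hm h0 _).2, valid_Lb.2, fun h => Cell.noConfusion h,
        fun _ h => Bool.noConfusion h, fun _ _ => hl⟩

omit [NeZero m] in
theorem num17_lt (hm : m0 ≤ m) (c : Ltr (17 * m)) (i : Fin 4) : num c i < 17 * m := by
  have h1 := nF_le hm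
  have h2 := cF_lt c.1.1
  fin_cases i
  · change codeF c.1.1 < 17 * m
    omega
  · exact c.1.2.1.isLt
  · exact c.1.2.2.isLt
  · exact c.2.isLt

end Str

open Str

theorem rootSk_chain (hm : m0 ≤ m) (c : Ltr (17 * m)) : (rootSk c).IsChain SOK := by
  have hpos := Nat.pos_of_ne_zero (NeZero.ne m)
  have h := rootR_chain (nF_le hm) (n := num c) (cF_lt c.1.1) (m - 1)
  rwa [Nat.sub_add_cancel hpos] at h

theorem rootSk_inj (hm : m0 ≤ m) {c c' : Ltr (17 * m)} (h : rootSk c = rootSk c') : c = c' := by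
  unfold rootSk at h
  rw [rootR_eq, rootR_eq] at h
  have h1 := (List.append_inj (List.cons.inj h).2 (by simp)).1
  rw [List.map_inj_left] at h1
  have h2 : ∀ i, num c i = num c' i := by
    intro i
    refine enc_inj (num17_lt hm c i) (num17_lt hm c' i) fun a => ?_
    have h3 := h1 a (List.mem_finRange a)
    have h4 := Tape.raw.inj (Cell.D.inj (congrArg (fun x : Sk m => x.1.1) h3))
    exact congrFun h4 i
  obtain ⟨⟨f, a, r⟩, l⟩ := c
  obtain ⟨⟨f', a', r'⟩, l'⟩ := c'
  have e0 : f = f' := cF_inj (h2 0)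
  have e1 : a = a' := Fin.ext (h2 1)
  have e2 : r = r' := Fin.ext (h2 2)
  have e3 : l = l' := Fin.ext (h2 3)
  rw [e0, e1, e2, e3]

namespace Str

/-- The tail of a root form. -/
noncomputable def rootTl (c : Ltr (17 * m)) : List (Sk m) :=
  (List.finRange m).map (dC (num c)) ++
    (List.replicate m ((.Lb, .R0), 0, 0) ++ [((.E, .R0), 0, 0)])

theorem rootSk_eq (c : Ltr (17 * m)) : rootSk c = ((.H, .hd .root), 0, 0) :: rootTl c := rfl

theorem rootTl_ctl (c : Ltr (17 * m)) {x : Sk m} (hx : x ∈ rootTl c) : x.1.2 = .R0 := by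
  unfold rootTl at hx
  rcases List.mem_append.1 hx with hx | hx
  · obtain ⟨a, -, rfl⟩ := List.mem_map.1 hx
    rfl
  · rcases List.mem_append.1 hx with hx | hx
    · rw [List.eq_of_mem_replicate hx]
    · rw [List.mem_singleton.1 hx]

theorem heads_rootTl (c : Ltr (17 * m)) : heads (rootTl c) = 0 := by
  unfold heads
  rw [List.countP_eq_zero]
  intro x hx
  rw [rootTl_ctl c hx]
  exact fun h => Bool.noConfusion h

omit [NeZero m] in
theorem heads_append (u v : List (Sk m)) : heads (u ++ v) = heads u + heads v :=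
  List.countP_append

omit [NeZero m] in
theorem heads_cons (a : Sk m) (v : List (Sk m)) :
    heads (a :: v) = heads v + if isHd a.1.2 = true then 1 else 0 :=
  List.countP_cons

omit [NeZero m] in
theorem heads_nil : heads ([] : List (Sk m)) = 0 := rfl

theorem heads_rootSk (c : Ltr (17 * m)) : heads (rootSk c) = 1 := by
  rw [rootSk_eq, heads_cons, heads_rootTl]
  rfl

theorem rootSk_head (c : Ltr (17 * m)) {x : Sk m} (hx : x ∈ rootSk c) {q : Hd}
    (hq : x.1.2 = .hd q) : q = .root := by
  rw [rootSk_eq] at hx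
  rcases List.mem_cons.1 hx with rfl | hx
  · exact (Ctl.hd.inj hq).symm
  · rw [rootTl_ctl c hx] at hq
    exact Ctl.noConfusion hq

omit [NeZero m] in
/-- After a forward move to a word with one head, the head is not in the root state. -/
theorem no_root {g₀ g : List (Sk m)} (h : FwdW g₀ g) (h1 : heads g = 1) {x : Sk m} (hx : x ∈ g) :
    x.1.2 ≠ .hd .root := by
  intro hr
  obtain ⟨u, v, c, d, c', d', hf, -, rfl⟩ := h
  obtain ⟨s, t, hst⟩ := List.append_of_mem hx
  obtain ⟨e1, e2, e3, -⟩ := hf.heads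
  have hxh : isHd x.1.2 = true := by rw [hr]; rfl
  cases hc : isHd c'.1.2 with
  | true =>
    have := (head_pos_unique h1 hc hxh hst).2.1
    exact e2 (this ▸ hr)
  | false =>
    have hd : isHd d'.1.2 = true := by
      rw [hc] at e1
      cases hd : isHd d'.1.2 with
      | true => rfl
      | false => rw [hd] at e1; exact Bool.noConfusion e1
    have e : u ++ c' :: d' :: v = (u ++ [c']) ++ d' :: v := by simp
    rw [e] at h1 hst
    have := (head_pos_unique h1 hd hxh hst).2.1
    exact e3 (this ▸ hr)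

/-- Control states of free segments. -/
def Good (x : Ctl) : Prop := ∀ q, x = .hd q → q = .root ∨ ∃ β, q = .wrF β

theorem good_L0 : Good .L0 := fun _ h => Ctl.noConfusion h

theorem good_wrF (β : Bool) : Good (.hd (.wrF β)) := fun _ h => Or.inr ⟨β, (Ctl.hd.inj h).symm⟩

theorem not_good_wr2 (β : Bool) : ¬ Good (.hd (.wr2 β)) := fun h => by
  rcases h _ rfl with h | ⟨_, h⟩ <;> exact Hd.noConfusion h

theorem not_good_pl (β kp i χ s) : ¬ Good (.hd (.pl β kp i χ s)) := fun h => by
  rcases h _ rfl with h | ⟨_, h⟩ <;> exact Hd.noConfusion h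

theorem not_good_pr (β kp i ld s) : ¬ Good (.hd (.pr β kp i ld s)) := fun h => by
  rcases h _ rfl with h | ⟨_, h⟩ <;> exact Hd.noConfusion h

theorem not_good_prev (β kp i) : ¬ Good (.hd (prev β kp i)) := by
  unfold prev
  split_ifs
  · exact not_good_wr2 _
  · exact not_good_pr _ _ _ _ _

theorem parR_good {f f' : F} {p : Par} (h : ParR f f' p) (h1 : Good p.fc.2) (h2 : Good p.fd.2)
    (h3 : ¬ (isHd p.fc.2 = true ∧ isHd p.fd.2 = true)) : Good f.2 ∧ Good f'.2 := by
  cases h with
  | wrF0 => exact ⟨good_L0, good_wrF _⟩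
  | wrFD => exact ⟨good_L0, good_wrF _⟩
  | wrFL => exact ⟨good_L0, good_wrF _⟩
  | wrFC => exact ⟨good_L0, good_wrF _⟩
  | wrFE => exact ⟨good_L0, good_wrF _⟩
  | lock => exact (h3 ⟨rfl, rfl⟩).elim
  | wr2D => exact (not_good_wr2 _ h1).elim
  | wr2L => exact (not_good_wr2 _ h1).elim
  | start => exact (not_good_prev _ _ _ h2).elim
  | left => exact (not_good_pl _ _ _ _ _ h2).elim
  | leftX => exact (not_good_pl _ _ _ _ _ h2).elim
  | turn => exact (not_good_pl _ _ _ _ _ h2).elim
  | right => exact (not_good_pr _ _ _ _ _ h1).elim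
  | unload => exact (not_good_pr _ _ _ _ _ h1).elim
  | rightX => exact (not_good_pr _ _ _ _ _ h1).elim

theorem flagR_ne (s : Bool) (q : Hd) : flagR s ≠ .hd q := by
  cases s <;> exact fun h => Ctl.noConfusion h

theorem prev_ne_root (β kp i) : prev β kp i ≠ .root := fun h =>
  not_good_prev β kp i fun _ hq => Or.inl ((Ctl.hd.inj hq).symm.trans h)

theorem parR_root {f f' : F} {p : Par} (h : ParR f f' p) (h2 : p.fd.2 = .hd .root) :
    ∃ β, p.fc = (.E, .hd (.wrF β)) ∧ p.fd = (.H, .hd .root) ∧ f = (.E, .L0) ∧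
      f' = (.H, .hd (.wr2 β)) := by
  cases h with
  | wrF0 => exact Ctl.noConfusion h2
  | wrFD => exact Ctl.noConfusion h2
  | wrFL => exact Ctl.noConfusion h2
  | wrFC => exact Ctl.noConfusion h2
  | wrFE => exact Ctl.noConfusion h2
  | lock β => exact ⟨β, rfl, rfl, rfl, rfl⟩
  | wr2D => exact Ctl.noConfusion h2
  | wr2L => exact Ctl.noConfusion h2
  | start => exact (prev_ne_root _ _ _ (Ctl.hd.inj h2)).elim
  | left => exact Hd.noConfusion (Ctl.hd.inj h2)
  | leftX => exact Hd.noConfusion (Ctl.hd.inj h2)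
  | turn => exact Hd.noConfusion (Ctl.hd.inj h2)
  | right => exact (flagR_ne _ _ h2).elim
  | unload => exact (flagR_ne _ _ h2).elim
  | rightX => exact Ctl.noConfusion h2

omit [NeZero m] in
theorem isLock_of_root {c d c' d' : Sk m} (h : Fwd c d c' d') (hd : d.1.2 = .hd .root) :
    IsLock c d c' d' := by
  obtain ⟨p, hp, e1, e2, -⟩ := h
  obtain ⟨β, a1, a2, a3, a4⟩ := parR_root hp (e2 ▸ hd)
  exact ⟨β, e1.trans a1, e2.trans a2, a3, a4⟩

omit [NeZero m] in
theorem fwdW_good {g g' : List (Sk m)} (h : FwdW g g') (h1 : heads g = 1)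
    (hg : ∀ x ∈ g, Good x.1.2) : ∀ x ∈ g', Good x.1.2 := by
  obtain ⟨u, v, c, d, c', d', ⟨p, hp, e1, e2, -⟩, rfl, rfl⟩ := h
  have hc : Good p.fc.2 := e1 ▸ hg c (by simp)
  have hd : Good p.fd.2 := e2 ▸ hg d (by simp)
  have h3 : ¬ (isHd p.fc.2 = true ∧ isHd p.fd.2 = true) := by
    rw [← e1, ← e2]
    rintro ⟨a1, a2⟩
    rw [heads_append, heads_cons, heads_cons, if_pos a1, if_pos a2] at h1
    omega
  obtain ⟨g1, g2⟩ := parR_good hp hc hd h3
  intro x hx
  rcases List.mem_append.1 hx with hx | hx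
  · exact hg x (List.mem_append_left _ hx)
  · rcases List.mem_cons.1 hx with rfl | hx
    · exact g1
    · rcases List.mem_cons.1 hx with rfl | hx
      · exact g2
      · exact hg x (by simp [hx])

omit [NeZero m] in
theorem fwdW_last {g g' : List (Sk m)} (h : FwdW g g') (hg : ∃ s z, g = s ++ [z] ∧ UE z.1) :
    ∃ s z, g' = s ++ [z] ∧ UE z.1 := by
  obtain ⟨u, v, c, d, c', d', hf, rfl, rfl⟩ := h
  obtain ⟨s, z, e, hz⟩ := hg
  rcases List.eq_nil_or_concat v with rfl | ⟨v', y, rfl⟩
  · have e' : (u ++ [c]) ++ [d] = s ++ [z] := by simpa using e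
    have := List.singleton_inj.1 (List.append_inj' e' rfl).2
    subst this
    exact ⟨u ++ [c'], d', by simp, hf.ue.2.1.1 hz⟩
  · have e' : (u ++ c :: d :: v') ++ [y] = s ++ [z] := by simpa using e
    have := List.singleton_inj.1 (List.append_inj' e' rfl).2
    subst this
    exact ⟨u ++ c' :: d' :: v', y, by simp, hz⟩

omit [NeZero m] in
theorem fwdW_first {g g' : List (Sk m)} (h : FwdW g g') (hg : ∃ a s, g = a :: s ∧ UL a.1) :
    ∃ a s, g' = a :: s ∧ UL a.1 := by
  obtain ⟨u, v, c, d, c', d', hf, rfl, rfl⟩ := h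
  obtain ⟨a, s, e, ha⟩ := hg
  cases u with
  | nil =>
    obtain ⟨rfl, -⟩ := List.cons.inj e
    exact ⟨c', d' :: v, rfl, hf.ue.2.2.1.1 ha⟩
  | cons y u =>
    obtain ⟨rfl, -⟩ := List.cons.inj e
    exact ⟨y, u ++ c' :: d' :: v, rfl, ha⟩

omit [NeZero m] in
theorem fwdW_ue {g g' : List (Sk m)} (h : FwdW g g') (i : ℕ) {a' : Sk m} (hi : g'[i]? = some a')
    (ha : UE a'.1) : ∃ a, g[i]? = some a ∧ UE a.1 := by
  obtain ⟨u, v, c, d, c', d', hf, rfl, rfl⟩ := h
  induction u generalizing i with
  | nil =>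
    match i, hi with
    | 0, hi =>
      have e : c' = a' := by simpa using hi
      exact (hf.ue.1 (e ▸ ha)).elim
    | 1, hi =>
      have e : d' = a' := by simpa using hi
      exact ⟨d, by simp, hf.ue.2.1.2 (e ▸ ha)⟩
    | i + 2, hi => exact ⟨a', by simpa using hi, ha⟩
  | cons y u ih =>
    match i, hi with
    | 0, hi => exact ⟨a', by simpa using hi, ha⟩
    | i + 1, hi => simpa using ih i (by simpa using hi)

omit [NeZero m] in
theorem reach_map_ck {g g' : List (Sk m)} (h : Relation.ReflTransGen FwdW g g') :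
    g'.map (fun x => ck x.1.1) = g.map (fun x => ck x.1.1) := by
  induction h with
  | refl => rfl
  | tail _ h ih => rw [h.map_ck, ih]

omit [NeZero m] in
theorem reach_chain {g g' : List (Sk m)} (h : Relation.ReflTransGen FwdW g g')
    (hc : g.IsChain SOK) : g'.IsChain SOK := by
  induction h with
  | refl => exact hc
  | tail _ h ih => exact h.chain ih

omit [NeZero m] in
theorem reach_last {g g' : List (Sk m)} (h : Relation.ReflTransGen FwdW g g')
    (hg : ∃ s z, g = s ++ [z] ∧ UE z.1) : ∃ s z, g' = s ++ [z] ∧ UE z.1 := by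
  induction h with
  | refl => exact hg
  | tail _ h ih => exact fwdW_last h ih

omit [NeZero m] in
theorem reach_first {g g' : List (Sk m)} (h : Relation.ReflTransGen FwdW g g')
    (hg : ∃ a s, g = a :: s ∧ UL a.1) : ∃ a s, g' = a :: s ∧ UL a.1 := by
  induction h with
  | refl => exact hg
  | tail _ h ih => exact fwdW_first h ih

omit [NeZero m] in
theorem reach_append {g g' : List (Sk m)} (h : Relation.ReflTransGen FwdW g g') (w : List (Sk m)) :
    Relation.ReflTransGen FwdW (g ++ w) (g' ++ w) := by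
  induction h with
  | refl => exact Relation.ReflTransGen.refl
  | tail _ h ih => exact ih.tail (by simpa using h.context [] w)

theorem rootSk_map_ck (c : Ltr (17 * m)) : (rootSk c).map (fun x => ck x.1.1) = ckSeg m := by
  rw [rootSk_eq, rootTl, ckSeg, List.map_cons, List.map_append, List.map_append, List.map_map,
    List.map_replicate]
  have : (List.finRange m).map ((fun x : Sk m => ck x.1.1) ∘ dC (num c)) = List.replicate m 1 := by
    rw [List.eq_replicate_iff]
    refine ⟨by simp, fun b hb => ?_⟩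
    obtain ⟨a, -, rfl⟩ := List.mem_map.1 hb
    rfl
  rw [this]
  rfl

theorem rootSk_last (c : Ltr (17 * m)) : ∃ s, rootSk c = s ++ [eSk none] :=
  ⟨((.H, .hd .root), 0, 0) :: ((List.finRange m).map (dC (num c)) ++
    List.replicate m ((.Lb, .R0), 0, 0)), by rw [rootSk_eq, rootTl]; simp [eSk]⟩

theorem ue_eSk_none : UE (eSk none : Sk m).1 := ⟨rfl, Or.inl rfl⟩

theorem ul_root : UL (.H, .hd .root) := ⟨rfl, Or.inr (Or.inl rfl)⟩

omit [NeZero m] in
theorem length_ckSeg : (ckSeg m).length = 2 * m + 2 := by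
  simp [ckSeg]
  omega

omit [NeZero m] in
theorem two_le {g s : List (Sk m)} {z : Sk m} (e : g = s ++ [z]) (h : 2 ≤ g.length) :
    ∃ t y, s = t ++ [y] ∧ g = t ++ y :: z :: [] := by
  rcases List.eq_nil_or_concat s with rfl | ⟨t, y, rfl⟩
  · subst e
    simp at h
  · exact ⟨t, y, by simp, by simp [e]⟩

omit [NeZero m] in
theorem sok_of_chain {u v : List (Sk m)} {a b : Sk m} (h : (u ++ a :: b :: v).IsChain SOK) :
    SOK a b :=
  (List.isChain_cons_cons.1 (List.isChain_append.1 h).2.1).1

theorem sok_cross (o : Option Bool) {b : Sk m} (hb : UL b.1) (hv : validF b.1) (hu : UOK b) :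
    SOK (eSk o) b := by
  obtain ⟨⟨k, q⟩, r⟩ := b
  obtain ⟨hk, hq⟩ := hb
  change k = .H at hk
  change pos q = .L0 ∨ pos q = .hf ∨ pos q = .h1 at hq
  subst hk
  cases o with
  | none =>
    refine ⟨⟨rfl, (valid_eSk none).1, hv, ?_, trivial⟩, (valid_eSk none).2, hu,
      fun h => Cell.noConfusion h, fun h => Bool.noConfusion h, fun h => Bool.noConfusion h⟩
    change posX .R0 (pos q) = true
    rcases hq with h | h | h <;> rw [h] <;> rfl
  | some β =>
    refine ⟨⟨rfl, (valid_eSk (some β)).1, hv, ?_, trivial⟩, (valid_eSk (some β)).2, hu,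
      fun h => Cell.noConfusion h, fun h => Bool.noConfusion h, fun h => Bool.noConfusion h⟩
    change posX .hf (pos q) = true
    rcases hq with h | h | h <;> rw [h] <;> rfl

end Str

theorem rootSk_no_parent (c : Ltr (17 * m)) (g : List (Sk m)) : ¬ FwdW g (rootSk c) := fun h =>
  no_root h (heads_rootSk c) (x := ((.H, .hd .root), 0, 0))
    (by rw [rootSk_eq]; exact List.mem_cons_self) rfl

variable {c d c' d' : Ltr (17 * m)} {g g' u v : List (Sk m)} {a b : Sk m}

theorem T1sk.map_ck (h : T1sk c g) : g.map (fun x => ck x.1.1) = ckSeg m :=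
  (reach_map_ck h).trans (rootSk_map_ck c)

theorem T1sk.chain (hm : m0 ≤ m) (h : T1sk c g) : g.IsChain SOK :=
  reach_chain h (rootSk_chain hm c)

theorem T1sk.heads_eq (h : T1sk c g) : heads g = 1 := by
  unfold T1sk at h
  induction h with
  | refl => exact heads_rootSk c
  | tail _ h ih => exact h.heads_eq ih

theorem Str.t1_length (h : T1sk c g) : g.length = 2 * m + 2 := by
  have := congrArg List.length h.map_ck
  rwa [List.length_map, length_ckSeg] at this

theorem T1sk.not_np (h : T1sk c (u ++ a :: b :: v)) : ¬ NP a b := by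
  have h1 := h.heads_eq
  rcases Relation.ReflTransGen.cases_tail h with e | ⟨g₀, -, h₀⟩
  · intro hn
    rcases hn.hasPar with ⟨q, hq, hs⟩ | ⟨q, hq, hs⟩
    · have := rootSk_head c (x := b) (by rw [← e]; simp) hq
      subst this
      exact absurd hs (by simp [side])
    · have := rootSk_head c (x := a) (by rw [← e]; simp) hq
      subst this
      exact absurd hs (by simp [side])
  · exact FwdW.not_np h1 h₀

theorem T1sk.last (hm : m0 ≤ m) (h : T1sk c g) : ∃ g' o, g = g' ++ [eSk o] := by
  obtain ⟨s₀, e₀⟩ := rootSk_last c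
  obtain ⟨s, z, e, hz⟩ := reach_last h ⟨s₀, _, e₀, ue_eSk_none⟩
  obtain ⟨t, y, -, e'⟩ := two_le e (by rw [t1_length h]; omega)
  have hc := h.chain hm
  rw [e'] at h hc
  obtain ⟨o, rfl⟩ := eq_eSk (sok_of_chain hc) h.not_np hz
  exact ⟨s, o, e⟩

theorem T1sk.first (h : T1sk c (a :: v)) : UL a.1 := by
  obtain ⟨a', s, e, ha⟩ := reach_first h ⟨_, _, rootSk_eq c, ul_root⟩
  obtain ⟨rfl, -⟩ := List.cons.inj e
  exact ha

theorem T1sk.eq_root (h : T1sk c (a :: v)) (ha : a.1.2 = .hd .root) : a :: v = rootSk c := by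
  rcases Relation.ReflTransGen.cases_tail h with e | ⟨g₀, -, h₀⟩
  · exact e
  · exact (no_root h₀ h.heads_eq List.mem_cons_self ha).elim

/-- Heads of free segments are in the states `root`, `wrF`. -/
theorem T1sk.head_state (h : T1sk c g) {x : Sk m} (hx : x ∈ g) {q : Hd} (hq : x.1.2 = .hd q) :
    q = .root ∨ ∃ β, q = .wrF β := by
  have key : ∀ x ∈ g, Good x.1.2 := by
    clear hx
    unfold T1sk at h
    induction h with
    | refl => exact fun x hx q hq => Or.inl (rootSk_head c hx hq)
    | tail h₀ h ih => exact fwdW_good h (T1sk.heads_eq h₀) ih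
  exact key x hx q hq

theorem T1sk.back (h : T1sk c g) (h' : FwdW g' g) : T1sk c g' := by
  rcases Relation.ReflTransGen.cases_tail h with e | ⟨g₀, h₁, h₀⟩
  · exact (rootSk_no_parent c g' (e ▸ h')).elim
  · rw [FwdW.parent_unique h.heads_eq h' h₀]
    exact h₁

theorem T1sk.uniq (hm : m0 ≤ m) (h : T1sk c g) (h' : T1sk c' g) : c = c' := by
  unfold T1sk at h
  induction h with
  | refl =>
    rcases Relation.ReflTransGen.cases_tail h' with e | ⟨g₀, -, h₀⟩
    · exact rootSk_inj hm e
    · exact (rootSk_no_parent c g₀ h₀).elim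
  | tail _ h ih => exact ih (h'.back h)

theorem T2sk.reach (h : T2sk c d g) : Relation.ReflTransGen FwdW (rootSk c ++ rootSk d) g := by
  induction h with
  | lock u v y z y' z' h1 e hf =>
    have h2 : Relation.ReflTransGen FwdW (rootSk c ++ rootSk d) ((u ++ [y]) ++ rootSk d) :=
      reach_append h1 _
    exact h2.tail ⟨u, v, y, z, y', z', hf, by rw [e]; simp, rfl⟩
  | step g g' _ hs ih => exact ih.tail hs

theorem T2sk.map_ck (h : T2sk c d g) : g.map (fun x => ck x.1.1) = ckSeg m ++ ckSeg m := by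
  rw [reach_map_ck h.reach, List.map_append, rootSk_map_ck, rootSk_map_ck]

theorem T2sk.chain (hm : m0 ≤ m) (h : T2sk c d g) : g.IsChain SOK := by
  refine reach_chain h.reach ?_
  rw [List.isChain_append]
  refine ⟨rootSk_chain hm c, rootSk_chain hm d, ?_⟩
  intro x hx y hy
  obtain ⟨s, e⟩ := rootSk_last c
  rw [e] at hx
  rw [rootSk_eq] at hy
  simp only [List.getLast?_append, List.getLast?_singleton, Option.some_or, Option.mem_def,
    Option.some.injEq, List.head?_cons] at hx hy
  subst hx hy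
  exact sok_cross none (b := ((.H, .hd .root), 0, 0)) ul_root (valid_root (m := m)).1 valid_root.2

namespace Str

/-- Facts on the lock move. -/
theorem lock_facts {u v : List (Sk m)} {y z y' z' : Sk m} (h1 : T1sk c (u ++ [y]))
    (e : rootSk d = z :: v) (hf : Fwd y z y' z') :
    heads u = 0 ∧ heads v = 0 ∧ IsLock y z y' z' := by
  rw [rootSk_eq] at e
  obtain ⟨rfl, rfl⟩ := List.cons.inj e
  have hl := isLock_of_root hf rfl
  refine ⟨?_, heads_rootTl d, hl⟩
  obtain ⟨β, a1, -⟩ := hl
  have := h1.heads_eq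
  rw [heads_append, heads_cons, heads_nil, if_pos (by rw [a1]; rfl)] at this
  omega

theorem has_parent (h : T2sk c d g) : ∃ g₀, FwdW g₀ g := by
  cases h with
  | lock u v y z y' z' h1 e hf => exact ⟨_, u, v, y, z, y', z', hf, rfl, rfl⟩
  | step g₀ _ _ hs => exact ⟨g₀, hs⟩

omit [NeZero m] in
theorem not_hd_of_heads {u : List (Sk m)} (h : heads u = 0) {x : Sk m} (hx : x ∈ u) (q : Hd) :
    x.1.2 ≠ .hd q := fun hq =>
  List.countP_eq_zero.1 h x hx (by rw [hq]; rfl)

end Str

theorem T2sk.heads_eq (h : T2sk c d g) : heads g = 1 := by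
  induction h with
  | lock u v y z y' z' h1 e hf =>
    obtain ⟨a1, a2, β, -, -, a3, a4⟩ := lock_facts h1 e hf
    rw [heads_append, heads_cons, heads_cons, a1, a2, a3, a4]
    rfl
  | step g g' _ hs ih => exact hs.heads_eq ih

theorem T2sk.not_np (h : T2sk c d (u ++ a :: b :: v)) : ¬ NP a b := by
  obtain ⟨g₀, h₀⟩ := has_parent h
  exact FwdW.not_np h.heads_eq h₀

/-- Heads of locked pairs are not in the states `root`, `wrF`. -/
theorem T2sk.head_state (h : T2sk c d g) {x : Sk m} (hx : x ∈ g) :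
    x.1.2 ≠ .hd .root ∧ ∀ β, x.1.2 ≠ .hd (.wrF β) := by
  have hroot : ∀ {g : List (Sk m)}, T2sk c d g → ∀ {x : Sk m}, x ∈ g → x.1.2 ≠ .hd .root := by
    intro g h x hx
    obtain ⟨g₀, h₀⟩ := has_parent h
    exact no_root h₀ h.heads_eq hx
  refine ⟨hroot h hx, ?_⟩
  induction h generalizing x with
  | lock u v y z y' z' h1 e hf =>
    obtain ⟨a1, a2, β, -, -, a3, a4⟩ := lock_facts h1 e hf
    intro β'
    rcases List.mem_append.1 hx with hx | hx
    · exact not_hd_of_heads a1 hx _
    · rcases List.mem_cons.1 hx with rfl | hx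
      · rw [a3]
        exact fun h => Ctl.noConfusion h
      · rcases List.mem_cons.1 hx with rfl | hx
        · rw [a4]
          exact fun h => Hd.noConfusion (Ctl.hd.inj h)
        · exact not_hd_of_heads a2 hx _
  | step g g' h₀ hs ih =>
    obtain ⟨u, v, p, q, p', q', hf, rfl, rfl⟩ := hs
    intro β hβ
    have hp : p ∈ u ++ p :: q :: v := by simp
    have key : p'.1.2 = .hd (.wrF β) ∨ q'.1.2 = .hd (.wrF β) → False := fun hh => by
      rcases (hf.wrF β hh).2 with h2 | h2
      · exact hroot h₀ hp h2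
      · exact ih hp β h2
    rcases List.mem_append.1 hx with hx | hx
    · exact ih (List.mem_append_left _ hx) β hβ
    · rcases List.mem_cons.1 hx with rfl | hx
      · exact key (Or.inl hβ)
      · rcases List.mem_cons.1 hx with rfl | hx
        · exact key (Or.inr hβ)
        · exact ih (by simp [hx]) β hβ

theorem T2sk.last (hm : m0 ≤ m) (h : T2sk c d g) : ∃ g', g = g' ++ [eSk none] := by
  obtain ⟨s₀, e₀⟩ := rootSk_last d
  obtain ⟨s, z, e, hz⟩ := reach_last h.reach
    ⟨rootSk c ++ s₀, _, by rw [e₀, List.append_assoc], ue_eSk_none⟩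
  have hl : 2 ≤ g.length := by
    have := congrArg List.length h.map_ck
    rw [List.length_map, List.length_append, length_ckSeg] at this
    omega
  obtain ⟨t, y, -, e'⟩ := two_le e hl
  have hc := h.chain hm
  have hz' : z ∈ g := by rw [e]; simp
  have hs := h.head_state hz'
  rw [e'] at h hc
  obtain ⟨o, rfl⟩ := eq_eSk (sok_of_chain hc) h.not_np hz
  cases o with
  | none => exact ⟨s, e⟩
  | some β => exact (hs.2 β rfl).elim

theorem T2sk.first (h : T2sk c d (a :: v)) : UL a.1 := by
  obtain ⟨a', s, e, ha⟩ := reach_first h.reach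
    ⟨_, rootTl c ++ rootSk d, by rw [rootSk_eq c]; rfl, ul_root⟩
  obtain ⟨rfl, -⟩ := List.cons.inj e
  exact ha

theorem T2sk.mid (h : T2sk c d (u ++ a :: v)) (hu : u.length + 1 = 2 * m + 2) : ¬ UE a.1 := by
  have key : ∀ {g : List (Sk m)}, T2sk c d g → ∀ x, g[2 * m + 1]? = some x → ¬ UE x.1 := by
    intro g h
    induction h with
    | lock u v y z y' z' h1 e hf =>
      intro x hx
      have hl := t1_length h1
      rw [List.length_append, List.length_singleton] at hl
      have hl' : 2 * m + 1 = u.length := by omega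
      rw [hl'] at hx
      have : y' = x := by simpa using hx
      exact this ▸ hf.ue.1
    | step g g' _ hs ih =>
      intro x hx hux
      obtain ⟨x₀, h1, h2⟩ := fwdW_ue hs _ hx hux
      exact ih x₀ h1 h2
  refine key h a ?_
  have hl' : 2 * m + 1 = u.length := by omega
  rw [hl']
  simp

theorem T2sk.back (h : T2sk c d g) (h' : FwdW g' g) :
    T2sk c d g' ∨ ∃ g₁, T1sk c g₁ ∧ g' = g₁ ++ rootSk d := by
  have h1 := h.heads_eq
  cases h with
  | lock u v y z y' z' h₁ e hf =>
    right
    refine ⟨u ++ [y], h₁, ?_⟩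
    rw [FwdW.parent_unique h1 h' ⟨u, v, y, z, y', z', hf, rfl, rfl⟩, e]
    simp
  | step g₀ _ h₀ hs =>
    left
    rw [FwdW.parent_unique h1 h' hs]
    exact h₀

theorem T2sk.uniq (hm : m0 ≤ m) (h : T2sk c d g) (h' : T2sk c' d' g) : c = c' ∧ d = d' := by
  induction h with
  | lock u v y z y' z' h₁ e hf =>
    have hs : FwdW ((u ++ [y]) ++ rootSk d) (u ++ y' :: z' :: v) :=
      ⟨u, v, y, z, y', z', hf, by rw [e]; simp, rfl⟩
    rcases h'.back hs with h2 | ⟨g₁, h2, e2⟩
    · have := h2.heads_eq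
      rw [heads_append, h₁.heads_eq, heads_rootSk] at this
      omega
    · obtain ⟨e3, e4⟩ := List.append_inj e2 (by rw [t1_length h₁, t1_length h2])
      exact ⟨h₁.uniq hm (e3 ▸ h2), rootSk_inj hm e4⟩
  | step g₀ g₁ h₀ hs ih =>
    rcases h'.back hs with h2 | ⟨g₂, h2, e2⟩
    · exact ih h2
    · have := h₀.heads_eq
      rw [e2, heads_append, h2.heads_eq, heads_rootSk] at this
      omega

/-- No forbidden skeleton pair across an unlocked boundary. -/
theorem cross_ok (o : Option Bool) (hb : UL b.1) (hs : ∃ n, SOK b n) :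
    ¬ ForbSk (eSk o) b := by
  obtain ⟨n, hn⟩ := hs
  have hv : validF b.1 := hn.1.2.1
  rintro (h | h | h | h)
  · exact h (sok_cross o hb hv hn.2.1)
  · rcases h.hasPar with ⟨q, hq, hs⟩ | ⟨q, hq, hs⟩
    · obtain ⟨hk, hp⟩ := hb
      rw [hk] at hs
      rw [hq] at hp
      cases q with
      | root => exact absurd hs (by simp [side])
      | wrF β => exact hv.2.1 β hq hk
      | wr2 β => rcases hp with hp | hp | hp <;> exact Pos.noConfusion hp
      | pl => exact absurd hs (by simp [side])
      | pr β kp i ld s =>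
        cases s with
        | false => exact absurd hs (by simp [side])
        | true => rcases hp with hp | hp | hp <;> exact Pos.noConfusion hp
    · cases o with
      | none => exact Ctl.noConfusion hq
      | some β =>
        have := Ctl.hd.inj hq
        subst this
        exact absurd hs (by simp [side])
  · obtain ⟨β, h, -⟩ := h
    cases o <;> exact Cell.noConfusion (congrArg Prod.fst h)
  · obtain ⟨kp, -, h, -⟩ := h
    cases o <;> exact Bool.noConfusion h

end Mach

end Vale.Agent.P192
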