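import Vale.Agent.P192.Sys

/-!
P192, part A3: a zone of freely permutable distinct labels forces the vanishing property.
-/

namespace Vale.Agent.P192

namespace SysVanAux

theorem zip_fst_snd {α β : Type} (z : List (α × β)) : (z.map Prod.fst).zip (z.map Prod.snd) = z := by
  induction z with
  | nil => rfl
  | cons a z ih => simp [ih]

theorem eqv_zip {γ : Type} {m : ℕ} (S : Sys (γ × Fin m)) (isL : γ → Prop)
    (hswap : ∀ s s' i j, isL s → isL s' → S.Step (s, i) (s', j) (s, j) (s', i))
    {τ τ' : List (Fin m)} (h : τ.Perm τ') :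
    ∀ s : List γ, (∀ y ∈ s, isL y) → s.length = τ.length → S.Eqv (s.zip τ) (s.zip τ') := by
  induction h with
  | nil => intro s _ _; exact Sys.Eqv.refl _
  | cons i _ ih =>
    intro s hs hl
    match s, hs, hl with
    | [], _, hl => simp at hl
    | e :: s, hs, hl =>
      have := (ih s (fun y hy => hs y (List.mem_cons_of_mem _ hy)) (by simpa using hl)).context
        [(e, i)] []
      simpa using this
  | swap i j l =>
    intro s hs hl
    match s, hs, hl with
    | [], _, hl => simp at hl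
    | [_], _, hl => simp at hl
    | e :: e' :: s, hs, _ =>
      exact Sys.One.eqv ⟨[], s.zip l, (e, j), (e', i), (e, i), (e', j),
        hswap e e' j i (hs e (by simp)) (hs e' (by simp)), rfl, rfl⟩
  | trans h1 _ ih1 ih2 =>
    intro s hs hl
    exact (ih1 s hs hl).trans (ih2 s hs (hl.trans h1.length_eq))

section Ideals
variable {R : Type} [CommRing R]

theorem sup_pow_le (I J : Ideal R) (n : ℕ) :
    (I ⊔ J) ^ (n + 1) ≤ I ^ 2 ⊔ I * J ^ n ⊔ J ^ (n + 1) := by
  induction n with
  | zero =>
    simp only [zero_add, pow_one, pow_zero, mul_one]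
    exact sup_le (le_sup_of_le_left le_sup_right) le_sup_right
  | succ n ih =>
    rw [pow_succ' (I ⊔ J) (n + 1)]
    refine (Ideal.mul_mono_right ih).trans ?_
    rw [Ideal.mul_sup, Ideal.mul_sup, Ideal.sup_mul I J (I * J ^ n), Ideal.sup_mul I J (J ^ (n + 1))]
    refine sup_le (sup_le ?_ (sup_le ?_ ?_)) (sup_le ?_ ?_)
    · exact le_sup_of_le_left (le_sup_of_le_left Ideal.mul_le_right)
    · rw [← mul_assoc, ← pow_two]
      exact le_sup_of_le_left (le_sup_of_le_left Ideal.mul_le_left)
    · have : J * (I * J ^ n) = I * J ^ (n + 1) := by ring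
      rw [this]
      exact le_sup_of_le_left le_sup_right
    · exact le_sup_of_le_left le_sup_right
    · rw [← pow_succ']
      exact le_sup_right

theorem span_pow_le [DecidableEq R] (a : Ideal R) (G : Finset R) (hG : ∀ g ∈ G, g ^ 2 ∈ a) :
    Ideal.span (G : Set R) ^ (G.card + 1) ≤ a := by
  induction G using Finset.induction_on with
  | empty => simp
  | insert g G hg ih =>
    have ih' := ih fun x hx => hG x (Finset.mem_insert_of_mem hx)
    rw [Finset.card_insert_of_notMem hg, Finset.coe_insert, Ideal.span_insert]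
    refine (sup_pow_le _ _ _).trans (sup_le (sup_le ?_ ?_) ?_)
    · rw [Ideal.span_singleton_pow, Ideal.span_singleton_le_iff_mem]
      exact hG g (Finset.mem_insert_self _ _)
    · exact Ideal.mul_le_right.trans ih'
    · rw [pow_succ]
      exact Ideal.mul_le_left.trans ih'

variable {σ : Type} [Fintype σ] [DecidableEq σ]

/-- All entries lie in the ideal. -/
def Ent (b : Ideal R) (A : Matrix σ σ R) : Prop := ∀ x y, A x y ∈ b

theorem Ent.add {b : Ideal R} {A A' : Matrix σ σ R} (h : Ent b A) (h' : Ent b A') :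
    Ent b (A + A') := fun x y => b.add_mem (h x y) (h' x y)

theorem Ent.mul {b b' : Ideal R} {A A' : Matrix σ σ R} (h : Ent b A) (h' : Ent b' A') :
    Ent (b * b') (A * A') := fun x y => by
  rw [Matrix.mul_apply]
  exact Ideal.sum_mem _ fun z _ => Ideal.mul_mem_mul (h x z) (h' z y)

theorem Ent.mul_left {b : Ideal R} (A : Matrix σ σ R) {A' : Matrix σ σ R} (h' : Ent b A') :
    Ent b (A * A') := fun x y => by
  rw [Matrix.mul_apply]
  exact Ideal.sum_mem _ fun z _ => b.mul_mem_left _ (h' z y)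

theorem ent_wt {δ : Type} (r : δ → Bool) (b : Ideal R) (M : δ → Matrix σ σ R)
    (I : δ → δ → Matrix σ σ R) : ∀ (u : List δ), (∀ d ∈ u, r d = true → Ent b (M d)) →
    u.IsChain (fun d d' => (r d = true ∨ r d' = true) → Ent b (I d d')) →
    ∀ t : ℕ, 2 * t ≤ u.countP r → Ent (b ^ t) (wt M I u)
  | [], _, _, t, ht => by
    have : t = 0 := by simpa using ht
    subst this
    intro x y; simp
  | [d], _, _, t, ht => by
    have h1 : ([d] : List δ).countP r ≤ 1 := List.countP_le_length
    have : t = 0 := by omega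
    subst this
    intro x y; simp
  | d :: d' :: u, hM, hI, t, ht => by
    rcases t with _ | t
    · intro x y; simp
    rw [List.isChain_cons_cons] at hI
    have ih1 := ent_wt r b M I (d' :: u) (fun e he => hM e (List.mem_cons_of_mem _ he)) hI.2
    have ih2 := ent_wt r b M I u
      (fun e he => hM e (List.mem_cons_of_mem _ (List.mem_cons_of_mem _ he))) hI.2.tail
    simp only [List.countP_cons] at ht ih1
    rw [wt]
    refine Ent.add ?_ ?_
    · by_cases hd : r d = true
      · rw [pow_succ']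
        refine (hM d (by simp) hd).mul (ih1 t ?_)
        simp only [hd, if_true] at ht
        omega
      · refine Ent.mul_left _ (ih1 (t + 1) ?_)
        simpa [hd] using ht
    · by_cases hd : r d = true ∨ r d' = true
      · rw [pow_succ']
        refine (hI.1 hd).mul (ih2 t ?_)
        split_ifs at ht <;> omega
      · refine Ent.mul_left _ (ih2 (t + 1) ?_)
        push Not at hd
        simpa [hd.1, hd.2] using ht

end Ideals

section Expand
variable {γ : Type} {m : ℕ} {k : Type} [CommRing k] {σ : Type} [Fintype σ] [DecidableEq σ]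

/-- Matrices of polynomials. -/
abbrev BB (m : ℕ) (k : Type) [CommRing k] (σ : Type) : Type :=
  Matrix σ σ (MvPolynomial (Fin m) k)

/-- Expansion of one generalised letter. -/
noncomputable def ex : (γ × Fin m) ⊕ γ → (γ × Fin m → BB m k σ) → BB m k σ
  | Sum.inl a, g => g a
  | Sum.inr e, g => ∑ i, (MvPolynomial.X i : MvPolynomial (Fin m) k) • g (e, i)

theorem ex_add (d : (γ × Fin m) ⊕ γ) (g g' : γ × Fin m → BB m k σ) :
    ex d (fun a => g a + g' a) = ex d g + ex d g' := by
  cases d <;> simp [ex, Finset.sum_add_distrib]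

theorem ex_mul (d : (γ × Fin m) ⊕ γ) (g : γ × Fin m → BB m k σ) (A : BB m k σ) :
    ex d (fun a => g a * A) = ex d g * A := by
  cases d <;> simp [ex, Finset.sum_mul]

theorem mul_ex (d : (γ × Fin m) ⊕ γ) (g : γ × Fin m → BB m k σ) (A : BB m k σ) :
    ex d (fun a => A * g a) = A * ex d g := by
  cases d <;> simp [ex, Finset.mul_sum]

/-- Expansion of a generalised word. -/
noncomputable def E : List ((γ × Fin m) ⊕ γ) → (List (γ × Fin m) → BB m k σ) → BB m k σ
  | [], f => f []
  | d :: u, f => ex d (fun a => E u (fun w => f (a :: w)))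

theorem E_add (u : List ((γ × Fin m) ⊕ γ)) : ∀ f f' : List (γ × Fin m) → BB m k σ,
    E u (fun w => f w + f' w) = E u f + E u f' := by
  induction u with
  | nil => intro f f'; rfl
  | cons d u ih => intro f f'; simp only [E, ih, ex_add]

theorem mul_E (u : List ((γ × Fin m) ⊕ γ)) (A : BB m k σ) : ∀ f : List (γ × Fin m) → BB m k σ,
    E u (fun w => A * f w) = A * E u f := by
  induction u with
  | nil => intro f; rfl
  | cons d u ih => intro f; simp only [E, ih, mul_ex]

theorem wt_ex (M : γ × Fin m → BB m k σ) (I : γ × Fin m → γ × Fin m → BB m k σ) :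
    ∀ u : List ((γ × Fin m) ⊕ γ),
      wt (fun d => ex d M) (fun d d' => ex d (fun a => ex d' (I a))) u = E u (wt M I)
  | [] => rfl
  | [_] => rfl
  | d :: d' :: u => by
    rw [wt, wt_ex M I (d' :: u), wt_ex M I u]
    simp only [E, wt, E_add, mul_E, ex_add, ex_mul, mul_ex]

theorem E_inl (p : List (γ × Fin m)) (u : List ((γ × Fin m) ⊕ γ)) :
    ∀ f : List (γ × Fin m) → BB m k σ, E (p.map Sum.inl ++ u) f = E u (fun w => f (p ++ w)) := by
  induction p with
  | nil => intro f; rfl
  | cons a p ih => intro f; simp only [List.map_cons, List.cons_append, E, ex, ih]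

theorem wt_map {α B B' : Type} [Ring B] [Ring B'] (φ : B →+* B') (M : α → B) (I : α → α → B) :
    ∀ w : List α, wt (fun a => φ (M a)) (fun a b => φ (I a b)) w = φ (wt M I w)
  | [] => (map_one φ).symm
  | [_] => rfl
  | a :: b :: w => by
    rw [wt, wt, wt_map φ M I (b :: w), wt_map φ M I w, map_add, map_mul, map_mul]

/-- The squarefree exponent vector of a finite set. -/
noncomputable def ind (T : Finset (Fin m)) : Fin m →₀ ℕ :=
  Finsupp.equivFunOnFinite.symm fun i => if i ∈ T then 1 else 0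

theorem ind_apply (T : Finset (Fin m)) (i : Fin m) : ind T i = if i ∈ T then 1 else 0 := rfl

/-- The orderings of a finite set. -/
noncomputable def Arr (T : Finset (Fin m)) : Finset (List (Fin m)) :=
  T.toList.permutations.toFinset

theorem mem_Arr {T : Finset (Fin m)} {τ : List (Fin m)} :
    τ ∈ Arr T ↔ τ.Nodup ∧ τ.toFinset = T := by
  rw [Arr, List.mem_toFinset, List.mem_permutations]
  constructor
  · intro h
    exact ⟨h.nodup_iff.2 T.nodup_toList, by rw [List.toFinset_eq_of_perm _ _ h, T.toList_toFinset]⟩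
  · rintro ⟨h1, h2⟩
    exact List.perm_of_nodup_nodup_toFinset_eq h1 T.nodup_toList (by rw [h2, T.toList_toFinset])

theorem length_of_mem_Arr {T : Finset (Fin m)} {τ : List (Fin m)} (h : τ ∈ Arr T) :
    τ.length = T.card := by
  obtain ⟨h1, h2⟩ := mem_Arr.1 h
  rw [← h2, List.toFinset_card_of_nodup h1]

theorem sum_Arr {B : Type} [AddCommMonoid B] (T : Finset (Fin m)) (hT : T.Nonempty)
    (g : List (Fin m) → B) :
    ∑ τ ∈ Arr T, g τ = ∑ i ∈ T, ∑ τ ∈ Arr (T.erase i), g (i :: τ) := by
  have e : Arr T = T.biUnion fun i => (Arr (T.erase i)).image (i :: ·) := by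
    ext τ
    simp only [Finset.mem_biUnion, Finset.mem_image, mem_Arr]
    constructor
    · rintro ⟨h1, h2⟩
      match τ, h1, h2 with
      | [], _, h2 =>
        rw [← h2] at hT
        simp at hT
      | i :: τ, h1, h2 =>
        rw [List.nodup_cons] at h1
        refine ⟨i, by rw [← h2]; simp, τ, ⟨h1.2, ?_⟩, rfl⟩
        rw [← h2, List.toFinset_cons, Finset.erase_insert (by simpa using h1.1)]
    · rintro ⟨i, hi, τ', ⟨h1, h2⟩, rfl⟩
      refine ⟨List.nodup_cons.2 ⟨?_, h1⟩, ?_⟩
      · rw [← List.mem_toFinset, h2]; simp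
      · rw [List.toFinset_cons, h2, Finset.insert_erase hi]
  rw [e, Finset.sum_biUnion]
  · refine Finset.sum_congr rfl fun i _ => ?_
    rw [Finset.sum_image]
    intro a _ b _ h
    simpa using h
  · intro i _ j _ hij
    refine Finset.disjoint_left.2 fun τ h1 h2 => hij ?_
    obtain ⟨a, -, rfl⟩ := Finset.mem_image.1 h1
    obtain ⟨b, -, hb⟩ := Finset.mem_image.1 h2
    simp only [List.cons.injEq] at hb
    exact hb.1.symm

theorem coeff_E (q : List (γ × Fin m)) (x y : σ) (s : List γ) :
    ∀ (T : Finset (Fin m)) (f : List (γ × Fin m) → Matrix σ σ k), s.length = T.card →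
      MvPolynomial.coeff (ind T) (E (s.map Sum.inr ++ q.map Sum.inl)
        (fun w => ((f w).map MvPolynomial.C : BB m k σ)) x y) =
        ∑ τ ∈ Arr T, f (s.zip τ ++ q) x y := by
  induction s with
  | nil =>
    intro T f hT
    have hT' : T = ∅ := Finset.card_eq_zero.1 hT.symm
    subst hT'
    have h0 : ind (∅ : Finset (Fin m)) = 0 := by ext i; simp [ind_apply]
    have h1 : Arr (∅ : Finset (Fin m)) = {[]} := by simp [Arr]
    have h2 := E_inl (k := k) (σ := σ) q [] (fun w => ((f w).map MvPolynomial.C : BB m k σ))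
    rw [List.append_nil] at h2
    simp [h0, h1, h2, E]
  | cons e s ih =>
    intro T f hT
    have hne : T.Nonempty := Finset.card_pos.1 (by rw [← hT]; simp)
    rw [sum_Arr T hne]
    simp only [List.map_cons, List.cons_append, E, ex, Matrix.sum_apply, Matrix.smul_apply,
      smul_eq_mul, MvPolynomial.coeff_sum, MvPolynomial.coeff_X_mul', List.zip_cons_cons]
    have hs : (ind T).support = T := by ext i; simp [ind_apply]
    rw [hs, ← Finset.sum_filter, Finset.filter_mem_eq_inter, Finset.univ_inter]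
    refine Finset.sum_congr rfl fun i hi => ?_
    have he : ind T - Finsupp.single i 1 = ind (T.erase i) := by
      ext j
      by_cases hj : j = i
      · subst hj; simp [ind_apply, hi]
      · simp [ind_apply, hj]
    rw [he]
    exact ih (T.erase i) (fun w => f ((e, i) :: w)) (by
      rw [Finset.card_erase_of_mem hi, ← hT]; simp)

/-- The ideal generated by the squares of the variables. -/
noncomputable def sqI (m : ℕ) (k : Type) [CommRing k] : Ideal (MvPolynomial (Fin m) k) :=
  Ideal.span (Set.range fun i => (MvPolynomial.X i : MvPolynomial (Fin m) k) ^ 2)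

theorem coeff_sqI {r : MvPolynomial (Fin m) k} (hr : r ∈ sqI m k) (T : Finset (Fin m)) :
    MvPolynomial.coeff (ind T) r = 0 := by
  obtain ⟨c, rfl⟩ := Ideal.mem_span_range_iff_exists_fun.1 hr
  rw [MvPolynomial.coeff_sum]
  refine Finset.sum_eq_zero fun i _ => ?_
  rw [MvPolynomial.X_pow_eq_monomial, MvPolynomial.coeff_mul_monomial', if_neg]
  intro h
  have := h i
  rw [Finsupp.single_eq_same, ind_apply] at this
  split_ifs at this <;> omega

/-- The elements whose square lies in `sqI`. -/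
noncomputable def rtI (m : ℕ) (k : Type) [CommRing k] [CharP k 2] :
    Ideal (MvPolynomial (Fin m) k) where
  carrier := {r | r ^ 2 ∈ sqI m k}
  add_mem' {a b} ha hb := by
    show (a + b) ^ 2 ∈ sqI m k
    rw [CharTwo.add_sq]
    exact (sqI m k).add_mem ha hb
  zero_mem' := by
    show (0 : MvPolynomial (Fin m) k) ^ 2 ∈ sqI m k
    simp
  smul_mem' c a ha := by
    show (c * a) ^ 2 ∈ sqI m k
    rw [mul_pow]
    exact (sqI m k).mul_mem_left _ ha

theorem ent_inr [CharP k 2] (e : γ) (g : γ × Fin m → BB m k σ) :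
    Ent (rtI m k) (ex (Sum.inr e) g) := by
  intro x y
  simp only [ex, Matrix.sum_apply, Matrix.smul_apply, smul_eq_mul]
  refine Ideal.sum_mem _ fun i _ => Ideal.mul_mem_right _ _ ?_
  exact Ideal.subset_span (s := Set.range fun i => (MvPolynomial.X i : MvPolynomial (Fin m) k) ^ 2)
    ⟨i, rfl⟩

theorem ent_ex {b : Ideal (MvPolynomial (Fin m) k)} (d : (γ × Fin m) ⊕ γ)
    (g : γ × Fin m → BB m k σ) (hg : ∀ a, Ent b (g a)) : Ent b (ex d g) := by
  cases d with
  | inl a => exact hg a
  | inr e =>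
    intro x y
    simp only [ex, Matrix.sum_apply, Matrix.smul_apply, smul_eq_mul]
    exact Ideal.sum_mem _ fun i _ => Ideal.mul_mem_left _ _ (hg _ x y)

theorem isChain_of_mem {δ : Type} {Rl : δ → δ → Prop} :
    ∀ l : List δ, (∀ a ∈ l, ∀ b ∈ l, Rl a b) → l.IsChain Rl
  | [], _ => List.isChain_nil
  | [_], _ => List.isChain_singleton _
  | a :: b :: l, h => List.isChain_cons_cons.2 ⟨h a (by simp) b (by simp),
      isChain_of_mem (b :: l) fun x hx y hy =>
        h x (List.mem_cons_of_mem _ hx) y (List.mem_cons_of_mem _ hy)⟩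

theorem wt_mem [DecidableEq γ] {α R : Type} [CommRing R] (a rt : Ideal R)
    (hrt : ∀ r ∈ rt, r ^ 2 ∈ a) (s₀ : ℕ)
    (M' : α ⊕ γ → Matrix σ σ R) (I' : α ⊕ γ → α ⊕ γ → Matrix σ σ R)
    (hM' : ∀ e, Ent rt (M' (Sum.inr e))) (hI'l : ∀ e d, Ent rt (I' (Sum.inr e) d))
    (hI'r : ∀ e d, Ent rt (I' d (Sum.inr e))) (p q : List α) (s : List γ)
    (hm : 2 * ((s₀ + s₀ ^ 2 + 2) * Fintype.card σ ^ 2 + 1) ≤ s.length)
    (hc : s.toFinset.card ≤ s₀) :
    Ent a (wt M' I' (p.map Sum.inl ++ (s.map Sum.inr ++ q.map Sum.inl))) := by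
  classical
  have hne : s ≠ [] := by
    rintro rfl
    simp at hm
  obtain ⟨A1, hA1, hA1'⟩ : ∃ A1, Ent rt A1 ∧ ∀ a, p.getLast? = some a →
      I' (Sum.inl a) (Sum.inr (s.head hne)) = A1 := by
    cases p.getLast? with
    | none => exact ⟨0, fun x y => rt.zero_mem, fun a h => by simp at h⟩
    | some a => exact ⟨_, hI'r (s.head hne) (Sum.inl a), fun b h => by
        rw [Option.some.inj h]⟩
  obtain ⟨A2, hA2, hA2'⟩ : ∃ A2, Ent rt A2 ∧ ∀ a, q.head? = some a →
      I' (Sum.inr (s.getLast hne)) (Sum.inl a) = A2 := by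
    cases q.head? with
    | none => exact ⟨0, fun x y => rt.zero_mem, fun a h => by simp at h⟩
    | some a => exact ⟨_, hI'l (s.getLast hne) (Sum.inl a), fun b h => by
        rw [Option.some.inj h]⟩
  obtain ⟨Ms, hMs, hMe, h1, h2, h3, h4⟩ : ∃ Ms : Finset (Matrix σ σ R),
      Ms.card ≤ s₀ + s₀ ^ 2 + 2 ∧ (∀ A ∈ Ms, Ent rt A) ∧ A1 ∈ Ms ∧ A2 ∈ Ms ∧
      (∀ e ∈ s, M' (Sum.inr e) ∈ Ms) ∧ ∀ e ∈ s, ∀ e' ∈ s, I' (Sum.inr e) (Sum.inr e') ∈ Ms := by
    refine ⟨insert A1 (insert A2 (s.toFinset.image (fun e => M' (Sum.inr e)) ∪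
      (s.toFinset ×ˢ s.toFinset).image (fun e => I' (Sum.inr e.1) (Sum.inr e.2)))),
      ?_, ?_, by simp, by simp, ?_, ?_⟩
    · refine (Finset.card_insert_le _ _).trans (Nat.succ_le_succ ?_)
      refine (Finset.card_insert_le _ _).trans (Nat.succ_le_succ ?_)
      refine (Finset.card_union_le _ _).trans (Nat.add_le_add (Finset.card_image_le.trans hc) ?_)
      refine Finset.card_image_le.trans ?_
      rw [Finset.card_product, pow_two]
      exact Nat.mul_le_mul hc hc
    · intro A hA
      simp only [Finset.mem_insert, Finset.mem_union, Finset.mem_image] at hA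
      rcases hA with rfl | rfl | ⟨e, -, rfl⟩ | ⟨e, -, rfl⟩
      · exact hA1
      · exact hA2
      · exact hM' e
      · exact hI'l _ _
    · intro e he
      simp only [Finset.mem_insert, Finset.mem_union, Finset.mem_image]
      exact Or.inr (Or.inr (Or.inl ⟨e, List.mem_toFinset.2 he, rfl⟩))
    · intro e he e' he'
      simp only [Finset.mem_insert, Finset.mem_union, Finset.mem_image]
      exact Or.inr (Or.inr (Or.inr ⟨(e, e'), Finset.mem_product.2
        ⟨List.mem_toFinset.2 he, List.mem_toFinset.2 he'⟩, rfl⟩))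
  obtain ⟨G, hG, hG2, hb⟩ : ∃ G : Finset R, G.card ≤ (s₀ + s₀ ^ 2 + 2) * Fintype.card σ ^ 2 ∧
      (∀ g ∈ G, g ^ 2 ∈ a) ∧ ∀ A ∈ Ms, Ent (Ideal.span (G : Set R)) A := by
    refine ⟨(Ms ×ˢ (Finset.univ : Finset (σ × σ))).image fun c => c.1 c.2.1 c.2.2, ?_, ?_, ?_⟩
    · refine Finset.card_image_le.trans ?_
      rw [Finset.card_product, Finset.card_univ, Fintype.card_prod, ← pow_two]
      exact Nat.mul_le_mul_right _ hMs
    · intro g hg
      obtain ⟨c, hc, rfl⟩ := Finset.mem_image.1 hg
      exact hrt _ (hMe c.1 (Finset.mem_product.1 hc).1 _ _)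
    · intro A hA x y
      exact Ideal.subset_span (Finset.mem_coe.2 (Finset.mem_image.2
        ⟨(A, (x, y)), Finset.mem_product.2 ⟨hA, Finset.mem_univ _⟩, rfl⟩))
  have hl : ∀ l : List α, (l.map Sum.inl : List (α ⊕ γ)).IsChain
      (fun d d' => (d.isRight = true ∨ d'.isRight = true) →
        Ent (Ideal.span (G : Set R)) (I' d d')) := by
    intro l
    refine isChain_of_mem _ fun a ha b hb' hr => ?_
    obtain ⟨a, -, rfl⟩ := List.mem_map.1 ha
    obtain ⟨b, -, rfl⟩ := List.mem_map.1 hb'
    simp at hr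
  have hent := ent_wt Sum.isRight (Ideal.span (G : Set R)) M' I'
    (p.map Sum.inl ++ (s.map Sum.inr ++ q.map Sum.inl)) ?_ ?_ (G.card + 1) ?_
  · exact fun x y => span_pow_le a G hG2 (hent x y)
  · intro d hd hr
    simp only [List.mem_append, List.mem_map] at hd
    rcases hd with ⟨a, -, rfl⟩ | ⟨e, he, rfl⟩ | ⟨a, -, rfl⟩
    · simp at hr
    · exact hb _ (h3 e he)
    · simp at hr
  · refine List.isChain_append.2 ⟨hl p, List.isChain_append.2 ⟨?_, hl q, ?_⟩, ?_⟩
    · refine isChain_of_mem _ fun a ha b hb' _ => ?_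
      obtain ⟨a, ha', rfl⟩ := List.mem_map.1 ha
      obtain ⟨b, hb'', rfl⟩ := List.mem_map.1 hb'
      exact hb _ (h4 a ha' b hb'')
    · intro x hx y hy _
      rw [List.getLast?_map, List.getLast?_eq_some_getLast hne] at hx
      rw [List.head?_map] at hy
      simp only [Option.map_some, Option.mem_def, Option.some.injEq, Option.map_eq_some_iff]
        at hx hy
      obtain ⟨a, ha, rfl⟩ := hy
      subst hx
      rw [hA2' a ha]
      exact hb _ h2
    · intro x hx y hy _
      rw [List.getLast?_map] at hx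
      rw [List.head?_append, List.head?_map, List.head?_eq_some_head hne] at hy
      simp only [Option.map_some, Option.mem_def, Option.some.injEq, Option.map_eq_some_iff,
        Option.some_or] at hx hy
      obtain ⟨a, ha, rfl⟩ := hx
      subst hy
      rw [hA1' a ha]
      exact hb _ h1
  · have h1 : (s.map Sum.inr : List (α ⊕ γ)).countP Sum.isRight = s.length := by
      rw [List.countP_eq_length.2 (by simp), List.length_map]
    simp only [List.countP_append, h1]
    omega

theorem core [DecidableEq γ] [CharP k 2] (s₀ : ℕ)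
    (hm : 2 * ((s₀ + s₀ ^ 2 + 2) * Fintype.card σ ^ 2 + 1) ≤ m)
    (M : γ × Fin m → Matrix σ σ k) (I : γ × Fin m → γ × Fin m → Matrix σ σ k)
    (p q : List (γ × Fin m)) (s : List γ) (hs : s.length = m) (hc : s.toFinset.card ≤ s₀) :
    ∑ τ ∈ Arr (Finset.univ : Finset (Fin m)), wt M I (p ++ s.zip τ ++ q) = 0 := by
  let φ : Matrix σ σ k →+* BB m k σ := (MvPolynomial.C : k →+* MvPolynomial (Fin m) k).mapMatrix
  have hent := wt_mem (sqI m k) (rtI m k) (fun r hr => hr) s₀
    (fun d => ex d fun a => φ (M a)) (fun d d' => ex d (fun a => ex d' (fun b => φ (I a b))))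
    (fun e => ent_inr e _) (fun e _ => ent_inr e _)
    (fun e d => ent_ex d _ fun _ => ent_inr e _) p q s (hs ▸ hm) hc
  ext x y
  have h1 := coeff_sqI (hent x y) Finset.univ
  rw [wt_ex (fun a => φ (M a)) (fun a b => φ (I a b)), E_inl] at h1
  have h2 : (fun w => wt (fun a => φ (M a)) (fun a b => φ (I a b)) (p ++ w)) =
      fun w => (((fun w => wt M I (p ++ w)) w).map MvPolynomial.C : BB m k σ) := by
    funext w
    exact wt_map φ M I _
  rw [h2, coeff_E q x y s Finset.univ _ (by simpa using hs)] at h1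
  simpa only [Matrix.sum_apply, List.append_assoc, Matrix.zero_apply] using h1

end Expand

theorem kind_inv {γ : Type} {m : ℕ} (S : Sys (γ × Fin m)) (isL : γ → Prop)
    (hkind : ∀ a b a' b', S.Step a b a' b' → (isL a.1 ↔ isL a'.1) ∧ (isL b.1 ↔ isL b'.1))
    {w w' : List (γ × Fin m)} (h : S.Eqv w w') :
    w.map (fun a => isL a.1) = w'.map (fun a => isL a.1) := by
  induction h with
  | rel _ _ h =>
    obtain ⟨u, v, a, b, a', b', hs, rfl, rfl⟩ := h
    have := hkind a b a' b' hs
    simp [propext this.1, propext this.2]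
  | refl => rfl
  | symm _ _ _ ih => exact ih.symm
  | trans _ _ _ _ _ ih1 ih2 => exact ih1.trans ih2

end SysVanAux

open SysVanAux

/-- Labels of a zone can be permuted freely. -/
theorem eqv_of_perm {γ : Type} {m : ℕ} (S : Sys (γ × Fin m)) (isL : γ → Prop)
    (hswap : ∀ s s' i j, isL s → isL s' → S.Step (s, i) (s', j) (s, j) (s', i))
    {z z' : List (γ × Fin m)} (hL : ∀ y ∈ z, isL y.1) (h1 : z.map Prod.fst = z'.map Prod.fst)
    (h2 : (z.map Prod.snd).Perm (z'.map Prod.snd)) : S.Eqv z z' := by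
  have := eqv_zip S isL hswap h2 (z.map Prod.fst) (by simpa using fun a b h => hL (a, b) h)
    (by simp)
  rwa [zip_fst_snd, h1, zip_fst_snd] at this

/-- In an alive word of label cells the labels are distinct. -/
theorem nodup_labels {γ : Type} {m : ℕ} (S : Sys (γ × Fin m)) (isL : γ → Prop)
    (hswap : ∀ s s' i j, isL s → isL s' → S.Step (s, i) (s', j) (s, j) (s', i))
    (hforb : ∀ s s' i, isL s → isL s' → S.Forb (s, i) (s', i))
    {z : List (γ × Fin m)} (hz : S.Alive z) (hL : ∀ y ∈ z, isL y.1) :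
    (z.map Prod.snd).Nodup := by
  by_contra hn
  obtain ⟨i, hi⟩ := List.exists_duplicate_iff_not_nodup.2 hn
  obtain ⟨l, hl⟩ := (List.duplicate_iff_sublist.1 hi).exists_perm_append
  have hL' : ∀ y ∈ z.map Prod.fst, isL y := by simpa using fun a b h => hL (a, b) h
  have he := eqv_zip S isL hswap hl (z.map Prod.fst) hL' (by simp)
  rw [zip_fst_snd] at he
  have hlen : (z.map Prod.fst).length = ([i, i] ++ l).length := by rw [← hl.length_eq]; simp
  generalize z.map Prod.fst = s at he hL' hlen
  match s, he, hL', hlen with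
  | [], _, _, h => simp at h
  | [_], _, _, h => simp at h
  | e :: e' :: s, he, hL', _ =>
    exact hz _ he ⟨[], s.zip l, (e, i), (e', i), hforb e e' i (hL' e (by simp)) (hL' e' (by simp)),
      rfl⟩

theorem van_of_zone {γ : Type} [Finite γ] [DecidableEq γ] {m : ℕ} (S : Sys (γ × Fin m))
    (isL : γ → Prop)
    (hkind : ∀ a b a' b', S.Step a b a' b' → (isL a.1 ↔ isL a'.1) ∧ (isL b.1 ↔ isL b'.1))
    (hswap : ∀ s s' i j, isL s → isL s' → S.Step (s, i) (s', j) (s, j) (s', i))
    (hforb : ∀ s s' i, isL s → isL s' → S.Forb (s, i) (s', i))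
    (hzone : ∃ N : ℕ, ∀ w, S.Alive w → N ≤ w.length →
      ∃ p z q, w = p ++ z ++ q ∧ z.length = m ∧ ∀ y ∈ z, isL y.1)
    (s₀ : ℕ) (hshape : ∀ z, S.Alive z → (∀ y ∈ z, isL y.1) → (z.map Prod.fst).toFinset.card ≤ s₀)
    (k : Type) [CommRing k] [CharP k 2] (σ : Type) [Fintype σ] [DecidableEq σ]
    (hm : 2 * ((s₀ + s₀ ^ 2 + 2) * Fintype.card σ ^ 2 + 1) ≤ m) :
    S.Van (Matrix σ σ k) := by
  obtain ⟨N, hN⟩ := hzone
  refine ⟨N, fun M I w0 hw0 hl => ?_⟩
  obtain ⟨p0, z0, q0, rfl, hz0, hL0⟩ := hN w0 hw0 hl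
  have hdec : ∀ w ∈ S.cls (p0 ++ z0 ++ q0), ∃ p z q, w = p ++ z ++ q ∧ p.length = p0.length ∧
      z.length = m ∧ (∀ y ∈ z, isL y.1) ∧ S.Alive z := by
    intro w hw
    have he := Sys.mem_cls.1 hw
    have h1 := (kind_inv S isL hkind he).symm
    rw [List.map_append, List.map_append, List.map_eq_append_iff] at h1
    obtain ⟨pz, q, rfl, h2, -⟩ := h1
    rw [List.map_eq_append_iff] at h2
    obtain ⟨p, z, rfl, h3, h4⟩ := h2
    refine ⟨p, z, q, rfl, by simpa using congrArg List.length h3,
      by simpa [hz0] using congrArg List.length h4, fun y hy => ?_, (hw0.of_eqv he).factor⟩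
    have : isL y.1 ∈ z0.map (fun a => isL a.1) := h4 ▸ List.mem_map.2 ⟨y, hy, rfl⟩
    obtain ⟨a, ha, e⟩ := List.mem_map.1 this
    exact e ▸ hL0 a ha
  let blk : List (γ × Fin m) → Finset (List (γ × Fin m)) := fun w =>
    (Arr (Finset.univ : Finset (Fin m))).image fun τ => w.take p0.length ++
      (((w.drop p0.length).take m).map Prod.fst).zip τ ++ (w.drop p0.length).drop m
  have hblk : ∀ p z q : List (γ × Fin m), p.length = p0.length → z.length = m →
      blk (p ++ z ++ q) = (Arr (Finset.univ : Finset (Fin m))).image fun τ =>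
        p ++ (z.map Prod.fst).zip τ ++ q := by
    intro p z q hp hz
    simp only [blk]
    rw [List.append_assoc p z q, List.take_left' hp, List.drop_left' hp, List.take_left' hz,
      List.drop_left' hz]
  have hlen : ∀ τ ∈ Arr (Finset.univ : Finset (Fin m)), τ.length = m := fun τ hτ => by
    simpa using length_of_mem_Arr hτ
  have hsnd : ∀ z : List (γ × Fin m), z.length = m → (∀ y ∈ z, isL y.1) → S.Alive z →
      z.map Prod.snd ∈ Arr (Finset.univ : Finset (Fin m)) := by
    intro z hz hL ha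
    have hn := nodup_labels S isL hswap hforb ha hL
    refine mem_Arr.2 ⟨hn, Finset.eq_univ_of_card _ ?_⟩
    rw [List.toFinset_card_of_nodup hn]
    simpa using hz
  refine sum_eq_zero_of_blocks _ _ blk ?_ ?_ ?_ ?_
  · intro w hw
    obtain ⟨p, z, q, rfl, hp, hz, hL, ha⟩ := hdec w hw
    rw [hblk p z q hp hz]
    exact Finset.mem_image.2 ⟨z.map Prod.snd, hsnd z hz hL ha, by rw [zip_fst_snd]⟩
  · intro w hw w' hw'
    have he := Sys.mem_cls.1 hw
    obtain ⟨p, z, q, rfl, hp, hz, hL, ha⟩ := hdec w hw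
    rw [hblk p z q hp hz] at hw'
    obtain ⟨τ, hτ, rfl⟩ := Finset.mem_image.1 hw'
    refine Sys.mem_cls.2 (he.trans (Sys.Eqv.context ?_ p q))
    have h1 := mem_Arr.1 hτ
    have h2 := mem_Arr.1 (hsnd z hz hL ha)
    have := eqv_zip S isL hswap
      (List.perm_of_nodup_nodup_toFinset_eq h2.1 h1.1 (h2.2.trans h1.2.symm)) (z.map Prod.fst)
      (by simpa using fun a b h => hL (a, b) h) (by simp)
    rwa [zip_fst_snd] at this
  · intro w hw w' hw'
    obtain ⟨p, z, q, rfl, hp, hz, hL, ha⟩ := hdec w hw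
    rw [hblk p z q hp hz] at hw' ⊢
    obtain ⟨τ, hτ, rfl⟩ := Finset.mem_image.1 hw'
    rw [hblk p _ q hp (by simp [hz, hlen τ hτ]),
      List.map_fst_zip (by simp [hz, hlen τ hτ])]
  · intro w hw
    obtain ⟨p, z, q, rfl, hp, hz, hL, ha⟩ := hdec w hw
    rw [hblk p z q hp hz, Finset.sum_image]
    · exact core s₀ hm M I p q _ (by simpa using hz) (hshape z ha hL)
    · intro τ hτ τ' hτ' h
      have h1 : (z.map Prod.fst).zip τ = (z.map Prod.fst).zip τ' := by simpa using h
      have h2 := congrArg (List.map Prod.snd) h1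
      rwa [List.map_snd_zip (by simp [hz, hlen τ hτ]),
        List.map_snd_zip (by simp [hz, hlen τ' hτ'])] at h2

end Vale.Agent.P192
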