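import Vale.Agent.P192.MachRun
import Vale.Agent.P192.MachStruct
import Vale.Agent.P192.SysVan

/-!
P192, part M5: alive words are well formed.
-/

namespace Vale.Agent.P192

namespace Mach

variable {m : ℕ} [NeZero m]

set_option linter.unusedSectionVars false

theorem kind_H {k : Cell} (h : kindAdj .H k = true) : ∃ t, k = .D t := by
  cases k
  case D t => exact ⟨t, rfl⟩
  all_goals cases h

theorem kind_Lb {k : Cell} (h : kindAdj .Lb k = true) : k = .Lb ∨ k = .E := by
  cases k
  case Lb => exact Or.inl rfl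
  case E => exact Or.inr rfl
  all_goals cases h

theorem kind_toH {k : Cell} (h : kindAdj k .H = true) : k = .E := by
  cases k
  case E => rfl
  all_goals cases h

theorem side_none {q : Hd} {k : Cell} (h : side q k = none) : q = .root := by
  cases q
  case root => rfl
  case pr => simp only [side] at h; split_ifs at h
  all_goals cases h

theorem side_false {q : Hd} (h : side q .E = some false) :
    ¬ (pos (.hd q) = .R0 ∨ pos (.hd q) = .hf) := by
  rcases q with _ | _ | _ | ⟨_, _, _, _, _ | _⟩ | ⟨_, _, _, _, _ | _⟩ <;> simp [pos, side] at h ⊢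

theorem side_true {q : Hd} (h : side q .H = some true) (h' : ∀ β, q ≠ .wrF β) :
    ¬ (pos (.hd q) = .L0 ∨ pos (.hd q) = .hf ∨ pos (.hd q) = .h1) := by
  rcases q with _ | _ | _ | ⟨_, _, _, _, _ | _⟩ | ⟨_, _, _, _, _ | _⟩ <;>
    simp [pos, side] at h h' ⊢

theorem posIn_R {c c' : Ctl} (h : posIn (pos c) (pos c') = true)
    (hc : c = .R0 ∨ c = .R1 ∨ isHd c = true) : c' = .R0 ∨ c' = .R1 := by
  rcases c with _ | _ | _ | _ | (_ | _ | _ | ⟨_, _, _, _, _ | _⟩ | ⟨_, _, _, _, _ | _⟩) <;>
  rcases c' with _ | _ | _ | _ | (_ | _ | _ | ⟨_, _, _, _, _ | _⟩ | ⟨_, _, _, _, _ | _⟩) <;>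
    first
      | exact Or.inl rfl
      | exact Or.inr rfl
      | (cases h; done)
      | simp [isHd] at hc

omit [NeZero m] in
theorem lift_one (hm : m0 ≤ m) {w : List (Ltr m)} {u v : List (Sk m)} {c d c' d' : Sk m}
    (hw : w.map Prod.fst = u ++ c :: d :: v) (h : Fwd c d c' d' ∨ Fwd c' d' c d) :
    ∃ w' : List (Ltr m), w'.map Prod.fst = u ++ c' :: d' :: v ∧
      w'.map Prod.snd = w.map Prod.snd ∧ (mach m).Eqv w w' := by
  obtain ⟨u₁, w₁, rfl, rfl, h1⟩ := List.map_eq_append_iff.1 hw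
  obtain ⟨x, w₂, rfl, rfl, h2⟩ := List.map_eq_cons_iff.1 h1
  obtain ⟨y, v₁, rfl, rfl, rfl⟩ := List.map_eq_cons_iff.1 h2
  refine ⟨u₁ ++ (c', x.2) :: (d', y.2) :: v₁, by simp, by simp, Sys.Sym.eqv ?_ _ _⟩
  rcases h with h | h
  · exact Or.inl ((step_iff hm _ _ _ _).2 (Or.inl ⟨h, rfl, rfl⟩))
  · exact Or.inr ((step_iff hm _ _ _ _).2 (Or.inl ⟨h, rfl, rfl⟩))

/-- Forward moves lift to letters, keeping the labels. -/
theorem lift_fwd (hm : m0 ≤ m) {w : List (Ltr m)} {g' : List (Sk m)}
    (h : Relation.ReflTransGen FwdW (w.map Prod.fst) g') :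
    ∃ w' : List (Ltr m), w'.map Prod.fst = g' ∧ w'.map Prod.snd = w.map Prod.snd ∧
      (mach m).Eqv w w' := by
  induction h with
  | refl => exact ⟨w, rfl, rfl, Sys.Eqv.refl _⟩
  | tail _ h ih =>
    obtain ⟨w₁, h1, h2, h3⟩ := ih
    obtain ⟨u, v, c, d, c', d', hf, rfl, rfl⟩ := h
    obtain ⟨w₂, h4, h5, h6⟩ := lift_one hm h1 (Or.inl hf)
    exact ⟨w₂, h4, h5.trans h2, h3.trans h6⟩

theorem lift_back (hm : m0 ≤ m) {w : List (Ltr m)} {g' : List (Sk m)}
    (h : Relation.ReflTransGen FwdW g' (w.map Prod.fst)) :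
    ∃ w' : List (Ltr m), w'.map Prod.fst = g' ∧ w'.map Prod.snd = w.map Prod.snd ∧
      (mach m).Eqv w w' := by
  induction h using Relation.ReflTransGen.head_induction_on with
  | refl => exact ⟨w, rfl, rfl, Sys.Eqv.refl _⟩
  | head h _ ih =>
    obtain ⟨w₁, h1, h2, h3⟩ := ih
    obtain ⟨u, v, c, d, c', d', hf, rfl, rfl⟩ := h
    obtain ⟨w₂, h4, h5, h6⟩ := lift_one hm h1 (Or.inr hf)
    exact ⟨w₂, h4, h5.trans h2, h3.trans h6⟩

theorem mach_swap (hm : m0 ≤ m) (s s' : Sk m) (i j : Fin m) (h : s.1.1 = .Lb) (h' : s'.1.1 = .Lb) :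
    (mach m).Step (s, i) (s', j) (s, j) (s', i) :=
  (step_iff hm _ _ _ _).2 (Or.inr (Or.inr ⟨h, h', rfl, rfl, rfl, rfl⟩))

theorem mach_forb_eq (hm : m0 ≤ m) (s s' : Sk m) (i : Fin m) (h : s.1.1 = .Lb)
    (h' : s'.1.1 = .Lb) : (mach m).Forb (s, i) (s', i) :=
  (forb_iff hm _ _).2 (Or.inr fun hl => hl.2.2 h h' rfl)

omit [NeZero m] in
theorem alive_not_forbSk (hm : m0 ≤ m) {u v : List (Ltr m)} {a b : Ltr m}
    (h : (mach m).Alive (u ++ a :: b :: v)) : ¬ ForbSk a.1 b.1 :=
  fun hf => h.not_forb ((forb_iff hm _ _).2 (Or.inl hf))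

omit [NeZero m] in
theorem alive_sok (hm : m0 ≤ m) {u v : List (Ltr m)} {a b : Ltr m}
    (h : (mach m).Alive (u ++ a :: b :: v)) : SOK a.1 b.1 :=
  not_not.1 fun hs => alive_not_forbSk hm h (Or.inl hs)

omit [NeZero m] in
theorem alive_tail {a : Ltr m} {w : List (Ltr m)} (h : (mach m).Alive (a :: w)) :
    (mach m).Alive w :=
  Sys.Alive.factor (p := [a]) (q := []) (by simpa using h)

omit [NeZero m] in
theorem alive_chain (hm : m0 ≤ m) : ∀ {w : List (Ltr m)}, (mach m).Alive w →
    (w.map Prod.fst).IsChain SOK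
  | [], _ => by simp
  | [_], _ => by simp
  | a :: b :: w, h => by
    have := alive_chain hm (alive_tail h)
    simp only [List.map_cons, List.isChain_cons_cons] at this ⊢
    exact ⟨alive_sok hm (u := []) h, this⟩

theorem alive_labels_le (hm : m0 ≤ m) {z : List (Ltr m)} (hz : (mach m).Alive z)
    (hL : ∀ y ∈ z, y.1.1.1 = .Lb) : z.length ≤ m := by
  have := (nodup_labels (mach m) (fun s => s.1.1 = .Lb) (mach_swap hm) (mach_forb_eq hm)
    hz hL).length_le_card
  simpa using this

theorem pos_eq_R0 {c : Ctl} (h : pos c = .R0) : c = .R0 := by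
  rcases c with _ | _ | _ | _ | (_ | _ | _ | ⟨_, _, _, _, _ | _⟩ | ⟨_, _, _, _, _ | _⟩) <;>
    simp_all [pos]

omit [NeZero m] in
theorem next_R0 {c d : Sk m} (h : SOK c d) (hc : c.1.1 ≠ .E)
    (hp : pos c.1.2 = .R0 ∨ pos c.1.2 = .hf) : d.1.2 = .R0 := by
  have := h.1.2.2.2.1
  rw [if_neg hc] at this
  apply pos_eq_R0
  rcases hp with hp | hp <;> rw [hp] at this <;> generalize pos d.1.2 = q at this <;>
    cases q <;> simp_all [posIn]

theorem eq_base {x : Sk m} (h : UOK x) (h1 : isD x.1.1 = false) (h2 : isHd x.1.2 = false) :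
    x = (x.1, 0, 0) := by
  obtain ⟨f, a, r⟩ := x
  have e1 : a = 0 := Fin.ext (h.1 h1)
  have e2 : r = 0 := Fin.ext (h.2.1 (Or.inl h2))
  rw [e1, e2]

theorem tail_lab {z : Sk m} (hz : UE z.1) : ∀ (v : List (Sk m)) (x : Sk m), x.1 = (.Lb, .R0) →
    (x :: (v ++ [z])).IsChain SOK → (∀ y ∈ v, ¬ UE y.1) →
    x :: (v ++ [z]) = List.replicate (v.length + 1) ((.Lb, .R0), 0, 0) ++ [((.E, .R0), 0, 0)]
  | [], x, hx, hc, _ => by
    have hs : SOK x z := by simpa using hc
    have h1 := next_R0 hs (by simp [hx]) (Or.inl (by simp [hx, pos]))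
    have h2 : z.1 = (.E, .R0) := Prod.ext hz.1 h1
    have h3 := eq_base hs.2.1 (by simp [hx, isD]) (by simp [hx, isHd])
    have h4 := eq_base hs.2.2.1 (by simp [h2, isD]) (by simp [h2, isHd])
    rw [h3, h4, hx, h2]
    rfl
  | y :: v, x, hx, hc, hv => by
    rw [List.cons_append, List.isChain_cons_cons] at hc
    have hs := hc.1
    have h1 := next_R0 hs (by simp [hx]) (Or.inl (by simp [hx, pos]))
    have h2 : y.1 = (.Lb, .R0) := by
      refine Prod.ext ?_ h1
      have h5 := hs.1.1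
      have h6 : y.1.1 ≠ .E := fun e => hv y (by simp) ⟨e, Or.inl (by simp [h1, pos])⟩
      rw [hx] at h5
      exact (kind_Lb h5).resolve_right h6
    have h3 := eq_base hs.2.1 (by simp [hx, isD]) (by simp [hx, isHd])
    rw [List.cons_append, tail_lab hz v y h2 hc.2 fun t ht => hv t (by simp [ht]), h3, hx]
    rfl

theorem tail_data {z : Sk m} (hz : UE z.1) : ∀ (v : List (Sk m)) (x : Sk m) (o : Fin 4 → Sym),
    x.1 = (.D (.raw o), .R0) → (x :: (v ++ [z])).IsChain SOK → (∀ y ∈ v, ¬ UE y.1) →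
    ∃ (τ : ℕ → Fin 4 → Sym) (r : ℕ), 1 ≤ r ∧ τ x.2.1 = o ∧
      (∀ b, x.2.1.val ≤ b → b + 1 < m → ∀ i, stepS (τ b i) (τ (b + 1) i)) ∧
      (∀ i, τ (m - 1) i ≠ .bef) ∧
      (∀ b, x.2.1.val ≤ b → b < m → ∀ χ, τ b 0 = .mark χ → χ = 0 ∧ b < nF) ∧
      x :: (v ++ [z]) = ((List.finRange m).drop x.2.1).map
        (fun a => ((.D (.raw (τ a.val)), .R0), a, 0)) ++
        (List.replicate r ((.Lb, .R0), 0, 0) ++ [((.E, .R0), 0, 0)])
  | [], x, o, hx, hc, _ => by
    have hs : SOK x z := by simpa using hc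
    have h5 := hs.1.1
    rw [hx, hz.1] at h5
    cases h5
  | y :: v, x, o, hx, hc, hv => by
    rw [List.cons_append, List.isChain_cons_cons] at hc
    have hs := hc.1
    have h1 := next_R0 hs (by simp [hx]) (Or.inl (by simp [hx, pos]))
    have hv' : ∀ t ∈ v, ¬ UE t.1 := fun t ht => hv t (by simp [ht])
    have hxe : x = ((.D (.raw o), .R0), x.2.1, 0) := by
      obtain ⟨f, a, r⟩ := x
      have e2 : r = 0 := Fin.ext (hs.2.1.2.1 (Or.inl (by simp_all [isHd])))
      simp_all
    have hmk : ∀ χ, o 0 = .mark χ → χ = 0 ∧ x.2.1.val < nF := fun χ h =>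
      ⟨hs.1.2.1.2.2.2 o χ (by rw [hx]) h, hs.2.1.2.2 o χ (by rw [hx]) h⟩
    have hdrop : (List.finRange m).drop x.2.1 = x.2.1 :: (List.finRange m).drop (x.2.1 + 1) := by
      rw [List.drop_eq_getElem_cons (by simp)]
      simp
    have h5 := hs.1.1
    have h6 := hs.1.2.2.2.2
    obtain ⟨⟨k, ct⟩, ya, yr⟩ := y
    simp only at h1
    subst h1
    rw [hx] at h5 h6
    rcases k with _ | (o' | t) | _ | _
    · cases h5
    · have h7 : x.2.1.val + 1 = ya.val := hs.2.2.2.2.1 (by simp [hx, isD]) rfl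
      obtain ⟨τ, r, hr, e1, e2, e3, e4, e5⟩ := tail_data hz v _ o' rfl hc.2 hv'
      simp only at e1 e2 e4 e5
      have hlt := ya.2
      refine ⟨Function.update τ x.2.1 o, r, hr, Function.update_self _ _ _, fun b hb hb' i => ?_,
        fun i => ?_, fun b hb hb' χ => ?_, ?_⟩
      · rw [Function.update_of_ne (a := b + 1) (by omega)]
        rcases hb.eq_or_lt with rfl | hb
        · rw [Function.update_self, h7, e1]; exact h6 i
        · rw [Function.update_of_ne (by omega)]; exact e2 b (by omega) hb' i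
      · rw [Function.update_of_ne (by omega)]; exact e3 i
      · rcases hb.eq_or_lt with rfl | hb
        · rw [Function.update_self]; exact hmk χ
        · rw [Function.update_of_ne (by omega)]; exact e4 b (by omega) hb' χ
      · rw [List.cons_append, e5, hdrop, List.map_cons, Function.update_self, ← hxe, h7,
          List.cons_append]
        congr 2
        refine List.map_congr_left fun a ha => ?_
        obtain ⟨j, hj, rfl⟩ := List.mem_iff_getElem.1 ha
        rw [Function.update_of_ne (by simp; omega)]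
    · exact absurd h6 (by simp [rawOK])
    · have h7 : x.2.1.val + 1 = m := hs.2.2.2.2.2 (by simp [hx, isD]) rfl
      refine ⟨fun _ => o, v.length + 1, by omega, rfl, fun b hb hb' => by omega, h6,
        fun b hb hb' χ h => ?_, ?_⟩
      · have : b = x.2.1.val := by omega
        rw [this]; exact hmk χ h
      · rw [List.cons_append, tail_lab hz v _ rfl hc.2 hv', hdrop,
          List.drop_eq_nil_of_le (by simp; omega), List.map_cons, ← hxe]
        rfl
    · cases h5

theorem thermo {s : ℕ → Sym} (h0 : s 0 ≠ .aft) (h1 : ∀ b, b + 1 < m → stepS (s b) (s (b + 1)))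
    (h2 : s (m - 1) ≠ .bef) : ∃ p < m, ∃ χ : Col, s p = .mark χ ∧
      ∀ a < m, s a = enc m (p + m * χ.val) a := by
  have hm := NeZero.pos m
  classical
  have hex : ∃ p, s p ≠ .bef := ⟨_, h2⟩
  have hp := Nat.find_spec hex
  have hlt : ∀ a < Nat.find hex, s a = .bef := fun a ha => not_not.1 (Nat.find_min hex ha)
  have hle : Nat.find hex ≤ m - 1 := Nat.find_min' hex h2
  generalize Nat.find hex = p at hp hlt hle
  have haft : ∀ a, p < a → a < m → s a = .aft := by
    intro a ha
    induction a, ha using Nat.le_induction with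
    | base => exact fun h => ((h1 p h).resolve_left fun h => hp h.1).2
    | succ a ha ih =>
      intro h
      exact ((h1 a h).resolve_left fun h' => by rw [ih (by omega)] at h'; simp at h').2
  have hna : s p ≠ .aft := by
    rcases p with _ | p
    · exact h0
    · exact ((h1 p (by omega)).resolve_right fun h => h.1 (hlt p (by omega))).2
  obtain ⟨χ, hχ⟩ : ∃ χ, s p = .mark χ := by
    generalize s p = t at hp hna
    cases t <;> simp_all
  refine ⟨p, by omega, χ, hχ, fun a ha => ?_⟩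
  have e1 : (p + m * χ.val) % m = p := by
    rw [Nat.add_mul_mod_self_left, Nat.mod_eq_of_lt (by omega)]
  have e2 : (p + m * χ.val) / m = χ.val := by
    rw [Nat.add_mul_div_left _ _ hm, Nat.div_eq_of_lt (by omega), zero_add]
  rw [enc, e1, e2]
  split_ifs with c1 c2
  · exact hlt a c1
  · rw [c2, hχ]; simp
  · exact haft a (by omega) ha

/-- An alive word in root shape is the root form of a letter. -/
theorem root_parse (hm : m0 ≤ m) {a z : Ltr m} {g : List (Ltr m)}
    (hal : (mach m).Alive (a :: (g ++ [z]))) (ha : a.1.1 = (.H, .hd .root)) (hz : UE z.1.1)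
    (hg : ∀ x ∈ g, ¬ UE x.1.1) :
    ∃ c : Ltr (17 * m), (a :: (g ++ [z])).map Prod.fst = rootSk c := by
  have hc := alive_chain hm hal
  rcases g with _ | ⟨x, g⟩
  · have hs : SOK a.1 z.1 := by simpa using hc
    have h5 := hs.1.1
    rw [ha, hz.1] at h5
    cases h5
  simp only [List.cons_append, List.map_cons, List.map_append, List.map_nil,
    List.isChain_cons_cons] at hc
  have hs := hc.1
  have h1 := next_R0 hs (by simp [ha]) (Or.inr (by simp [ha, pos]))
  have h5 := hs.1.1
  have h6 := hs.1.2.2.2.2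
  have h7 : x.1.2.1.val = 0 := hs.2.2.2.1 (by rw [ha])
  obtain ⟨o, ho, ho'⟩ : ∃ o, x.1.1 = (.D (.raw o), .R0) ∧ ∀ i, o i ≠ .aft := by
    obtain ⟨⟨⟨k, ct⟩, xa, xr⟩, xl⟩ := x
    simp only at h1
    subst h1
    rw [ha] at h5 h6
    rcases k with _ | (o' | t) | _ | _
    · cases h5
    · exact ⟨o', rfl, h6⟩
    · exact absurd rfl h6
    · cases h5
    · cases h5
  obtain ⟨τ, r, hr, e1, e2, e3, e4, e5⟩ := tail_data hz (g.map Prod.fst) x.1 o ho hc.2 (by
    intro y hy
    obtain ⟨t, ht, rfl⟩ := List.mem_map.1 hy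
    exact hg t (by simp [ht]))
  rw [h7] at e1 e2 e4 e5
  choose p hp χ hχ hτ using fun i => thermo (m := m) (s := fun b => τ b i)
    (by rw [e1]; exact ho' i) (fun b hb => e2 b (Nat.zero_le _) hb i) (e3 i)
  have hae : a.1 = ((.H, .hd .root), 0, 0) := by
    obtain ⟨⟨f, aa, ar⟩, al⟩ := a
    have e6 : aa = 0 := Fin.ext (hs.2.1.1 (by simp_all [isD]))
    have e7 : ar = 0 := Fin.ext (hs.2.1.2.1 (Or.inr (by simp_all)))
    simp_all
  have hw : ((a :: (x :: g ++ [z])).map Prod.fst) = rootR r fun i => p i + m * (χ i).val := by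
    simp only [List.cons_append, List.map_cons, List.map_append, List.map_nil]
    rw [e5, hae, rootR, List.drop_zero]
    congr 2
    refine List.map_congr_left fun b _ => ?_
    rw [show τ b = fun i => enc m (p i + m * (χ i).val) b from funext fun i => hτ i b b.2]
  have hrm : r = m := by
    refine le_antisymm ?_ (not_lt.1 fun hlt => ?_)
    · rw [rootR] at hw
      obtain ⟨a', w₁, hw1, -, h2⟩ := List.map_eq_cons_iff.1 hw
      obtain ⟨w₂, w₃, rfl, -, h3⟩ := List.map_eq_append_iff.1 h2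
      obtain ⟨w₄, w₅, rfl, h4, -⟩ := List.map_eq_append_iff.1 h3
      rw [hw1] at hal
      have := alive_labels_le hm (Sys.Alive.factor (p := a' :: w₂) (w := w₄) (q := w₅)
        (by simpa using hal)) fun y hy => by
          have := List.mem_map_of_mem (f := Prod.fst) hy
          rw [h4] at this
          rw [List.eq_of_mem_replicate this]
      have h8 := congrArg List.length h4
      simp at h8
      omega
    · obtain ⟨u, v, b, b', h2, h3⟩ := short_zone hr hlt fun i => p i + m * (χ i).val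
      rw [← hw] at h2
      obtain ⟨w', h4, -, h8⟩ := lift_fwd hm h2
      obtain ⟨u₁, w₁, rfl, rfl, h9⟩ := List.map_eq_append_iff.1 h4
      obtain ⟨y, w₂, rfl, rfl, h10⟩ := List.map_eq_cons_iff.1 h9
      obtain ⟨y', v₁, rfl, rfl, rfl⟩ := List.map_eq_cons_iff.1 h10
      exact alive_not_forbSk hm (hal.of_eqv h8) (Or.inr (Or.inr (Or.inl h3)))
  have hlt : ∀ i, p i + m * (χ i).val < 17 * m := fun i => by
    have := hp i
    have := (χ i).2
    nlinarith
  obtain ⟨h8, h9⟩ := e4 (p 0) (Nat.zero_le _) (hp 0) _ (hχ 0)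
  obtain ⟨f, hf⟩ := exists_codeF h9
  refine ⟨((f, ⟨_, hlt 1⟩, ⟨_, hlt 2⟩), ⟨_, hlt 3⟩), ?_⟩
  rw [hw, hrm, rootSk]
  congr 1
  funext i
  fin_cases i <;> simp [num, hf, h8]

/-- Chains: an unlocked start letter, and an unlocked end letter exactly at the end. -/
def Ch (w : List (Ltr m)) : Prop :=
  (∀ x ∈ w.head?, UL x.1.1) ∧ (∀ x ∈ w.dropLast, ¬ UE x.1.1) ∧ ∀ x ∈ w.getLast?, UE x.1.1

omit [NeZero m] in
theorem exists_head (hm : m0 ≤ m) {z : Ltr m} (hz : UE z.1.1) : ∀ (g : List (Ltr m)) (a : Ltr m),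
    (mach m).Alive (a :: (g ++ [z])) → (a.1.1.2 = .L0 ∨ a.1.1.2 = .L1) →
    ∃ x ∈ g ++ [z], isHd x.1.1.2 = true := by
  have key : ∀ a b : Sk m, SOK a b → (a.1.2 = .L0 ∨ a.1.2 = .L1) → isHd b.1.2 = false →
      (b.1.2 = .L0 ∨ b.1.2 = .L1) := by
    intro a b hs ha hb
    have h1 := hs.1.2.2.2.1
    generalize b.1.2 = ct at h1 hb
    rcases ha with ha | ha <;> rw [ha] at h1 <;> split_ifs at h1 <;> cases ct <;>
      simp_all [pos, posIn, posX, isHd]
  intro g
  induction g with
  | nil =>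
    intro a hal ha
    by_contra hn
    have h1 := key _ _ (alive_sok hm (u := []) hal) ha (by simpa using hn)
    have h2 := hz.2
    rcases h1 with h1 | h1 <;> simp [h1, pos] at h2
  | cons y g ih =>
    intro a hal ha
    by_cases hy : isHd y.1.1.2 = true
    · exact ⟨y, by simp, hy⟩
    · obtain ⟨x, hx, hx'⟩ := ih y (alive_tail hal)
        (key _ _ (alive_sok hm (u := []) hal) ha (by simpa using hy))
      exact ⟨x, List.mem_cons_of_mem _ hx, hx'⟩

theorem ch_root (hm : m0 ≤ m) {a : Ltr m} {v : List (Ltr m)} (hal : (mach m).Alive (a :: v))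
    (ha : a.1.1 = (.H, .hd .root)) (h2 : ∀ x ∈ (a :: v).dropLast, ¬ UE x.1.1)
    (h3 : ∀ x ∈ (a :: v).getLast?, UE x.1.1) :
    ∃ c : Ltr (17 * m), (a :: v).map Prod.fst = rootSk c := by
  rcases v.eq_nil_or_concat' with rfl | ⟨g, z, rfl⟩
  · have := (h3 a (by simp)).1
    simp [ha] at this
  · refine root_parse hm hal ha (h3 z (by simp [List.getLast?_cons])) fun x hx => h2 x ?_
    rw [← List.cons_append, List.dropLast_concat]
    exact List.mem_cons_of_mem _ hx

/-- The induction measure. -/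
def msr (L : ℕ) (q : Hd) (k : ℕ) : ℕ := phase q * (L + 1) + if goesRight q then k else L - k

theorem msr_lt {L k k' : ℕ} {q q' : Hd} (hk : k ≤ L) (h : phase q < phase q') :
    msr L q k < msr L q' k' := by
  have h1 : (phase q + 1) * (L + 1) ≤ phase q' * (L + 1) := Nat.mul_le_mul_right _ h
  unfold msr
  split_ifs <;> nlinarith [Nat.sub_le L k, Nat.zero_le (L - k'), Nat.zero_le k']

theorem chain_aux (hm : m0 ≤ m) (L n : ℕ) : ∀ (u v : List (Ltr m)) (h : Ltr m) (q : Hd),
    (u ++ h :: v).length ≤ L → msr L q u.length = n → h.1.1.2 = .hd q →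
    (mach m).Alive (u ++ h :: v) → Ch (u ++ h :: v) →
    (∃ c, T1sk c ((u ++ h :: v).map Prod.fst)) ∨ ∃ c d, T2sk c d ((u ++ h :: v).map Prod.fst) := by
  induction n using Nat.strong_induction_on with
  | _ n ih =>
  -- the parent step
  have par : ∀ (u v : List (Ltr m)) (c' d' : Ltr m), (u ++ c' :: d' :: v).length ≤ L →
      (mach m).Alive (u ++ c' :: d' :: v) → Ch (u ++ c' :: d' :: v) → hasPar c'.1.1 d'.1.1 →
      (∀ q, c'.1.1.2 = .hd q → isHd d'.1.1.2 = false → msr L q u.length = n) →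
      (∀ q, d'.1.1.2 = .hd q → isHd c'.1.1.2 = false → msr L q (u.length + 1) = n) →
      (∃ c, T1sk c ((u ++ c' :: d' :: v).map Prod.fst)) ∨
        ∃ c d, T2sk c d ((u ++ c' :: d' :: v).map Prod.fst) := by
    intro u v c' d' hL hal hch hp hn1 hn2
    obtain ⟨c, d, hf⟩ := exists_parent (alive_sok hm hal) hp
      fun h => alive_not_forbSk hm hal (Or.inr (Or.inl h))
    have hal' : (mach m).Alive (u ++ (c, c'.2) :: (d, d'.2) :: v) := hal.of_eqv
      (Sys.Sym.eqv (Or.inr ((step_iff hm (c, c'.2) (d, d'.2) c' d').2 (Or.inl ⟨hf, rfl, rfl⟩))) _ _)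
    obtain ⟨u1, u2, u3, u4⟩ := hf.ue
    have hh := hf.heads.1
    simp only [List.length_append, List.length_cons] at hL
    have hd1 : ∀ x ∈ u, ¬ UE x.1.1 := fun x hx => hch.2.1 x (by simp [hx])
    have hd0 : ∀ t : List (Ltr m), ∀ x ∈ (u ++ (c, c'.2) :: t).head?, UL x.1.1 := by
      intro t x hx
      rcases u with _ | ⟨y, u⟩
      · obtain rfl : (c, c'.2) = x := by simpa using hx
        exact u3.2 (hch.1 c' (by simp))
      · exact hch.1 x (by simpa using hx)
    have hd2 : ∀ x ∈ ((d, d'.2) :: v).dropLast, ¬ UE x.1.1 := by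
      intro x hx
      rcases v with _ | ⟨y, v⟩
      · simp at hx
      · rcases List.mem_cons.1 (List.dropLast_cons_cons ▸ hx) with rfl | hx
        · exact fun h => hch.2.1 d' (by simp) (u2.1 h)
        · exact hch.2.1 x (by simp [hx])
    have hd3 : ∀ x ∈ ((d, d'.2) :: v).getLast?, UE x.1.1 := by
      intro x hx
      rcases v with _ | ⟨y, v⟩
      · obtain rfl : (d, d'.2) = x := by simpa using hx
        exact u2.2 (hch.2.2 d' (by simp))
      · exact hch.2.2 x (by simpa [List.getLast?_append, List.getLast?_cons_cons] using hx)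
    by_cases hc : UE c.1
    · obtain ⟨β, l1, l2, l3, l4⟩ := u4 hc
      have hlt : msr L (.wrF β) u.length < n := by
        rw [← hn2 (.wr2 β) (by rw [l4]) (by rw [l3]; rfl)]
        exact msr_lt (by omega) (by simp [phase])
      have hal1 : (mach m).Alive (u ++ [(c, c'.2)]) :=
        Sys.Alive.factor (p := []) (q := (d, d'.2) :: v) (by simpa using hal')
      have hal2 : (mach m).Alive ((d, d'.2) :: v) :=
        Sys.Alive.factor (p := u ++ [(c, c'.2)]) (q := []) (by simpa using hal')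
      obtain ⟨d₀, hd₀⟩ := ch_root hm hal2 l2 hd2 hd3
      rcases ih _ hlt u [] (c, c'.2) (.wrF β) (by simp; omega) rfl (by rw [l1]) hal1
        ⟨hd0 _, by simpa using hd1, by simpa using hc⟩ with ⟨c₀, h1⟩ | ⟨c₀, c₁, h1⟩
      · refine Or.inr ⟨c₀, d₀, ?_⟩
        simp only [List.map_append, List.map_cons, List.map_nil] at h1 hd₀ ⊢
        exact T2sk.lock _ _ _ _ _ _ h1 hd₀.symm hf
      · exact absurd (by rw [l1]) ((h1.head_state (x := c) (by simp)).2 β)
    · have hch' : Ch (u ++ (c, c'.2) :: (d, d'.2) :: v) := by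
        refine ⟨hd0 _, fun x hx => ?_, fun x hx => hd3 x ?_⟩
        · simp only [ne_eq, reduceCtorEq, not_false_eq_true, List.dropLast_append_of_ne_nil,
            List.dropLast_cons_cons, List.mem_append, List.mem_cons] at hx
          rcases hx with hx | rfl | hx
          · exact hd1 x hx
          · exact hc
          · exact hd2 x hx
        · simpa [List.getLast?_append, List.getLast?_cons_cons] using hx
      have hfw : FwdW ((u ++ (c, c'.2) :: (d, d'.2) :: v).map Prod.fst)
          ((u ++ c' :: d' :: v).map Prod.fst) := ⟨u.map Prod.fst, v.map Prod.fst, _, _, _, _, hf,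
            by simp, by simp⟩
      have hpar : (∃ c₀, T1sk c₀ ((u ++ (c, c'.2) :: (d, d'.2) :: v).map Prod.fst)) ∨
          ∃ c₀ d₀, T2sk c₀ d₀ ((u ++ (c, c'.2) :: (d, d'.2) :: v).map Prod.fst) := by
        rcases hf.progress with ⟨q, q', p1, p2, p3⟩ | ⟨q, q', p1, p2, -, p3⟩
        · refine ih _ ?_ u _ (c, c'.2) q (by simp; omega) rfl p1 hal' hch'
          rw [← hn2 q' p2 (by rw [hh, p2]; rfl)]
          rcases p3 with p3 | ⟨p3, p4, p5⟩
          · exact msr_lt (by omega) p3
          · simp [msr, p3, p4, p5]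
        · have e : u ++ (c, c'.2) :: (d, d'.2) :: v = (u ++ [(c, c'.2)]) ++ (d, d'.2) :: v := by
            simp
          rw [e] at hal' hch' ⊢
          refine ih _ ?_ _ _ (d, d'.2) q (by simp; omega) rfl p1 hal' hch'
          rw [← hn1 q' p2 (by rw [p2] at hh; simpa [isHd] using hh)]
          rcases p3 with p3 | ⟨p3, p4, p5⟩
          · exact msr_lt (by simp; omega) p3
          · simp [msr, p3, p4, p5]; omega
      rcases hpar with ⟨c₀, h1⟩ | ⟨c₀, d₀, h1⟩
      · exact Or.inl ⟨c₀, h1.tail hfw⟩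
      · exact Or.inr ⟨c₀, d₀, T2sk.step _ _ h1 hfw⟩
  intro u v h q hL hn hq hal hch
  have hval : validF h.1.1 := by
    rcases u.eq_nil_or_concat' with rfl | ⟨u, y, rfl⟩
    · rcases v with _ | ⟨y, v⟩
      · have h1 := (hch.1 h (by simp)).1
        have h2 := (hch.2.2 h (by simp)).1
        simp [h1] at h2
      · exact (alive_sok hm hal).1.2.1
    · exact (alive_sok hm (u := u) (a := y) (b := h) (v := v) (by simpa using hal)).1.2.2.1
  rcases hs : side q h.1.1.1 with _ | _ | _
  · obtain rfl := side_none hs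
    have hH := hval.1 hq
    rcases u.eq_nil_or_concat' with rfl | ⟨u, y, rfl⟩
    · obtain ⟨c, hc⟩ := ch_root hm hal (Prod.ext hH hq) hch.2.1 hch.2.2
      exact Or.inl ⟨c, by rw [List.nil_append, hc]; exact Relation.ReflTransGen.refl⟩
    · have h1 := alive_sok hm (u := u) (a := y) (b := h) (v := v) (by simpa using hal)
      have h2 := h1.1.1
      have h3 := h1.1.2.2.2.1
      have h4 : y.1.1.1 = .E := by
        rw [hH] at h2
        exact kind_toH h2
      refine absurd ⟨h4, ?_⟩ (hch.2.1 y (by simp))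
      rw [if_pos h4, hq] at h3
      generalize pos y.1.1.2 = k at h3
      cases k <;> first | exact Or.inl rfl | exact Or.inr rfl | cases h3
  · rcases v with _ | ⟨y, v⟩
    · obtain ⟨h0, h1⟩ := hch.2.2 h (by simp)
      rw [hq] at h1
      rw [h0] at hs
      exact absurd h1 (side_false hs)
    · refine par u v h y hL hal hch (Or.inr ⟨q, hq, hs⟩) (fun q' h1 _ => ?_) fun q' _ h2 => ?_
      · rw [hq] at h1
        cases h1
        exact hn
      · simp [hq, isHd] at h2
  · rcases u.eq_nil_or_concat' with rfl | ⟨u, y, rfl⟩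
    · obtain ⟨h1, h2⟩ := hch.1 h (by simp)
      rw [hq] at h2
      rw [h1] at hs
      exact absurd h2 (side_true hs fun β e => hval.2.1 β (by rw [hq, e]) h1)
    · have e : u ++ [y] ++ h :: v = u ++ y :: h :: v := by simp
      rw [e] at hL hal hch ⊢
      refine par u v y h hL hal hch (Or.inl ⟨q, hq, hs⟩) (fun q' _ h2 => ?_) fun q' h1 _ => ?_
      · simp [hq, isHd] at h2
      · rw [hq] at h1
        cases h1
        simpa using hn

/-- An alive chain belongs to a tree. -/
theorem chain_parse (hm : m0 ≤ m) {a z : Ltr m} {g : List (Ltr m)}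
    (hal : (mach m).Alive (a :: (g ++ [z]))) (ha : UL a.1.1) (hz : UE z.1.1)
    (hg : ∀ x ∈ g, ¬ UE x.1.1) :
    (∃ c, T1sk c ((a :: (g ++ [z])).map Prod.fst)) ∨
      ∃ c d, T2sk c d ((a :: (g ++ [z])).map Prod.fst) := by
  have hch : Ch (a :: (g ++ [z])) := by
    refine ⟨by simpa using ha, fun x hx => ?_, by simpa [List.getLast?_cons] using hz⟩
    rw [← List.cons_append, List.dropLast_concat] at hx
    rcases List.mem_cons.1 hx with rfl | hx
    · intro h
      have := h.1
      simp [ha.1] at this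
    · exact hg x hx
  obtain ⟨x, hx, hx'⟩ : ∃ x ∈ a :: (g ++ [z]), isHd x.1.1.2 = true := by
    by_cases h : isHd a.1.1.2 = true
    · exact ⟨a, by simp, h⟩
    · obtain ⟨x, hx, hx'⟩ := exists_head hm hz g a hal (by
        have := ha.2
        generalize a.1.1.2 = ct at h this
        cases ct <;> simp_all [pos, isHd])
      exact ⟨x, List.mem_cons_of_mem _ hx, hx'⟩
  obtain ⟨u, v, e⟩ := List.append_of_mem hx
  obtain ⟨q, hq⟩ : ∃ q, x.1.1.2 = .hd q := by
    generalize x.1.1.2 = ct at hx'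
    cases ct <;> simp_all [isHd]
  rw [e] at hal hch ⊢
  exact chain_aux hm _ _ u v x q le_rfl rfl hq hal hch

def lvl : Pos → ℕ
  | .L1 => 1
  | .h2 => 1
  | .R0 => 1
  | _ => 0

def cval (m a : ℕ) : Cell → ℕ
  | .H => 0
  | .D _ => 1 + a
  | .Lb => m + 1
  | .E => m + 2

/-- A potential which increases along neighbours. -/
def psi (c : Sk m) : ℕ := lvl (pos c.1.2) * (m + 3) + cval m c.2.1.val c.1.1

omit [NeZero m] in
theorem psi_lt (c : Sk m) : psi c < 2 * (m + 3) := by
  have h1 : lvl (pos c.1.2) ≤ 1 := by cases pos c.1.2 <;> simp [lvl]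
  have h2 : cval m c.2.1.val c.1.1 ≤ m + 2 := by
    have := c.2.1.2
    cases c.1.1 <;> simp [cval]
    omega
  have := Nat.mul_le_mul_right (m + 3) h1
  unfold psi
  omega

omit [NeZero m] in
theorem psi_step {c d : Sk m} (hs : SOK c d) (hc : ¬ UE c.1) :
    psi c < psi d ∨ (psi c ≤ psi d ∧ c.1.1 = .Lb ∧ d.1.1 = .Lb) := by
  obtain ⟨⟨h1, -, -, h2, -⟩, -, -, h3, h4, h5⟩ := hs
  unfold psi
  by_cases hE : c.1.1 = .E
  · rw [if_pos hE] at h2
    have h6 : lvl (pos c.1.2) = 0 ∧ lvl (pos d.1.2) = 1 := by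
      simp only [UE, hE, true_and] at hc
      generalize pos c.1.2 = p at h2 hc
      generalize pos d.1.2 = p' at h2
      cases p <;> cases p' <;> simp_all [posX, lvl]
    rw [h6.1, h6.2, hE]
    left
    simp only [cval]
    omega
  · rw [if_neg hE] at h2
    have h6 : lvl (pos c.1.2) ≤ lvl (pos d.1.2) := by
      generalize pos c.1.2 = p at h2
      generalize pos d.1.2 = p' at h2
      cases p <;> cases p' <;> simp_all [posIn, lvl]
    have h7 := Nat.mul_le_mul_right (m + 3) h6
    generalize c.1.1 = k at *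
    generalize d.1.1 = k' at *
    cases k <;> cases k' <;> cases h1
    all_goals simp only [cval, isD, reduceCtorEq, and_false, or_false, forall_const,
      and_true, not_true_eq_false] at h3 h4 h5 hE ⊢
    all_goals omega

theorem alive_bound (hm : m0 ≤ m) :
    ∃ N : ℕ, ∀ w, (mach m).Alive w → (∀ a ∈ w, ¬ UE a.1.1) → w.length ≤ N := by
  have hrun : ∀ w, (mach m).Alive w →
      (w.takeWhile fun y : Ltr m => decide (y.1.1.1 = .Lb)).length ≤ m := fun w hw =>
    alive_labels_le hm (Sys.Alive.factor (p := [])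
      (q := w.dropWhile fun y : Ltr m => decide (y.1.1.1 = .Lb)) (by simpa using hw))
      fun y hy => by simpa using List.mem_takeWhile_imp hy
  have key : ∀ (w : List (Ltr m)) (x : Ltr m), (mach m).Alive (x :: w) →
      (∀ a ∈ x :: w, ¬ UE a.1.1) → (x :: w).length ≤ (2 * (m + 3) - psi x.1) * (m + 1) +
        ((x :: w).takeWhile fun y : Ltr m => decide (y.1.1.1 = .Lb)).length := by
    intro w
    induction w with
    | nil =>
      intro x _ _
      have h1 : 1 ≤ 2 * (m + 3) - psi x.1 := by have := psi_lt x.1; omega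
      have := Nat.mul_le_mul_right (m + 1) h1
      simp only [List.length_singleton]
      omega
    | cons y w ih =>
      intro x hal hU
      have h1 := ih y (alive_tail hal) fun a ha => hU a (List.mem_cons_of_mem _ ha)
      have h2 := hrun _ (alive_tail hal)
      rw [List.length_cons]
      rcases psi_step (alive_sok hm (u := []) hal) (hU x (by simp)) with h | ⟨h, hx, -⟩
      · have h3 : 2 * (m + 3) - psi y.1 + 1 ≤ 2 * (m + 3) - psi x.1 := by
          have := psi_lt y.1; omega
        have := Nat.mul_le_mul_right (m + 1) h3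
        rw [add_mul] at this
        omega
      · have h3 : 2 * (m + 3) - psi y.1 ≤ 2 * (m + 3) - psi x.1 := by omega
        have := Nat.mul_le_mul_right (m + 1) h3
        rw [List.takeWhile_cons_of_pos (by simpa using hx), List.length_cons (a := x)]
        omega
  refine ⟨2 * (m + 3) * (m + 1) + m, fun w hw hU => ?_⟩
  rcases w with _ | ⟨x, w⟩
  · simp
  · have h1 := key w x hw hU
    have h2 := hrun _ hw
    have := Nat.mul_le_mul_right (m + 1) (Nat.sub_le (2 * (m + 3)) (psi x.1))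
    omega

omit [NeZero m] in
theorem zone_heads (l : List (Sk m)) : ∀ x : Sk m, (x :: l).IsChain SOK →
    (∀ y ∈ x :: l, y.1.1 = .Lb) → (x :: l).countP (fun c => isHd c.1.2) ≤ 1 ∧
      ((x.1.2 = .R0 ∨ x.1.2 = .R1) → (x :: l).countP (fun c => isHd c.1.2) = 0) := by
  induction l with
  | nil =>
    intro x _ _
    refine ⟨List.countP_le_length, fun h => ?_⟩
    rcases h with h | h <;> simp [h, isHd]
  | cons y l ih =>
    intro x hc hL
    rw [List.isChain_cons_cons] at hc
    obtain ⟨h1, h2⟩ := ih y hc.2 fun t ht => hL t (List.mem_cons_of_mem _ ht)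
    have h3 := hc.1.1.2.2.2.1
    rw [if_neg (by simp [hL x])] at h3
    have h4 := posIn_R h3
    rw [List.countP_cons]
    constructor
    · split_ifs with h
      · rw [h2 (h4 (Or.inr (Or.inr h)))]
      · exact h1
    · intro h
      rw [h2 (h4 (h.imp_right Or.inl)), if_neg]
      rcases h with h | h <;> simp [h, isHd]

theorem chain_uok : ∀ {l : List (Sk m)}, l.IsChain SOK → 2 ≤ l.length → ∀ x ∈ l, UOK x
  | [], _, h => by simp at h
  | [_], _, h => by simp at h
  | [a, b], hc, _ => by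
    have hs : SOK a b := by simpa using hc
    simpa using ⟨hs.2.1, hs.2.2.1⟩
  | a :: b :: c :: l, hc, _ => by
    rw [List.isChain_cons_cons] at hc
    intro x hx
    rcases List.mem_cons.1 hx with rfl | hx
    · exact hc.1.2.1
    · exact chain_uok hc.2 (by simp) x hx

open Classical in
theorem zone_shapes (hm : m0 ≤ m) {z : List (Ltr m)} (hz : (mach m).Alive z)
    (hL : ∀ y ∈ z, y.1.1.1 = .Lb) : (z.map Prod.fst).toFinset.card ≤ nF + 2 := by
  have hc := alive_chain hm hz
  have hL' : ∀ y ∈ z.map Prod.fst, y.1.1 = .Lb := by simpa using hL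
  generalize z.map Prod.fst = l at hc hL'
  by_cases h2 : 2 ≤ l.length
  swap
  · have := l.toFinset_card_le
    omega
  obtain ⟨U, hU, hU'⟩ : ∃ U : Finset F, (∀ f, f ∈ U) ∧ U.card = nF :=
    ⟨Finset.univ, Finset.mem_univ, by rw [Finset.card_univ, nF, Nat.card_eq_fintype_card]⟩
  have h3 : l.toFinset ⊆ U.image (fun f : F => ((f, 0, 0) : Sk m)) ∪
      (l.filter fun c => isHd c.1.2).toFinset := by
    intro x hx
    rw [List.mem_toFinset] at hx
    by_cases h : isHd x.1.2 = true
    · exact Finset.mem_union_right _ (List.mem_toFinset.2 (List.mem_filter.2 ⟨hx, h⟩))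
    · exact Finset.mem_union_left _ (Finset.mem_image.2 ⟨x.1, hU _,
        (eq_base (chain_uok hc h2 x hx) (by rw [hL' x hx]; rfl) (by simpa using h)).symm⟩)
  have h4 := (Finset.card_le_card h3).trans (Finset.card_union_le _ _)
  have h5 : (U.image (fun f : F => ((f, 0, 0) : Sk m))).card ≤ nF :=
    Finset.card_image_le.trans hU'.le
  have h6 := (l.filter fun c => isHd c.1.2).toFinset_card_le
  rw [← List.countP_eq_length_filter] at h6
  rcases l with _ | ⟨x, l⟩
  · simp at h2
  · have := (zone_heads l x hc hL').1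
    omega

end Mach

end Vale.Agent.P192
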