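import Vale.Agent.P192.Sys

/-!
P192, part A4: the self-simulating family of rewriting systems `mach m`.
A letter of level `m` is `((f, a, r), l)`: finite part, address, register, label.
-/

namespace Vale.Agent.P192

namespace Mach

/-- Colours of marks; numbers of the next level are `a + m * colour`. -/
abbrev Col := Fin 17

/-- Thermometer symbols on a track: before the mark, the mark, after the mark. -/
inductive Sym
  | bef | mark (c : Col) | aft
  deriving DecidableEq, Fintype

/-- Tracks of a written data cell: `none` is the row code track, `some (set, i)` holds field `i`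
of the old letter (`set = false`) or of the new letter (`set = true`). -/
abbrev Trk := Option (Bool × Fin 4)

/-- A track of the left (`false`) or right (`true`) segment. -/
abbrev Slot := Bool × Trk

inductive Base
  | tt | eq | succ | mz | look (i : Fin 7)
  deriving DecidableEq, Fintype

/-- A relation symbol with a negation flag. -/
abbrev Rel := Bool × Base

/-- A binary constraint between two slots. -/
abbrev Con := Slot × Slot × Rel

instance instDecEqCon : DecidableEq Con := inferInstance
instance instFintypeCon : Fintype Con := inferInstance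

/-- Kind (`true` rule, `false` kill) and constraint vector. -/
abbrev KP := Bool × (Fin 14 → Con)

instance instDecEqKP : DecidableEq KP := inferInstance
instance instFintypeKP : Fintype KP := inferInstance

inductive Tape
  | raw (o : Fin 4 → Sym) | wr (t : Trk → Sym)
  deriving DecidableEq, Fintype

inductive Cell
  | H | D (t : Tape) | Lb | E
  deriving DecidableEq, Fintype

/-- Head states.  The last Boolean of `pl`, `pr` is the segment (`false` left, `true` right). -/
inductive Hd
  | root
  | wrF (β : Bool)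
  | wr2 (β : Bool)
  | pl (β : Bool) (kp : KP) (i : Fin 14) (χ : Col) (s : Bool)
  | pr (β : Bool) (kp : KP) (i : Fin 14) (ld : Option Col) (s : Bool)
  deriving DecidableEq, Fintype

inductive Ctl
  | L0 | L1 | R0 | R1 | hd (q : Hd)
  deriving DecidableEq, Fintype

/-- Finite part of a letter. -/
abbrev F := Cell × Ctl

/-- Rows of the table. -/
abbrev Row := KP × (Fin 4 → F)

noncomputable def codeF (f : F) : ℕ := (Finite.equivFin F f).val
noncomputable def codeR (r : Row) : ℕ := (Finite.equivFin Row r).val
noncomputable def nF : ℕ := Nat.card F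
noncomputable def nR : ℕ := Nat.card Row
/-- Least admissible level. -/
noncomputable def m0 : ℕ := nF + nR + 1

def isD : Cell → Bool
  | .D _ => true
  | _ => false

def isHd : Ctl → Bool
  | .hd _ => true
  | _ => false

/-- Symbol of a cell on a track (only written data cells carry marks for the passes). -/
def symAt : Cell → Trk → Sym
  | .D (.wr t), tr => t tr
  | _, _ => .aft

def stepS (s s' : Sym) : Prop := (s = .bef ∧ s' ≠ .aft) ∨ (s ≠ .bef ∧ s' = .aft)

instance (s s' : Sym) : Decidable (stepS s s') := by unfold stepS; infer_instance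

/-- The original content of a written cell. -/
def orig (β : Bool) (t : Trk → Sym) : Fin 4 → Sym := fun i => t (some (β, i))

def kindAdj : Cell → Cell → Bool
  | .H, .D _ => true
  | .D _, .D _ => true
  | .D _, .Lb => true
  | .Lb, .Lb => true
  | .Lb, .E => true
  | .E, .H => true
  | _, _ => false

inductive Pos
  | L0 | L1 | R0 | R1 | hf | h1 | h2
  deriving DecidableEq

def pos : Ctl → Pos
  | .L0 => .L0
  | .L1 => .L1
  | .R0 => .R0
  | .R1 => .R1
  | .hd .root => .hf
  | .hd (.wrF _) => .hf
  | .hd (.wr2 _) => .h2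
  | .hd (.pl _ _ _ _ s) => if s then .h2 else .h1
  | .hd (.pr _ _ _ _ s) => if s then .h2 else .h1

/-- Allowed neighbours inside a segment. -/
def posIn : Pos → Pos → Bool
  | .L0, .L0 => true
  | .L0, .hf => true
  | .hf, .R0 => true
  | .L0, .h1 => true
  | .h1, .R1 => true
  | .R1, .R1 => true
  | .L1, .L1 => true
  | .L1, .h2 => true
  | .h2, .R0 => true
  | .R0, .R0 => true
  | _, _ => false

/-- Allowed neighbours across a segment boundary. -/
def posX : Pos → Pos → Bool
  | .R0, .L0 => true
  | .R0, .hf => true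
  | .R0, .h1 => true
  | .hf, .L0 => true
  | .hf, .hf => true
  | .hf, .h1 => true
  | .L0, .L1 => true
  | .L0, .h2 => true
  | .R1, .R0 => true
  | .h1, .R0 => true
  | _, _ => false

def validF (f : F) : Prop :=
  (f.2 = .hd .root → f.1 = .H) ∧ (∀ β, f.2 = .hd (.wrF β) → f.1 ≠ .H) ∧
    (f.1 = .E → pos f.2 ≠ .L1 ∧ pos f.2 ≠ .h2) ∧
    (∀ o χ, f.1 = .D (.raw o) → o 0 = .mark χ → χ = 0)

def rawOK : F → F → Prop
  | (.H, _), (.D (.raw o), _) => ∀ i, o i ≠ .aft
  | (.H, c), (.D (.wr _), _) => c ≠ .hd .root
  | (.D (.raw o), _), (.D (.raw o'), _) => ∀ i, stepS (o i) (o' i)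
  | (.D (.raw _), _), (.D (.wr _), _) => False
  | (.D (.raw o), _), (.Lb, _) => ∀ i, o i ≠ .bef
  | _, _ => True

/-- Finite part of the static conditions on neighbours. -/
def adjF (f f' : F) : Prop :=
  kindAdj f.1 f'.1 = true ∧ validF f ∧ validF f' ∧
    (if f.1 = .E then posX (pos f.2) (pos f'.2) else posIn (pos f.2) (pos f'.2)) = true ∧
    rawOK f f'

def flagL (s : Bool) : Ctl := if s then .L1 else .L0
def flagR (s : Bool) : Ctl := if s then .R0 else .R1

/-- Side on which the parent move happened: `some true` the head came from the left. -/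
def side : Hd → Cell → Option Bool
  | .root, _ => none
  | .wrF _, _ => some true
  | .wr2 _, _ => some true
  | .pl _ _ _ _ _, _ => some false
  | .pr _ _ _ _ s, k => if k = .H ∧ s = false then some false else some true

/-- The pair contains a head whose parent move uses this pair. -/
def hasPar (f f' : F) : Prop :=
  (∃ q, f'.2 = .hd q ∧ side q f'.1 = some true) ∨ (∃ q, f.2 = .hd q ∧ side q f.1 = some false)

/-- How the register of the moving head of the parent is determined. -/
inductive Mode
  | same | zero | pred | max | addr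
  deriving DecidableEq

def rTT : Rel := (false, .tt)
def rFF : Rel := (true, .tt)
def rEq : Rel := (false, .eq)
def rSucc : Rel := (false, .succ)
def rMz : Rel := (false, .mz)
def rZero : Rel := (false, .look 6)
def rCode : Rel := (false, .look 5)
def rPat : Rel := (false, .look 4)
def neg (R : Rel) : Rel := (!R.1, R.2)

/-- Reduction of a relation between coloured numbers to a relation between addresses. -/
def redB : Base → Col → Col → Rel
  | .tt, _, _ => rTT
  | .eq, χ, χ' => if χ = χ' then rEq else rFF
  | .succ, χ, χ' => if χ = χ' then rSucc else if χ.val + 1 = χ'.val then rMz else rFF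
  | .mz, χ, χ' => if χ.val = 16 ∧ χ'.val = 0 then rMz else rFF
  | .look i, χ, χ' => if χ.val = 0 ∧ χ'.val = 0 then (false, .look i) else rFF

def red (R : Rel) (χ χ' : Col) : Rel := if R.1 then neg (redB R.2 χ χ') else redB R.2 χ χ'

/-- Check of the second slot of the current constraint, between register and address. -/
def guard1 (kp : KP) (i : Fin 14) (χ : Col) (s : Bool) (k : Cell) : Rel :=
  if s = (kp.2 i).2.1.1 then
    match symAt k (kp.2 i).2.1.2 with
    | .mark χ' => red (kp.2 i).2.2 χ χ'
    | _ => rTT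
  else rTT

/-- Check of the row code, between the code of the head letter and the address. -/
def guard2 (s : Bool) (k : Cell) : Rel :=
  if s = false then
    match symAt k none with
    | .mark χ' => if χ' = 0 then rPat else rFF
    | _ => rTT
  else rTT

/-- The mark of the first slot of the current constraint, if it lies in this cell. -/
def xmark (kp : KP) (i : Fin 14) (s : Bool) (k : Cell) : Option Col :=
  if s = (kp.2 i).1.1 then
    match symAt k (kp.2 i).1.2 with
    | .mark χ => some χ
    | _ => none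
  else none

/-- State before the left sweep of pass `i`. -/
def prev (β : Bool) (kp : KP) (i : Fin 14) : Hd :=
  if h : i.val = 0 then .wr2 β else .pr β kp ⟨i.val - 1, by omega⟩ none true

/-- Data of a parent move: finite parts of the parent pair, direction (`true`: the head moved to
the right), register mode and two guards. -/
structure Par where
  fc : F
  fd : F
  dir : Bool
  mode : Mode
  g1 : Rel
  g2 : Rel

/-- Writing a data cell: consistency with the left neighbour. -/
def wrOK : Cell → (Trk → Sym) → Prop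
  | .H, t => ∀ tr, t tr ≠ .aft
  | .D (.wr t₀), t => ∀ tr, stepS (t₀ tr) (t tr)
  | _, _ => False

/-- Leaving the data zone. -/
def endOK : Cell → Prop
  | .D (.wr t₀) => ∀ tr, t₀ tr ≠ .bef
  | _ => False

/-- The parent moves: `ParR f f' p` says that the child pair with finite parts `f, f'` comes from
the parent described by `p`. -/
inductive ParR : F → F → Par → Prop
  | wrF0 (β : Bool) (t : Trk → Sym) : wrOK .H t →
      ParR (.H, .L0) (.D (.wr t), .hd (.wrF β))
        ⟨(.H, .hd .root), (.D (.raw (orig β t)), .R0), true, .same, rTT, rTT⟩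
  | wrFD (β : Bool) (t₀ t : Trk → Sym) : wrOK (.D (.wr t₀)) t →
      ParR (.D (.wr t₀), .L0) (.D (.wr t), .hd (.wrF β))
        ⟨(.D (.wr t₀), .hd (.wrF β)), (.D (.raw (orig β t)), .R0), true, .same, rTT, rTT⟩
  | wrFL (β : Bool) (k : Cell) : endOK k →
      ParR (k, .L0) (.Lb, .hd (.wrF β)) ⟨(k, .hd (.wrF β)), (.Lb, .R0), true, .same, rTT, rTT⟩
  | wrFC (β : Bool) :
      ParR (.Lb, .L0) (.Lb, .hd (.wrF β)) ⟨(.Lb, .hd (.wrF β)), (.Lb, .R0), true, .pred, rTT, rTT⟩
  | wrFE (β : Bool) :
      ParR (.Lb, .L0) (.E, .hd (.wrF β)) ⟨(.Lb, .hd (.wrF β)), (.E, .R0), true, .max, rTT, rTT⟩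
  | lock (β : Bool) :
      ParR (.E, .L0) (.H, .hd (.wr2 β)) ⟨(.E, .hd (.wrF β)), (.H, .hd .root), true, .same, rTT, rTT⟩
  | wr2D (β : Bool) (k : Cell) (t : Trk → Sym) : wrOK k t →
      ParR (k, .L1) (.D (.wr t), .hd (.wr2 β))
        ⟨(k, .hd (.wr2 β)), (.D (.raw (orig β t)), .R0), true, .same, rTT, rTT⟩
  | wr2L (β : Bool) (k : Cell) : endOK k →
      ParR (k, .L1) (.Lb, .hd (.wr2 β)) ⟨(k, .hd (.wr2 β)), (.Lb, .R0), true, .same, rTT, rTT⟩
  | start (β : Bool) (kp : KP) (i : Fin 14) (χ : Col) (t : Tape) :
      ParR (.D t, .hd (.pl β kp i χ true)) (.Lb, .R0)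
        ⟨(.D t, .L1), (.Lb, .hd (prev β kp i)), false, .zero,
          guard1 kp i χ true (.D t), guard2 true (.D t)⟩
  | left (β : Bool) (kp : KP) (i : Fin 14) (χ : Col) (s : Bool) (k k' : Cell) :
      kindAdj k k' = true → k' ≠ .H → (s = true → isD k' = true) → (s = false → k ≠ .H) →
      ParR (k, .hd (.pl β kp i χ s)) (k', flagR s)
        ⟨(k, flagL s), (k', .hd (.pl β kp i χ s)), false, .same,
          guard1 kp i χ s k, guard2 s k⟩
  | leftX (β : Bool) (kp : KP) (i : Fin 14) (χ : Col) :
      ParR (.E, .hd (.pl β kp i χ false)) (.H, .R0)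
        ⟨(.E, .L0), (.H, .hd (.pl β kp i χ true)), false, .same, rTT, rTT⟩
  | turn (β : Bool) (kp : KP) (i : Fin 14) (χ : Col) (t : Tape) :
      ParR (.H, .hd (.pr β kp i (some χ) false)) (.D t, .R1)
        ⟨(.H, .L0), (.D t, .hd (.pl β kp i χ false)), false, .same, rTT, rTT⟩
  | right (β : Bool) (kp : KP) (i : Fin 14) (ld : Option Col) (s : Bool) (k k' : Cell) :
      kindAdj k k' = true → k' ≠ .H → (s = true → k ≠ .Lb) → xmark kp i s k' = none →
      ParR (k, flagL s) (k', .hd (.pr β kp i ld s))
        ⟨(k, .hd (.pr β kp i ld s)), (k', flagR s), true, .same, rTT, rTT⟩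
  | unload (β : Bool) (kp : KP) (i : Fin 14) (χ : Col) (s : Bool) (k k' : Cell) :
      kindAdj k k' = true → xmark kp i s k' = some χ →
      ParR (k, flagL s) (k', .hd (.pr β kp i none s))
        ⟨(k, .hd (.pr β kp i (some χ) s)), (k', flagR s), true, .addr, rTT, rTT⟩
  | rightX (β : Bool) (kp : KP) (i : Fin 14) (ld : Option Col) :
      ParR (.E, .L0) (.H, .hd (.pr β kp i ld true))
        ⟨(.E, .hd (.pr β kp i ld false)), (.H, .R0), true, .same, rTT, rTT⟩

/-- Slot of field `i` of the left/right, old/new letter. -/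
def sl (side set : Bool) (i : Fin 4) : Slot := (side, some (set, i))

/-- Slot of the row code. -/
def τ₁ : Slot := (false, none)

def modeGuard : Mode → Rel
  | .same => rTT
  | .zero => rTT
  | .pred => neg rZero
  | .max => rZero
  | .addr => rZero

/-- The defining constraint for the register of the moving head. -/
def modeCon (dir : Bool) : Mode → Con
  | .same => (sl (!dir) false 2, sl dir true 2, rEq)
  | .zero => (sl (!dir) false 2, sl (!dir) false 2, rZero)
  | .pred => (sl (!dir) false 2, sl dir true 2, rSucc)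
  | .max => (sl (!dir) false 2, sl dir true 2, rMz)
  | .addr => (sl (!dir) false 2, sl dir true 1, rEq)

/-- Constraints of a parent move (old letters: parent, new letters: child). -/
def fwdCons (p : Par) : List Con :=
  [(sl false false 1, sl false true 1, rEq), (sl true false 1, sl true true 1, rEq),
   (sl false false 3, sl false true 3, rEq), (sl true false 3, sl true true 3, rEq),
   (sl (!p.dir) true 2, sl (!p.dir) true 2, rZero), (sl p.dir false 2, sl p.dir false 2, rZero),
   modeCon p.dir p.mode, (sl p.dir true 2, sl p.dir true 2, modeGuard p.mode),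
   (sl p.dir true 2, sl p.dir true 1, p.g1), (sl p.dir true 0, sl p.dir true 1, p.g2)]

def keepCons : List Con :=
  [(sl false false 1, sl false true 1, rEq), (sl true false 1, sl true true 1, rEq),
   (sl false false 2, sl false true 2, rEq), (sl true false 2, sl true true 2, rEq),
   (sl false false 3, sl false true 3, rEq), (sl true false 3, sl true true 3, rEq)]

def swapCons : List Con :=
  [(sl false false 1, sl false true 1, rEq), (sl true false 1, sl true true 1, rEq),
   (sl false false 2, sl false true 2, rEq), (sl true false 2, sl true true 2, rEq),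
   (sl false false 3, sl true true 3, rEq), (sl true false 3, sl false true 3, rEq)]

/-- The final state of the verification. -/
def vState (β : Bool) (kp : KP) : Hd := .pr β kp (Fin.last 13) none true

/-- Rule schemas. -/
inductive RuleS : F → F → F → F → List Con → Prop
  | fwd (f f' : F) (p : Par) : ParR f f' p → RuleS p.fc p.fd f f' (fwdCons p)
  | commit (kp : KP) (t : Tape) : kp.1 = true →
      RuleS (.D t, .L1) (.Lb, .hd (vState false kp)) (.D t, .L1) (.Lb, .hd (vState true kp))
        keepCons
  | swap (c c' : Ctl) : RuleS (.Lb, c) (.Lb, c') (.Lb, c) (.Lb, c') swapCons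

/-- Unary kill schemas for a letter with finite part `f` in the slot side `b`. -/
inductive UKill (b : Bool) (f : F) : Con → Prop
  | addr : isD f.1 = false → UKill b f (sl b false 1, sl b false 1, neg rZero)
  | reg : (isHd f.2 = false ∨ f.2 = .hd .root) → UKill b f (sl b false 2, sl b false 2, neg rZero)
  | lab : f.1 ≠ .Lb → UKill b f (sl b false 3, sl b false 3, neg rZero)
  | code (o : Fin 4 → Sym) (χ : Col) : f.1 = .D (.raw o) → o 0 = .mark χ →
      UKill b f (sl b false 1, sl b false 1, neg rCode)

/-- Kill schemas. -/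
inductive KillS (f f' : F) : List Con → Prop
  | adj : ¬ adjF f f' → KillS f f' []
  | hd0 : f.1 = .H → KillS f f' [(sl true false 1, sl true false 1, neg rZero)]
  | dd : isD f.1 = true → isD f'.1 = true →
      KillS f f' [(sl false false 1, sl true false 1, neg rSucc)]
  | dl : isD f.1 = true → f'.1 = .Lb → KillS f f' [(sl false false 1, sl true false 1, neg rMz)]
  | ll : f.1 = .Lb → f'.1 = .Lb → KillS f f' [(sl false false 3, sl true false 3, rEq)]
  | ul (c : Con) : UKill false f c → KillS f f' [c]
  | ur (c : Con) : UKill true f' c → KillS f f' [c]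
  | np : hasPar f f' → (¬ ∃ p, ParR f f' p) → KillS f f' []
  | np0 (p : Par) : ParR f f' p →
      KillS f f' [(sl p.dir false 2, sl p.dir false 2, neg (modeGuard p.mode))]
  | np1 (p : Par) : ParR f f' p → KillS f f' [(sl p.dir false 2, sl p.dir false 1, neg p.g1)]
  | np2 (p : Par) : ParR f f' p → KillS f f' [(sl p.dir false 0, sl p.dir false 1, neg p.g2)]
  | wk (β : Bool) : f = (.Lb, .hd (.wrF β)) → f'.1 = .E →
      KillS f f' [(sl false false 2, sl true false 2, neg rMz)]
  | kill (kp : KP) : kp.1 = false → isD f.1 = true → f' = (.Lb, .hd (vState false kp)) →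
      KillS f f' []

def piCons : List Con :=
  [(τ₁, sl false false 0, (false, .look 0)), (τ₁, sl true false 0, (false, .look 1)),
   (τ₁, sl false true 0, (false, .look 2)), (τ₁, sl true true 0, (false, .look 3))]

def pad (l : List Con) : Fin 14 → Con := fun i => (piCons ++ l).getD i.val (τ₁, τ₁, rTT)

/-- The table. -/
def IsRow (r : Row) : Prop :=
  (∃ f₁ f₂ f₃ f₄ l, RuleS f₁ f₂ f₃ f₄ l ∧ r = ((true, pad l), ![f₁, f₂, f₃, f₄])) ∨
    ∃ f₁ f₂ l, KillS f₁ f₂ l ∧ r = ((false, pad l), ![f₁, f₂, f₁, f₂])

def kpOf : F → Option KP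
  | (_, .hd (.pl _ kp _ _ _)) => some kp
  | (_, .hd (.pr _ kp _ _ _)) => some kp
  | _ => none

/-- The finite lookup tables. -/
def Look (i : Fin 7) (x y : ℕ) : Prop :=
  if h : i.val < 4 then ∃ r : Row, codeR r = x ∧ codeF (r.2 ⟨i.val, h⟩) = y
  else if i.val = 4 then ∃ (f : F) (r : Row), codeF f = x ∧ codeR r = y ∧ IsRow r ∧ kpOf f = some r.1
  else if i.val = 5 then x < nF ∧ y < nF
  else x = 0 ∧ y = 0

def semB (m : ℕ) : Base → ℕ → ℕ → Prop
  | .tt, _, _ => True
  | .eq, x, y => x = y
  | .succ, x, y => x + 1 = y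
  | .mz, x, y => x + 1 = m ∧ y = 0
  | .look i, x, y => Look i x y

/-- Meaning of a relation symbol at level `m`. -/
def sem (m : ℕ) (R : Rel) (x y : ℕ) : Prop := if R.1 then ¬ semB m R.2 x y else semB m R.2 x y

def semCon (m : ℕ) (ν : Slot → ℕ) (c : Con) : Prop := sem m c.2.2 (ν c.1) (ν c.2.1)

/-- The pattern `kp` holds for the valuation `ν`. -/
def Holds (m : ℕ) (kp : KP) (ν : Slot → ℕ) : Prop :=
  (∀ i, semCon m ν (kp.2 i)) ∧ ∃ r : Row, IsRow r ∧ codeR r = ν τ₁ ∧ r.1 = kp

/-- Skeleton letters: finite part, address, register. -/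
abbrev Sk (m : ℕ) := F × Fin m × Fin m

/-- Letters: skeleton and label. -/
abbrev Ltr (m : ℕ) := Sk m × Fin m

/-- The four numbers of a letter. -/
noncomputable def num {m : ℕ} (c : Ltr m) : Fin 4 → ℕ :=
  ![codeF c.1.1, c.1.2.1.val, c.1.2.2.val, c.2.val]

noncomputable def val {m : ℕ} (c d c' d' : Ltr m) (τ τ' : Fin m) : Slot → ℕ
  | (false, none) => τ.val
  | (true, none) => τ'.val
  | (false, some (false, i)) => num c i
  | (true, some (false, i)) => num d i
  | (false, some (true, i)) => num c' i
  | (true, some (true, i)) => num d' i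

/-- The system of level `m`. -/
def mach (m : ℕ) : Sys (Ltr m) where
  Step c d c' d' := ∃ (kp : KP) (τ τ' : Fin m), kp.1 = true ∧ Holds m kp (val c d c' d' τ τ')
  Forb c d := ∃ (c' d' : Ltr m) (kp : KP) (τ τ' : Fin m), kp.1 = false ∧
    Holds m kp (val c d c' d' τ τ')

/-! ### Structured description on skeletons -/

variable {m : ℕ}

def modeRel (m : ℕ) : Mode → ℕ → ℕ → ℕ → Prop
  | .same, ρ, ρ', _ => ρ = ρ'
  | .zero, ρ, _, _ => ρ = 0
  | .pred, ρ, ρ', _ => ρ + 1 = ρ'
  | .max, ρ, ρ', _ => ρ + 1 = m ∧ ρ' = 0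
  | .addr, ρ, ρ', a => ρ = a ∧ ρ' = 0

/-- The guards of the parent move `p` hold for the head letter `h` of the child. -/
def Guards (p : Par) (h : Sk m) : Prop :=
  sem m (modeGuard p.mode) h.2.2.val h.2.2.val ∧ sem m p.g1 h.2.2.val h.2.1.val ∧
    sem m p.g2 (codeF h.1) h.2.1.val

/-- Forward move of the head: parent pair `c d`, child pair `c' d'`. -/
def Fwd (c d c' d' : Sk m) : Prop :=
  ∃ p, ParR c'.1 d'.1 p ∧ c.1 = p.fc ∧ d.1 = p.fd ∧ c.2.1 = c'.2.1 ∧ d.2.1 = d'.2.1 ∧
    (if p.dir then
      c'.2.2.val = 0 ∧ d.2.2.val = 0 ∧ modeRel m p.mode c.2.2.val d'.2.2.val d'.2.1.val ∧ Guards p d'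
    else
      d'.2.2.val = 0 ∧ c.2.2.val = 0 ∧ modeRel m p.mode d.2.2.val c'.2.2.val c'.2.1.val ∧ Guards p c')

/-- The commit rule on skeletons. -/
def Commit (c d c' d' : Sk m) : Prop :=
  ∃ (kp : KP) (t : Tape), kp.1 = true ∧ c.1 = (.D t, .L1) ∧ d.1 = (.Lb, .hd (vState false kp)) ∧
    c' = c ∧ d' = ((.Lb, .hd (vState true kp)), d.2)

/-- Unary static conditions. -/
def UOK (c : Sk m) : Prop :=
  (isD c.1.1 = false → c.2.1.val = 0) ∧ ((isHd c.1.2 = false ∨ c.1.2 = .hd .root) → c.2.2.val = 0) ∧
    (∀ o χ, c.1.1 = .D (.raw o) → o 0 = .mark χ → c.2.1.val < nF)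

/-- Static conditions on neighbouring skeleton letters. -/
def SOK (c d : Sk m) : Prop :=
  adjF c.1 d.1 ∧ UOK c ∧ UOK d ∧ (c.1.1 = .H → d.2.1.val = 0) ∧
    (isD c.1.1 = true → isD d.1.1 = true → c.2.1.val + 1 = d.2.1.val) ∧
    (isD c.1.1 = true → d.1.1 = .Lb → c.2.1.val + 1 = m)

/-- A head without parent move. -/
def NP (c d : Sk m) : Prop :=
  (hasPar c.1 d.1 ∧ ¬ ∃ p, ParR c.1 d.1 p) ∨
    ∃ p, ParR c.1 d.1 p ∧ ¬ Guards p (if p.dir then d else c)

/-- The label counter is wrong at the end of the label zone. -/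
def WK (c d : Sk m) : Prop :=
  ∃ β, c.1 = (.Lb, .hd (.wrF β)) ∧ d.1.1 = .E ∧ ¬ (c.2.2.val + 1 = m ∧ d.2.2.val = 0)

/-- A kill pattern of the next level has been verified. -/
def KL (c d : Sk m) : Prop :=
  ∃ kp : KP, kp.1 = false ∧ isD c.1.1 = true ∧ d.1 = (.Lb, .hd (vState false kp))

/-- Forbidden skeleton pairs. -/
def ForbSk (c d : Sk m) : Prop := ¬ SOK c d ∨ NP c d ∨ WK c d ∨ KL c d

/-- Static conditions on labels. -/
def LOK (c d : Ltr m) : Prop :=
  (c.1.1.1 ≠ .Lb → c.2.val = 0) ∧ (d.1.1.1 ≠ .Lb → d.2.val = 0) ∧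
    (c.1.1.1 = .Lb → d.1.1.1 = .Lb → c.2 ≠ d.2)

/-- One forward move inside a word. -/
def FwdW (g g' : List (Sk m)) : Prop :=
  ∃ u v c d c' d', Fwd c d c' d' ∧ g = u ++ c :: d :: v ∧ g' = u ++ c' :: d' :: v

/-- Unlocked end letters. -/
def UE (f : F) : Prop := f.1 = .E ∧ (pos f.2 = .R0 ∨ pos f.2 = .hf)

/-- Unlocked start letters. -/
def UL (f : F) : Prop := f.1 = .H ∧ (pos f.2 = .L0 ∨ pos f.2 = .hf ∨ pos f.2 = .h1)

/-- Thermometer code of the number `n` (colour `n / m`, address `n % m`) at address `a`. -/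
def enc (m n a : ℕ) : Sym :=
  if a < n % m then .bef else if a = n % m then .mark (Fin.ofNat 17 (n / m)) else .aft

variable [NeZero m]

/-- Root form with a label zone of length `r`, for the numbers `n`. -/
def rootR (r : ℕ) (n : Fin 4 → ℕ) : List (Sk m) :=
  ((.H, .hd .root), 0, 0) ::
    ((List.finRange m).map (fun a => ((.D (.raw fun i => enc m (n i) a.val), .R0), a, 0)) ++
      (List.replicate r ((.Lb, .R0), 0, 0) ++ [((.E, .R0), 0, 0)]))

/-- Root form of a letter of the next level. -/
noncomputable def rootSk (c : Ltr (17 * m)) : List (Sk m) := rootR m (num c)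

/-- Skeleton words that represent the letter `c`. -/
def T1sk (c : Ltr (17 * m)) (g : List (Sk m)) : Prop := Relation.ReflTransGen FwdW (rootSk c) g

/-- Skeleton words that represent the locked pair `c d`. -/
inductive T2sk (c d : Ltr (17 * m)) : List (Sk m) → Prop
  | lock (u v : List (Sk m)) (y z y' z' : Sk m) : T1sk c (u ++ [y]) → rootSk d = z :: v →
      Fwd y z y' z' → T2sk c d (u ++ y' :: z' :: v)
  | step (g g' : List (Sk m)) : T2sk c d g → FwdW g g' → T2sk c d g'

/-- The end letters of blocks. -/
def eSk : Option Bool → Sk m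
  | none => ((.E, .R0), 0, 0)
  | some β => ((.E, .hd (.wrF β)), 0, 0)

/-- Kind pattern of a segment: is position `i` a label cell. -/
def kindSeg (m : ℕ) : List Bool :=
  List.replicate (m + 1) false ++ (List.replicate m true ++ [false])

/-- Admissible label words of a segment. -/
def LabOK (l : List (Fin m)) : Prop :=
  ∃ z : List (Fin m), z.Nodup ∧ z.length = m ∧ l = List.replicate (m + 1) 0 ++ (z ++ [0])

end Mach

end Vale.Agent.P192
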