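import Vale.Agent.P192.MachInvAux2

/-!
P192, part M3b, auxiliary file 3: the locked phase.
-/

namespace Vale.Agent.P192

namespace Mach

namespace Inv

variable {m : ℕ}

/-- All data cells carry the thermometer codes of the valuation. -/
def Good (m : ℕ) (ν : Slot → ℕ) (T : ℕ → Tape) : Prop :=
  (∀ s, ν s < 17 * m) ∧
    ∀ n, isDat m n → T n = .wr (fun tr => enc m (ν (sg m n, tr)) (ad m n))

/-- Position of the mark of a slot. -/
def mp (m : ℕ) (ν : Slot → ℕ) (x : Slot) : ℕ := (if x.1 = true then 2 * m + 3 else 1) + ν x % m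

def RowOK (kp : KP) (ν : Slot → ℕ) : Prop := ∃ r : Row, IsRow r ∧ codeR r = ν τ₁ ∧ r.1 = kp

theorem mp_dat (hm : 0 < m) (ν : Slot → ℕ) (x : Slot) : isDat m (mp m ν x) := by
  have := Nat.mod_lt (ν x) hm
  unfold isDat mp; split_ifs <;> omega

theorem sg_mp (hm : 0 < m) (ν : Slot → ℕ) (x : Slot) : sg m (mp m ν x) = x.1 := by
  have := Nat.mod_lt (ν x) hm
  unfold sg mp
  cases x.1 <;> simp <;> omega

theorem ad_mp (hm : 0 < m) (ν : Slot → ℕ) (x : Slot) : ad m (mp m ν x) = ν x % m := by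
  have := Nat.mod_lt (ν x) hm
  unfold ad mp
  cases x.1 <;> simp only [if_true, Bool.false_eq_true, if_false] <;> split_ifs <;> omega

theorem symAt_mp (hm : 0 < m) {ν : Slot → ℕ} {T : ℕ → Tape} (hG : Good m ν T) (x : Slot) :
    symAt (cellAt m T (mp m ν x)) x.2 = .mark (Fin.ofNat 17 (ν x / m)) := by
  rw [cellAt_of_dat (mp_dat hm ν x), hG.2 _ (mp_dat hm ν x), sg_mp hm, ad_mp hm]
  exact enc_self _

theorem symAt_mark {ν : Slot → ℕ} {T : ℕ → Tape} (hG : Good m ν T) {n : ℕ} {tr : Trk} {χ : Col}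
    (h : symAt (cellAt m T n) tr = .mark χ) :
    isDat m n ∧ ν (sg m n, tr) = ad m n + m * χ.val := by
  by_cases hn : isDat m n
  · rw [cellAt_of_dat hn, hG.2 n hn] at h
    exact ⟨hn, enc_mark (hG.1 _) h⟩
  · exfalso
    cases hk : cellAt m T n with
    | D t => exact hn (cellAt_D.1 hk).1
    | H => rw [hk] at h; cases h
    | Lb => rw [hk] at h; cases h
    | E => rw [hk] at h; cases h

theorem div_val (hm : 0 < m) {n : ℕ} (hn : n < 17 * m) : (Fin.ofNat 17 (n / m)).val = n / m := by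
  have h3 : n / m < 17 := by rw [Nat.div_lt_iff_lt_mul hm]; exact hn
  simp [Nat.mod_eq_of_lt h3]

theorem guard1_sound (hm0 : m0 ≤ m) (hm : 0 < m) {ν : Slot → ℕ} {T : ℕ → Tape} (hG : Good m ν T)
    {kp : KP} {i : Fin 14} {χ : Col} {n v : ℕ} (hv : v < m) (hn : n = mp m ν (kp.2 i).2.1)
    (h : sem m (guard1 kp i χ (sg m n) (cellAt m T n)) v (ad m n)) :
    sem (17 * m) (kp.2 i).2.2 (v + m * χ.val) (ν (kp.2 i).2.1) := by
  subst hn
  unfold guard1 at h
  rw [sg_mp hm, if_pos rfl, symAt_mp hm hG, ad_mp hm] at h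
  have h1 := (red_spec hm0 _ _ _ hv (Nat.mod_lt _ hm)).2 h
  rwa [div_val hm (hG.1 _), Nat.mod_add_div] at h1

theorem guard2_sound (hm : 0 < m) {ν : Slot → ℕ} {T : ℕ → Tape} (hG : Good m ν T)
    {kp : KP} {f : F} {n : ℕ} (hf : kpOf f = some kp) (hn : n = mp m ν τ₁)
    (h : sem m (guard2 (sg m n) (cellAt m T n)) (codeF f) (ad m n)) : RowOK kp ν := by
  subst hn
  unfold guard2 at h
  have h0 := symAt_mp hm hG τ₁
  rw [show τ₁.2 = none from rfl] at h0
  rw [sg_mp hm, if_pos (show τ₁.1 = false from rfl), h0, ad_mp hm] at h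
  simp only at h
  split_ifs at h with h1
  · obtain ⟨r, hr, h2, h3⟩ := (sem_rPat f _).1 h
    have h4 := div_val hm (hG.1 τ₁)
    rw [h1] at h4
    have h5 := Nat.mod_add_div (ν τ₁) m
    rw [← h4] at h5
    refine ⟨r, hr, by simpa [h2] using h5, ?_⟩
    rw [hf] at h3
    exact (Option.some.inj h3).symm
  · exact absurd h (sem_rFF _ _)

theorem xmark_sound {ν : Slot → ℕ} {T : ℕ → Tape} (hG : Good m ν T)
    {kp : KP} {i : Fin 14} {χ : Col} {n : ℕ}
    (h : xmark kp i (sg m n) (cellAt m T n) = some χ) :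
    isDat m n ∧ ν (kp.2 i).1 = ad m n + m * χ.val := by
  unfold xmark at h
  split_ifs at h with h1
  split at h
  · rename_i χ' h2
    cases h
    have h3 := symAt_mark hG h2
    rw [h1] at h3
    exact h3
  · cases h

theorem prev_eq {β : Bool} {kp : KP} {i : Fin 14} :
    (i.val = 0 ∧ prev β kp i = .wr2 β) ∨
      ∃ i' : Fin 14, i'.val + 1 = i.val ∧ prev β kp i = .pr β kp i' none true := by
  unfold prev
  split_ifs with h
  · exact Or.inl ⟨h, rfl⟩
  · exact Or.inr ⟨_, by simp; omega, rfl⟩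

/-- Common part of the invariants of the passes. -/
def PassOK (m : ℕ) (x y : Fin 4 → ℕ) (β : Bool) (kp : KP) (i : ℕ) (ν : Slot → ℕ) (T : ℕ → Tape) :
    Prop :=
  Good m ν T ∧ (∀ k, ν (sl false β k) = x k) ∧ (∀ k, ν (sl true β k) = y k) ∧
    ∀ i' : Fin 14, i'.val < i → semCon (17 * m) ν (kp.2 i')

/-- Invariant of the locked phase. -/
def Inv2 (m : ℕ) (x y : Fin 4 → ℕ) (T : ℕ → Tape) (j ρ : ℕ) : Hd → Prop
  | .root => False
  | .wrF _ => False
  | .wr2 β => 2 * m + 2 ≤ j ∧ j ≤ 3 * m + 3 ∧ WrOK m β x 0 (2 * m + 1) T ∧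
      WrOK m β y (2 * m + 2) j T
  | .pl β kp i χ s => j ≤ 3 * m + 2 ∧ s = sg m j ∧ ∃ ν, PassOK m x y β kp i.val ν T ∧
      (j ≤ mp m ν (kp.2 i).2.1 → sem (17 * m) (kp.2 i).2.2 (ρ + m * χ.val) (ν (kp.2 i).2.1)) ∧
      (j ≤ mp m ν τ₁ → RowOK kp ν)
  | .pr β kp i (some χ) s => j ≤ 3 * m + 3 ∧ s = sg m j ∧ ∃ ν, PassOK m x y β kp i.val ν T ∧
      RowOK kp ν ∧ sem (17 * m) (kp.2 i).2.2 (ρ + m * χ.val) (ν (kp.2 i).2.1)
  | .pr β kp i none s => j ≤ 3 * m + 3 ∧ s = sg m j ∧ ∃ ν, PassOK m x y β kp (i.val + 1) ν T ∧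
      RowOK kp ν ∧ ρ = 0

theorem Inv2.pr_move {x y : Fin 4 → ℕ} {T : ℕ → Tape} {j j' ρ : ℕ} {β : Bool} {kp : KP}
    {i : Fin 14} {ld : Option Col} {s s' : Bool} (h : Inv2 m x y T j ρ (.pr β kp i ld s))
    (h1 : j' ≤ 3 * m + 3) (h2 : s' = sg m j') : Inv2 m x y T j' ρ (.pr β kp i ld s') := by
  cases ld with
  | none => exact ⟨h1, h2, h.2.2⟩
  | some χ => exact ⟨h1, h2, h.2.2⟩

theorem Inv2.pr_pos {x y : Fin 4 → ℕ} {T : ℕ → Tape} {j ρ : ℕ} {β : Bool} {kp : KP}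
    {i : Fin 14} {ld : Option Col} {s : Bool} (h : Inv2 m x y T j ρ (.pr β kp i ld s)) :
    j ≤ 3 * m + 3 ∧ s = sg m j := by
  cases ld with
  | none => exact ⟨h.1, h.2.1⟩
  | some χ => exact ⟨h.1, h.2.1⟩

theorem passOK_zero (hm : 0 < m) {x y : Fin 4 → ℕ} (hx : ∀ i, x i < 17 * m)
    (hy : ∀ i, y i < 17 * m) {β : Bool} {T : ℕ → Tape} (kp : KP)
    (h1 : WrOK m β x 0 (2 * m + 1) T) (h2 : WrOK m β y (2 * m + 2) (3 * m + 3) T) :
    ∃ ν, PassOK m x y β kp 0 ν T := by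
  obtain ⟨ν₁, a1, a2, a3⟩ := h1.decode hm (Or.inl rfl) (by omega) hx
  obtain ⟨ν₂, b1, b2, b3⟩ := h2.decode hm (Or.inr rfl) (by omega) hy
  refine ⟨fun s => if s.1 = true then ν₂ s.2 else ν₁ s.2, ⟨fun s => ?_, fun n hn => ?_⟩,
    fun k => by simpa [sl] using a2 k, fun k => by simpa [sl] using b2 k, fun i h => by omega⟩
  · simp only
    split_ifs
    · exact b1 _
    · exact a1 _
  · rcases hn with hn | hn
    · have e1 : sg m n = false := by simp [sg]; omega
      have e2 : ad m n = n - (0 + 1) := by unfold ad; rw [if_pos hn.2]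
      rw [a3 n (by omega) (by omega), e1, e2]; simp
    · have e1 : sg m n = true := by simp [sg]; omega
      have e2 : ad m n = n - (2 * m + 2 + 1) := by unfold ad; split_ifs <;> omega
      rw [b3 n (by omega) (by omega), e1, e2]; simp

theorem isDat_of_endOK {T : ℕ → Tape} {n : ℕ} (h : endOK (cellAt m T n)) : isDat m n := by
  rw [← isD_cellAt (T := T)]
  generalize cellAt m T n = k at h
  match k, h with
  | .D _, _ => rfl

variable [NeZero m]

theorem inv2_step (hm0 : m0 ≤ m) {x y : Fin 4 → ℕ} (hx : ∀ i, x i < 17 * m)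
    (hy : ∀ i, y i < 17 * m) {T : ℕ → Tape} {j : ℕ} {q : Hd} {ρ : Fin m}
    (hI : Inv2 m x y T j ρ.val q) {g' : List (Sk m)}
    (h : FwdW (word (4 * m + 4) true T j q ρ) g') :
    ∃ T' j' q' ρ', g' = word (4 * m + 4) true T' j' q' ρ' ∧ Inv2 m x y T' j' ρ'.val q' := by
  have hm := Nat.pos_of_neZero m
  obtain ⟨p, f, f', P, ρ', hp, hP, hc, hd, ht, hf, hfin⟩ := step_cases h
  cases hP <;> simp only [Prod.mk.injEq, ctlAt_hd, if_true, forall_const, modeRel,
    Bool.false_eq_true, if_false, Guards, ctlAt_flagL, ctlAt_flagR] at hc hd ht hf hfin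
  case wrF0 => obtain ⟨-, -, rfl⟩ := hc; exact hI.elim
  case wrFD => obtain ⟨-, -, rfl⟩ := hc; exact hI.elim
  case wrFL => obtain ⟨-, -, rfl⟩ := hc; exact hI.elim
  case wrFC => obtain ⟨-, -, rfl⟩ := hc; exact hI.elim
  case wrFE => obtain ⟨-, -, rfl⟩ := hc; exact hI.elim
  case lock => obtain ⟨-, -, rfl⟩ := hc; exact hI.elim
  case wr2D β k t hw =>
    obtain ⟨hc1, rfl, rfl⟩ := hc
    obtain ⟨hd1, hT⟩ := cellAt_D.1 hd.1
    obtain ⟨h1, h2, h3, h4⟩ := hI
    have hpm : p + 1 ≤ 3 * m + 2 := by unfold isDat at hd1; omega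
    refine ⟨_, _, _, ρ', hfin (Function.update T (p + 1) (.wr t)) (.wr2 β) (update_off _ _ _)
      (Or.inl rfl) ⟨?_, ctlAt_L1.2 (by omega)⟩ ⟨cellAt_D.2 ⟨hd1, by simp⟩, trivial, rfl⟩,
      by omega, by omega, ?_, ?_⟩
    · rw [cellAt_congr (update_off _ _ _ _ (by omega)), hc1]
    · exact h3.congr fun n _ _ => update_off _ _ _ _ (by omega)
    · exact h4.write (by omega) (by omega) hT (by rw [hc1]; exact hw)
  case wr2L β k he =>
    obtain ⟨hc1, rfl, rfl⟩ := hc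
    have hd1 := cellAt_Lb.1 hd.1
    obtain ⟨h1, h2, h3, h4⟩ := hI
    have hdat : isDat m p := isDat_of_endOK (T := T) (by rw [hc1]; exact he)
    have hpm : p = 3 * m + 2 := by unfold isDat at hdat; omega
    refine ⟨T, _, _, ρ', hfin T (.wr2 β) (fun _ _ => rfl)
      (Or.inl rfl) ⟨hc1, ctlAt_L1.2 (by omega)⟩ ⟨hd.1, trivial, rfl⟩,
      by omega, by omega, h3, ?_⟩
    exact h4.leave (by omega) (by omega) (by rw [show 2 * m + 2 + m = p by omega, hc1]; exact he)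
  case start β kp i χ t =>
    obtain ⟨hd1, rfl, rfl⟩ := hd
    have hc2 := ctlAt_L1.1 hc.2
    have hdat := (cellAt_D.1 hc.1).1
    have hd2 := cellAt_Lb.1 hd1
    have hpm : p = 3 * m + 2 := by unfold isDat at hdat; omega
    have hs : true = sg m p := by simp [sg]; omega
    have hν : ∃ ν, PassOK m x y β kp i.val ν T := by
      rcases prev_eq (β := β) (kp := kp) (i := i) with ⟨h0, he⟩ | ⟨i', h0, he⟩
      · rw [he] at hI
        obtain ⟨-, -, h3, h4⟩ := hI
        rw [h0]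
        exact passOK_zero hm hx hy kp h3 (by rwa [hpm] at h4)
      · rw [he] at hI
        obtain ⟨-, -, ν, h3, -⟩ := hI
        exact ⟨ν, h0 ▸ h3⟩
    obtain ⟨ν, hν⟩ := hν
    refine ⟨T, _, _, ρ', hfin T (.pl β kp i χ true) (fun _ _ => rfl)
      (Or.inr rfl) ⟨hc.1, trivial, rfl⟩ ⟨hd1, ctlAt_R0.2 (by omega)⟩,
      by omega, hs, ν, hν, fun hj => ?_, fun hj => ?_⟩
    · have := mp_dat hm ν (kp.2 i).2.1
      refine guard1_sound hm0 hm hν.1 ρ'.isLt (n := p) (by unfold isDat at this; omega) ?_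
      rw [← hs, hc.1]; exact hf.2.2.1
    · have := Nat.mod_lt (ν τ₁) hm
      simp [mp, τ₁] at hj this; omega
  case left β kp i χ s k k' hk hk' hs1 hs2 =>
    obtain ⟨hd1, rfl, rfl⟩ := hd
    obtain ⟨hc1, -, hs⟩ := hc
    obtain ⟨h1, h2, ν, hν, h3, h4⟩ := hI
    have hρ : ρ.val = ρ'.val := by simpa using hf.1
    refine ⟨T, _, _, ρ', hfin T (.pl β kp i χ s) (fun _ _ => rfl)
      (Or.inr rfl) ⟨hc1, trivial, rfl⟩ ⟨hd1, by omega, h2⟩,
      by omega, hs, ν, hν, fun hj => ?_, fun hj => ?_⟩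
    · rcases hj.eq_or_lt with hj | hj
      · refine guard1_sound hm0 hm hν.1 ρ'.isLt hj ?_
        rw [← hs, hc1]; exact hf.2.2.1
      · rw [← hρ]; exact h3 hj
    · rcases hj.eq_or_lt with hj | hj
      · refine guard2_sound (f := (k, .hd (.pl β kp i χ s))) hm hν.1 rfl hj ?_
        rw [← hs, hc1]; exact hf.2.2.2
      · exact h4 hj
  case leftX β kp i χ =>
    obtain ⟨hd1, rfl, rfl⟩ := hd
    have hc1 := cellAt_E.1 hc.1
    have hc2 := ctlAt_L0.1 hc.2
    obtain ⟨h1, h2, ν, hν, h3, h4⟩ := hI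
    have hρ : ρ.val = ρ'.val := by simpa using hf.1
    refine ⟨T, _, _, ρ', hfin T (.pl β kp i χ false) (fun _ _ => rfl)
      (Or.inr rfl) ⟨hc.1, trivial, rfl⟩ ⟨hd1, ctlAt_R0.2 (by omega)⟩,
      by omega, by simp [sg]; omega, ν, hν, fun hj => ?_, fun hj => ?_⟩
    · have := mp_dat hm ν (kp.2 i).2.1
      rw [← hρ]; exact h3 (by unfold isDat at this; omega)
    · have := mp_dat hm ν τ₁
      exact h4 (by unfold isDat at this; omega)
  case turn β kp i χ t =>
    obtain ⟨hd1, rfl, rfl⟩ := hd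
    have hc1 := cellAt_H.1 hc.1
    have hc2 := ctlAt_L0.1 hc.2
    obtain ⟨h1, h2, ν, hν, h3, h4⟩ := hI
    have hρ : ρ.val = ρ'.val := by simpa using hf.1
    refine ⟨T, _, _, ρ', hfin T (.pr β kp i (some χ) false) (fun _ _ => rfl)
      (Or.inr rfl) ⟨hc.1, trivial, rfl⟩ ⟨hd1, ctlAt_R1.2 ⟨by omega, rfl, by omega⟩⟩,
      by omega, by simp [sg]; omega, ν, hν, ?_, ?_⟩
    · have := mp_dat hm ν τ₁
      exact h4 (by unfold isDat at this; omega)
    · have := mp_dat hm ν (kp.2 i).2.1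
      rw [← hρ]; exact h3 (by unfold isDat at this; omega)
  case right β kp i ld s k k' hk hk' hs1 hx1 =>
    obtain ⟨hc1, rfl, rfl⟩ := hc
    obtain ⟨hd1, -, hs⟩ := hd
    have hρ : ρ.val = ρ'.val := by simpa using ht.1
    obtain ⟨h1, h2⟩ := hI.pr_pos
    refine ⟨T, _, _, ρ', hfin T (.pr β kp i ld s) (fun _ _ => rfl)
      (Or.inl rfl) ⟨hc1, by omega, h2⟩ ⟨hd1, trivial, rfl⟩, ?_⟩
    rw [← hρ]
    refine hI.pr_move ?_ hs
    by_contra hcon
    have hp3 : p = 3 * m + 3 := by omega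
    refine hs1 (by rw [h2]; simp [sg]; omega) ?_
    rw [← hc1]; exact cellAt_Lb.2 (by omega)
  case unload β kp i χ s k k' hk hx1 =>
    obtain ⟨hc1, rfl, rfl⟩ := hc
    obtain ⟨hd1, -, hs⟩ := hd
    obtain ⟨h1, h2, ν, hν, h3, h4⟩ := hI
    have hρ : ρ.val = ad m (p + 1) := by simpa using ht.1.1
    rw [hs, ← hd1] at hx1
    obtain ⟨hdat, hval⟩ := xmark_sound hν.1 hx1
    refine ⟨T, _, _, ρ', hfin T (.pr β kp i none s) (fun _ _ => rfl)
      (Or.inl rfl) ⟨hc1, by omega, h2⟩ ⟨hd1, trivial, rfl⟩, by unfold isDat at hdat; omega, hs,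
      ν, ⟨hν.1, hν.2.1, hν.2.2.1, fun i' hi' => ?_⟩, h3, ht.1.2⟩
    rcases (Nat.lt_succ_iff.1 hi').eq_or_lt with h5 | h5
    · rw [Fin.ext h5]
      unfold semCon
      rw [hval, ← hρ]; exact h4
    · exact hν.2.2.2 i' h5
  case rightX β kp i ld =>
    obtain ⟨hc1, rfl, rfl⟩ := hc
    have hc2 := cellAt_E.1 hc1
    have hρ : ρ.val = ρ'.val := by simpa using ht.1
    refine ⟨T, _, _, ρ', hfin T (.pr β kp i ld true) (fun _ _ => rfl)
      (Or.inl rfl) ⟨hc1, ctlAt_L0.2 (by omega)⟩ ⟨hd.1, trivial, rfl⟩, ?_⟩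
    rw [← hρ]
    exact hI.pr_move (by omega) (by simp [sg]; omega)

theorem inv2_lock {x y : Fin 4 → ℕ} {T : ℕ → Tape} {j : ℕ} {q : Hd} {ρ : Fin m}
    (hI : Inv1 x T j q ρ) {u v : List (Sk m)} {a b a' b' : Sk m}
    (h1 : word (2 * m + 2) false T j q ρ = u ++ [a]) (h2 : rootR m y = b :: v)
    (h : Fwd a b a' b') :
    ∃ T' j' q' ρ', u ++ a' :: b' :: v = word (4 * m + 4) true T' j' q' ρ' ∧
      Inv2 m x y T' j' ρ'.val q' := by
  have hm := Nat.pos_of_neZero m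
  obtain ⟨hN, hu, ha, -⟩ := range_eq1 h1
  rw [rootR_eq] at h2
  obtain ⟨hN', -, hb, hv⟩ := range_eq1 (u := []) h2
  have hul : u.length = 2 * m + 1 := by simp at hN; omega
  have hvl : v.length = 2 * m + 1 := by simp at hN'; omega
  rw [hul] at hu ha
  rw [hvl] at hv
  simp only [List.length_nil] at hb hv
  have hb1 : b.1 = (.H, .hd .root) := by
    rw [hb]
    simp only [letter]
    rw [cellAt_H.2 (Or.inl rfl), ctlAt_hd.2 ⟨rfl, rfl⟩]
  obtain ⟨P, hP, hc, hd, e1, e2, hif⟩ := h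
  rw [hb1] at hd
  generalize hf : a'.1 = f at hP
  generalize hf' : b'.1 = f' at hP
  cases hP <;> simp only [Prod.mk.injEq, reduceCtorEq, and_false, false_and, flagR, Ctl.hd.injEq]
    at hd
  case lock β =>
    simp only [if_true] at hif
    rw [ha] at hc
    simp only [letter, Prod.mk.injEq, ctlAt_hd] at hc
    obtain ⟨-, rfl, rfl⟩ := hc
    rcases hI with ⟨h', -⟩ | ⟨β', h', -, hW, -⟩
    · cases h'
    cases h'
    refine ⟨fun n => if n ≤ 2 * m + 1 then T n else T0 m y (2 * m + 2) n, 2 * m + 2, .wr2 β,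
      b'.2.2, ?_, le_rfl, by omega, hW.congr fun n _ _ => if_pos (by omega),
      ⟨fun n h3 h4 => ⟨fun _ => by omega, fun _ => if_neg (by omega)⟩, fun _ => by omega⟩⟩
    unfold word
    rw [show 4 * m + 4 = 2 * m + 1 + 2 + (2 * m + 1) by omega, range_split2]
    refine congrArg₂ _ ?_ (congrArg₂ _ ?_ (congrArg₂ _ ?_ ?_))
    · rw [hu]
      refine List.map_congr_left fun n hn => ?_
      have := List.mem_range.1 hn
      simp only [letter]
      rw [cellAt_congr (T := T) (T' := fun n => if n ≤ 2 * m + 1 then T n else T0 m y (2 * m + 2) n)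
        (if_pos (by omega)), ctlAt_L0.2 (by omega), ctlAt_L0.2 (by omega),
        if_neg (by omega), if_neg (by omega)]
    · refine Prod.ext (hf.trans ?_) (Prod.ext ?_ ?_)
      · simp only [letter]
        rw [cellAt_E.2 (Or.inl rfl), ctlAt_L0.2 (by omega)]
      · rw [← e1, ha]; rfl
      · simp only [letter]; rw [if_neg (by omega)]; exact Fin.ext hif.1
    · refine Prod.ext (hf'.trans ?_) (Prod.ext ?_ ?_)
      · simp only [letter]
        rw [cellAt_H.2 (Or.inr rfl), ctlAt_hd.2 ⟨rfl, rfl⟩]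
      · rw [← e2, hb]
        simp only [letter]
        rw [adF_zero (by unfold isDat; omega), adF_zero (by unfold isDat; omega)]
      · simp [letter]
    · rw [hv]
      refine List.map_congr_left fun n hn => ?_
      have := List.mem_range.1 hn
      simp only [letter]
      rw [ctlAt_R0.2 ⟨by omega, Or.inl rfl⟩, ctlAt_R0.2 ⟨by omega, Or.inr (by omega)⟩,
        if_neg (by omega), if_neg (by omega)]
      refine Prod.ext (Prod.ext ?_ rfl) (Prod.ext (Fin.ext ?_) rfl)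
      · simp only
        by_cases hn1 : n < m
        · rw [cellAt_of_dat (by unfold isDat; omega), cellAt_of_dat (by unfold isDat; omega),
            if_neg (by omega)]
          unfold T0
          rw [show 0 + 1 + n - (0 + 1) = 2 * m + 1 + 2 + n - (2 * m + 2 + 1) by omega]
        · by_cases hn2 : n < 2 * m
          · rw [cellAt_Lb.2 (by omega), cellAt_Lb.2 (by omega)]
          · rw [cellAt_E.2 (by omega), cellAt_E.2 (by omega)]
      · simp only [adF, ad]; split_ifs <;> omega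
  all_goals (split_ifs at hd <;> simp at hd)

theorem inv2 (hm0 : m0 ≤ m) {c d : Ltr (17 * m)} {g : List (Sk m)} (h : T2sk c d g) :
    ∃ T j q ρ, g = word (4 * m + 4) true T j q ρ ∧ Inv2 m (num c) (num d) T j ρ.val q := by
  induction h with
  | lock u v y z y' z' h1 h2 h3 =>
    obtain ⟨T, j, q, ρ, e, hI⟩ := inv1 h1
    exact inv2_lock hI e.symm h2 h3
  | step g g' _ h ih =>
    obtain ⟨T, j, q, ρ, rfl, hI⟩ := ih
    exact inv2_step hm0 (num_lt (by omega) c) (num_lt (by omega) d) hI h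

end Inv

end Mach

end Vale.Agent.P192
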