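import Vale.Agent.P192.MachV
import Vale.Agent.P192.MachStruct
import Vale.Agent.P192.MachInvAux3

/-!
P192, part M3b: semantic invariants (label counter, soundness of the verification).
-/

namespace Vale.Agent.P192

namespace Mach

open _root_.Vale.Agent.P192.Mach.Inv

variable {m : ℕ} [NeZero m] {c d : Ltr (17 * m)} {u v : List (Sk m)} {a b : Sk m}


theorem T1sk.not_wk (hm : m0 ≤ m) (h : T1sk c (u ++ a :: b :: v)) : ¬ WK a b := by
  obtain ⟨T, j, q, ρ, e, hI⟩ := inv1 h
  obtain ⟨hN, -, rfl, rfl, -⟩ := range_eq2 e.symm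
  rintro ⟨β, h1, h2, h3⟩
  simp only [letter, Prod.mk.injEq, ctlAt_hd] at h1 h2 h3
  obtain ⟨h4, rfl, rfl⟩ := h1
  have h5 := cellAt_Lb.1 h4
  have h6 := cellAt_E.1 h2
  rcases hI with ⟨h', -⟩ | ⟨β', -, -, -, hρ⟩
  · cases h'
  · apply h3
    rw [if_pos rfl, if_neg (by omega)]
    exact ⟨by omega, rfl⟩

theorem Inv.dataW_eq {ν : Slot → ℕ} {T : ℕ → Tape} (hG : Good m ν T) (s : Bool) (ctl : Ctl)
    (W : ℕ → Sk m) (pos : ℕ → ℕ)
    (h : ∀ a, a < m → isDat m (pos a) ∧ sg m (pos a) = s ∧ ad m (pos a) = a ∧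
      W a = ((cellAt m T (pos a), ctl), adF m (pos a), 0)) :
    dataW ν s ctl = (List.range m).map W := by
  refine map_finRange _ _ fun a => ?_
  obtain ⟨h1, h2, h3, h4⟩ := h a.val a.isLt
  rw [h4, cellAt_of_dat h1, hG.2 _ h1, h2, h3, adF_eq h3]

/-- Soundness of the verification. -/
theorem T2sk.sound (hm : m0 ≤ m) {β : Bool} {kp : KP} (h : T2sk c d (u ++ a :: v))
    (ha : a.1 = (.Lb, .hd (vState β kp))) :
    ∃ ν : Slot → ℕ, (∀ s, ν s < 17 * m) ∧ Holds (17 * m) kp ν ∧
      (∀ i, ν (sl false β i) = num c i) ∧ (∀ i, ν (sl true β i) = num d i) ∧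
      u = vPre ν ∧ a = ((.Lb, .hd (vState β kp)), 0, 0) ∧ v = vPost m := by
  have hm' := Nat.pos_of_neZero m
  obtain ⟨T, j, q, ρ, e, hI⟩ := inv2 hm h
  obtain ⟨hN, hu, ha', hv⟩ := range_eq1 e.symm
  have ha1 := ha
  rw [ha'] at ha1
  simp only [letter, Prod.mk.injEq, ctlAt_hd] at ha1
  obtain ⟨h1, hj, rfl⟩ := ha1
  obtain ⟨h2, h3, ν, ⟨hG, hx, hy, hc⟩, hR, hρ⟩ := hI
  have h4 := cellAt_Lb.1 h1
  have h5 : j = 3 * m + 3 := by simp [sg] at h3; omega
  have hvl : v.length = m := by omega
  rw [hj, h5] at hu ha' hv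
  rw [hvl] at hv
  refine ⟨ν, hG.1, ⟨fun i => hc i (by have := i.isLt; simp), hR⟩, hx, hy, ?_, ?_, ?_⟩
  · rw [hu, show 3 * m + 3 = (2 * m + 2) + (m + 1) by omega, List.range_add, List.map_append,
      seg_split, List.range_succ_eq_map]
    simp only [vPre, List.cons_append, List.append_assoc, List.map_cons, List.map_map,
      Function.comp_def, List.nil_append]
    refine congrArg₂ _ ?_ (congrArg₂ _ ?_ (congrArg₂ _ ?_ (congrArg₂ _ ?_ (congrArg₂ _ ?_ ?_))))
    · simp only [letter]
      rw [cellAt_H.2 (Or.inl rfl), ctlAt_L0.2 (by omega), adF_zero (by unfold isDat; omega),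
        if_neg (by omega)]
    · refine (dataW_eq hG _ _ _ (fun a => a + 1) fun a ha => ⟨by unfold isDat; omega,
        by simp [sg]; omega, by unfold ad; split_ifs <;> omega, ?_⟩).symm
      simp only [letter]
      rw [ctlAt_L0.2 (by omega), if_neg (by omega)]
    · refine (replicate_eq _ _ _ fun a ha => ?_).symm
      simp only [letter]
      rw [cellAt_Lb.2 (by omega), ctlAt_L0.2 (by omega), adF_zero (by unfold isDat; omega),
        if_neg (by omega)]
    · simp only [letter]
      rw [cellAt_E.2 (by omega), ctlAt_L0.2 (by omega), adF_zero (by unfold isDat; omega),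
        if_neg (by omega)]
    · simp only [letter]
      rw [cellAt_H.2 (by omega), ctlAt_L1.2 (by omega), adF_zero (by unfold isDat; omega),
        if_neg (by omega)]
    · refine (dataW_eq hG _ _ _ (fun a => 2 * m + 2 + (a + 1)) fun a ha => ⟨by unfold isDat; omega,
        by simp [sg], by unfold ad; split_ifs <;> omega, ?_⟩).symm
      simp only [letter, Nat.succ_eq_add_one]
      rw [ctlAt_L1.2 (by omega), if_neg (by omega)]
  · refine Prod.ext ha ?_
    rw [ha']
    simp only [letter]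
    rw [adF_zero (by unfold isDat; omega), if_pos trivial, show ρ = 0 from Fin.ext hρ]
  · rw [hv, vPost]
    have hr : List.range m = List.range (m - 1) ++ [m - 1] := by
      rw [← List.range_succ]; congr 1; omega
    rw [hr, List.map_append, List.map_singleton]
    refine congrArg₂ _ (replicate_eq _ _ _ fun a ha => ?_).symm (congrArg₂ _ ?_ rfl)
    · simp only [letter]
      rw [cellAt_Lb.2 (by omega), ctlAt_R0.2 (by omega), adF_zero (by unfold isDat; omega),
        if_neg (by omega)]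
    · simp only [letter]
      rw [cellAt_E.2 (by omega), ctlAt_R0.2 (by omega), adF_zero (by unfold isDat; omega),
        if_neg (by omega)]

end Mach

end Vale.Agent.P192
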