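import Vale.Agent.P192.MachV

/-!
P192, part M3b, auxiliary file 1: explicit description of machine words by positions.
-/

namespace Vale.Agent.P192

namespace Mach

namespace Inv

/-- Data positions. -/
def isDat (m n : ℕ) : Prop := (1 ≤ n ∧ n ≤ m) ∨ (2 * m + 3 ≤ n ∧ n ≤ 3 * m + 2)

instance (m n : ℕ) : Decidable (isDat m n) := by unfold isDat; infer_instance

/-- Address of a position. -/
def ad (m n : ℕ) : ℕ :=
  if n ≤ m then n - 1 else if n ≤ 2 * m + 2 then 0 else if n ≤ 3 * m + 2 then n - (2 * m + 3) else 0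

/-- Segment of a position. -/
def sg (m n : ℕ) : Bool := decide (2 * m + 2 ≤ n)

def cellAt (m : ℕ) (T : ℕ → Tape) (n : ℕ) : Cell :=
  if n = 0 ∨ n = 2 * m + 2 then .H else if isDat m n then .D (T n)
  else if n = 2 * m + 1 ∨ 4 * m + 3 ≤ n then .E else .Lb

def ctlAt (m : ℕ) (lk : Bool) (j : ℕ) (q : Hd) (n : ℕ) : Ctl :=
  if n = j then .hd q else if n < j then (if n ≤ 2 * m + 1 then .L0 else .L1)
  else if lk = true ∧ n ≤ 2 * m + 1 then .R1 else .R0

theorem ad_lt {m : ℕ} (hm : 0 < m) (n : ℕ) : ad m n < m := by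
  unfold ad; split_ifs <;> omega

variable {m : ℕ}

def adF (m : ℕ) [NeZero m] (n : ℕ) : Fin m := ⟨ad m n, ad_lt (Nat.pos_of_neZero m) n⟩

theorem cellAt_H {T : ℕ → Tape} {n : ℕ} : cellAt m T n = .H ↔ n = 0 ∨ n = 2 * m + 2 := by
  unfold cellAt; split_ifs <;> simp_all

theorem cellAt_D {T : ℕ → Tape} {n : ℕ} {t : Tape} :
    cellAt m T n = .D t ↔ isDat m n ∧ T n = t := by
  unfold cellAt
  split_ifs with h1 h2 h3
  · simp only [false_iff, not_and]; intro h; unfold isDat at h; omega
  · simp [h2]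
  · simp [h2]
  · simp [h2]

theorem cellAt_of_dat {T : ℕ → Tape} {n : ℕ} (h : isDat m n) : cellAt m T n = .D (T n) :=
  cellAt_D.2 ⟨h, rfl⟩

theorem cellAt_Lb {T : ℕ → Tape} {n : ℕ} :
    cellAt m T n = .Lb ↔ (m + 1 ≤ n ∧ n ≤ 2 * m) ∨ (3 * m + 3 ≤ n ∧ n ≤ 4 * m + 2) := by
  unfold cellAt
  split_ifs with h1 h2 h3 <;> simp only [false_iff, true_iff] <;> unfold isDat at * <;> omega

theorem cellAt_E {T : ℕ → Tape} {n : ℕ} :
    cellAt m T n = .E ↔ n = 2 * m + 1 ∨ 4 * m + 3 ≤ n := by
  unfold cellAt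
  split_ifs with h1 h2 h3 <;> simp only [false_iff, true_iff] <;> unfold isDat at * <;> omega

theorem isD_cellAt {T : ℕ → Tape} {n : ℕ} : isD (cellAt m T n) = true ↔ isDat m n := by
  unfold cellAt
  split_ifs with h1 h2 h3
  · simp only [isD, Bool.false_eq_true, false_iff]; unfold isDat; omega
  · simp [isD, h2]
  · simp [isD, h2]
  · simp [isD, h2]

theorem cellAt_congr {T T' : ℕ → Tape} {n : ℕ} (h : T' n = T n) :
    cellAt m T' n = cellAt m T n := by
  unfold cellAt; rw [h]

theorem ctlAt_hd {lk : Bool} {j n : ℕ} {q q' : Hd} :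
    ctlAt m lk j q n = .hd q' ↔ n = j ∧ q = q' := by
  unfold ctlAt; split_ifs <;> simp_all

theorem ctlAt_L0 {lk : Bool} {j n : ℕ} {q : Hd} :
    ctlAt m lk j q n = .L0 ↔ n < j ∧ n ≤ 2 * m + 1 := by
  unfold ctlAt
  split_ifs <;> simp only [false_iff, true_iff] <;> omega

theorem ctlAt_L1 {lk : Bool} {j n : ℕ} {q : Hd} :
    ctlAt m lk j q n = .L1 ↔ n < j ∧ 2 * m + 1 < n := by
  unfold ctlAt
  split_ifs <;> simp only [false_iff, true_iff] <;> omega

theorem ctlAt_R1 {lk : Bool} {j n : ℕ} {q : Hd} :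
    ctlAt m lk j q n = .R1 ↔ j < n ∧ lk = true ∧ n ≤ 2 * m + 1 := by
  unfold ctlAt
  split_ifs with h1 h2 h3 h4 <;> simp only [false_iff, true_iff]
  · omega
  · omega
  · omega
  · exact ⟨by omega, h4⟩
  · exact fun h => h4 h.2

theorem ctlAt_R0 {lk : Bool} {j n : ℕ} {q : Hd} :
    ctlAt m lk j q n = .R0 ↔ j < n ∧ (lk = false ∨ 2 * m + 1 < n) := by
  unfold ctlAt
  split_ifs with h1 h2 h3 h4 <;> simp only [false_iff, true_iff]
  · omega
  · omega
  · omega
  · rintro ⟨-, h | h⟩
    · simp [h] at h4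
    · omega
  · refine ⟨by omega, ?_⟩
    cases lk
    · exact Or.inl rfl
    · right; simp at h4; omega

theorem ctlAt_flagL {lk s : Bool} {j n : ℕ} {q : Hd} :
    ctlAt m lk j q n = flagL s ↔ n < j ∧ s = sg m n := by
  cases s <;> simp [flagL, ctlAt_L0, ctlAt_L1, sg] <;> omega

theorem ctlAt_flagR {s : Bool} {j n : ℕ} {q : Hd} :
    ctlAt m true j q n = flagR s ↔ j < n ∧ s = sg m n := by
  cases s <;> simp [flagR, ctlAt_R0, ctlAt_R1, sg] <;> omega

variable [NeZero m]

def letter (m : ℕ) [NeZero m] (lk : Bool) (T : ℕ → Tape) (j : ℕ) (q : Hd) (ρ : Fin m) (n : ℕ) :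
    Sk m :=
  ((cellAt m T n, ctlAt m lk j q n), adF m n, if n = j then ρ else 0)

def word (N : ℕ) (lk : Bool) (T : ℕ → Tape) (j : ℕ) (q : Hd) (ρ : Fin m) : List (Sk m) :=
  (List.range N).map (letter m lk T j q ρ)

theorem range_split2 {α : Type} (W : ℕ → α) (p r : ℕ) :
    (List.range (p + 2 + r)).map W =
      (List.range p).map W ++ W p :: W (p + 1) :: (List.range r).map (fun n => W (p + 2 + n)) := by
  rw [List.range_add, List.range_add]
  simp [List.range_succ, Function.comp_def]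

theorem range_split1 {α : Type} (W : ℕ → α) (p r : ℕ) :
    (List.range (p + 1 + r)).map W =
      (List.range p).map W ++ W p :: (List.range r).map (fun n => W (p + 1 + n)) := by
  rw [List.range_add, List.range_add]
  simp [Function.comp_def]

theorem range_eq2 {α : Type} {W : ℕ → α} {N : ℕ} {u v : List α} {c d : α}
    (h : (List.range N).map W = u ++ c :: d :: v) :
    N = u.length + 2 + v.length ∧ u = (List.range u.length).map W ∧ c = W u.length ∧
      d = W (u.length + 1) ∧ v = (List.range v.length).map (fun n => W (u.length + 2 + n)) := by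
  have hN : N = u.length + 2 + v.length := by
    have := congrArg List.length h
    simp at this; omega
  rw [hN, range_split2] at h
  have h1 := List.append_inj h (by simp)
  simp only [List.cons.injEq] at h1
  exact ⟨hN, h1.1.symm, h1.2.1.symm, h1.2.2.1.symm, h1.2.2.2.symm⟩

theorem range_eq1 {α : Type} {W : ℕ → α} {N : ℕ} {u v : List α} {c : α}
    (h : (List.range N).map W = u ++ c :: v) :
    N = u.length + 1 + v.length ∧ u = (List.range u.length).map W ∧ c = W u.length ∧
      v = (List.range v.length).map (fun n => W (u.length + 1 + n)) := by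
  have hN : N = u.length + 1 + v.length := by
    have := congrArg List.length h
    simp at this; omega
  rw [hN, range_split1] at h
  have h1 := List.append_inj h (by simp)
  simp only [List.cons.injEq] at h1
  exact ⟨hN, h1.1.symm, h1.2.1.symm, h1.2.2.symm⟩

theorem letter_off {lk : Bool} {T T' : ℕ → Tape} {j j' : ℕ} {q q' : Hd} {ρ ρ' : Fin m} {p n : ℕ}
    (hT : ∀ n, n ≠ p + 1 → T' n = T n) (hj : j = p ∨ j = p + 1) (hj' : j' = p ∨ j' = p + 1)
    (h1 : n ≠ p) (h2 : n ≠ p + 1) : letter m lk T' j' q' ρ' n = letter m lk T j q ρ n := by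
  unfold letter ctlAt
  rw [cellAt_congr (hT n h2)]
  have e1 : n ≠ j := by omega
  have e2 : n ≠ j' := by omega
  have e3 : n < j ↔ n < j' := by omega
  simp only [e1, e2, if_false, e3]

/-- Analysis of a forward move out of an explicit word. -/
theorem step_cases {N : ℕ} {lk : Bool} {T : ℕ → Tape} {j : ℕ} {q : Hd} {ρ : Fin m}
    {g' : List (Sk m)} (h : FwdW (word N lk T j q ρ) g') :
    ∃ (p : ℕ) (f f' : F) (P : Par) (ρ' : Fin m), p + 1 < N ∧ ParR f f' P ∧
      (cellAt m T p, ctlAt m lk j q p) = P.fc ∧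
      (cellAt m T (p + 1), ctlAt m lk j q (p + 1)) = P.fd ∧
      (P.dir = true → modeRel m P.mode (if p = j then ρ else 0 : Fin m).val ρ'.val (ad m (p + 1)) ∧
        Guards P (f', adF m (p + 1), ρ')) ∧
      (P.dir = false → modeRel m P.mode (if p + 1 = j then ρ else 0 : Fin m).val ρ'.val (ad m p) ∧
        Guards P (f, adF m p, ρ')) ∧
      ∀ (T' : ℕ → Tape) (q' : Hd), (∀ n, n ≠ p + 1 → T' n = T n) → (j = p ∨ j = p + 1) →
        (cellAt m T' p, ctlAt m lk (if P.dir = true then p + 1 else p) q' p) = f →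
        (cellAt m T' (p + 1), ctlAt m lk (if P.dir = true then p + 1 else p) q' (p + 1)) = f' →
        g' = word N lk T' (if P.dir = true then p + 1 else p) q' ρ' := by
  obtain ⟨u, v, c, d, c', d', ⟨P, hP, hc, hd, ha, hb, hif⟩, hg, rfl⟩ := h
  obtain ⟨hN, hu, rfl, rfl, hv⟩ := range_eq2 hg
  set p := u.length with hp
  have key : ∀ (ρ' : Fin m) (j' : ℕ), (j' = p ∨ j' = p + 1) →
      c'.2.2 = (if p = j' then ρ' else 0) → d'.2.2 = (if p + 1 = j' then ρ' else 0) →
      ∀ (T' : ℕ → Tape) (q' : Hd), (∀ n, n ≠ p + 1 → T' n = T n) → (j = p ∨ j = p + 1) →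
        (cellAt m T' p, ctlAt m lk j' q' p) = c'.1 →
        (cellAt m T' (p + 1), ctlAt m lk j' q' (p + 1)) = d'.1 →
        u ++ c' :: d' :: v = word N lk T' j' q' ρ' := by
    intro ρ' j' hj' h1 h2 T' q' hT hj e1 e2
    unfold word
    rw [hN, range_split2]
    congr 1
    · rw [hu]
      refine List.map_congr_left fun n hn => ?_
      have := List.mem_range.1 hn
      exact (letter_off hT hj hj' (by omega) (by omega)).symm
    · congr 1
      · exact Prod.ext e1.symm (Prod.ext ha.symm h1)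
      · congr 1
        · exact Prod.ext e2.symm (Prod.ext hb.symm h2)
        · conv_lhs => rw [hv]
          refine List.map_congr_left fun n hn => ?_
          exact (letter_off hT hj hj' (by omega) (by omega)).symm
  cases hdir : P.dir
  · simp only [hdir, Bool.false_eq_true, if_false] at hif ⊢
    obtain ⟨h1, h2, h3, h4⟩ := hif
    refine ⟨p, c'.1, d'.1, P, c'.2.2, by omega, hP, hc, hd, by simp [hdir], fun _ => ⟨?_, ?_⟩, ?_⟩
    · rw [← ha] at h3; exact h3
    · have : (c'.1, adF m p, c'.2.2) = c' := Prod.ext rfl (Prod.ext ha rfl)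
      rw [this]; exact h4
    · simp only [hdir, Bool.false_eq_true, if_false]
      exact key c'.2.2 p (Or.inl rfl) (by simp) (by simp; exact Fin.ext h1)
  · simp only [hdir, if_true] at hif ⊢
    obtain ⟨h1, h2, h3, h4⟩ := hif
    refine ⟨p, c'.1, d'.1, P, d'.2.2, by omega, hP, hc, hd, fun _ => ⟨?_, ?_⟩, by simp [hdir], ?_⟩
    · rw [← hb] at h3; exact h3
    · have : (d'.1, adF m (p + 1), d'.2.2) = d' := Prod.ext rfl (Prod.ext hb rfl)
      rw [this]; exact h4
    · simp only [hdir, if_true]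
      exact key d'.2.2 (p + 1) (Or.inr rfl) (by simp; exact Fin.ext h1) (by simp)

end Inv

end Mach

end Vale.Agent.P192
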