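import Vale.Agent.P192.MachInvAux1

/-!
P192, part M3b, auxiliary file 2: thermometer codes, written zones, the free phase.
-/

namespace Vale.Agent.P192

namespace Mach

namespace Inv

variable {m : ℕ}

theorem thermo (hm : 0 < m) (x : ℕ → Sym) (h0 : x 0 ≠ .aft)
    (hs : ∀ a, a + 1 < m → stepS (x a) (x (a + 1))) (hl : x (m - 1) ≠ .bef) :
    ∃ n, n < 17 * m ∧ ∀ a, a < m → x a = enc m n a := by
  classical
  have hex : ∃ a, x a ≠ .bef := ⟨m - 1, hl⟩
  set a0 := Nat.find hex with ha0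
  have hle : a0 ≤ m - 1 := Nat.find_min' hex hl
  have hbef : ∀ a, a < a0 → x a = .bef := fun a ha => by
    have := Nat.find_min hex ha
    simpa using this
  have hne : x a0 ≠ .bef := Nat.find_spec hex
  have hna : x a0 ≠ .aft := by
    rcases Nat.eq_zero_or_pos a0 with h | h
    · rw [h]; exact h0
    · have h1 := hs (a0 - 1) (by omega)
      rw [show a0 - 1 + 1 = a0 by omega] at h1
      rcases h1 with h1 | h1
      · exact h1.2
      · exact absurd (hbef _ (by omega)) h1.1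
  obtain ⟨χ, hχ⟩ : ∃ χ, x a0 = .mark χ := by
    cases h : x a0 with
    | bef => exact absurd h hne
    | aft => exact absurd h hna
    | mark χ => exact ⟨χ, rfl⟩
  have haft : ∀ k, a0 + 1 + k < m → x (a0 + 1 + k) = .aft := by
    intro k
    induction k with
    | zero =>
      intro h
      rcases hs a0 h with h1 | h1
      · exact absurd h1.1 hne
      · exact h1.2
    | succ k ih =>
      intro h
      rcases hs (a0 + 1 + k) h with h1 | h1
      · rw [ih (by omega)] at h1; exact absurd h1.1 (by simp)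
      · exact h1.2
  have hχ17 := χ.isLt
  have hmod : (a0 + m * χ.val) % m = a0 := by
    rw [Nat.add_mul_mod_self_left]; exact Nat.mod_eq_of_lt (by omega)
  have hdiv : (a0 + m * χ.val) / m = χ.val := by
    rw [Nat.add_mul_div_left _ _ hm, Nat.div_eq_of_lt (by omega), zero_add]
  have hbd : m * χ.val ≤ m * 16 := Nat.mul_le_mul_left m (by omega)
  refine ⟨a0 + m * χ.val, by omega, fun a ha => ?_⟩
  unfold enc
  rw [hmod, hdiv]
  split_ifs with h1 h2
  · exact hbef a h1
  · rw [h2, hχ]; congr 1; exact Fin.ext (by simp)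
  · have := haft (a - (a0 + 1)) (by omega)
    rwa [show a0 + 1 + (a - (a0 + 1)) = a by omega] at this

theorem enc_mark {n a : ℕ} {χ : Col} (hn : n < 17 * m) (h : enc m n a = .mark χ) :
    n = a + m * χ.val := by
  have hm : 0 < m := by omega
  unfold enc at h
  split_ifs at h with h1 h2
  simp only [Sym.mark.injEq] at h
  have h3 : n / m < 17 := by rw [Nat.div_lt_iff_lt_mul hm]; exact hn
  have h4 : χ.val = n / m := by rw [← h]; simp [Nat.mod_eq_of_lt h3]
  rw [h2, h4]; exact (Nat.mod_add_div n m).symm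

theorem enc_self (n : ℕ) : enc m n (n % m) = .mark (Fin.ofNat 17 (n / m)) := by
  simp [enc]

theorem enc_inj {n n' : ℕ} (hn : n < 17 * m) (hn' : n' < 17 * m)
    (h : ∀ a, a < m → enc m n a = enc m n' a) : n = n' := by
  have hm : 0 < m := by omega
  have h1 := h (n % m) (Nat.mod_lt _ hm)
  rw [enc_self] at h1
  exact (enc_mark hn (enc_self n)).trans (enc_mark hn' h1.symm).symm

/-- The data zone after position `b` is written up to position `k`. -/
def WrOK (m : ℕ) (β : Bool) (x : Fin 4 → ℕ) (b k : ℕ) (T : ℕ → Tape) : Prop :=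
  (∀ n, b < n → n ≤ b + m →
    (n ≤ k → ∃ t, T n = .wr t ∧ orig β t = (fun i => enc m (x i) (n - (b + 1))) ∧
      wrOK (cellAt m T (n - 1)) t) ∧
    (k < n → T n = .raw (fun i => enc m (x i) (n - (b + 1))))) ∧
  (b + m < k → endOK (cellAt m T (b + m)))

theorem WrOK.congr {β : Bool} {x : Fin 4 → ℕ} {b k : ℕ} {T T' : ℕ → Tape} (h : WrOK m β x b k T)
    (hT : ∀ n, b ≤ n → n ≤ b + m → T' n = T n) : WrOK m β x b k T' := by
  refine ⟨fun n h1 h2 => ?_, fun hk => ?_⟩
  · rw [hT n (by omega) h2, cellAt_congr (hT (n - 1) (by omega) (by omega))]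
    exact h.1 n h1 h2
  · rw [cellAt_congr (hT (b + m) (by omega) le_rfl)]; exact h.2 hk

theorem WrOK.write {β : Bool} {x : Fin 4 → ℕ} {b k : ℕ} {T : ℕ → Tape} (h : WrOK m β x b k T)
    (_h1 : b ≤ k) (h2 : k + 1 ≤ b + m) {t : Trk → Sym} (ht : T (k + 1) = .raw (orig β t))
    (hw : wrOK (cellAt m T k) t) : WrOK m β x b (k + 1) (Function.update T (k + 1) (.wr t)) := by
  refine ⟨fun n h3 h4 => ⟨fun h5 => ?_, fun h5 => ?_⟩, fun hk => by omega⟩
  · rw [cellAt_congr (T := T) (Function.update_of_ne (by omega) _ _)]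
    rcases eq_or_ne n (k + 1) with rfl | hn
    · refine ⟨t, by simp, ?_, by simpa using hw⟩
      have := (h.1 (k + 1) h3 h4).2 (by omega)
      rw [ht] at this
      exact Tape.raw.inj this
    · rw [Function.update_of_ne hn]; exact (h.1 n h3 h4).1 (by omega)
  · rw [Function.update_of_ne (by omega)]; exact (h.1 n h3 h4).2 (by omega)

theorem WrOK.leave {β : Bool} {x : Fin 4 → ℕ} {b k k' : ℕ} {T : ℕ → Tape} (h : WrOK m β x b k T)
    (h1 : b + m ≤ k) (h2 : b + m ≤ k') (he : endOK (cellAt m T (b + m))) : WrOK m β x b k' T :=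
  ⟨fun n h3 h4 => ⟨fun _ => (h.1 n h3 h4).1 (by omega), fun _ => by omega⟩, fun _ => he⟩

theorem WrOK.start {β β' : Bool} {x : Fin 4 → ℕ} {b : ℕ} {T : ℕ → Tape} (h : WrOK m β x b b T) :
    WrOK m β' x b b T :=
  ⟨fun n h3 h4 => ⟨fun _ => by omega, (h.1 n h3 h4).2⟩, h.2⟩

theorem WrOK.decode (hm : 0 < m) {β : Bool} {x : Fin 4 → ℕ} {b k : ℕ} {T : ℕ → Tape}
    (h : WrOK m β x b k T) (hb : b = 0 ∨ b = 2 * m + 2) (hk : b + m < k) (hx : ∀ i, x i < 17 * m) :
    ∃ ν : Trk → ℕ, (∀ tr, ν tr < 17 * m) ∧ (∀ i, ν (some (β, i)) = x i) ∧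
      ∀ n, b < n → n ≤ b + m → T n = .wr (fun tr => enc m (ν tr) (n - (b + 1))) := by
  have hw : ∀ a, ∃ t : Trk → Sym, a < m → T (b + 1 + a) = .wr t ∧
      orig β t = (fun i => enc m (x i) a) ∧ wrOK (cellAt m T (b + a)) t := by
    intro a
    by_cases ha : a < m
    · obtain ⟨t, h1, h2, h3⟩ := (h.1 (b + 1 + a) (by omega) (by omega)).1 (by omega)
      refine ⟨t, fun _ => ⟨h1, ?_, ?_⟩⟩
      · simpa using h2
      · rwa [show b + 1 + a - 1 = b + a by omega] at h3
    · exact ⟨fun _ => .bef, fun h => absurd h ha⟩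
  choose t ht using hw
  have hcell : ∀ a, a < m → cellAt m T (b + 1 + a) = .D (.wr (t a)) := fun a ha =>
    cellAt_D.2 ⟨by unfold isDat; omega, (ht a ha).1⟩
  have hth : ∀ tr, ∃ n, n < 17 * m ∧ ∀ a, a < m → t a tr = enc m n a := by
    intro tr
    refine thermo hm (fun a => t a tr) ?_ ?_ ?_
    · have h1 := (ht 0 hm).2.2
      rw [add_zero, cellAt_H.2 hb] at h1
      exact h1 tr
    · intro a ha
      have h1 := (ht (a + 1) ha).2.2
      rw [show b + (a + 1) = b + 1 + a by omega, hcell a (by omega)] at h1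
      exact h1 tr
    · have h1 := h.2 hk
      rw [show b + m = b + 1 + (m - 1) by omega, hcell _ (by omega)] at h1
      exact h1 tr
  choose ν hν using hth
  refine ⟨ν, fun tr => (hν tr).1, fun i => enc_inj (hν _).1 (hx i) fun a ha => ?_,
    fun n h1 h2 => ?_⟩
  · rw [← (hν _).2 a ha]; exact congrFun (ht a ha).2.1 i
  · have h3 := (ht (n - (b + 1)) (by omega)).1
    rw [show b + 1 + (n - (b + 1)) = n by omega] at h3
    rw [h3]; congr 1; funext tr; exact (hν tr).2 _ (by omega)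

theorem map_finRange {α : Type} (f : Fin m → α) (W : ℕ → α) (h : ∀ a : Fin m, f a = W a.val) :
    (List.finRange m).map f = (List.range m).map W := by
  apply List.ext_getElem
  · simp
  · intro n h1 h2
    simp [h]

theorem replicate_eq {α : Type} (r : ℕ) (x : α) (W : ℕ → α) (h : ∀ a, a < r → x = W a) :
    List.replicate r x = (List.range r).map W := by
  apply List.ext_getElem
  · simp
  · intro n h1 h2
    simp at h1
    simp [h n h1]

variable [NeZero m]

theorem adF_eq {n : ℕ} {a : Fin m} (h : ad m n = a.val) : adF m n = a := Fin.ext h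

theorem adF_zero {n : ℕ} (h : ¬ isDat m n) : adF m n = 0 := by
  apply Fin.ext
  unfold isDat at h
  simp only [adF, ad, Fin.val_zero]
  split_ifs <;> omega

omit [NeZero m] in
theorem seg_split {α : Type} (W : ℕ → α) :
    (List.range (2 * m + 2)).map W = W 0 :: ((List.range m).map (fun a => W (a + 1)) ++
      ((List.range m).map (fun a => W (m + 1 + a)) ++ [W (2 * m + 1)])) := by
  rw [show 2 * m + 2 = (m + (m + 1)) + 1 by omega, List.range_succ_eq_map, List.range_add,
    List.range_succ]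
  simp only [List.map_cons, List.map_append, List.map_map, Function.comp_def, List.map_nil,
    Nat.succ_eq_add_one]
  rw [show m + m + 1 = 2 * m + 1 by omega]
  congr 3
  refine List.map_congr_left fun a _ => ?_
  congr 1; omega

/-- Tapes of a root word. -/
def T0 (m : ℕ) (x : Fin 4 → ℕ) (b : ℕ) : ℕ → Tape :=
  fun n => .raw (fun i => enc m (x i) (n - (b + 1)))

theorem rootR_eq (x : Fin 4 → ℕ) : rootR m x = word (m := m) (2 * m + 2) false (T0 m x 0) 0 .root 0 := by
  have hm := Nat.pos_of_neZero m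
  unfold word rootR
  rw [seg_split]
  refine congrArg₂ _ ?_ (congrArg₂ _ ?_ (congrArg₂ _ ?_ (congrArg₂ _ ?_ rfl)))
  · simp only [letter]
    rw [cellAt_H.2 (Or.inl rfl), ctlAt_hd.2 ⟨rfl, rfl⟩, adF_zero (by unfold isDat; omega)]
    simp
  · refine map_finRange _ _ fun a => ?_
    have := a.isLt
    simp only [letter]
    rw [cellAt_of_dat (by unfold isDat; omega), ctlAt_R0.2 ⟨by omega, Or.inl rfl⟩,
      adF_eq (a := a) (by unfold ad; split_ifs <;> omega)]
    simp [T0]
  · refine replicate_eq _ _ _ fun a ha => ?_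
    simp only [letter]
    rw [cellAt_Lb.2 (by omega), ctlAt_R0.2 ⟨by omega, Or.inl rfl⟩,
      adF_zero (by unfold isDat; omega)]
    simp
  · simp only [letter]
    rw [cellAt_E.2 (by omega), ctlAt_R0.2 ⟨by omega, Or.inl rfl⟩,
      adF_zero (by unfold isDat; omega)]
    simp

/-- Invariant of the free phase. -/
def Inv1 (x : Fin 4 → ℕ) (T : ℕ → Tape) (j : ℕ) (q : Hd) (ρ : Fin m) : Prop :=
  (q = .root ∧ j = 0 ∧ ρ.val = 0 ∧ WrOK m false x 0 0 T) ∨
    ∃ β, q = .wrF β ∧ 1 ≤ j ∧ WrOK m β x 0 j T ∧ (j ≤ 2 * m → ρ.val = j - (m + 1))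

theorem update_off (T : ℕ → Tape) (p : ℕ) (t : Tape) :
    ∀ n, n ≠ p + 1 → Function.update T (p + 1) t n = T n :=
  fun _ h => Function.update_of_ne h _ _

theorem inv1_step {x : Fin 4 → ℕ} {T : ℕ → Tape} {j : ℕ} {q : Hd} {ρ : Fin m}
    (hI : Inv1 x T j q ρ) {g' : List (Sk m)} (h : FwdW (word (2 * m + 2) false T j q ρ) g') :
    ∃ T' j' q' ρ', g' = word (2 * m + 2) false T' j' q' ρ' ∧ Inv1 x T' j' q' ρ' := by
  have hm := Nat.pos_of_neZero m
  obtain ⟨p, f, f', P, ρ', hp, hP, hc, hd, ht, hf, hfin⟩ := step_cases h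
  have hq : q = .root ∨ ∃ β, q = .wrF β := hI.imp (fun h => h.1) (fun ⟨β, h⟩ => ⟨β, h.1⟩)
  cases hP <;> simp only [Prod.mk.injEq, ctlAt_hd, if_true, forall_const, modeRel] at hc hd ht hfin
  case wrF0 β t hw =>
    obtain ⟨hc1, rfl, rfl⟩ := hc
    obtain ⟨hd1, hT⟩ := cellAt_D.1 hd.1
    rcases hI with ⟨-, rfl, hρ, hW⟩ | ⟨β', h', -⟩
    · refine ⟨_, _, _, ρ', hfin (Function.update T (0 + 1) (.wr t)) (.wrF β) (update_off _ _ _)
        (Or.inl rfl) ⟨cellAt_H.2 (Or.inl rfl), ctlAt_L0.2 (by omega)⟩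
        ⟨cellAt_D.2 ⟨hd1, by simp⟩, trivial, rfl⟩, Or.inr ⟨β, rfl, by omega, ?_, fun _ => ?_⟩⟩
      · exact hW.start.write le_rfl (by omega) hT (by rw [hc1]; exact hw)
      · simp only [if_true] at ht; omega
    · cases h'
  case wrFD β t₀ t hw =>
    obtain ⟨hc1, rfl, rfl⟩ := hc
    obtain ⟨hd1, hT⟩ := cellAt_D.1 hd.1
    rcases hI with ⟨h', -⟩ | ⟨β', h', hj, hW, hρ⟩
    · cases h'
    · cases h'
      have hpm : p + 1 ≤ m := by unfold isDat at hd1; omega
      refine ⟨_, _, _, ρ', hfin (Function.update T (p + 1) (.wr t)) (.wrF β) (update_off _ _ _)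
        (Or.inl rfl) ⟨?_, ctlAt_L0.2 (by omega)⟩
        ⟨cellAt_D.2 ⟨hd1, by simp⟩, trivial, rfl⟩, Or.inr ⟨β, rfl, by omega, ?_, fun _ => ?_⟩⟩
      · rw [cellAt_congr (update_off _ _ _ _ (by omega)), hc1]
      · exact hW.write (by omega) (by omega) hT (by rw [hc1]; exact hw)
      · simp only [if_true] at ht; omega
  case wrFL β k he =>
    obtain ⟨hc1, rfl, rfl⟩ := hc
    have hd1 := cellAt_Lb.1 hd.1
    rcases hI with ⟨h', -⟩ | ⟨β', h', hj, hW, hρ⟩
    · cases h'
    · cases h'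
      have hpm : p = m := by
        have : isDat m p := by
          rw [← isD_cellAt (T := T), hc1]
          match k, he with
          | .D _, _ => rfl
        unfold isDat at this; omega
      refine ⟨T, _, _, ρ', hfin T (.wrF β) (fun _ _ => rfl)
        (Or.inl rfl) ⟨hc1, ctlAt_L0.2 (by omega)⟩
        ⟨hd.1, trivial, rfl⟩, Or.inr ⟨β, rfl, by omega, ?_, fun _ => ?_⟩⟩
      · exact hW.leave (by omega) (by omega) (by rw [show 0 + m = p by omega, hc1]; exact he)
      · simp only [if_true] at ht; omega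
  case wrFC β =>
    obtain ⟨hc1, rfl, rfl⟩ := hc
    have hd1 := cellAt_Lb.1 hd.1
    have hc2 := cellAt_Lb.1 hc1
    rcases hI with ⟨h', -⟩ | ⟨β', h', hj, hW, hρ⟩
    · cases h'
    · cases h'
      refine ⟨T, _, _, ρ', hfin T (.wrF β) (fun _ _ => rfl)
        (Or.inl rfl) ⟨hc1, ctlAt_L0.2 (by omega)⟩
        ⟨hd.1, trivial, rfl⟩, Or.inr ⟨β, rfl, by omega, ?_, fun _ => ?_⟩⟩
      · exact hW.leave (by omega) (by omega) (hW.2 (by omega))
      · simp only [if_true] at ht; omega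
  case wrFE β =>
    obtain ⟨hc1, rfl, rfl⟩ := hc
    have hd1 := cellAt_E.1 hd.1
    have hc2 := cellAt_Lb.1 hc1
    rcases hI with ⟨h', -⟩ | ⟨β', h', hj, hW, hρ⟩
    · cases h'
    · cases h'
      refine ⟨T, _, _, ρ', hfin T (.wrF β) (fun _ _ => rfl)
        (Or.inl rfl) ⟨hc1, ctlAt_L0.2 (by omega)⟩
        ⟨hd.1, trivial, rfl⟩, Or.inr ⟨β, rfl, by omega, ?_, fun _ => ?_⟩⟩
      · exact hW.leave (by omega) (by omega) (hW.2 (by omega))
      · omega
  case lock β => omega
  case start β kp i χ t => have := ctlAt_L1.1 hc.2; omega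
  all_goals first
    | (obtain ⟨-, -, rfl⟩ := hc; simp at hq)
    | (obtain ⟨-, -, rfl⟩ := hd; simp at hq)

theorem inv1 {c : Ltr (17 * m)} {g : List (Sk m)} (h : T1sk c g) :
    ∃ T j q ρ, g = word (2 * m + 2) false T j q ρ ∧ Inv1 (num c) T j q ρ := by
  induction h with
  | refl =>
    refine ⟨_, _, _, _, rootR_eq (num c), Or.inl ⟨rfl, rfl, rfl, ?_⟩⟩
    exact ⟨fun n h1 h2 => ⟨fun _ => by omega, fun _ => rfl⟩, fun _ => by omega⟩
  | tail _ h ih =>
    obtain ⟨T, j, q, ρ, rfl, hI⟩ := ih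
    exact inv1_step hI h

end Inv

end Mach

end Vale.Agent.P192
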