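import Vale.Agent.P192.MachSem

/-!
P192, part M2: local properties of the forward moves.
-/

namespace Vale.Agent.P192

namespace Mach

variable {m : ℕ}

/-- Number of heads. -/
def heads (g : List (Sk m)) : ℕ := g.countP (fun c => isHd c.1.2)

/-- Kind of a cell. -/
def ck : Cell → Fin 4
  | .H => 0
  | .D _ => 1
  | .Lb => 2
  | .E => 3

def phase : Hd → ℕ
  | .root => 0
  | .wrF _ => 1
  | .wr2 _ => 2
  | .pl _ _ i _ _ => 3 + 2 * i.val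
  | .pr _ _ i _ _ => 4 + 2 * i.val

def goesRight : Hd → Bool
  | .pl _ _ _ _ _ => false
  | _ => true

/-- The lock move. -/
def IsLock (c d c' d' : Sk m) : Prop :=
  ∃ β, c.1 = (.E, .hd (.wrF β)) ∧ d.1 = (.H, .hd .root) ∧ c'.1 = (.E, .L0) ∧
    d'.1 = (.H, .hd (.wr2 β))

theorem local_endOK {k : Cell} (h : endOK k) : ∃ t, k = .D (.wr t) := by
  rcases k with _ | (_ | t) | _ | _
  all_goals first | exact ⟨_, rfl⟩ | exact h.elim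

theorem local_wrOK {k : Cell} {t : Trk → Sym} (h : wrOK k t) : k = .H ∨ ∃ t₀, k = .D (.wr t₀) := by
  rcases k with _ | (_ | t) | _ | _
  all_goals first | exact Or.inl rfl | exact Or.inr ⟨_, rfl⟩ | exact h.elim

theorem local_xmark {kp : KP} {i : Fin 14} {s : Bool} {k : Cell} {χ : Col}
    (h : xmark kp i s k = some χ) : ∃ t, k = .D (.wr t) := by
  rcases k with _ | (_ | t) | _ | _
  all_goals first | exact ⟨_, rfl⟩ | simp [xmark, symAt] at h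

theorem local_pos_prev (β : Bool) (kp : KP) (i : Fin 14) : pos (.hd (prev β kp i)) = .h2 := by
  unfold prev
  split_ifs <;> simp [pos]

theorem local_prev_ne_root (β : Bool) (kp : KP) (i : Fin 14) : prev β kp i ≠ .root := by
  unfold prev
  split_ifs <;> simp

theorem local_phase_prev (β : Bool) (kp : KP) (i : Fin 14) :
    phase (prev β kp i) < 3 + 2 * i.val := by
  unfold prev
  split_ifs with h
  · simp only [phase]; omega
  · simp only [phase]; omega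

theorem local_unique {f₁ f₁' f₂ f₂' : F} {p p' : Par} (h : ParR f₁ f₁' p) (h' : ParR f₂ f₂' p')
    (e : f₁ = f₂) (e' : f₁' = f₂') : p = p' := by
  rcases h with ⟨β, t, h1⟩ | ⟨β, t₀, t, h1⟩ | ⟨β, k, h1⟩ | ⟨β⟩ | ⟨β⟩ | ⟨β⟩ | ⟨β, k, t, h1⟩ |
    ⟨β, k, h1⟩ | ⟨β, kp, i, χ, t⟩ | ⟨β, kp, i, χ, _ | _, k, k', h1, h2, h3, h4⟩ | ⟨β, kp, i, χ⟩ |
    ⟨β, kp, i, χ, t⟩ | ⟨β, kp, i, ld, _ | _, k, k', h1, h2, h3, h4⟩ |
    ⟨β, kp, i, χ, _ | _, k, k', h1, h2⟩ | ⟨β, kp, i, ld⟩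
  all_goals
    rcases h' with ⟨β', u, g1⟩ | ⟨β', u₀, u, g1⟩ | ⟨β', j, g1⟩ | ⟨β'⟩ | ⟨β'⟩ | ⟨β'⟩ | ⟨β', j, u, g1⟩ |
      ⟨β', j, g1⟩ | ⟨β', kp', i', χ', u⟩ | ⟨β', kp', i', χ', _ | _, j, j', g1, g2, g3, g4⟩ | ⟨β', kp', i', χ'⟩ |
      ⟨β', kp', i', χ', u⟩ | ⟨β', kp', i', ld', _ | _, j, j', g1, g2, g3, g4⟩ |
      ⟨β', kp', i', χ', _ | _, j, j', g1, g2⟩ | ⟨β', kp', i', ld'⟩
  all_goals
    simp only [Prod.mk.injEq, flagL, flagR, Ctl.hd.injEq, Hd.wrF.injEq, Hd.wr2.injEq, Hd.pl.injEq,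
      Hd.pr.injEq, Cell.D.injEq, Tape.wr.injEq, reduceCtorEq, and_false, false_and, if_true,
      if_false, Bool.false_eq_true, Bool.true_eq_false, and_true, true_and] at e e'
  all_goals try casesm* _ ∧ _
  all_goals subst_vars
  all_goals first | rfl | simp_all [endOK, isD, xmark, symAt]

theorem ParR.unique {f f' : F} {p p' : Par} (h : ParR f f' p) (h' : ParR f f' p') : p = p' :=
  local_unique h h' rfl rfl

theorem ParR.dir_true {f f' : F} {p : Par} (h : ParR f f' p) (hd : p.dir = true) :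
    isHd f.2 = false ∧ (∃ q, f'.2 = .hd q ∧ side q f'.1 = some true) ∧ isHd p.fc.2 = true := by
  rcases h with ⟨β, t, h1⟩ | ⟨β, t₀, t, h1⟩ | ⟨β, k, h1⟩ | ⟨β⟩ | ⟨β⟩ | ⟨β⟩ | ⟨β, k, t, h1⟩ |
    ⟨β, k, h1⟩ | ⟨β, kp, i, χ, t⟩ | ⟨β, kp, i, χ, _ | _, k, k', h1, h2, h3, h4⟩ | ⟨β, kp, i, χ⟩ |
    ⟨β, kp, i, χ, t⟩ | ⟨β, kp, i, ld, _ | _, k, k', h1, h2, h3, h4⟩ |
    ⟨β, kp, i, χ, _ | _, k, k', h1, h2⟩ | ⟨β, kp, i, ld⟩
  all_goals try obtain ⟨t, rfl⟩ := local_xmark h2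
  all_goals simp_all [isHd, side, flagL]

theorem ParR.dir_false {f f' : F} {p : Par} (h : ParR f f' p) (hd : p.dir = false) :
    isHd f'.2 = false ∧ (∃ q, f.2 = .hd q ∧ side q f.1 = some false) ∧ isHd p.fd.2 = true ∧
      isHd p.fc.2 = false := by
  rcases h with ⟨β, t, h1⟩ | ⟨β, t₀, t, h1⟩ | ⟨β, k, h1⟩ | ⟨β⟩ | ⟨β⟩ | ⟨β⟩ | ⟨β, k, t, h1⟩ |
    ⟨β, k, h1⟩ | ⟨β, kp, i, χ, t⟩ | ⟨β, kp, i, χ, _ | _, k, k', h1, h2, h3, h4⟩ | ⟨β, kp, i, χ⟩ |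
    ⟨β, kp, i, χ, t⟩ | ⟨β, kp, i, ld, _ | _, k, k', h1, h2, h3, h4⟩ |
    ⟨β, kp, i, χ, _ | _, k, k', h1, h2⟩ | ⟨β, kp, i, ld⟩
  all_goals simp_all [isHd, side, flagL, flagR]

theorem NP.hasPar {c d : Sk m} (h : NP c d) : hasPar c.1 d.1 := by
  rcases h with h | ⟨p, hp, -⟩
  · exact h.1
  · cases hd : p.dir
    · exact Or.inr (hp.dir_false hd).2.1
    · exact Or.inl (hp.dir_true hd).2.1

theorem local_modeRel_unique {md : Mode} {ρ ρ₁ ρ' a : ℕ} (h : modeRel m md ρ ρ' a)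
    (h₁ : modeRel m md ρ₁ ρ' a) : ρ = ρ₁ := by
  cases md <;> simp only [modeRel] at h h₁ <;> omega

theorem local_exists_reg [NeZero m] (md : Mode) (ρ' a : Fin m)
    (h : sem m (modeGuard md) ρ'.val ρ'.val) : ∃ ρ : Fin m, modeRel m md ρ.val ρ'.val a.val := by
  cases md
  · exact ⟨ρ', rfl⟩
  · exact ⟨0, rfl⟩
  · simp only [modeGuard, sem_neg, sem_rZero] at h
    refine ⟨⟨ρ'.val - 1, by omega⟩, ?_⟩
    simp only [modeRel]
    omega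
  · simp only [modeGuard, sem_rZero] at h
    have := NeZero.pos m
    refine ⟨⟨m - 1, by omega⟩, ?_⟩
    simp only [modeRel]
    omega
  · simp only [modeGuard, sem_rZero] at h
    exact ⟨a, rfl, h.1⟩

theorem Fwd.parent_unique {c d c₁ d₁ c' d' : Sk m} (h : Fwd c d c' d') (h₁ : Fwd c₁ d₁ c' d') :
    c = c₁ ∧ d = d₁ := by
  obtain ⟨p, hp, hc, hd, ha, hb, hr⟩ := h
  obtain ⟨p₁, hp₁, hc₁, hd₁, ha₁, hb₁, hr₁⟩ := h₁
  obtain rfl := hp.unique hp₁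
  have key : c.2.2.val = c₁.2.2.val ∧ d.2.2.val = d₁.2.2.val := by
    cases hdir : p.dir
    · simp only [hdir, Bool.false_eq_true, if_false] at hr hr₁
      exact ⟨hr.2.1.trans hr₁.2.1.symm, local_modeRel_unique hr.2.2.1 hr₁.2.2.1⟩
    · simp only [hdir, if_true] at hr hr₁
      exact ⟨local_modeRel_unique hr.2.2.1 hr₁.2.2.1, hr.2.1.trans hr₁.2.1.symm⟩
  exact ⟨Prod.ext (hc.trans hc₁.symm) (Prod.ext (ha.trans ha₁.symm) (Fin.ext key.1)),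
    Prod.ext (hd.trans hd₁.symm) (Prod.ext (hb.trans hb₁.symm) (Fin.ext key.2))⟩

theorem Fwd.not_np {c d c' d' : Sk m} (h : Fwd c d c' d') : ¬ NP c' d' := by
  obtain ⟨p, hp, hc, hd, ha, hb, hr⟩ := h
  rintro (⟨-, hn⟩ | ⟨p₁, hp₁, hg⟩)
  · exact hn ⟨p, hp⟩
  · obtain rfl := hp.unique hp₁
    cases hdir : p.dir
    · simp only [hdir, Bool.false_eq_true, if_false] at hr hg
      exact hg hr.2.2.2
    · simp only [hdir, if_true] at hr hg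
      exact hg hr.2.2.2

theorem exists_parent [NeZero m] {c' d' : Sk m} (hs : SOK c' d') (hp : hasPar c'.1 d'.1)
    (hn : ¬ NP c' d') : ∃ c d, Fwd c d c' d' := by
  have h1 : ∃ p, ParR c'.1 d'.1 p := by
    by_contra h
    exact hn (Or.inl ⟨hp, h⟩)
  obtain ⟨p, h1⟩ := h1
  have hg : Guards p (if p.dir then d' else c') := by
    by_contra h
    exact hn (Or.inr ⟨p, h1, h⟩)
  obtain ⟨-, hc, hd, -⟩ := hs
  cases hdir : p.dir
  · simp only [hdir, Bool.false_eq_true, if_false] at hg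
    obtain ⟨ρ, hρ⟩ := local_exists_reg p.mode c'.2.2 c'.2.1 hg.1
    refine ⟨(p.fc, c'.2.1, 0), (p.fd, d'.2.1, ρ), p, h1, rfl, rfl, rfl, rfl, ?_⟩
    simp only [hdir, Bool.false_eq_true, if_false]
    exact ⟨hd.2.1 (Or.inl (h1.dir_false hdir).1), rfl, hρ, hg⟩
  · simp only [hdir, if_true] at hg
    obtain ⟨ρ, hρ⟩ := local_exists_reg p.mode d'.2.2 d'.2.1 hg.1
    refine ⟨(p.fc, c'.2.1, ρ), (p.fd, d'.2.1, 0), p, h1, rfl, rfl, rfl, rfl, ?_⟩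
    simp only [hdir, if_true]
    exact ⟨hc.2.1 (Or.inl (h1.dir_true hdir).1), rfl, hρ, hg⟩

theorem local_cells {f f' : F} {p : Par} (h : ParR f f' p) :
    p.fc.1 = f.1 ∧ (p.fd.1 = f'.1 ∨ ∃ o t, p.fd.1 = .D (.raw o) ∧ f'.1 = .D (.wr t)) ∧
      kindAdj p.fc.1 p.fd.1 = true ∧ f.2 ≠ .hd .root ∧ f'.2 ≠ .hd .root := by
  rcases h with ⟨β, t, h1⟩ | ⟨β, t₀, t, h1⟩ | ⟨β, k, h1⟩ | ⟨β⟩ | ⟨β⟩ | ⟨β⟩ | ⟨β, k, t, h1⟩ |
    ⟨β, k, h1⟩ | ⟨β, kp, i, χ, t⟩ | ⟨β, kp, i, χ, _ | _, k, k', h1, h2, h3, h4⟩ | ⟨β, kp, i, χ⟩ |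
    ⟨β, kp, i, χ, t⟩ | ⟨β, kp, i, ld, _ | _, k, k', h1, h2, h3, h4⟩ |
    ⟨β, kp, i, χ, _ | _, k, k', h1, h2⟩ | ⟨β, kp, i, ld⟩
  all_goals try obtain ⟨t, rfl⟩ := local_endOK h1
  all_goals try obtain rfl | ⟨t, rfl⟩ := local_wrOK h1
  all_goals refine ⟨rfl, ?_, ?_, ?_, ?_⟩
  all_goals first
    | exact Or.inl rfl
    | exact Or.inr ⟨_, _, rfl, rfl⟩
    | rfl
    | exact h1
    | simp [flagL, flagR]

theorem local_kind_E {k k' : Cell} (h : kindAdj k k' = true) :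
    (k = .E → k' = .H) ∧ (k' = .E → k = .Lb) := by
  cases k <;> cases k' <;> first | exact absurd h Bool.false_ne_true | simp

theorem local_isD {k : Cell} (h : isD k = true) : ∃ t, k = .D t := by
  cases k <;> first | exact absurd h Bool.false_ne_true | exact ⟨_, rfl⟩

theorem local_posL {f f' : F} {p : Par} (h : ParR f f' p) (x : Pos) :
    (posIn x (pos p.fc.2) = true → posIn x (pos f.2) = true) ∧
      (posX x (pos p.fc.2) = true → posX x (pos f.2) = true) := by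
  rcases h with ⟨β, t, h1⟩ | ⟨β, t₀, t, h1⟩ | ⟨β, k, h1⟩ | ⟨β⟩ | ⟨β⟩ | ⟨β⟩ | ⟨β, k, t, h1⟩ |
    ⟨β, k, h1⟩ | ⟨β, kp, i, χ, t⟩ | ⟨β, kp, i, χ, _ | _, k, k', h1, h2, h3, h4⟩ | ⟨β, kp, i, χ⟩ |
    ⟨β, kp, i, χ, t⟩ | ⟨β, kp, i, ld, _ | _, k, k', h1, h2, h3, h4⟩ |
    ⟨β, kp, i, χ, _ | _, k, k', h1, h2⟩ | ⟨β, kp, i, ld⟩
  all_goals cases x <;> simp [pos, posIn, posX, flagL]

theorem local_posR {f f' : F} {p : Par} (h : ParR f f' p) (x : Pos) :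
    (posIn (pos p.fd.2) x = true → posIn (pos f'.2) x = true) ∧
      (p.fd.1 = .E → posX (pos p.fd.2) x = true → posX (pos f'.2) x = true) := by
  rcases h with ⟨β, t, h1⟩ | ⟨β, t₀, t, h1⟩ | ⟨β, k, h1⟩ | ⟨β⟩ | ⟨β⟩ | ⟨β⟩ | ⟨β, k, t, h1⟩ |
    ⟨β, k, h1⟩ | ⟨β, kp, i, χ, t⟩ | ⟨β, kp, i, χ, _ | _, k, k', h1, h2, h3, h4⟩ | ⟨β, kp, i, χ⟩ |
    ⟨β, kp, i, χ, t⟩ | ⟨β, kp, i, ld, _ | _, k, k', h1, h2, h3, h4⟩ |
    ⟨β, kp, i, χ, _ | _, k, k', h1, h2⟩ | ⟨β, kp, i, ld⟩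
  all_goals try obtain ⟨t, rfl⟩ := local_xmark h2
  all_goals try have h5 := local_kind_E h1
  all_goals simp only [local_pos_prev]
  all_goals cases x <;> simp_all [pos, posIn, posX, flagR, isD]

theorem local_valid {f f' : F} {p : Par} (h : ParR f f' p) (hc : validF p.fc)
    (hd : validF p.fd) : validF f ∧ validF f' ∧
      (if f.1 = .E then posX (pos f.2) (pos f'.2) else posIn (pos f.2) (pos f'.2)) = true := by
  rcases h with ⟨β, t, h1⟩ | ⟨β, t₀, t, h1⟩ | ⟨β, k, h1⟩ | ⟨β⟩ | ⟨β⟩ | ⟨β⟩ | ⟨β, k, t, h1⟩ |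
    ⟨β, k, h1⟩ | ⟨β, kp, i, χ, t⟩ | ⟨β, kp, i, χ, _ | _, k, k', h1, h2, h3, h4⟩ | ⟨β, kp, i, χ⟩ |
    ⟨β, kp, i, χ, t⟩ | ⟨β, kp, i, ld, _ | _, k, k', h1, h2, h3, h4⟩ |
    ⟨β, kp, i, χ, _ | _, k, k', h1, h2⟩ | ⟨β, kp, i, ld⟩
  all_goals try obtain ⟨t, rfl⟩ := local_xmark h2
  all_goals try obtain ⟨t, rfl⟩ := local_endOK h1
  all_goals try obtain rfl | ⟨t, rfl⟩ := local_wrOK h1
  all_goals try have h5 := local_kind_E h1
  all_goals simp_all [validF, pos, posIn, posX, flagL, flagR, isD]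

theorem local_raw_snd {k k' : Cell} {c c' c'' : Ctl} (h : rawOK (k, c) (k', c')) :
    rawOK (k, c) (k', c'') := by
  rcases k with _ | (_ | _) | _ | _ <;> rcases k' with _ | (_ | _) | _ | _ <;> exact h

theorem local_raw_fst {k k' : Cell} {c c₁ c' : Ctl} (h : rawOK (k, c) (k', c'))
    (hc : c₁ ≠ .hd .root) : rawOK (k, c₁) (k', c') := by
  rcases k with _ | (_ | _) | _ | _ <;> rcases k' with _ | (_ | _) | _ | _ <;>
    first | exact h | exact hc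

theorem local_raw_wr (t : Trk → Sym) (c : Ctl) (g : F) : rawOK (.D (.wr t), c) g := by
  rcases g with ⟨_ | (_ | _) | _ | _, c'⟩ <;> trivial

theorem local_raw {f f' : F} {p : Par} (h : ParR f f' p) (hr : rawOK p.fc p.fd) :
    rawOK f f' := by
  have h0 := (local_cells h).2.2.2.1
  rcases h with ⟨β, t, h1⟩ | ⟨β, t₀, t, h1⟩ | ⟨β, k, h1⟩ | ⟨β⟩ | ⟨β⟩ | ⟨β⟩ | ⟨β, k, t, h1⟩ |
    ⟨β, k, h1⟩ | ⟨β, kp, i, χ, t⟩ | ⟨β, kp, i, χ, _ | _, k, k', h1, h2, h3, h4⟩ | ⟨β, kp, i, χ⟩ |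
    ⟨β, kp, i, χ, t⟩ | ⟨β, kp, i, ld, _ | _, k, k', h1, h2, h3, h4⟩ |
    ⟨β, kp, i, χ, _ | _, k, k', h1, h2⟩ | ⟨β, kp, i, ld⟩
  all_goals try obtain ⟨t, rfl⟩ := local_endOK h1
  all_goals try obtain rfl | ⟨t, rfl⟩ := local_wrOK h1
  all_goals first | exact local_raw_wr _ _ _ | exact h0 | exact local_raw_fst (local_raw_snd hr) h0

theorem local_adj {f f' : F} {p : Par} (h : ParR f f' p) (ha : adjF p.fc p.fd) :
    adjF f f' ∧ (∀ g, adjF g p.fc → adjF g f) ∧ ∀ g, adjF p.fd g → adjF f' g := by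
  obtain ⟨h1, h2, h3, h4, h5⟩ := local_cells h
  obtain ⟨-, hc, hd, -, hr⟩ := ha
  obtain ⟨v1, v2, v3⟩ := local_valid h hc hd
  have hk : ∀ k, kindAdj k f'.1 = kindAdj k p.fd.1 ∧ kindAdj f'.1 k = kindAdj p.fd.1 k := by
    intro k
    rcases h2 with h2 | ⟨o, t, h2, h2'⟩
    · rw [h2]
      exact ⟨rfl, rfl⟩
    · rw [h2, h2']
      cases k <;> exact ⟨rfl, rfl⟩
  refine ⟨⟨?_, v1, v2, v3, local_raw h hr⟩, ?_, ?_⟩
  · rw [(hk _).1, ← h1]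
    exact h3
  · rintro g ⟨a1, a2, -, a4, a5⟩
    refine ⟨h1 ▸ a1, a2, v1, ?_, ?_⟩
    · split_ifs at a4 ⊢
      · exact (local_posL h _).2 a4
      · exact (local_posL h _).1 a4
    · have : f = (p.fc.1, f.2) := Prod.ext h1.symm rfl
      rw [this]
      exact local_raw_snd (k := g.1) (c := g.2) a5
  · rintro g ⟨a1, -, a3, a4, a5⟩
    refine ⟨(hk _).2 ▸ a1, v2, a3, ?_, ?_⟩
    · rcases h2 with h2 | ⟨o, t, h2, h2'⟩
      · rw [← h2]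
        split_ifs at a4 ⊢ with hE
        · exact (local_posR h _).2 hE a4
        · exact (local_posR h _).1 a4
      · rw [h2] at a4
        rw [h2']
        simp only [reduceCtorEq, if_false] at a4 ⊢
        exact (local_posR h _).1 a4
    · rcases h2 with h2 | ⟨o, t, h2, h2'⟩
      · have : f' = (p.fd.1, f'.2) := Prod.ext h2.symm rfl
        rw [this]
        exact local_raw_fst (k' := g.1) (c' := g.2) a5 h5
      · have : f' = (.D (.wr t), f'.2) := Prod.ext h2' rfl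
        rw [this]
        exact local_raw_wr _ _ _

theorem Fwd.sok {c d c' d' : Sk m} (h : Fwd c d c' d') (hs : SOK c d) :
    SOK c' d' ∧ (∀ p, SOK p c → SOK p c') ∧ ∀ n, SOK d n → SOK d' n := by
  obtain ⟨p, hp, hc, hd, ha, hb, hr⟩ := h
  obtain ⟨s1, s2, s3, s4, s5, s6⟩ := hs
  obtain ⟨h1, h2, h3, h4, h5⟩ := local_cells hp
  rw [hc, hd] at s1
  obtain ⟨a1, a2, a3⟩ := local_adj hp s1
  rw [← hc] at h1 a2
  rw [← hd] at h2 a3
  have hD : isD d'.1.1 = isD d.1.1 := by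
    rcases h2 with h2 | ⟨o, t, h2, h2'⟩
    · rw [h2]
    · rw [h2, h2']
      rfl
  have hL : d'.1.1 = .Lb → d.1.1 = .Lb := by
    rcases h2 with h2 | ⟨o, t, h2, h2'⟩
    · rw [h2]
      exact id
    · rw [h2']
      simp
  have hH : d'.1.1 = .H → d.1.1 = .H := by
    rcases h2 with h2 | ⟨o, t, h2, h2'⟩
    · rw [h2]
      exact id
    · rw [h2']
      simp
  have u1 : UOK c' := by
    refine ⟨by rw [← h1, ← ha]; exact s2.1, ?_, by rw [← h1, ← ha]; exact s2.2.2⟩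
    rintro (h6 | h6)
    · cases hdir : p.dir
      · obtain ⟨q, hq, -⟩ := (hp.dir_false hdir).2.1
        rw [hq] at h6
        simp [isHd] at h6
      · simp only [hdir, if_true] at hr
        exact hr.1
    · exact absurd h6 h4
  have u2 : UOK d' := by
    refine ⟨by rw [hD, ← hb]; exact s3.1, ?_, ?_⟩
    · rintro (h6 | h6)
      · cases hdir : p.dir
        · simp only [hdir, Bool.false_eq_true, if_false] at hr
          exact hr.1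
        · obtain ⟨q, hq, -⟩ := (hp.dir_true hdir).2.1
          rw [hq] at h6
          simp [isHd] at h6
      · exact absurd h6 h5
    · rcases h2 with h2 | ⟨o, t, h2, h2'⟩
      · rw [← h2, ← hb]
        exact s3.2.2
      · rw [h2']
        simp
  refine ⟨⟨a1, u1, u2, ?_, ?_, ?_⟩, ?_, ?_⟩
  · rw [← h1, ← hb]
    exact s4
  · rw [← h1, ← ha, ← hb, hD]
    exact s5
  · rw [← h1, ← ha]
    exact fun h6 h7 => s6 h6 (hL h7)
  · rintro x ⟨t1, t2, -, t4, t5, t6⟩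
    refine ⟨a2 _ t1, t2, u1, ?_, ?_, ?_⟩
    · rw [← ha]
      exact t4
    · rw [← h1, ← ha]
      exact t5
    · rw [← h1]
      exact t6
  · rintro x ⟨t1, -, t3, t4, t5, t6⟩
    refine ⟨a3 _ t1, u2, t3, fun h6 => t4 (hH h6), ?_, ?_⟩
    · rw [hD, ← hb]
      exact t5
    · rw [hD, ← hb]
      exact t6

theorem Fwd.ck_eq {c d c' d' : Sk m} (h : Fwd c d c' d') :
    ck c'.1.1 = ck c.1.1 ∧ ck d'.1.1 = ck d.1.1 ∧ kindAdj c.1.1 d.1.1 = true := by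
  obtain ⟨p, hp, hc, hd, -⟩ := h
  obtain ⟨h1, h2, h3, -⟩ := local_cells hp
  rw [hc, hd]
  refine ⟨by rw [h1], ?_, h3⟩
  rcases h2 with h2 | ⟨o, t, h2, h2'⟩
  · rw [h2]
  · rw [h2, h2']
    rfl

theorem local_ue {f f' : F} {p : Par} (h : ParR f f' p) :
    ¬ UE f ∧ (UE p.fd ↔ UE f') ∧ (UL p.fc ↔ UL f) ∧ (UE p.fc → ∃ β, p.fc = (.E, .hd (.wrF β)) ∧
      p.fd = (.H, .hd .root) ∧ f = (.E, .L0) ∧ f' = (.H, .hd (.wr2 β))) := by
  rcases h with ⟨β, t, h1⟩ | ⟨β, t₀, t, h1⟩ | ⟨β, k, h1⟩ | ⟨β⟩ | ⟨β⟩ | ⟨β⟩ | ⟨β, k, t, h1⟩ |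
    ⟨β, k, h1⟩ | ⟨β, kp, i, χ, t⟩ | ⟨β, kp, i, χ, _ | _, k, k', h1, h2, h3, h4⟩ | ⟨β, kp, i, χ⟩ |
    ⟨β, kp, i, χ, t⟩ | ⟨β, kp, i, ld, _ | _, k, k', h1, h2, h3, h4⟩ |
    ⟨β, kp, i, χ, _ | _, k, k', h1, h2⟩ | ⟨β, kp, i, ld⟩
  all_goals try obtain ⟨t, rfl⟩ := local_xmark h2
  all_goals try obtain ⟨t, rfl⟩ := local_endOK h1
  all_goals try have h5 := local_kind_E h1
  all_goals try obtain ⟨t, rfl⟩ := local_isD (h3 rfl)
  all_goals simp_all [UE, UL, pos, flagL, flagR]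

theorem local_heads {f f' : F} {p : Par} (h : ParR f f' p) :
    isHd f.2 = !isHd f'.2 ∧ (isHd p.fc.2 = !isHd p.fd.2 ∨ ∃ β, p.fc = (.E, .hd (.wrF β)) ∧
      p.fd = (.H, .hd .root) ∧ f = (.E, .L0) ∧ f' = (.H, .hd (.wr2 β))) := by
  rcases h with ⟨β, t, h1⟩ | ⟨β, t₀, t, h1⟩ | ⟨β, k, h1⟩ | ⟨β⟩ | ⟨β⟩ | ⟨β⟩ | ⟨β, k, t, h1⟩ |
    ⟨β, k, h1⟩ | ⟨β, kp, i, χ, t⟩ | ⟨β, kp, i, χ, _ | _, k, k', h1, h2, h3, h4⟩ | ⟨β, kp, i, χ⟩ |
    ⟨β, kp, i, χ, t⟩ | ⟨β, kp, i, ld, _ | _, k, k', h1, h2, h3, h4⟩ |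
    ⟨β, kp, i, χ, _ | _, k, k', h1, h2⟩ | ⟨β, kp, i, ld⟩
  all_goals simp [isHd, flagL, flagR]

theorem Fwd.ue {c d c' d' : Sk m} (h : Fwd c d c' d') :
    ¬ UE c'.1 ∧ (UE d.1 ↔ UE d'.1) ∧ (UL c.1 ↔ UL c'.1) ∧ (UE c.1 → IsLock c d c' d') := by
  obtain ⟨p, hp, hc, hd, -⟩ := h
  unfold IsLock
  rw [hc, hd]
  exact local_ue hp

/-- The child pair has exactly one head, which is not in the root state; the parent pair has one
head unless the move is the lock move. -/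
theorem Fwd.heads {c d c' d' : Sk m} (h : Fwd c d c' d') :
    isHd c'.1.2 = !isHd d'.1.2 ∧ c'.1.2 ≠ .hd .root ∧ d'.1.2 ≠ .hd .root ∧
      (isHd c.1.2 = !isHd d.1.2 ∨ IsLock c d c' d') := by
  obtain ⟨p, hp, hc, hd, -⟩ := h
  unfold IsLock
  rw [hc, hd]
  exact ⟨(local_heads hp).1, (local_cells hp).2.2.2.1, (local_cells hp).2.2.2.2,
    (local_heads hp).2⟩

theorem local_wrF {f f' : F} {p : Par} (h : ParR f f' p) (γ : Bool)
    (h' : f.2 = .hd (.wrF γ) ∨ f'.2 = .hd (.wrF γ)) :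
    f'.2 = .hd (.wrF γ) ∧ (p.fc.2 = .hd .root ∨ p.fc.2 = .hd (.wrF γ)) := by
  rcases h with ⟨β, t, h1⟩ | ⟨β, t₀, t, h1⟩ | ⟨β, k, h1⟩ | ⟨β⟩ | ⟨β⟩ | ⟨β⟩ | ⟨β, k, t, h1⟩ |
    ⟨β, k, h1⟩ | ⟨β, kp, i, χ, t⟩ | ⟨β, kp, i, χ, _ | _, k, k', h1, h2, h3, h4⟩ | ⟨β, kp, i, χ⟩ |
    ⟨β, kp, i, χ, t⟩ | ⟨β, kp, i, ld, _ | _, k, k', h1, h2, h3, h4⟩ |
    ⟨β, kp, i, χ, _ | _, k, k', h1, h2⟩ | ⟨β, kp, i, ld⟩
  all_goals simp_all [flagL, flagR]

theorem local_progress {f f' : F} {p : Par} (h : ParR f f' p) :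
    (∃ q q', p.fc.2 = .hd q ∧ f'.2 = .hd q' ∧
      (phase q < phase q' ∨ (phase q = phase q' ∧ goesRight q = true ∧ goesRight q' = true))) ∨
    (∃ q q', p.fd.2 = .hd q ∧ f.2 = .hd q' ∧ isHd p.fc.2 = false ∧
      (phase q < phase q' ∨
        (phase q = phase q' ∧ goesRight q = false ∧ goesRight q' = false))) := by
  rcases h with ⟨β, t, h1⟩ | ⟨β, t₀, t, h1⟩ | ⟨β, k, h1⟩ | ⟨β⟩ | ⟨β⟩ | ⟨β⟩ | ⟨β, k, t, h1⟩ |
    ⟨β, k, h1⟩ | ⟨β, kp, i, χ, t⟩ | ⟨β, kp, i, χ, _ | _, k, k', h1, h2, h3, h4⟩ | ⟨β, kp, i, χ⟩ |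
    ⟨β, kp, i, χ, t⟩ | ⟨β, kp, i, ld, _ | _, k, k', h1, h2, h3, h4⟩ |
    ⟨β, kp, i, χ, _ | _, k, k', h1, h2⟩ | ⟨β, kp, i, ld⟩
  all_goals first
    | exact Or.inr ⟨_, _, rfl, rfl, rfl, Or.inl (local_phase_prev _ _ _)⟩
    | exact Or.inl ⟨_, _, rfl, rfl, Or.inr ⟨rfl, rfl, rfl⟩⟩
    | exact Or.inr ⟨_, _, rfl, rfl, rfl, Or.inr ⟨rfl, rfl, rfl⟩⟩
    | exact Or.inl ⟨_, _, rfl, rfl, Or.inl (by simp [phase])⟩
    | exact Or.inr ⟨_, _, rfl, rfl, rfl, Or.inl (by simp [phase])⟩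

/-- A head in the state `wrF` only comes from `root` or `wrF`. -/
theorem Fwd.wrF {c d c' d' : Sk m} (h : Fwd c d c' d') (β : Bool)
    (h' : c'.1.2 = .hd (.wrF β) ∨ d'.1.2 = .hd (.wrF β)) :
    d'.1.2 = .hd (.wrF β) ∧ (c.1.2 = .hd .root ∨ c.1.2 = .hd (.wrF β)) := by
  obtain ⟨p, hp, hc, hd, -⟩ := h
  rw [hc]
  exact local_wrF hp β h'

/-- Progress along forward moves. -/
theorem Fwd.progress {c d c' d' : Sk m} (h : Fwd c d c' d') :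
    (∃ q q', c.1.2 = .hd q ∧ d'.1.2 = .hd q' ∧
      (phase q < phase q' ∨ (phase q = phase q' ∧ goesRight q = true ∧ goesRight q' = true))) ∨
    (∃ q q', d.1.2 = .hd q ∧ c'.1.2 = .hd q' ∧ isHd c.1.2 = false ∧
      (phase q < phase q' ∨ (phase q = phase q' ∧ goesRight q = false ∧ goesRight q' = false))) := by
  obtain ⟨p, hp, hc, hd, -⟩ := h
  rw [hc, hd]
  exact local_progress hp

theorem phase_lt (q : Hd) : phase q < 40 := by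
  cases q <;> simp only [phase] <;> omega

theorem FwdW.length_eq {g g' : List (Sk m)} (h : FwdW g g') : g'.length = g.length := by
  obtain ⟨u, v, c, d, c', d', -, rfl, rfl⟩ := h
  simp

theorem FwdW.map_ck {g g' : List (Sk m)} (h : FwdW g g') :
    g'.map (fun c => ck c.1.1) = g.map (fun c => ck c.1.1) := by
  obtain ⟨u, v, c, d, c', d', h, rfl, rfl⟩ := h
  simp only [List.map_append, List.map_cons, h.ck_eq.1, h.ck_eq.2.1]

theorem FwdW.context {g g' : List (Sk m)} (h : FwdW g g') (p q : List (Sk m)) :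
    FwdW (p ++ g ++ q) (p ++ g' ++ q) := by
  obtain ⟨u, v, c, d, c', d', h, rfl, rfl⟩ := h
  exact ⟨p ++ u, v ++ q, c, d, c', d', h, by simp, by simp⟩

theorem FwdW.chain {g g' : List (Sk m)} (h : FwdW g g') (hc : g.IsChain SOK) :
    g'.IsChain SOK := by
  obtain ⟨u, v, c, d, c', d', h, rfl, rfl⟩ := h
  rw [List.isChain_append] at hc ⊢
  obtain ⟨h1, h2, h3⟩ := hc
  rw [List.isChain_cons_cons] at h2 ⊢
  obtain ⟨s1, s2, s3⟩ := h.sok h2.1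
  refine ⟨h1, ⟨s1, ?_⟩, ?_⟩
  · have h4 := h2.2
    rw [List.isChain_cons] at h4 ⊢
    exact ⟨fun y hy => s3 y (h4.1 y hy), h4.2⟩
  · intro x hx y hy
    simp only [List.head?_cons, Option.mem_def, Option.some.injEq] at hy
    subst hy
    exact s2 x (h3 x hx c rfl)

theorem FwdW.heads_eq {g g' : List (Sk m)} (h : FwdW g g') (h1 : heads g = 1) :
    heads g' = 1 := by
  obtain ⟨u, v, c, d, c', d', h, rfl, rfl⟩ := h
  obtain ⟨a1, -, -, a2⟩ := h.heads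
  simp only [heads, List.countP_append, List.countP_cons] at h1 ⊢
  rcases a2 with a2 | ⟨β, b1, b2, -⟩
  · rw [a2] at h1
    rw [a1]
    generalize isHd d.1.2 = x at h1
    generalize isHd d'.1.2 = y
    cases x <;> cases y <;> simp at h1 ⊢ <;> omega
  · rw [b1, b2] at h1
    simp only [isHd, if_true] at h1
    omega

/-- Two decompositions at a head agree when there is only one head. -/
theorem head_pos_unique {u v u' v' : List (Sk m)} {a a' : Sk m} (h1 : heads (u ++ a :: v) = 1)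
    (ha : isHd a.1.2 = true) (ha' : isHd a'.1.2 = true) (h : u ++ a :: v = u' ++ a' :: v') :
    u = u' ∧ a = a' ∧ v = v' := by
  have h2 : heads (u' ++ a' :: v') = 1 := h ▸ h1
  simp only [heads, List.countP_append, List.countP_cons, ha, ha', if_true] at h1 h2
  rcases List.append_eq_append_iff.mp h with ⟨w, rfl, hw⟩ | ⟨w, rfl, hw⟩
  · rcases w with _ | ⟨b, w⟩
    · simp only [List.nil_append, List.cons.injEq] at hw
      exact ⟨by simp, hw.1, hw.2⟩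
    · simp only [List.cons_append, List.cons.injEq] at hw
      obtain ⟨rfl, rfl⟩ := hw
      simp only [List.countP_append, List.countP_cons, ha', if_true] at h1
      omega
  · rcases w with _ | ⟨b, w⟩
    · simp only [List.nil_append, List.cons.injEq] at hw
      exact ⟨by simp, hw.1.symm, hw.2.symm⟩
    · simp only [List.cons_append, List.cons.injEq] at hw
      obtain ⟨rfl, rfl⟩ := hw
      simp only [List.countP_append, List.countP_cons, ha, if_true] at h2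
      omega

theorem local_pair_unique {u v u' v' : List (Sk m)} {a b a' b' : Sk m}
    (h1 : heads (u ++ a :: b :: v) = 1) (hp : hasPar a.1 b.1) (hp' : hasPar a'.1 b'.1)
    (h : u ++ a :: b :: v = u' ++ a' :: b' :: v') : u = u' ∧ a = a' ∧ b = b' ∧ v = v' := by
  have e1 : u ++ a :: b :: v = (u ++ [a]) ++ b :: v := by simp
  have e2 : u' ++ a' :: b' :: v' = (u' ++ [a']) ++ b' :: v' := by simp
  rcases hp with ⟨q, hq, hs⟩ | ⟨q, hq, hs⟩ <;> rcases hp' with ⟨q', hq', hs'⟩ | ⟨q', hq', hs'⟩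
  · obtain ⟨k1, k2, k3⟩ := head_pos_unique (e1 ▸ h1) (by rw [hq]; rfl) (by rw [hq']; rfl)
      (e1.symm.trans (h.trans e2))
    obtain ⟨k4, k5⟩ := List.append_inj' k1 rfl
    exact ⟨k4, by simpa using k5, k2, k3⟩
  · obtain ⟨-, rfl, -⟩ := head_pos_unique (e1 ▸ h1) (by rw [hq]; rfl) (by rw [hq']; rfl)
      (e1.symm.trans h)
    rw [hq] at hq'
    obtain rfl := Ctl.hd.inj hq'
    rw [hs] at hs'
    simp at hs'
  · obtain ⟨-, rfl, -⟩ := head_pos_unique h1 (by rw [hq]; rfl) (by rw [hq']; rfl) (h.trans e2)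
    rw [hq] at hq'
    obtain rfl := Ctl.hd.inj hq'
    rw [hs] at hs'
    simp at hs'
  · obtain ⟨k1, k2, k3⟩ := head_pos_unique h1 (by rw [hq]; rfl) (by rw [hq']; rfl) h
    simp only [List.cons.injEq] at k3
    exact ⟨k1, k2, k3.1, k3.2⟩

theorem local_fwd_hasPar {c d c' d' : Sk m} (h : Fwd c d c' d') : hasPar c'.1 d'.1 := by
  obtain ⟨p, hp, -⟩ := h
  cases hd : p.dir
  · exact Or.inr (hp.dir_false hd).2.1
  · exact Or.inl (hp.dir_true hd).2.1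

theorem FwdW.parent_unique {g₁ g₂ g : List (Sk m)} (h1 : heads g = 1) (h₁ : FwdW g₁ g)
    (h₂ : FwdW g₂ g) : g₁ = g₂ := by
  obtain ⟨u, v, c, d, c', d', h, rfl, rfl⟩ := h₁
  obtain ⟨u₁, v₁, c₁, d₁, c₁', d₁', h', rfl, e⟩ := h₂
  obtain ⟨rfl, rfl, rfl, rfl⟩ :=
    local_pair_unique h1 (local_fwd_hasPar h) (local_fwd_hasPar h') e
  obtain ⟨rfl, rfl⟩ := h.parent_unique h'
  rfl

theorem FwdW.not_np {g₁ u v : List (Sk m)} {a b : Sk m} (h1 : heads (u ++ a :: b :: v) = 1)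
    (h : FwdW g₁ (u ++ a :: b :: v)) : ¬ NP a b := by
  obtain ⟨u₁, v₁, c₁, d₁, c₁', d₁', h', rfl, e⟩ := h
  intro hn
  obtain ⟨rfl, rfl, rfl, rfl⟩ := local_pair_unique h1 hn.hasPar (local_fwd_hasPar h') e
  exact h'.not_np hn

theorem local_wrFE {f f' : F} {p : Par} {γ : Bool} (h : ParR f f' p)
    (e : f' = (.E, .hd (.wrF γ))) : p.dir = true ∧ p.mode = .max := by
  rcases h with ⟨β, t, h1⟩ | ⟨β, t₀, t, h1⟩ | ⟨β, k, h1⟩ | ⟨β⟩ | ⟨β⟩ | ⟨β⟩ | ⟨β, k, t, h1⟩ |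
    ⟨β, k, h1⟩ | ⟨β, kp, i, χ, t⟩ | ⟨β, kp, i, χ, _ | _, k, k', h1, h2, h3, h4⟩ | ⟨β, kp, i, χ⟩ |
    ⟨β, kp, i, χ, t⟩ | ⟨β, kp, i, ld, _ | _, k, k', h1, h2, h3, h4⟩ |
    ⟨β, kp, i, χ, _ | _, k, k', h1, h2⟩ | ⟨β, kp, i, ld⟩
  all_goals simp_all [flagR]

/-- An unlocked end letter with an admissible left neighbour is one of the three end letters. -/
theorem eq_eSk [NeZero m] {y z : Sk m} (hs : SOK y z) (hn : ¬ NP y z) (hz : UE z.1) :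
    ∃ o, z = eSk o := by
  obtain ⟨⟨k, c⟩, a, ρ⟩ := z
  obtain ⟨hk, hc⟩ := hz
  simp only at hk hc
  subst hk
  obtain ⟨s1, -, s3, -⟩ := hs
  have ha : a = 0 := Fin.ext (s3.1 rfl)
  subst ha
  have hv := s1.2.2.1
  rcases c with _ | _ | _ | _ | (_ | β | β | ⟨β, kp, i, χ, _ | _⟩ | ⟨β, kp, i, χ, _ | _⟩)
  all_goals try (simp [pos] at hc; done)
  · have hρ : ρ = 0 := Fin.ext (s3.2.1 (Or.inl rfl))
    exact ⟨none, by rw [hρ]; rfl⟩
  · exact absurd (hv.1 rfl) (by simp)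
  · have h1 : ∃ p, ParR y.1 (.E, .hd (.wrF β)) p := by
      by_contra h
      exact hn (Or.inl ⟨Or.inl ⟨_, rfl, rfl⟩, h⟩)
    obtain ⟨p, h1⟩ := h1
    have hg : Guards p (if p.dir then ((.E, .hd (.wrF β)), 0, ρ) else y) := by
      by_contra h
      exact hn (Or.inr ⟨p, h1, h⟩)
    obtain ⟨h2, h3⟩ := local_wrFE h1 rfl
    rw [h2, if_pos rfl] at hg
    have h4 := hg.1
    rw [h3] at h4
    simp only [modeGuard, sem_rZero] at h4
    have hρ : ρ = 0 := Fin.ext h4.1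
    exact ⟨some β, by rw [hρ]; rfl⟩

end Mach

end Vale.Agent.P192
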