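import Vale.Agent.P192.MachDefs

/-!
P192, part M1: semantics of the table, structured description of rules and forbidden pairs.
-/

namespace Vale.Agent.P192

namespace Mach

variable {m : ℕ}

@[simp] theorem kindAdj_HH : kindAdj .H .H = false := rfl
@[simp] theorem kindAdj_HD (t' : Tape) : kindAdj .H (.D t') = true := rfl
@[simp] theorem kindAdj_HLb : kindAdj .H .Lb = false := rfl
@[simp] theorem kindAdj_HE : kindAdj .H .E = false := rfl
@[simp] theorem kindAdj_DH (t : Tape) : kindAdj (.D t) .H = false := rfl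
@[simp] theorem kindAdj_DD (t : Tape) (t' : Tape) : kindAdj (.D t) (.D t') = true := rfl
@[simp] theorem kindAdj_DLb (t : Tape) : kindAdj (.D t) .Lb = true := rfl
@[simp] theorem kindAdj_DE (t : Tape) : kindAdj (.D t) .E = false := rfl
@[simp] theorem kindAdj_LbH : kindAdj .Lb .H = false := rfl
@[simp] theorem kindAdj_LbD (t' : Tape) : kindAdj .Lb (.D t') = false := rfl
@[simp] theorem kindAdj_LbLb : kindAdj .Lb .Lb = true := rfl
@[simp] theorem kindAdj_LbE : kindAdj .Lb .E = true := rfl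
@[simp] theorem kindAdj_EH : kindAdj .E .H = true := rfl
@[simp] theorem kindAdj_ED (t' : Tape) : kindAdj .E (.D t') = false := rfl
@[simp] theorem kindAdj_ELb : kindAdj .E .Lb = false := rfl
@[simp] theorem kindAdj_EE : kindAdj .E .E = false := rfl

theorem codeF_inj : Function.Injective codeF := fun _ _ h =>
  (Finite.equivFin F).injective (Fin.ext h)

theorem codeR_inj : Function.Injective codeR := fun _ _ h =>
  (Finite.equivFin Row).injective (Fin.ext h)

theorem codeF_lt (f : F) : codeF f < nF := (Finite.equivFin F f).isLt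

theorem codeR_lt (r : Row) : codeR r < nR := (Finite.equivFin Row r).isLt

theorem exists_codeF {n : ℕ} (h : n < nF) : ∃ f, codeF f = n :=
  ⟨(Finite.equivFin F).symm ⟨n, h⟩, by simp [codeF]⟩

theorem num_inj {c c' : Ltr m} (h : num c = num c') : c = c' := by
  obtain ⟨⟨f, a, r⟩, l⟩ := c
  obtain ⟨⟨f', a', r'⟩, l'⟩ := c'
  have h0 : codeF f = codeF f' := congrFun h 0
  have h1 : a.val = a'.val := congrFun h 1
  have h2 : r.val = r'.val := congrFun h 2
  have h3 : l.val = l'.val := congrFun h 3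
  rw [codeF_inj h0, Fin.ext h1, Fin.ext h2, Fin.ext h3]

theorem num_lt (hm : m0 ≤ m) (c : Ltr m) (i : Fin 4) : num c i < m := by
  have := codeF_lt c.1.1
  unfold m0 at hm
  fin_cases i
  · change codeF c.1.1 < m
    omega
  · exact c.1.2.1.isLt
  · exact c.1.2.2.isLt
  · exact c.2.isLt

theorem val_lt (hm : m0 ≤ m) (c d c' d' : Ltr m) (τ τ' : Fin m) (s : Slot) :
    val c d c' d' τ τ' s < m := by
  rcases s with ⟨_ | _, _ | ⟨_ | _, i⟩⟩
  · exact τ.isLt
  · exact num_lt hm c i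
  · exact num_lt hm c' i
  · exact τ'.isLt
  · exact num_lt hm d i
  · exact num_lt hm d' i

theorem sem_neg (R : Rel) (x y : ℕ) : sem m (neg R) x y ↔ ¬ sem m R x y := by
  obtain ⟨_ | _, B⟩ := R <;> simp [sem, neg]

theorem sem_rTT (x y : ℕ) : sem m rTT x y := by simp [sem, rTT, semB]

theorem sem_rFF (x y : ℕ) : ¬ sem m rFF x y := by simp [sem, rFF, semB]

theorem sem_rZero (x y : ℕ) : sem m rZero x y ↔ x = 0 ∧ y = 0 := by
  simp [sem, rZero, semB, Look]

theorem sem_rEq (x y : ℕ) : sem m rEq x y ↔ x = y := by simp [sem, rEq, semB]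

theorem sem_rSucc (x y : ℕ) : sem m rSucc x y ↔ x + 1 = y := by simp [sem, rSucc, semB]

theorem sem_rMz (x y : ℕ) : sem m rMz x y ↔ x + 1 = m ∧ y = 0 := by simp [sem, rMz, semB]

theorem sem_rCode (x y : ℕ) : sem m rCode x y ↔ x < nF ∧ y < nF := by
  simp [sem, rCode, semB, Look]

theorem sem_rPat (f : F) (y : ℕ) :
    sem m rPat (codeF f) y ↔ ∃ r : Row, IsRow r ∧ codeR r = y ∧ kpOf f = some r.1 := by
  have e : sem m rPat (codeF f) y ↔
      ∃ (f' : F) (r : Row), codeF f' = codeF f ∧ codeR r = y ∧ IsRow r ∧ kpOf f' = some r.1 := by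
    simp only [sem, rPat, semB, Look]
    simp
  rw [e]
  constructor
  · rintro ⟨f', r, h1, h2, h3, h4⟩
    exact ⟨r, h3, h2, codeF_inj h1 ▸ h4⟩
  · rintro ⟨r, h3, h2, h4⟩
    exact ⟨f, r, rfl, h2, h3, h4⟩

theorem look_lt (hm : m0 ≤ m) {i : Fin 7} {x y : ℕ} (h : Look i x y) : x < m ∧ y < m := by
  unfold m0 at hm
  unfold Look at h
  split_ifs at h with h1 h2 h3
  · obtain ⟨r, rfl, rfl⟩ := h
    have := codeR_lt r
    have := codeF_lt (r.2 ⟨i.val, h1⟩)
    omega
  · obtain ⟨f, r, rfl, rfl, -⟩ := h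
    have := codeR_lt r
    have := codeF_lt f
    omega
  · omega
  · omega

theorem redB_spec (hm : m0 ≤ m) (B : Base) (χ χ' : Col) {v a : ℕ} (hv : v < m) (ha : a < m) :
    semB (17 * m) B (v + m * χ.val) (a + m * χ'.val) ↔ sem m (redB B χ χ') v a := by
  have key : ∀ {x y : ℕ} {k k' : ℕ}, x < m → y < m → (x + m * k = y + m * k' ↔ x = y ∧ k = k') := by
    intro x y k k' hx hy
    constructor
    · intro h
      have h1 := congrArg (· % m) h
      simp only [Nat.add_mul_mod_self_left, Nat.mod_eq_of_lt hx, Nat.mod_eq_of_lt hy] at h1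
      subst h1
      exact ⟨rfl, Nat.eq_of_mul_eq_mul_left (by omega : 0 < m) (by omega)⟩
    · rintro ⟨rfl, rfl⟩
      rfl
  cases B with
  | tt => simp [semB, redB, sem_rTT]
  | eq =>
    simp only [semB, redB, key hv ha]
    split_ifs with h
    · simp [sem_rEq, h]
    · simp [sem_rFF, Fin.val_inj, h]
  | succ =>
    simp only [semB, redB]
    by_cases hv' : v + 1 < m
    · rw [show v + m * χ.val + 1 = (v + 1) + m * χ.val by ring, key hv' ha]
      split_ifs with h h'
      · simp [sem_rSucc, h]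
      · rw [sem_rMz]; omega
      · simp [sem_rFF, Fin.val_inj, h]
    · rw [show v + m * χ.val + 1 = 0 + m * (χ.val + 1) by
        have : v + 1 = m := by omega
        rw [Nat.mul_succ]; omega, key (by omega) ha]
      split_ifs with h h'
      · rw [sem_rSucc, h]; omega
      · rw [sem_rMz]; omega
      · simp [sem_rFF, h']
  | mz =>
    simp only [semB, redB]
    have e1 : v + m * χ.val + 1 = 17 * m ↔ v + 1 = m ∧ χ.val = 16 := by
      have := key (k := χ.val) (k' := 16) hv (show m - 1 < m by omega)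
      omega
    have e2 : a + m * χ'.val = 0 ↔ a = 0 ∧ χ'.val = 0 := by
      have := key (k := χ'.val) (k' := 0) ha (show 0 < m by omega)
      omega
    rw [e1, e2]
    split_ifs with h
    · rw [sem_rMz]; tauto
    · simp only [sem_rFF, iff_false]; tauto
  | look i =>
    simp only [semB, redB]
    split_ifs with h
    · simp [sem, semB, h.1, h.2]
    · simp only [sem_rFF, iff_false]
      intro hl
      obtain ⟨h1, h2⟩ := look_lt hm hl
      apply h
      constructor
      · by_contra h0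
        have : m * 1 ≤ m * χ.val := Nat.mul_le_mul_left _ (by omega)
        omega
      · by_contra h0
        have : m * 1 ≤ m * χ'.val := Nat.mul_le_mul_left _ (by omega)
        omega

/-- The reduction lemma. -/
theorem red_spec (hm : m0 ≤ m) (R : Rel) (χ χ' : Col) {v a : ℕ} (hv : v < m) (ha : a < m) :
    sem (17 * m) R (v + m * χ.val) (a + m * χ'.val) ↔ sem m (red R χ χ') v a := by
  obtain ⟨_ | _, B⟩ := R
  · simpa [sem, red] using redB_spec hm B χ χ' hv ha
  · have := redB_spec hm B χ χ' hv ha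
    simp only [red, if_true, sem_neg, ← this]
    simp [sem]

theorem pad_iff {l : List Con} (hl : l.length ≤ 10) (ν : Slot → ℕ) :
    (∀ i, semCon m ν (pad l i)) ↔ (∀ c ∈ piCons, semCon m ν c) ∧ ∀ c ∈ l, semCon m ν c := by
  have hlen : (piCons ++ l).length ≤ 14 := by
    rw [List.length_append]; change 4 + l.length ≤ 14; omega
  rw [← List.forall_mem_append]
  constructor
  · intro h c hc
    obtain ⟨j, hj, rfl⟩ := List.getElem_of_mem hc
    have := h ⟨j, by omega⟩
    rwa [pad, List.getD_eq_getElem _ _ hj] at this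
  · intro h i
    by_cases hi : i.val < (piCons ++ l).length
    · rw [pad, List.getD_eq_getElem _ _ hi]
      exact h _ (List.getElem_mem hi)
    · rw [pad, List.getD_eq_default _ _ (by omega)]
      exact sem_rTT _ _

theorem sem_look (i : Fin 4) (r : Row) (y : ℕ) :
    sem m (false, .look (i.castLE (by norm_num))) (codeR r) y ↔ y = codeF (r.2 i) := by
  have hi : (i.castLE (by norm_num : 4 ≤ 7)).val < 4 := i.isLt
  simp only [sem, semB, Look, dif_pos hi, Bool.false_eq_true, if_false]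
  constructor
  · rintro ⟨r', h1, h2⟩
    rw [codeR_inj h1] at h2
    exact h2.symm
  · rintro rfl
    exact ⟨r, rfl, rfl⟩

theorem piCons_iff {ν : Slot → ℕ} {r : Row} (h : codeR r = ν τ₁) :
    (∀ c ∈ piCons, semCon m ν c) ↔ ν (sl false false 0) = codeF (r.2 0) ∧
      ν (sl true false 0) = codeF (r.2 1) ∧ ν (sl false true 0) = codeF (r.2 2) ∧
      ν (sl true true 0) = codeF (r.2 3) := by
  simp only [piCons, List.forall_mem_cons, semCon, ← h, List.not_mem_nil, false_imp_iff,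
    implies_true, and_true]
  exact and_congr (sem_look 0 r _) (and_congr (sem_look 1 r _)
    (and_congr (sem_look 2 r _) (sem_look 3 r _)))

theorem RuleS.length_le {f₁ f₂ f₃ f₄ : F} {l : List Con} (h : RuleS f₁ f₂ f₃ f₄ l) :
    l.length ≤ 10 := by
  cases h <;> simp [fwdCons, keepCons, swapCons]

theorem KillS.length_le {f₁ f₂ : F} {l : List Con} (h : KillS f₁ f₂ l) : l.length ≤ 10 := by
  cases h <;> simp

theorem holds_rule {kp : KP} {ν : Slot → ℕ} (h : Holds m kp ν) (hk : kp.1 = true) :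
    ∃ f₁ f₂ f₃ f₄ l, RuleS f₁ f₂ f₃ f₄ l ∧ ν (sl false false 0) = codeF f₁ ∧
      ν (sl true false 0) = codeF f₂ ∧ ν (sl false true 0) = codeF f₃ ∧
      ν (sl true true 0) = codeF f₄ ∧ ∀ c ∈ l, semCon m ν c := by
  obtain ⟨h1, r, hr, hc, rfl⟩ := h
  rcases hr with ⟨f₁, f₂, f₃, f₄, l, hl, rfl⟩ | ⟨f₁, f₂, l, hl, rfl⟩
  · obtain ⟨h2, h3⟩ := (pad_iff hl.length_le ν).mp h1
    obtain ⟨e1, e2, e3, e4⟩ := (piCons_iff hc).mp h2
    exact ⟨f₁, f₂, f₃, f₄, l, hl, e1, e2, e3, e4, h3⟩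
  · cases hk

theorem holds_kill {kp : KP} {ν : Slot → ℕ} (h : Holds m kp ν) (hk : kp.1 = false) :
    ∃ f₁ f₂ l, KillS f₁ f₂ l ∧ ν (sl false false 0) = codeF f₁ ∧
      ν (sl true false 0) = codeF f₂ ∧ ν (sl false true 0) = codeF f₁ ∧
      ν (sl true true 0) = codeF f₂ ∧ ∀ c ∈ l, semCon m ν c := by
  obtain ⟨h1, r, hr, hc, rfl⟩ := h
  rcases hr with ⟨f₁, f₂, f₃, f₄, l, hl, rfl⟩ | ⟨f₁, f₂, l, hl, rfl⟩
  · cases hk
  · obtain ⟨h2, h3⟩ := (pad_iff hl.length_le ν).mp h1
    obtain ⟨e1, e2, e3, e4⟩ := (piCons_iff hc).mp h2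
    exact ⟨f₁, f₂, l, hl, e1, e2, e3, e4, h3⟩

theorem exists_ltr {n : Fin 4 → ℕ} (hn : ∀ i, n i < m) {f : F} (h : n 0 = codeF f) :
    ∃ c : Ltr m, num c = n := by
  refine ⟨((f, ⟨n 1, hn 1⟩, ⟨n 2, hn 2⟩), ⟨n 3, hn 3⟩), ?_⟩
  funext i
  fin_cases i
  · exact h.symm
  · rfl
  · rfl
  · rfl

/-- A valuation that satisfies a pattern comes from four letters. -/
theorem holds_decode {kp : KP} {ν : Slot → ℕ} (hν : ∀ s, ν s < m) (h : Holds m kp ν) :
    ∃ (c d c' d' : Ltr m) (τ τ' : Fin m), ν = val c d c' d' τ τ' := by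
  have : ∃ f₁ f₂ f₃ f₄, ν (sl false false 0) = codeF f₁ ∧ ν (sl true false 0) = codeF f₂ ∧
      ν (sl false true 0) = codeF f₃ ∧ ν (sl true true 0) = codeF f₄ := by
    cases hk : kp.1
    · obtain ⟨f₁, f₂, l, -, e1, e2, e3, e4, -⟩ := holds_kill h hk
      exact ⟨_, _, _, _, e1, e2, e3, e4⟩
    · obtain ⟨f₁, f₂, f₃, f₄, l, -, e1, e2, e3, e4, -⟩ := holds_rule h hk
      exact ⟨_, _, _, _, e1, e2, e3, e4⟩
  obtain ⟨f₁, f₂, f₃, f₄, e1, e2, e3, e4⟩ := this
  obtain ⟨c, hc⟩ := exists_ltr (n := fun i => ν (sl false false i)) (fun _ => hν _) e1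
  obtain ⟨d, hd⟩ := exists_ltr (n := fun i => ν (sl true false i)) (fun _ => hν _) e2
  obtain ⟨c', hc'⟩ := exists_ltr (n := fun i => ν (sl false true i)) (fun _ => hν _) e3
  obtain ⟨d', hd'⟩ := exists_ltr (n := fun i => ν (sl true true i)) (fun _ => hν _) e4
  refine ⟨c, d, c', d', ⟨ν (false, none), hν _⟩, ⟨ν (true, none), hν _⟩, ?_⟩
  funext s
  rcases s with ⟨_ | _, _ | ⟨_ | _, i⟩⟩
  · rfl
  · exact (congrFun hc i).symm
  · exact (congrFun hc' i).symm
  · rfl
  · exact (congrFun hd i).symm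
  · exact (congrFun hd' i).symm

/-- The constraint does not mention the row code tracks. -/
def NoTau (c : Con) : Prop := c.1.2 ≠ none ∧ c.2.1.2 ≠ none

theorem semCon_tau {c d c' d' : Ltr m} (τ τ' σ σ' : Fin m) {k : Con} (hk : NoTau k) :
    semCon m (val c d c' d' τ τ') k ↔ semCon m (val c d c' d' σ σ') k := by
  obtain ⟨⟨s, t⟩, ⟨s', t'⟩, R⟩ := k
  obtain ⟨h1, h2⟩ := hk
  have e : ∀ (s : Bool) (t : Trk), t ≠ none →
      val c d c' d' τ τ' (s, t) = val c d c' d' σ σ' (s, t) := by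
    rintro (_ | _) (_ | ⟨_ | _, i⟩) h <;> first | rfl | exact absurd rfl h
  simp only [semCon, e s t h1, e s' t' h2]

theorem step_iff_rule (hm : m0 ≤ m) (c d c' d' : Ltr m) :
    (mach m).Step c d c' d' ↔ ∃ l, RuleS c.1.1 d.1.1 c'.1.1 d'.1.1 l ∧
      ∀ k ∈ l, semCon m (val c d c' d' c.2 c.2) k := by
  have hno : ∀ {f₁ f₂ f₃ f₄ l}, RuleS f₁ f₂ f₃ f₄ l → ∀ k ∈ l, NoTau k := by
    intro f₁ f₂ f₃ f₄ l h
    cases h with
    | fwd f f' p _ =>
      obtain ⟨fc, fd, dir, mode, g1, g2⟩ := p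
      cases mode <;> simp [fwdCons, modeCon, NoTau, sl]
    | commit => simp [keepCons, NoTau, sl]
    | swap => simp [swapCons, NoTau, sl]
  constructor
  · rintro ⟨kp, τ, τ', hk, h⟩
    obtain ⟨f₁, f₂, f₃, f₄, l, hl, e1, e2, e3, e4, h3⟩ := holds_rule h hk
    obtain rfl : c.1.1 = f₁ := codeF_inj e1
    obtain rfl : d.1.1 = f₂ := codeF_inj e2
    obtain rfl : c'.1.1 = f₃ := codeF_inj e3
    obtain rfl : d'.1.1 = f₄ := codeF_inj e4
    exact ⟨l, hl, fun k hk => (semCon_tau _ _ _ _ (hno hl k hk)).mp (h3 k hk)⟩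
  · rintro ⟨l, hl, h⟩
    let r : Row := ((true, pad l), ![c.1.1, d.1.1, c'.1.1, d'.1.1])
    have hr : codeR r < m := by have := codeR_lt r; unfold m0 at hm; omega
    refine ⟨(true, pad l), ⟨codeR r, hr⟩, c.2, rfl, ?_, r, Or.inl ⟨_, _, _, _, l, hl, rfl⟩, rfl, rfl⟩
    exact (pad_iff hl.length_le _).mpr ⟨(piCons_iff (r := r) rfl).mpr ⟨rfl, rfl, rfl, rfl⟩,
      fun k hk => (semCon_tau _ _ _ _ (hno hl k hk)).mp (h k hk)⟩

/-- The constraint only mentions the old letters. -/
def OnlyOld (c : Con) : Prop := (∃ i, c.1.2 = some (false, i)) ∧ ∃ i, c.2.1.2 = some (false, i)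

theorem semCon_old {c d : Ltr m} (c' d' c'' d'' : Ltr m) (τ τ' σ σ' : Fin m) {k : Con}
    (hk : OnlyOld k) :
    semCon m (val c d c' d' τ τ') k ↔ semCon m (val c d c'' d'' σ σ') k := by
  obtain ⟨⟨s, t⟩, ⟨s', t'⟩, R⟩ := k
  obtain ⟨⟨i, h1⟩, ⟨j, h2⟩⟩ := hk
  simp only at h1 h2
  subst h1 h2
  cases s <;> cases s' <;> exact Iff.rfl

theorem forb_iff_kill (hm : m0 ≤ m) (c d : Ltr m) :
    (mach m).Forb c d ↔ ∃ l, KillS c.1.1 d.1.1 l ∧ ∀ k ∈ l, semCon m (val c d c d c.2 c.2) k := by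
  have hno : ∀ {f₁ f₂ l}, KillS f₁ f₂ l → ∀ k ∈ l, OnlyOld k := by
    intro f₁ f₂ l h
    cases h with
    | ul k hk => cases hk <;> simp [OnlyOld, sl]
    | ur k hk => cases hk <;> simp [OnlyOld, sl]
    | _ => simp [OnlyOld, sl]
  constructor
  · rintro ⟨c', d', kp, τ, τ', hk, h⟩
    obtain ⟨f₁, f₂, l, hl, e1, e2, -, -, h3⟩ := holds_kill h hk
    obtain rfl : c.1.1 = f₁ := codeF_inj e1
    obtain rfl : d.1.1 = f₂ := codeF_inj e2
    exact ⟨l, hl, fun k hk => (semCon_old _ _ _ _ _ _ _ _ (hno hl k hk)).mp (h3 k hk)⟩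
  · rintro ⟨l, hl, h⟩
    let r : Row := ((false, pad l), ![c.1.1, d.1.1, c.1.1, d.1.1])
    have hr : codeR r < m := by have := codeR_lt r; unfold m0 at hm; omega
    refine ⟨c, d, (false, pad l), ⟨codeR r, hr⟩, c.2, rfl, ?_, r, Or.inr ⟨_, _, l, hl, rfl⟩, rfl, rfl⟩
    exact (pad_iff hl.length_le _).mpr ⟨(piCons_iff (r := r) rfl).mpr ⟨rfl, rfl, rfl, rfl⟩,
      fun k hk => (semCon_old _ _ _ _ _ _ _ _ (hno hl k hk)).mp (h k hk)⟩

section
variable (c d c' d' : Ltr m) (τ τ' : Fin m)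

theorem val_00 : val c d c' d' τ τ' (sl false false 0) = codeF c.1.1 := rfl
theorem val_01 : val c d c' d' τ τ' (sl false false 1) = c.1.2.1.val := rfl
theorem val_02 : val c d c' d' τ τ' (sl false false 2) = c.1.2.2.val := rfl
theorem val_03 : val c d c' d' τ τ' (sl false false 3) = c.2.val := rfl
theorem val_10 : val c d c' d' τ τ' (sl true false 0) = codeF d.1.1 := rfl
theorem val_11 : val c d c' d' τ τ' (sl true false 1) = d.1.2.1.val := rfl
theorem val_12 : val c d c' d' τ τ' (sl true false 2) = d.1.2.2.val := rfl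
theorem val_13 : val c d c' d' τ τ' (sl true false 3) = d.2.val := rfl
theorem val_20 : val c d c' d' τ τ' (sl false true 0) = codeF c'.1.1 := rfl
theorem val_21 : val c d c' d' τ τ' (sl false true 1) = c'.1.2.1.val := rfl
theorem val_22 : val c d c' d' τ τ' (sl false true 2) = c'.1.2.2.val := rfl
theorem val_23 : val c d c' d' τ τ' (sl false true 3) = c'.2.val := rfl
theorem val_30 : val c d c' d' τ τ' (sl true true 0) = codeF d'.1.1 := rfl
theorem val_31 : val c d c' d' τ τ' (sl true true 1) = d'.1.2.1.val := rfl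
theorem val_32 : val c d c' d' τ τ' (sl true true 2) = d'.1.2.2.val := rfl
theorem val_33 : val c d c' d' τ τ' (sl true true 3) = d'.2.val := rfl

theorem fwdCons_iff (p : Par) :
    (∀ k ∈ fwdCons p, semCon m (val c d c' d' τ τ') k) ↔
      (c.1.2.1 = c'.1.2.1 ∧ d.1.2.1 = d'.1.2.1 ∧
        (if p.dir then
          c'.1.2.2.val = 0 ∧ d.1.2.2.val = 0 ∧
            modeRel m p.mode c.1.2.2.val d'.1.2.2.val d'.1.2.1.val ∧ Guards p d'.1
        else
          d'.1.2.2.val = 0 ∧ c.1.2.2.val = 0 ∧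
            modeRel m p.mode d.1.2.2.val c'.1.2.2.val c'.1.2.1.val ∧ Guards p c'.1)) ∧
      c'.2 = c.2 ∧ d'.2 = d.2 := by
  obtain ⟨fc, fd, dir, mode, g1, g2⟩ := p
  cases dir <;> cases mode <;>
    simp only [fwdCons, modeCon, modeGuard, modeRel, Guards, semCon, List.forall_mem_cons,
      List.not_mem_nil, false_imp_iff, implies_true, and_true, Bool.not_true, Bool.not_false,
      val_01, val_02, val_03, val_11, val_12, val_13, val_20, val_21, val_22, val_23, val_30,
      val_31, val_32, val_33, sem_rEq, sem_rZero, sem_rSucc, sem_rMz, sem_rTT, sem_neg, and_self,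
      Fin.val_inj, if_true, if_false, Bool.false_eq_true, true_and, @eq_comm _ c'.2 c.2,
      @eq_comm _ d'.2 d.2] <;>
    tauto

end

theorem step_iff (hm : m0 ≤ m) (c d c' d' : Ltr m) :
    (mach m).Step c d c' d' ↔
      (Fwd c.1 d.1 c'.1 d'.1 ∧ c'.2 = c.2 ∧ d'.2 = d.2) ∨
      (Commit c.1 d.1 c'.1 d'.1 ∧ c'.2 = c.2 ∧ d'.2 = d.2) ∨
      (c.1.1.1 = .Lb ∧ d.1.1.1 = .Lb ∧ c'.1 = c.1 ∧ d'.1 = d.1 ∧ c'.2 = d.2 ∧ d'.2 = c.2) := by
  rw [step_iff_rule hm]
  obtain ⟨⟨f₁, a₁, r₁⟩, l₁⟩ := c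
  obtain ⟨⟨f₂, a₂, r₂⟩, l₂⟩ := d
  obtain ⟨⟨f₃, a₃, r₃⟩, l₃⟩ := c'
  obtain ⟨⟨f₄, a₄, r₄⟩, l₄⟩ := d'
  constructor
  · rintro ⟨l, hl, h⟩
    simp only at hl
    cases hl with
    | fwd _ _ p hp =>
      obtain ⟨⟨h1, h2, h3⟩, h4⟩ := (fwdCons_iff _ _ _ _ _ _ p).mp h
      exact Or.inl ⟨⟨p, hp, rfl, rfl, h1, h2, h3⟩, h4⟩
    | commit kp t hk =>
      simp only [keepCons, semCon, List.forall_mem_cons, val_01, val_02, val_03, val_11, val_12,
        val_13, val_21, val_22, val_23, val_31, val_32, val_33, sem_rEq, Fin.val_inj] at h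
      obtain ⟨rfl, rfl, rfl, rfl, rfl, rfl, -⟩ := h
      exact Or.inr (Or.inl ⟨⟨kp, t, hk, rfl, rfl, rfl, rfl⟩, rfl, rfl⟩)
    | swap k k' =>
      simp only [swapCons, semCon, List.forall_mem_cons, val_01, val_02, val_03, val_11, val_12,
        val_13, val_21, val_22, val_23, val_31, val_32, val_33, sem_rEq, Fin.val_inj] at h
      obtain ⟨rfl, rfl, rfl, rfl, rfl, rfl, -⟩ := h
      exact Or.inr (Or.inr ⟨rfl, rfl, rfl, rfl, rfl, rfl⟩)
  · rintro (⟨⟨p, hp, e1, e2, h1, h2, h3⟩, h4⟩ | ⟨⟨kp, t, hk, e1, e2, e3, e4⟩, h4, h5⟩ |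
      ⟨e1, e2, e3, e4, h4, h5⟩)
    · simp only at e1 e2
      subst e1 e2
      exact ⟨_, RuleS.fwd _ _ p hp, (fwdCons_iff _ _ _ _ _ _ p).mpr ⟨⟨h1, h2, h3⟩, h4⟩⟩
    · simp only [Prod.mk.injEq] at e1 e2 e3 e4 h4 h5
      obtain ⟨rfl, rfl, rfl⟩ := e3
      obtain ⟨rfl, rfl, rfl⟩ := e4
      subst e1 e2 h4 h5
      refine ⟨_, RuleS.commit kp t hk, ?_⟩
      simp [keepCons, semCon, val_01, val_02, val_03, val_11, val_12,
        val_13, val_21, val_22, val_23, val_31, val_32, val_33, sem_rEq]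
    · simp only [Prod.mk.injEq] at e1 e2 e3 e4 h4 h5
      obtain ⟨rfl, rfl, rfl⟩ := e3
      obtain ⟨rfl, rfl, rfl⟩ := e4
      subst h4 h5
      obtain ⟨k₁, c₁⟩ := f₃
      obtain ⟨k₂, c₂⟩ := f₄
      simp only at e1 e2
      subst e1 e2
      refine ⟨_, RuleS.swap c₁ c₂, ?_⟩
      simp [swapCons, semCon, val_01, val_02, val_03, val_11, val_12,
        val_13, val_21, val_22, val_23, val_31, val_32, val_33, sem_rEq]

theorem forb_iff (hm : m0 ≤ m) (c d : Ltr m) :
    (mach m).Forb c d ↔ ForbSk c.1 d.1 ∨ ¬ LOK c d := by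
  rw [forb_iff_kill hm]
  constructor
  · rintro ⟨l, hl, h⟩
    by_contra hc
    simp only [ForbSk, not_or, not_not] at hc
    obtain ⟨⟨⟨hadj, hu, hu', s1, s2, s3⟩, hnp, hwk, hkl⟩, l1, l2, l3⟩ := hc
    cases hl with
    | adj h' => exact h' hadj
    | hd0 e =>
      have := s1 e
      simp [semCon, val_11, sem_neg, sem_rZero, this] at h
    | dd e e' =>
      have := s2 e e'
      simp [semCon, val_01, val_11, sem_neg, sem_rSucc, this] at h
    | dl e e' =>
      have h1 := s3 e e'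
      have h2 := hu'.1 (by rw [e']; rfl)
      simp [semCon, val_01, val_11, sem_neg, sem_rMz, h1, h2] at h
    | ll e e' =>
      have := l3 e e'
      simp [semCon, val_03, val_13, sem_rEq, Fin.val_inj, this] at h
    | ul k hk =>
      cases hk with
      | addr e => simp [semCon, val_01, sem_neg, sem_rZero, hu.1 e] at h
      | reg e => simp [semCon, val_02, sem_neg, sem_rZero, hu.2.1 e] at h
      | lab e => simp [semCon, val_03, sem_neg, sem_rZero, l1 e] at h
      | code o χ e e' =>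
        have := hu.2.2 o χ e e'
        simp only [List.forall_mem_singleton, semCon, val_01, sem_neg, sem_rCode] at h
        exact h ⟨this, this⟩
    | ur k hk =>
      cases hk with
      | addr e => simp [semCon, val_11, sem_neg, sem_rZero, hu'.1 e] at h
      | reg e => simp [semCon, val_12, sem_neg, sem_rZero, hu'.2.1 e] at h
      | lab e => simp [semCon, val_13, sem_neg, sem_rZero, l2 e] at h
      | code o χ e e' =>
        have := hu'.2.2 o χ e e'
        simp only [List.forall_mem_singleton, semCon, val_11, sem_neg, sem_rCode] at h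
        exact h ⟨this, this⟩
    | np h1 h2 => exact hnp (Or.inl ⟨h1, h2⟩)
    | np0 p hp =>
      refine hnp (Or.inr ⟨p, hp, fun g => ?_⟩)
      simp only [List.forall_mem_singleton, semCon, sem_neg] at h
      cases hd : p.dir <;> rw [hd] at h g <;> exact h g.1
    | np1 p hp =>
      refine hnp (Or.inr ⟨p, hp, fun g => ?_⟩)
      simp only [List.forall_mem_singleton, semCon, sem_neg] at h
      cases hd : p.dir <;> rw [hd] at h g <;> exact h g.2.1
    | np2 p hp =>
      refine hnp (Or.inr ⟨p, hp, fun g => ?_⟩)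
      simp only [List.forall_mem_singleton, semCon, sem_neg] at h
      cases hd : p.dir <;> rw [hd] at h g <;> exact h g.2.2
    | wk β e e' =>
      simp only [List.forall_mem_singleton, semCon, sem_neg, val_02, val_12, sem_rMz] at h
      exact hwk ⟨β, e, e', h⟩
    | kill kp e1 e2 e3 => exact hkl ⟨kp, e1, e2, e3⟩
  · intro h
    by_contra hc
    push Not at hc
    have k0 : ¬ KillS c.1.1 d.1.1 [] := fun hk => by simpa using hc _ hk
    have k1 : ∀ k, KillS c.1.1 d.1.1 [k] → ¬ semCon m (val c d c d c.2 c.2) k := fun k hk => by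
      simpa using hc _ hk
    have hu : UOK c.1 := by
      refine ⟨fun e => ?_, fun e => ?_, fun o χ e e' => ?_⟩
      · simpa [semCon, val_01, sem_neg, sem_rZero] using k1 _ (.ul _ (.addr e))
      · simpa [semCon, val_02, sem_neg, sem_rZero] using k1 _ (.ul _ (.reg e))
      · have := k1 _ (.ul _ (.code o χ e e'))
        simp only [semCon, val_01, sem_neg, sem_rCode, not_not] at this
        exact this.1
    have hu' : UOK d.1 := by
      refine ⟨fun e => ?_, fun e => ?_, fun o χ e e' => ?_⟩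
      · simpa [semCon, val_11, sem_neg, sem_rZero] using k1 _ (.ur _ (.addr e))
      · simpa [semCon, val_12, sem_neg, sem_rZero] using k1 _ (.ur _ (.reg e))
      · have := k1 _ (.ur _ (.code o χ e e'))
        simp only [semCon, val_11, sem_neg, sem_rCode, not_not] at this
        exact this.1
    rcases h with (h | h | h | h) | h
    · refine h ⟨by_contra fun e => k0 (.adj e), hu, hu', fun e => ?_, fun e e' => ?_,
        fun e e' => ?_⟩
      · simpa [semCon, val_11, sem_neg, sem_rZero] using k1 _ (.hd0 e)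
      · simpa [semCon, val_01, val_11, sem_neg, sem_rSucc] using k1 _ (.dd e e')
      · have := k1 _ (.dl e e')
        simp only [semCon, val_01, val_11, sem_neg, sem_rMz, not_not] at this
        exact this.1
    · rcases h with ⟨h1, h2⟩ | ⟨p, hp, h⟩
      · exact k0 (.np h1 h2)
      · have g0 := k1 _ (.np0 p hp)
        have g1 := k1 _ (.np1 p hp)
        have g2 := k1 _ (.np2 p hp)
        simp only [semCon, sem_neg, not_not] at g0 g1 g2
        apply h
        cases hd : p.dir <;> rw [hd] at g0 g1 g2 <;> exact ⟨g0, g1, g2⟩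
    · obtain ⟨β, e, e', h⟩ := h
      have := k1 _ (.wk β e e')
      simp only [semCon, sem_neg, val_02, val_12, sem_rMz, not_not] at this
      exact h this
    · obtain ⟨kp, e1, e2, e3⟩ := h
      exact k0 (.kill kp e1 e2 e3)
    · refine h ⟨fun e => ?_, fun e => ?_, fun e e' => ?_⟩
      · simpa [semCon, val_03, sem_neg, sem_rZero] using k1 _ (.ul _ (.lab e))
      · simpa [semCon, val_13, sem_neg, sem_rZero] using k1 _ (.ur _ (.lab e))
      · simpa [semCon, val_03, val_13, sem_rEq, Fin.val_inj] using k1 _ (.ll e e')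

end Mach

end Vale.Agent.P192
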