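import Vale.Agent.P192.Sys

/-!
P192, part A2: consequences of a simulation.
-/

namespace Vale.Agent.P192

variable {α β O : Type} {S : Sys α} {S' : Sys β}

/-- The expansions of a word of `S'`. -/
inductive Sim.Exp (h : Sim S S' O) : List β → List α → Prop
  | nil : Sim.Exp h [] []
  | one (c : β) (g : List α) (w : List β) (μ : List α) :
      h.T1 c g → Sim.Exp h w μ → Sim.Exp h (c :: w) (g ++ μ)
  | two (c d : β) (g : List α) (w : List β) (μ : List α) :
      h.T2 c d g → Sim.Exp h w μ → Sim.Exp h (c :: d :: w) (g ++ μ)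

theorem split_pair {g μ u v : List α} {a b : α} (h : g ++ μ = u ++ a :: b :: v) :
    (∃ v₁, g = u ++ a :: b :: v₁ ∧ v = v₁ ++ μ) ∨ (g = u ++ [a] ∧ μ = b :: v) ∨
      ∃ u₁, u = g ++ u₁ ∧ μ = u₁ ++ a :: b :: v := by
  rcases List.append_eq_append_iff.mp h with ⟨t, h1, h2⟩ | ⟨t, h1, h2⟩
  · exact Or.inr (Or.inr ⟨t, h1, h2⟩)
  · match t, h1, h2 with
    | [], h1, h2 => exact Or.inr (Or.inr ⟨[], by simpa using h1.symm, by simpa using h2.symm⟩)
    | [x], h1, h2 =>
      simp only [List.cons_append, List.nil_append, List.cons.injEq] at h2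
      obtain ⟨rfl, h3⟩ := h2
      exact Or.inr (Or.inl ⟨h1, h3.symm⟩)
    | x :: y :: t, h1, h2 =>
      simp only [List.cons_append, List.cons.injEq] at h2
      obtain ⟨rfl, rfl, h3⟩ := h2
      exact Or.inl ⟨t, h1, h3⟩

theorem split_first (P : α → Prop) {w : List α} (h : ∃ a ∈ w, P a) :
    ∃ L y r, w = L ++ y :: r ∧ P y ∧ ∀ a ∈ L, ¬ P a := by
  induction w with
  | nil => simp at h
  | cons x w ih =>
    by_cases hx : P x
    · exact ⟨[], x, w, rfl, hx, by simp⟩
    · obtain ⟨a, ha, hP⟩ := h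
      rcases List.mem_cons.mp ha with rfl | ha
      · exact absurd hP hx
      obtain ⟨L, y, r, rfl, hy, hL⟩ := ih ⟨a, ha, hP⟩
      refine ⟨x :: L, y, r, rfl, hy, fun b hb => ?_⟩
      rcases List.mem_cons.mp hb with rfl | hb
      · exact hx
      · exact hL b hb

theorem split_last (P : α → Prop) (w : List α) :
    ∃ μ R, w = μ ++ R ∧ (∀ a ∈ R, ¬ P a) ∧ (μ = [] ∨ ∃ μ' z, μ = μ' ++ [z] ∧ P z) := by
  induction w with
  | nil => exact ⟨[], [], rfl, by simp, Or.inl rfl⟩
  | cons x w ih =>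
    obtain ⟨μ, R, rfl, hR, hμ⟩ := ih
    rcases hμ with rfl | ⟨μ', z, rfl, hz⟩
    · by_cases hx : P x
      · exact ⟨[x], R, rfl, hR, Or.inr ⟨[], x, rfl, hx⟩⟩
      · refine ⟨[], x :: R, rfl, fun b hb => ?_, Or.inl rfl⟩
        rcases List.mem_cons.mp hb with rfl | hb
        · exact hx
        · exact hR b hb
    · exact ⟨x :: μ' ++ [z], R, rfl, hR, Or.inr ⟨x :: μ', z, rfl, hz⟩⟩

theorem first_unique (P : α → Prop) : ∀ {L L' r r' : List α} {y y' : α},
    L ++ y :: r = L' ++ y' :: r' → (∀ a ∈ L, ¬ P a) → (∀ a ∈ L', ¬ P a) → P y → P y' →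
      L = L' ∧ y = y' ∧ r = r' := by
  intro L
  induction L with
  | nil =>
    intro L' r r' y y' h _ h2 hy _
    cases L' with
    | nil => simpa using h
    | cons x L' =>
      simp only [List.nil_append, List.cons_append, List.cons.injEq] at h
      exact absurd hy (h2 y (by simp [h.1]))
  | cons x L ih =>
    intro L' r r' y y' h h1 h2 hy hy'
    cases L' with
    | nil =>
      simp only [List.nil_append, List.cons_append, List.cons.injEq] at h
      exact absurd hy' (h1 y' (by simp [h.1]))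
    | cons x' L' =>
      simp only [List.cons_append, List.cons.injEq] at h
      obtain ⟨h3, h4, h5⟩ := ih h.2 (fun a ha => h1 a (List.mem_cons_of_mem _ ha))
        (fun a ha => h2 a (List.mem_cons_of_mem _ ha)) hy hy'
      exact ⟨by rw [h.1, h3], h4, h5⟩

theorem last_unique (P : α → Prop) {μ μ' R R' : List α} (h : μ ++ R = μ' ++ R')
    (hR : ∀ a ∈ R, ¬ P a) (hR' : ∀ a ∈ R', ¬ P a)
    (hμ : μ = [] ∨ ∃ ν z, μ = ν ++ [z] ∧ P z) (hμ' : μ' = [] ∨ ∃ ν z, μ' = ν ++ [z] ∧ P z) :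
    μ = μ' ∧ R = R' := by
  have key : ∀ {μ μ' R R' t : List α}, μ' = μ ++ t → R = t ++ R' → (∀ a ∈ R, ¬ P a) →
      (μ' = [] ∨ ∃ ν z, μ' = ν ++ [z] ∧ P z) → t = [] := by
    intro μ μ' R R' t h1 h2 hR hμ'
    rcases List.eq_nil_or_concat t with rfl | ⟨t', x, rfl⟩
    · rfl
    rcases hμ' with h3 | ⟨ν, z, h3, hz⟩
    · simp [h1] at h3
    · rw [h1, List.concat_eq_append, ← List.append_assoc] at h3
      have := (List.append_inj' h3 rfl).2
      simp only [List.cons.injEq, and_true] at this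
      exact absurd hz (this ▸ hR x (by simp [h2]))
  rcases List.append_eq_append_iff.mp h with ⟨t, h1, h2⟩ | ⟨t, h1, h2⟩
  · have := key h1 h2 hR hμ'
    subst this
    exact ⟨by simpa using h1.symm, by simpa using h2⟩
  · have := key h1 h2 hR' hμ
    subst this
    exact ⟨by simpa using h1, by simpa using h2.symm⟩

namespace Sim

variable {h : Sim S S' O}

theorem T1_ne_nil {c : β} (hg : h.T1 c []) : False := by
  have h1 := h.len1 c _ hg
  have h2 := h.two_le_len
  simp at h1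
  omega

theorem T2_ne_nil {c d : β} (hg : h.T2 c d []) : False := by
  have h1 := h.len2 c d _ hg
  have h2 := h.two_le_len
  simp at h1
  omega

theorem Exp.inv_cons {w : List β} {b : α} {v : List α} (he : h.Exp w (b :: v)) :
    ∃ v₁ μ, v = v₁ ++ μ ∧ ((∃ d w', w = d :: w' ∧ h.T1 d (b :: v₁) ∧ h.Exp w' μ) ∨
      ∃ c d w', w = c :: d :: w' ∧ h.T2 c d (b :: v₁) ∧ h.Exp w' μ) := by
  generalize hx : b :: v = x at he
  cases he with
  | nil => simp at hx
  | one c g w μ hg he =>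
    cases g with
    | nil => exact (T1_ne_nil hg).elim
    | cons y g =>
      simp only [List.cons_append, List.cons.injEq] at hx
      obtain ⟨rfl, rfl⟩ := hx
      exact ⟨g, μ, rfl, Or.inl ⟨c, w, rfl, hg, he⟩⟩
  | two c d g w μ hg he =>
    cases g with
    | nil => exact (T2_ne_nil hg).elim
    | cons y g =>
      simp only [List.cons_append, List.cons.injEq] at hx
      obtain ⟨rfl, rfl⟩ := hx
      exact ⟨g, μ, rfl, Or.inr ⟨c, d, w, rfl, hg, he⟩⟩

theorem Exp.step {w : List β} {μ : List α} (he : h.Exp w μ) :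
    ∀ u v a b a' b', μ = u ++ a :: b :: v → S.Sym a b a' b' →
      ∃ w', S'.Eqv w w' ∧ h.Exp w' (u ++ a' :: b' :: v) := by
  induction he with
  | nil => intro u v a b a' b' hμ _; simp at hμ
  | one c g w μ hg he ih =>
    intro u v a b a' b' hμ hs
    rcases split_pair hμ with ⟨v₁, rfl, rfl⟩ | ⟨rfl, rfl⟩ | ⟨u₁, rfl, rfl⟩
    · refine ⟨_, Sys.Eqv.refl _, ?_⟩
      have := Exp.one c _ w μ (h.in1 c u v₁ a b a' b' hg hs) he
      simpa using this
    · obtain ⟨v₁, μ', rfl, ⟨d, w', rfl, h1, h2⟩ | ⟨c', d', w', rfl, h1, _⟩⟩ := he.inv_cons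
      · refine ⟨_, Sys.Eqv.refl _, ?_⟩
        have := Exp.two c d _ w' μ' (h.cross11 c d u v₁ a b a' b' hg h1 hs) h2
        simpa using this
      · exact absurd hs (h.cross2r c c' d' u v₁ a b a' b' hg h1)
    · obtain ⟨w', h1, h2⟩ := ih u₁ v a b a' b' rfl hs
      refine ⟨c :: w', by simpa using h1.context [c] [], ?_⟩
      have := Exp.one c g w' _ hg h2
      simpa using this
  | two c d g w μ hg he ih =>
    intro u v a b a' b' hμ hs
    rcases split_pair hμ with ⟨v₁, rfl, rfl⟩ | ⟨rfl, rfl⟩ | ⟨u₁, rfl, rfl⟩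
    · rcases h.in2 c d u v₁ a b a' b' hg hs with h1 | ⟨g₁, g₂, h1, h2, h3⟩ | ⟨c', d', h1, h2⟩
      · refine ⟨_, Sys.Eqv.refl _, ?_⟩
        have := Exp.two c d _ w μ h1 he
        simpa using this
      · refine ⟨_, Sys.Eqv.refl _, ?_⟩
        have := Exp.one c g₁ _ _ h1 (Exp.one d g₂ w μ h2 he)
        rw [← List.append_assoc, ← h3] at this
        simpa using this
      · refine ⟨c' :: d' :: w, by simpa using h1.eqv [] w, ?_⟩
        have := Exp.two c' d' _ w μ h2 he
        simpa using this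
    · obtain ⟨v₁, μ', rfl, ⟨d', w', rfl, h1, _⟩ | ⟨c', d', w', rfl, h1, _⟩⟩ := he.inv_cons
      · exact absurd hs (h.cross2l c d u v₁ a b a' b' hg (Or.inl ⟨_, h1⟩))
      · exact absurd hs (h.cross2l c d u v₁ a b a' b' hg (Or.inr ⟨_, _, h1⟩))
    · obtain ⟨w', h1, h2⟩ := ih u₁ v a b a' b' rfl hs
      refine ⟨c :: d :: w', by simpa using h1.context [c, d] [], ?_⟩
      have := Exp.two c d g w' _ hg h2
      simpa using this

theorem Exp.of_eqv {w : List β} {μ μ' : List α} (he : h.Exp w μ) (e : S.Eqv μ μ') :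
    ∃ w', S'.Eqv w w' ∧ h.Exp w' μ' := by
  refine Sys.Eqv.induction (C := fun ν => ∃ w', S'.Eqv w w' ∧ h.Exp w' ν) ?_ e
    ⟨w, Sys.Eqv.refl _, he⟩
  rintro u v a b a' b' hs ⟨w', h1, h2⟩
  obtain ⟨w'', h3, h4⟩ := h2.step u v a b a' b' rfl hs
  exact ⟨w'', h1.trans h3, h4⟩

theorem Exp.forb {w : List β} {μ : List α} (he : h.Exp w μ) (hf : S.HasForb μ) :
    S'.HasForb w := by
  induction he with
  | nil =>
    obtain ⟨u, v, a, b, _, hμ⟩ := hf
    simp at hμ
  | one c g w μ hg he ih =>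
    obtain ⟨u, v, a, b, hs, hμ⟩ := hf
    rcases split_pair hμ with ⟨v₁, rfl, rfl⟩ | ⟨rfl, rfl⟩ | ⟨u₁, rfl, rfl⟩
    · exact absurd ⟨u, v₁, a, b, hs, rfl⟩ (h.forb1 c _ hg)
    · obtain ⟨v₁, μ', rfl, ⟨d, w', rfl, h1, _⟩ | ⟨c', d', w', rfl, h1, _⟩⟩ := he.inv_cons
      · exact absurd hs (h.forbX u v₁ a b (Or.inl ⟨_, hg⟩) (Or.inl ⟨_, h1⟩))
      · exact absurd hs (h.forbX u v₁ a b (Or.inl ⟨_, hg⟩) (Or.inr ⟨_, _, h1⟩))
    · simpa using (ih ⟨u₁, v, a, b, hs, rfl⟩).context [c] []
  | two c d g w μ hg he ih =>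
    obtain ⟨u, v, a, b, hs, hμ⟩ := hf
    rcases split_pair hμ with ⟨v₁, rfl, rfl⟩ | ⟨rfl, rfl⟩ | ⟨u₁, rfl, rfl⟩
    · exact ⟨[], w, c, d, h.forb2 c d _ hg ⟨u, v₁, a, b, hs, rfl⟩, rfl⟩
    · obtain ⟨v₁, μ', rfl, ⟨d', w', rfl, h1, _⟩ | ⟨c', d', w', rfl, h1, _⟩⟩ := he.inv_cons
      · exact absurd hs (h.forbX u v₁ a b (Or.inr ⟨_, _, hg⟩) (Or.inl ⟨_, h1⟩))
      · exact absurd hs (h.forbX u v₁ a b (Or.inr ⟨_, _, hg⟩) (Or.inr ⟨_, _, h1⟩))
    · simpa using (ih ⟨u₁, v, a, b, hs, rfl⟩).context [c, d] []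

theorem Exp.eqv_root {w : List β} {μ : List α} (he : h.Exp w μ) :
    S.Eqv μ (w.flatMap h.root) := by
  induction he with
  | nil => exact Sys.Eqv.refl _
  | one c g w μ hg _ ih => simpa using (h.conn1 c g hg).append ih
  | two c d g w μ hg _ ih => simpa using (h.conn2 c d g hg).append ih

theorem exp_root (h : Sim S S' O) (w : List β) : h.Exp w (w.flatMap h.root) := by
  induction w with
  | nil => exact Exp.nil
  | cons c w ih => simpa using Exp.one c _ w _ (h.root_mem c) ih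

theorem eqv_root (h : Sim S S' O) {w w' : List β} (e : S'.Eqv w w') :
    S.Eqv (w.flatMap h.root) (w'.flatMap h.root) := by
  induction e with
  | rel _ _ e =>
    obtain ⟨u, v, a, b, a', b', hs, rfl, rfl⟩ := e
    simpa using (h.simStep a b a' b' hs).context (u.flatMap h.root) (v.flatMap h.root)
  | refl => exact Sys.Eqv.refl _
  | symm _ _ _ ih => exact ih.symm
  | trans _ _ _ _ _ ih1 ih2 => exact ih1.trans ih2

theorem Exp.alive {w : List β} {μ : List α} (he : h.Exp w μ) (hμ : S.Alive μ) :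
    S'.Alive w := by
  rintro w' e ⟨u, v, a, b, hs, rfl⟩
  have h1 := hμ.of_eqv (he.eqv_root.trans (h.eqv_root e))
  refine h.simForb a b hs (Sys.Alive.factor (p := u.flatMap h.root) (q := v.flatMap h.root) ?_)
  simpa using h1

theorem Exp.length {w : List β} {μ : List α} (he : h.Exp w μ) :
    μ.length = w.length * h.len := by
  induction he with
  | nil => simp
  | one c g w μ hg _ ih =>
    rw [List.length_append, ih, h.len1 c g hg, List.length_cons]
    ring
  | two c d g w μ hg _ ih =>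
    rw [List.length_append, ih, h.len2 c d g hg, List.length_cons, List.length_cons]
    ring

theorem T1_T2_disj {c c' d' : β} {g g' μ μ' : List α} (h1 : h.T1 c g) (h2 : h.T2 c' d' g')
    (he : g ++ μ = g' ++ μ') : False := by
  have l1 := h.len1 c g h1
  have l2 := h.len2 c' d' g' h2
  obtain ⟨g₀, o, rfl⟩ := h.last1 c g h1
  rcases List.append_eq_append_iff.mp he with ⟨t, h3, _⟩ | ⟨t, h3, _⟩
  · refine h.mid2 c' d' g₀ (h.e o) t (by simpa [h3] using h2) (by simpa using l1) (h.UE_e o)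
  · have := congrArg List.length h3
    have := h.two_le_len
    simp only [List.length_append] at *
    omega

theorem Exp.unique {w : List β} {μ : List α} (he : h.Exp w μ) :
    ∀ {w' : List β}, h.Exp w' μ → w = w' := by
  induction he with
  | nil =>
    intro w' he'
    have h1 := he'.length
    have h2 := h.two_le_len
    simp only [List.length_nil] at h1
    rcases Nat.mul_eq_zero.mp h1.symm with h3 | h3
    · exact (List.length_eq_zero_iff.mp h3).symm
    · omega
  | one c g w μ hg _ ih =>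
    intro w' he'
    generalize hx : g ++ μ = x at he'
    cases he' with
    | nil => exact (T1_ne_nil ((List.append_eq_nil_iff.mp hx).1 ▸ hg)).elim
    | one c' g' w' μ' hg' he' =>
      obtain ⟨rfl, rfl⟩ := List.append_inj hx ((h.len1 c g hg).trans (h.len1 c' g' hg').symm)
      rw [h.uniq1 c c' g hg hg', ih he']
    | two c' d' g' w' μ' hg' he' => exact (T1_T2_disj hg hg' hx).elim
  | two c d g w μ hg _ ih =>
    intro w' he'
    generalize hx : g ++ μ = x at he'
    cases he' with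
    | nil => exact (T2_ne_nil ((List.append_eq_nil_iff.mp hx).1 ▸ hg)).elim
    | one c' g' w' μ' hg' he' => exact (T1_T2_disj hg' hg hx.symm).elim
    | two c' d' g' w' μ' hg' he' =>
      obtain ⟨rfl, rfl⟩ := List.append_inj hx ((h.len2 c d g hg).trans (h.len2 c' d' g' hg').symm)
      obtain ⟨rfl, rfl⟩ := h.uniq2 c d c' d' g hg hg'
      rw [ih he']

theorem Exp.last {w : List β} {μ : List α} (he : h.Exp w μ) :
    μ = [] ∨ ∃ ν z, μ = ν ++ [z] ∧ h.UE z := by
  induction he with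
  | nil => exact Or.inl rfl
  | one c g w μ hg _ ih =>
    rcases ih with rfl | ⟨ν, z, rfl, hz⟩
    · obtain ⟨g', o, rfl⟩ := h.last1 c g hg
      exact Or.inr ⟨g', _, by simp, h.UE_e o⟩
    · exact Or.inr ⟨g ++ ν, z, by simp, hz⟩
  | two c d g w μ hg _ ih =>
    rcases ih with rfl | ⟨ν, z, rfl, hz⟩
    · obtain ⟨g', o, rfl⟩ := h.last2 c d g hg
      exact Or.inr ⟨g', _, by simp, h.UE_e o⟩
    · exact Or.inr ⟨g ++ ν, z, by simp, hz⟩

theorem exists_exp (h : Sim S S' O) (n : ℕ) : ∀ (μ : List α) (y : α), μ.length ≤ n →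
    S.Alive (y :: μ) → h.UE y → (μ = [] ∨ ∃ ν z, μ = ν ++ [z] ∧ h.UE z) → ∃ w, h.Exp w μ := by
  induction n with
  | zero =>
    intro μ y hn _ _ _
    rw [List.length_eq_zero_iff.mp (Nat.le_zero.mp hn)]
    exact ⟨[], Exp.nil⟩
  | succ n ih =>
    intro μ y hn ha hy hμ
    rcases hμ with rfl | ⟨ν, z, hν, hz⟩
    · exact ⟨[], Exp.nil⟩
    obtain ⟨g, x, r, rfl, hx, hg⟩ := split_first h.UE (w := μ) ⟨z, by simp [hν], hz⟩
    have h1 : S.Alive (y :: (g ++ [x])) :=
      Sys.Alive.factor (p := []) (q := r) (by simpa using ha)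
    have h2 : S.Alive (x :: r) := Sys.Alive.factor (p := y :: g) (q := []) (by simpa using ha)
    have h3 : r = [] ∨ ∃ ν z, r = ν ++ [z] ∧ h.UE z := by
      rcases List.eq_nil_or_concat r with rfl | ⟨r', z', rfl⟩
      · exact Or.inl rfl
      · refine Or.inr ⟨r', z', by simp, ?_⟩
        have h4 : (g ++ x :: r') ++ [z'] = ν ++ [z] := by simpa using hν
        have := (List.append_inj' h4 rfl).2
        simp only [List.cons.injEq, and_true] at this
        exact this ▸ hz
    obtain ⟨w, hw⟩ := ih r x (by simp at hn; omega) h2 hx h3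
    rcases h.parse y g x h1 hy hx hg with ⟨c, hc⟩ | ⟨c, d, hc⟩
    · exact ⟨c :: w, by simpa using Exp.one c _ w r hc hw⟩
    · exact ⟨c :: d :: w, by simpa using Exp.two c d _ w r hc hw⟩

end Sim

theorem Sim.alive_root (h : Sim S S' O) {w : List β} (hw : S'.Alive w) :
    S.Alive (w.flatMap h.root) := by
  intro μ e hf
  obtain ⟨w', h1, h2⟩ := (h.exp_root w).of_eqv e
  exact hw w' h1 (h2.forb hf)

theorem Sim.length_root (h : Sim S S' O) (w : List β) :
    (w.flatMap h.root).length = w.length * h.len := (h.exp_root w).length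

/-- A long alive word contains a complete block. -/
theorem Sim.exists_block (h : Sim S S' O) :
    ∃ N : ℕ, ∀ w, S.Alive w → N ≤ w.length →
      ∃ p g q, w = p ++ g ++ q ∧ ((∃ c, h.T1 c g) ∨ ∃ c d, h.T2 c d g) := by
  obtain ⟨N, hN⟩ := h.bound
  have key : ∀ w, S.Alive w → N + 1 ≤ w.length →
      ∃ L y r, w = L ++ y :: r ∧ h.UE y ∧ (∀ a ∈ L, ¬ h.UE a) ∧ L.length ≤ N := by
    intro w hw hl
    have : ∃ a ∈ w, h.UE a := by
      by_contra hne
      have := hN w hw fun a ha hu => hne ⟨a, ha, hu⟩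
      omega
    obtain ⟨L, y, r, rfl, hy, hL⟩ := split_first h.UE this
    exact ⟨L, y, r, rfl, hy, hL,
      hN L (Sys.Alive.factor (p := []) (q := y :: r) (by simpa using hw)) hL⟩
  refine ⟨2 * N + 2, fun w hw hl => ?_⟩
  obtain ⟨L, y, r, rfl, hy, _, hL⟩ := key w hw (by omega)
  obtain ⟨g, z, r', rfl, hz, hg, _⟩ := key r
    (Sys.Alive.factor (p := L ++ [y]) (q := []) (by simpa using hw)) (by simp at hl; omega)
  exact ⟨L ++ [y], g ++ [z], r', by simp, h.parse y g z
    (Sys.Alive.factor (p := L) (q := r') (by simpa using hw)) hy hz hg⟩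

section Weights

variable {B : Type} [Ring B] (M : α → B) (I : α → α → B)

/-- The weight with an optional dimer entering from the left. -/
def wtp : Option α → List α → B
  | none, g => wt M I g
  | some _, [] => 0
  | some x, y :: g => I x y * wt M I g

theorem wtp_none (g : List α) : wtp M I none g = wt M I g := by
  cases g <;> rfl

theorem wtp_some_cons (x y : α) (g : List α) : wtp M I (some x) (y :: g) = I x y * wt M I g := rfl

theorem wt_cons (a : α) (w : List α) : wt M I (a :: w) = M a * wt M I w + wtp M I (some a) w := by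
  cases w with
  | nil => simp [wt, wtp]
  | cons b w => simp [wt, wtp]

theorem wtp_split (g : List α) (x : α) (r : List α) : ∀ b : Option α,
    wtp M I b (g ++ x :: r) =
      wtp M I b (g ++ [x]) * wt M I r + wtp M I b g * wtp M I (some x) r := by
  induction g with
  | nil =>
    intro b
    cases b with
    | none => simp [wtp, wt_cons, wt]
    | some z => simp [wtp, wt]
  | cons a g ih =>
    intro b
    have h0 := ih none
    simp only [wtp_none] at h0
    cases b with
    | none =>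
      simp only [wtp_none, List.cons_append, wt_cons]
      rw [h0, ih (some a)]
      noncomm_ring
    | some z =>
      simp only [wtp_some_cons, List.cons_append]
      rw [h0]
      noncomm_ring

open Classical in
/-- The transfer matrix of a block. -/
noncomputable def blockMat (e : O → α) (g : List α) : Matrix (Option O) (Option O) B :=
  fun b b' => match b' with
    | none => wtp M I (b.map e) g
    | some o => if g.getLast? = some (e o) then wtp M I (b.map e) g.dropLast else 0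

/-- The weight vector of a word. -/
def wvec (e : O → α) (r : List α) : Option O → B := fun b => wtp M I (b.map e) r

theorem wvec_append [Fintype O] [DecidableEq O] {e : O → α} (he : Function.Injective e)
    (g : List α) (o : O) (r : List α) :
    wvec M I e (g ++ [e o] ++ r) = (blockMat M I e (g ++ [e o])).mulVec (wvec M I e r) := by
  funext b
  simp only [wvec, Matrix.mulVec, dotProduct, Fintype.sum_option, blockMat, Option.map_none,
    Option.map_some, List.getLast?_concat, List.dropLast_concat, Option.some.injEq,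
    he.eq_iff, ite_mul, zero_mul, Finset.sum_ite_eq, Finset.mem_univ, if_true]
  rw [List.append_assoc, List.singleton_append, wtp_split]
  rfl

end Weights

namespace Sim

variable [Finite α] (h : Sim S S' O)

/-- `T1 c` as a finite set. -/
noncomputable def F1 (c : β) : Finset (List α) :=
  ((List.finite_length_eq α h.len).subset fun g (hg : h.T1 c g) => h.len1 c g hg).toFinset

/-- `T2 c d` as a finite set. -/
noncomputable def F2 (c d : β) : Finset (List α) :=
  ((List.finite_length_eq α (2 * h.len)).subset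
    fun g (hg : h.T2 c d g) => h.len2 c d g hg).toFinset

/-- The expansions as a finite set. -/
noncomputable def FE (w : List β) : Finset (List α) :=
  ((List.finite_length_eq α (w.length * h.len)).subset
    fun _ (hg : h.Exp w _) => hg.length).toFinset

theorem mem_F1 {c : β} {g : List α} : g ∈ h.F1 c ↔ h.T1 c g := Set.Finite.mem_toFinset _

theorem mem_F2 {c d : β} {g : List α} : g ∈ h.F2 c d ↔ h.T2 c d g := Set.Finite.mem_toFinset _

theorem mem_FE {w : List β} {g : List α} : g ∈ h.FE w ↔ h.Exp w g := Set.Finite.mem_toFinset _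

omit [Finite α] in
theorem sum_image_append [DecidableEq α] {V : Type} [AddCommMonoid V] (A C : Finset (List α))
    (n : ℕ) (hA : ∀ g ∈ A, g.length = n) (f : List α → V) :
    ∑ μ ∈ (A ×ˢ C).image (fun p => p.1 ++ p.2), f μ = ∑ g ∈ A, ∑ μ ∈ C, f (g ++ μ) := by
  rw [Finset.sum_image, Finset.sum_product]
  intro p hp q hq hpq
  have h1 := List.append_inj hpq ((hA _ (Finset.mem_product.mp hp).1).trans
    (hA _ (Finset.mem_product.mp hq).1).symm)
  exact Prod.ext h1.1 h1.2

theorem sum_FE_nil {V : Type} [AddCommMonoid V] (f : List α → V) : ∑ μ ∈ h.FE [], f μ = f [] := by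
  have : h.FE [] = {[]} := by
    ext μ
    rw [mem_FE, Finset.mem_singleton]
    constructor
    · intro he
      cases he
      rfl
    · rintro rfl
      exact Exp.nil
  rw [this, Finset.sum_singleton]

theorem sum_FE_one {V : Type} [AddCommMonoid V] (c : β) (f : List α → V) :
    ∑ μ ∈ h.FE [c], f μ = ∑ g ∈ h.F1 c, ∑ μ ∈ h.FE [], f (g ++ μ) := by
  classical
  rw [← sum_image_append _ _ h.len fun g hg => h.len1 c g (h.mem_F1.mp hg)]
  congr 1
  ext μ
  simp only [mem_FE, Finset.mem_image, Finset.mem_product, mem_F1, Prod.exists]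
  constructor
  · intro he
    cases he with
    | one _ g _ μ hg he => exact ⟨g, μ, ⟨hg, he⟩, rfl⟩
  · rintro ⟨g, μ, ⟨hg, he⟩, rfl⟩
    exact Exp.one c g _ μ hg he

theorem sum_FE_two {V : Type} [AddCommMonoid V] (c d : β) (w : List β) (f : List α → V) :
    ∑ μ ∈ h.FE (c :: d :: w), f μ = ∑ g ∈ h.F1 c, ∑ μ ∈ h.FE (d :: w), f (g ++ μ) +
      ∑ g ∈ h.F2 c d, ∑ μ ∈ h.FE w, f (g ++ μ) := by
  classical
  rw [← sum_image_append _ _ h.len fun g hg => h.len1 c g (h.mem_F1.mp hg),
    ← sum_image_append _ _ (2 * h.len) fun g hg => h.len2 c d g (h.mem_F2.mp hg),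
    ← Finset.sum_union]
  · congr 1
    ext μ
    simp only [mem_FE, Finset.mem_union, Finset.mem_image, Finset.mem_product, mem_F1, mem_F2,
      Prod.exists]
    constructor
    · intro he
      cases he with
      | one _ g _ μ hg he => exact Or.inl ⟨g, μ, ⟨hg, he⟩, rfl⟩
      | two _ _ g _ μ hg he => exact Or.inr ⟨g, μ, ⟨hg, he⟩, rfl⟩
    · rintro (⟨g, μ, ⟨hg, he⟩, rfl⟩ | ⟨g, μ, ⟨hg, he⟩, rfl⟩)
      · exact Exp.one c g _ μ hg he
      · exact Exp.two c d g _ μ hg he
  · rw [Finset.disjoint_left]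
    intro μ h1 h2
    obtain ⟨p, hp, rfl⟩ := Finset.mem_image.mp h1
    obtain ⟨q, hq, hqp⟩ := Finset.mem_image.mp h2
    exact T1_T2_disj (h.mem_F1.mp (Finset.mem_product.mp hp).1)
      (h.mem_F2.mp (Finset.mem_product.mp hq).1) hqp.symm

variable [Fintype O] [DecidableEq O] {B : Type} [Ring B] (M : α → B) (I : α → α → B)

omit [Finite α] in
theorem sum_block (A C : Finset (List α)) (hA : ∀ g ∈ A, ∃ g' o, g = g' ++ [h.e o])
    (R : List α) :
    ∑ g ∈ A, ∑ μ ∈ C, wvec M I h.e (g ++ μ ++ R) =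
      (∑ g ∈ A, blockMat M I h.e g).mulVec (∑ μ ∈ C, wvec M I h.e (μ ++ R)) := by
  rw [Matrix.sum_mulVec]
  refine Finset.sum_congr rfl fun g hg => ?_
  obtain ⟨g', o, rfl⟩ := hA g hg
  rw [Matrix.mulVec_sum]
  refine Finset.sum_congr rfl fun μ _ => ?_
  rw [List.append_assoc, wvec_append M I h.e_inj]

theorem sum_FE (R : List α) : ∀ w : List β, ∑ μ ∈ h.FE w, wvec M I h.e (μ ++ R) =
    (wt (fun c => ∑ g ∈ h.F1 c, blockMat M I h.e g)
      (fun c d => ∑ g ∈ h.F2 c d, blockMat M I h.e g) w).mulVec (wvec M I h.e R)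
  | [] => by
    rw [sum_FE_nil]
    simp [wt]
  | [c] => by
    rw [sum_FE_one, sum_block h M I _ _ fun g hg => h.last1 c g (h.mem_F1.mp hg), sum_FE_nil]
    simp [wt]
  | c :: d :: w => by
    rw [sum_FE_two, sum_block h M I _ _ fun g hg => h.last1 c g (h.mem_F1.mp hg),
      sum_block h M I _ _ fun g hg => h.last2 c d g (h.mem_F2.mp hg), sum_FE R (d :: w),
      sum_FE R w, Matrix.mulVec_mulVec, Matrix.mulVec_mulVec, ← Matrix.add_mulVec]
    rfl

theorem sum_cls [Finite β] {w : List β} {μ : List α} (he : h.Exp w μ) (R : List α) :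
    ∑ ν ∈ S.cls μ, wvec M I h.e (ν ++ R) =
      (∑ w' ∈ S'.cls w, wt (fun c => ∑ g ∈ h.F1 c, blockMat M I h.e g)
        (fun c d => ∑ g ∈ h.F2 c d, blockMat M I h.e g) w').mulVec (wvec M I h.e R) := by
  classical
  have h1 : S.cls μ = (S'.cls w).biUnion h.FE := by
    ext ν
    simp only [Sys.mem_cls, Finset.mem_biUnion, mem_FE]
    constructor
    · exact fun e => he.of_eqv e
    · rintro ⟨w', h1, h2⟩
      exact he.eqv_root.trans ((h.eqv_root h1).trans h2.eqv_root.symm)
  rw [h1, Finset.sum_biUnion, Matrix.sum_mulVec]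
  · exact Finset.sum_congr rfl fun w' _ => h.sum_FE M I R w'
  · intro w₁ _ w₂ _ hne
    rw [Function.onFun, Finset.disjoint_left]
    intro ν h2 h3
    exact hne ((h.mem_FE.mp h2).unique (h.mem_FE.mp h3))

omit [Finite α] [Fintype O] [DecidableEq O] in
/-- The standard decomposition of a long alive word. -/
def Dec (w : List α) (a : α) (L : List α) (o : O) (μ R : List α) : Prop :=
  w = a :: (L ++ h.e o :: (μ ++ R)) ∧ (∀ x ∈ L, ¬ h.UE x) ∧ (∀ x ∈ R, ¬ h.UE x) ∧
    ∃ w', h.Exp w' μ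

omit [Finite α] [Fintype O] [DecidableEq O] in
theorem Dec.unique {w : List α} {a a' : α} {L L' : List α} {o o' : O} {μ μ' R R' : List α}
    (h1 : h.Dec w a L o μ R) (h2 : h.Dec w a' L' o' μ' R') :
    a = a' ∧ L = L' ∧ o = o' ∧ μ = μ' ∧ R = R' := by
  obtain ⟨rfl, hL, hR, w₁, hw₁⟩ := h1
  obtain ⟨h3, hL', hR', w₂, hw₂⟩ := h2
  simp only [List.cons.injEq] at h3
  obtain ⟨h4, h5, h6⟩ := first_unique h.UE h3.2 hL hL' (h.UE_e o) (h.UE_e o')
  obtain ⟨h7, h8⟩ := last_unique h.UE h6 hR hR' hw₁.last hw₂.last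
  exact ⟨h3.1, h4, h.e_inj h5, h7, h8⟩

omit [Finite α] [Fintype O] [DecidableEq O] in
theorem exists_dec {N : ℕ} (hN : ∀ w, S.Alive w → (∀ a ∈ w, ¬ h.UE a) → w.length ≤ N)
    {w : List α} (hw : S.Alive w) (hl : N + 2 ≤ w.length) :
    ∃ a L o μ R, h.Dec w a L o μ R := by
  cases w with
  | nil => simp at hl
  | cons a t =>
    have ht : S.Alive t := Sys.Alive.factor (p := [a]) (q := []) (by simpa using hw)
    have : ∃ x ∈ t, h.UE x := by
      by_contra hne
      have := hN t ht fun a ha hu => hne ⟨a, ha, hu⟩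
      simp at hl
      omega
    obtain ⟨L, y, r, rfl, hy, hL⟩ := split_first h.UE this
    obtain ⟨μ, R, rfl, hR, hμ⟩ := split_last h.UE r
    obtain ⟨P, x, hP⟩ : ∃ P x, a :: L = P ++ [x] := by
      rcases List.eq_nil_or_concat (a :: L) with h1 | ⟨P, x, h1⟩
      · simp at h1
      · exact ⟨P, x, by simpa using h1⟩
    obtain ⟨o, rfl⟩ := h.UE_alive x y (Sys.Alive.factor (p := P) (q := μ ++ R) (by
      have : a :: (L ++ y :: (μ ++ R)) = (a :: L) ++ y :: (μ ++ R) := rfl
      rw [this, hP] at hw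
      simpa using hw)) hy
    exact ⟨a, L, o, μ, R, rfl, hL, hR, h.exists_exp _ μ (h.e o) le_rfl
      (Sys.Alive.factor (p := a :: L) (q := R) (by simpa using hw)) hy hμ⟩

end Sim

theorem Sim.van [Finite α] [Finite β] [Fintype O] [DecidableEq O] (h : Sim S S' O)
    (B : Type) [Ring B] (hv : S'.Van (Matrix (Option O) (Option O) B)) : S.Van B := by
  classical
  obtain ⟨N', hN'⟩ := hv
  obtain ⟨N, hN⟩ := h.bound
  refine ⟨2 * N + 2 + N' * h.len, fun M I w hw hl => ?_⟩
  let Rl : List α → List α → Prop := fun w₁ w₂ => ∃ a L o μ₁ μ₂ R,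
    h.Dec w₁ a L o μ₁ R ∧ h.Dec w₂ a L o μ₂ R ∧ S.Eqv μ₁ μ₂
  have hsymm : ∀ w₁ w₂, Rl w₁ w₂ → Rl w₂ w₁ := by
    rintro w₁ w₂ ⟨a, L, o, μ₁, μ₂, R, h1, h2, h3⟩
    exact ⟨a, L, o, μ₂, μ₁, R, h2, h1, h3.symm⟩
  have htrans : ∀ w₁ w₂ w₃, Rl w₁ w₂ → Rl w₂ w₃ → Rl w₁ w₃ := by
    rintro w₁ w₂ w₃ ⟨a, L, o, μ₁, μ₂, R, h1, h2, h3⟩ ⟨a', L', o', μ₂', μ₃, R', h4, h5, h6⟩
    obtain ⟨rfl, rfl, rfl, rfl, rfl⟩ := Sim.Dec.unique h h2 h4
    exact ⟨a, L, o, μ₁, μ₃, R, h1, h5, h3.trans h6⟩
  have hdec : ∀ w₁ ∈ S.cls w, ∃ a L o μ R, h.Dec w₁ a L o μ R := by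
    intro w₁ hw₁
    have e := Sys.mem_cls.mp hw₁
    exact h.exists_dec hN (hw.of_eqv e) (by rw [← e.length_eq]; omega)
  refine sum_eq_zero_of_blocks _ _ (fun w₁ => (S.cls w).filter (Rl w₁)) ?_
    (fun _ _ => Finset.filter_subset _ _) ?_ ?_
  · intro w₁ hw₁
    obtain ⟨a, L, o, μ, R, hd⟩ := hdec w₁ hw₁
    exact Finset.mem_filter.mpr ⟨hw₁, a, L, o, μ, μ, R, hd, hd, Sys.Eqv.refl _⟩
  · intro w₁ _ w₂ hw₂
    have h1 := (Finset.mem_filter.mp hw₂).2
    exact Finset.filter_congr fun w₃ _ => ⟨htrans _ _ _ h1, htrans _ _ _ (hsymm _ _ h1)⟩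
  · intro w₁ hw₁
    obtain ⟨a, L, o, μ, R, hd⟩ := hdec w₁ hw₁
    have e := Sys.mem_cls.mp hw₁
    have hal := hw.of_eqv e
    have hlen := e.length_eq
    have hblk : (S.cls w).filter (Rl w₁) =
        (S.cls μ).image fun ν => a :: (L ++ h.e o :: (ν ++ R)) := by
      ext w₂
      simp only [Finset.mem_filter, Finset.mem_image, Sys.mem_cls]
      constructor
      · rintro ⟨_, a', L', o', μ₁, μ₂, R', h1, h2, h3⟩
        obtain ⟨rfl, rfl, rfl, rfl, rfl⟩ := Sim.Dec.unique h hd h1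
        exact ⟨μ₂, h3, h2.1.symm⟩
      · rintro ⟨ν, h1, rfl⟩
        obtain ⟨w', hw'⟩ := hd.2.2.2
        obtain ⟨w'', _, hw''⟩ := hw'.of_eqv h1
        refine ⟨e.trans ?_, a, L, o, μ, ν, R, hd, ⟨rfl, hd.2.1, hd.2.2.1, w'', hw''⟩, h1⟩
        rw [hd.1]
        simpa using h1.context (a :: (L ++ [h.e o])) R
    obtain ⟨rfl, hL, hR, w', hw'⟩ := hd
    have hμ : S.Alive μ := Sys.Alive.factor (p := a :: (L ++ [h.e o])) (q := R) (by simpa using hal)
    have l1 := hN L (Sys.Alive.factor (p := [a]) (q := h.e o :: (μ ++ R)) (by simpa using hal)) hL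
    have l2 := hN R (Sys.Alive.factor (p := a :: (L ++ h.e o :: μ)) (q := []) (by simpa using hal))
      hR
    have l3 := hw'.length
    have l4 : N' ≤ w'.length := by
      have := h.two_le_len
      simp only [List.length_cons, List.length_append] at hlen
      exact Nat.le_of_mul_le_mul_right (c := h.len) (by omega) (by omega)
    have h0 := h.sum_cls M I hw' R
    rw [hN' _ _ w' (hw'.alive hμ) l4, Matrix.zero_mulVec] at h0
    have h1 := congrFun h0 none
    have h2 := congrFun h0 (some o)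
    simp only [Finset.sum_apply, wvec, Option.map_none, Option.map_some, Pi.zero_apply,
      wtp_none] at h1 h2
    rw [hblk, Finset.sum_image fun ν₁ _ ν₂ _ hν => by simpa using hν]
    have h3 : ∀ ν, wt M I (a :: (L ++ h.e o :: (ν ++ R))) =
        wt M I (a :: L ++ [h.e o]) * wt M I (ν ++ R) +
          wt M I (a :: L) * wtp M I (some (h.e o)) (ν ++ R) :=
      fun ν => wtp_split M I (a :: L) (h.e o) (ν ++ R) none
    simp only [h3]
    rw [Finset.sum_add_distrib, ← Finset.mul_sum, ← Finset.mul_sum, h1, h2]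
    simp

theorem map_wt {B B' : Type} [Ring B] [Ring B'] (φ : B →+* B') (M : α → B) (I : α → α → B) :
    ∀ w : List α, φ (wt M I w) = wt (fun a => φ (M a)) (fun a b => φ (I a b)) w
  | [] => by simp [wt]
  | [a] => by simp [wt]
  | a :: b :: w => by
    simp only [wt, map_add, map_mul]
    rw [map_wt φ M I (b :: w), map_wt φ M I w]

theorem Sys.Van.of_injective [Finite α] {B B' : Type} [Ring B] [Ring B'] (φ : B →+* B')
    (hφ : Function.Injective φ) (hv : S.Van B') : S.Van B := by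
  obtain ⟨N, hN⟩ := hv
  refine ⟨N, fun M I w hw hl => hφ ?_⟩
  rw [map_sum, map_zero]
  simp only [map_wt]
  exact hN _ _ w hw hl

end Vale.Agent.P192
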