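import Vale.Agent.P192.MachChain
import Vale.Agent.P192.MachInv
import Vale.Agent.P192.SysSim

/-!
P192, part M6: level `m` simulates level `17 m`.
-/

namespace Vale.Agent.P192

namespace Mach

variable {m : ℕ}

theorem ck_eq_two {k : Cell} : ck k = 2 ↔ k = .Lb := by
  cases k <;> simp [ck]

theorem ck_eq_three {k : Cell} : ck k = 3 ↔ k = .E := by
  cases k <;> simp [ck]

/-- Kind and label of a letter. -/
def key (x : Ltr m) : Fin 4 × Fin m := (ck x.1.1.1, x.2)

/-- Label condition for one segment. -/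
def LabK (l : List (Fin 4 × Fin m)) : Prop :=
  (∀ p ∈ l, p.1 ≠ 2 → p.2.val = 0) ∧ ((l.filter (fun p => p.1 = 2)).map Prod.snd).Nodup

theorem key_eq {g g' : List (Ltr m)}
    (h1 : g.map (fun x => ck x.1.1.1) = g'.map (fun x => ck x.1.1.1))
    (h2 : g.map Prod.snd = g'.map Prod.snd) : g.map key = g'.map key := by
  have e : ∀ g : List (Ltr m),
      g.map key = (g.map (fun x => ck x.1.1.1)).zip (g.map Prod.snd) := fun g => by
    rw [List.zip_map']; rfl
  rw [e, e, h1, h2]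

theorem LabK.swap {u v : List (Fin 4 × Fin m)} {i j : Fin m}
    (h : LabK (u ++ (2, i) :: (2, j) :: v)) : LabK (u ++ (2, j) :: (2, i) :: v) := by
  refine ⟨fun p hp h2 => ?_, ?_⟩
  · refine h.1 p ?_ h2
    simp only [List.mem_append, List.mem_cons] at hp ⊢
    tauto
  · refine (List.Perm.nodup_iff ?_).mp h.2
    exact ((List.Perm.append_left u (List.Perm.swap _ _ v)).filter _).map _

theorem LabK.lok {u v : List (Ltr m)} {a b : Ltr m} (h : LabK ((u ++ a :: b :: v).map key)) :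
    LOK a b := by
  refine ⟨fun ha => h.1 (key a) (by simp) (fun e => ha (ck_eq_two.mp e)),
    fun hb => h.1 (key b) (by simp) (fun e => hb (ck_eq_two.mp e)), fun ha hb e => ?_⟩
  have h2 := h.2
  have ka : key a = (2, a.2) := by simp [key, ha, ck]
  have kb : key b = (2, a.2) := by simp [key, hb, ck, e]
  simp only [List.map_append, List.map_cons, ka, kb, List.filter_append, List.filter_cons,
    decide_true, if_true, List.nodup_append, List.nodup_cons, List.mem_cons, true_or,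
    not_true_eq_false, false_and, and_false] at h2

theorem split_pair {α : Type} {u v g r : List α} {a b : α} (h : u ++ a :: b :: v = g ++ r) :
    (∃ v', g = u ++ a :: b :: v' ∧ v = v' ++ r) ∨ (g = u ++ [a] ∧ r = b :: v) ∨
      ∃ u', u = g ++ u' ∧ r = u' ++ a :: b :: v := by
  rcases List.append_eq_append_iff.mp h with ⟨a', rfl, h2⟩ | ⟨c', rfl, h2⟩
  · match a', h2 with
    | [], h2 => exact Or.inr (Or.inr ⟨[], by simp, by simpa using h2.symm⟩)
    | [x], h2 =>
      simp only [List.cons_append, List.nil_append, List.cons.injEq] at h2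
      exact Or.inr (Or.inl ⟨by rw [h2.1], h2.2.symm⟩)
    | x :: y :: a', h2 =>
      simp only [List.cons_append, List.cons.injEq] at h2
      exact Or.inl ⟨a', by rw [h2.1, h2.2.1], h2.2.2⟩
  · exact Or.inr (Or.inr ⟨c', rfl, h2⟩)

theorem ckSeg_length (m : ℕ) : (ckSeg m).length = 2 * m + 2 := by
  simp [ckSeg]; omega

/-- Decomposition of a segment word around its label zone. -/
theorem seg_split {g : List (Ltr m)} (h : g.map (fun x => ck x.1.1.1) = ckSeg m) :
    ∃ p z y, g = p ++ z ++ [y] ∧ z.length = m ∧ (∀ x ∈ z, x.1.1.1 = .Lb) ∧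
      (∀ x ∈ p, x.1.1.1 ≠ .Lb) ∧ y.1.1.1 = .E := by
  have h' : g.map (fun x => ck x.1.1.1) =
      (0 :: List.replicate m 1) ++ (List.replicate m 2 ++ [3]) := by
    rw [h]; simp [ckSeg]
  obtain ⟨p, g₂, rfl, h1, h2⟩ := List.map_eq_append_iff.mp h'
  obtain ⟨z, q, rfl, h3, h4⟩ := List.map_eq_append_iff.mp h2
  obtain ⟨y, rfl, hy⟩ := List.map_eq_singleton_iff.mp h4
  refine ⟨p, z, y, by simp, ?_, fun x hx => ?_, fun x hx e => ?_, ck_eq_three.mp hy⟩
  · simpa using congrArg List.length h3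
  · have : ck x.1.1.1 ∈ List.replicate m (2 : Fin 4) := h3 ▸ List.mem_map_of_mem hx
    exact ck_eq_two.mp (List.eq_of_mem_replicate this)
  · have : ck x.1.1.1 ∈ (0 :: List.replicate m 1 : List (Fin 4)) := h1 ▸ List.mem_map_of_mem hx
    rw [e] at this
    simp [ck] at this

theorem filter_zone {p z : List (Ltr m)} {y : Ltr m} (hz : ∀ x ∈ z, x.1.1.1 = .Lb)
    (hp : ∀ x ∈ p, x.1.1.1 ≠ .Lb) (hy : y.1.1.1 = .E) :
    (((p ++ z ++ [y]).map key).filter (fun p => p.1 = 2)).map Prod.snd = z.map Prod.snd := by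
  have e1 : (p.map key).filter (fun p => p.1 = 2) = [] := by
    simp only [List.filter_eq_nil_iff, List.mem_map, decide_eq_true_eq]
    rintro _ ⟨x, hx, rfl⟩ e
    exact hp x hx (ck_eq_two.mp e)
  have e2 : (z.map key).filter (fun p => p.1 = 2) = z.map key := by
    simp only [List.filter_eq_self, List.mem_map, decide_eq_true_eq]
    rintro _ ⟨x, hx, rfl⟩
    exact ck_eq_two.mpr (hz x hx)
  have e3 : ([y].map key).filter (fun p => p.1 = 2) = [] := by
    simp [key, hy, ck]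
  rw [List.map_append, List.map_append, List.filter_append, List.filter_append, e1, e2, e3]
  simp [key, Function.comp_def]

variable [NeZero m]

/-- Root form with sorted labels. -/
noncomputable def rootL (c : Ltr (17 * m)) : List (Ltr m) :=
  (((.H, .hd .root), 0, 0), 0) ::
    ((List.finRange m).map
        (fun a => (((.D (.raw fun i => enc m (num c i) a.val), .R0), a, 0), (0 : Fin m))) ++
      ((List.finRange m).map (fun i => (((.Lb, .R0), 0, 0), i)) ++ [(((.E, .R0), 0, 0), 0)]))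

theorem rootL_fst (c : Ltr (17 * m)) : (rootL c).map Prod.fst = rootSk c := by
  simp [rootL, rootSk, rootR, Function.comp_def]

theorem rootL_lab (c : Ltr (17 * m)) : LabK ((rootL c).map key) := by
  constructor
  · intro p hp h2
    simp only [rootL, List.map_cons, List.map_append, List.map_map, List.mem_cons,
      List.mem_append, List.mem_map, List.map_nil, List.not_mem_nil, or_false] at hp
    rcases hp with rfl | ⟨a, -, rfl⟩ | ⟨a, -, rfl⟩ | rfl
    · simp [key]
    · simp [key]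
    · simp [key, ck] at h2
    · simp [key]
  · have := filter_zone (m := m)
      (p := (((.H, .hd .root), 0, 0), 0) :: (List.finRange m).map
        (fun a => (((.D (.raw fun i => enc m (num c i) a.val), .R0), a, 0), (0 : Fin m))))
      (z := (List.finRange m).map (fun i => (((.Lb, .R0), 0, 0), i)))
      (y := (((.E, .R0), 0, 0), 0)) (by simp) (by simp) rfl
    simp only [List.cons_append, List.append_assoc] at this
    unfold rootL
    rw [this]
    simp [Function.comp_def, List.nodup_finRange]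

theorem eq_map_zero {p : List (Ltr m)} (h : ∀ x ∈ p, x.2.val = 0) :
    p = (p.map Prod.fst).map (fun s => (s, 0)) := by
  rw [List.map_map]
  conv_lhs => rw [← List.map_id p]
  refine List.map_congr_left fun x hx => ?_
  have : x.2 = 0 := Fin.ext (by simpa using h x hx)
  simp [← this]

theorem root_conn (hm : m0 ≤ m) {c : Ltr (17 * m)} {w : List (Ltr m)}
    (h : w.map Prod.fst = rootSk c) (hl : LabK (w.map key)) : (mach m).Eqv w (rootL c) := by
  have h' : w.map Prod.fst = (((.H, .hd .root), 0, 0) :: (List.finRange m).map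
      (fun a => ((.D (.raw fun i => enc m (num c i) a.val), .R0), a, 0))) ++
      (List.replicate m ((.Lb, .R0), 0, 0) ++ [((.E, .R0), 0, 0)]) := by
    rw [h]; simp [rootSk, rootR]
  obtain ⟨p, g₂, rfl, h1, h2⟩ := List.map_eq_append_iff.mp h'
  obtain ⟨z, q, rfl, h3, h4⟩ := List.map_eq_append_iff.mp h2
  obtain ⟨y, rfl, hy⟩ := List.map_eq_singleton_iff.mp h4
  have hz : ∀ x ∈ z, x.1.1.1 = .Lb := fun x hx => by
    have : x.1 ∈ List.replicate m (((.Lb, .R0), 0, 0) : Sk m) := h3 ▸ List.mem_map_of_mem hx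
    rw [List.eq_of_mem_replicate this]
  have hp : ∀ x ∈ p, x.1.1.1 ≠ .Lb := fun x hx => by
    have : x.1 ∈ p.map Prod.fst := List.mem_map_of_mem hx
    rw [h1] at this
    simp only [List.mem_cons, List.mem_map] at this
    rcases this with e | ⟨a, -, e⟩
    · rw [e]; simp
    · rw [← e]; simp
  have hyE : y.1.1.1 = .E := by rw [hy]
  have hnd : (z.map Prod.snd).Nodup := by
    have := hl.2
    rw [← List.append_assoc, filter_zone hz hp hyE] at this
    exact this
  have hp0 : p = (p.map Prod.fst).map (fun s => (s, 0)) := eq_map_zero fun x hx =>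
    hl.1 (key x) (List.mem_map_of_mem (by simp [hx])) (fun e => hp x hx (ck_eq_two.mp e))
  have hy0 : y = (((.E, .R0), 0, 0), 0) := by
    have : y.2.val = 0 := hl.1 (key y) (List.mem_map_of_mem (by simp))
      (by simp [key, hyE, ck])
    exact Prod.ext hy (Fin.ext (by simpa using this))
  have hlen : z.length = m := by simpa using congrArg List.length h3
  have hperm : (z.map Prod.snd).Perm (List.finRange m) :=
    (List.subperm_of_subset hnd (fun x _ => List.mem_finRange x)).perm_of_length_le (by simp [hlen])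
  have hzz : (mach m).Eqv z ((List.finRange m).map (fun i => (((.Lb, .R0), 0, 0), i))) := by
    refine eqv_of_perm (mach m) (fun s => s.1.1 = .Lb) (mach_swap hm) hz ?_ ?_
    · rw [h3]; simp [Function.comp_def]
    · simpa [Function.comp_def] using hperm
  have := hzz.context p [y]
  rw [h1] at hp0
  convert this using 1
  · simp
  · rw [hp0, hy0]; simp [rootL, Function.comp_def]

/-- Words for a letter. -/
def T1 (c : Ltr (17 * m)) (g : List (Ltr m)) : Prop :=
  T1sk c (g.map Prod.fst) ∧ LabK (g.map key)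

/-- Label condition for two segments. -/
def Lab2 (l : List (Fin 4 × Fin m)) : Prop :=
  LabK (l.take (2 * m + 2)) ∧ LabK (l.drop (2 * m + 2))

/-- Words for a locked pair. -/
def T2 (c d : Ltr (17 * m)) (g : List (Ltr m)) : Prop :=
  T2sk c d (g.map Prod.fst) ∧ Lab2 (g.map key)

variable {c d c' d' : Ltr (17 * m)} {g u v : List (Ltr m)} {a b a' b' : Ltr m}

theorem T1.ck_eq (h : T1 c g) : g.map (fun x => ck x.1.1.1) = ckSeg m := by
  have := h.1.map_ck
  rwa [List.map_map] at this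

theorem T2.ck_eq (h : T2 c d g) : g.map (fun x => ck x.1.1.1) = ckSeg m ++ ckSeg m := by
  have := h.1.map_ck
  rwa [List.map_map] at this

theorem T1.length_eq (h : T1 c g) : g.length = 2 * m + 2 := by
  simpa [ckSeg_length] using congrArg List.length h.ck_eq

theorem T2.length_eq (h : T2 c d g) : g.length = 2 * (2 * m + 2) := by
  have := congrArg List.length h.ck_eq
  simp only [List.length_map, List.length_append, ckSeg_length] at this
  omega

omit [NeZero m] in
theorem lab2_append {g₁ g₂ : List (Ltr m)} (h : g₁.length = 2 * m + 2) :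
    Lab2 ((g₁ ++ g₂).map key) ↔ LabK (g₁.map key) ∧ LabK (g₂.map key) := by
  have h' : (g₁.map key).length = 2 * m + 2 := by simpa using h
  unfold Lab2
  rw [List.map_append, List.take_left' h', List.drop_left' h']

omit [NeZero m] in
theorem split2 (h : g.map (fun x => ck x.1.1.1) = ckSeg m ++ ckSeg m) :
    ∃ g₁ g₂, g = g₁ ++ g₂ ∧ g₁.map (fun x => ck x.1.1.1) = ckSeg m ∧
      g₂.map (fun x => ck x.1.1.1) = ckSeg m ∧ g₁.length = 2 * m + 2 := by
  obtain ⟨g₁, g₂, rfl, h1, h2⟩ := List.map_eq_append_iff.mp h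
  exact ⟨g₁, g₂, rfl, h1, h2, by simpa [ckSeg_length] using congrArg List.length h1⟩

omit [NeZero m] in
theorem last_E {g₁ : List (Ltr m)} (h : (g₁ ++ [a]).map (fun x => ck x.1.1.1) = ckSeg m) :
    a.1.1.1 = .E := by
  obtain ⟨p, z, y, e, -, -, -, hy⟩ := seg_split h
  rw [List.append_singleton_inj.mp e |>.2]; exact hy

theorem T2.zero (h : T2 c d g) (hx : a ∈ g) (ha : a.1.1.1 ≠ .Lb) : a.2.val = 0 := by
  obtain ⟨g₁, g₂, rfl, -, -, hl⟩ := split2 h.ck_eq
  obtain ⟨h1, h2⟩ := (lab2_append hl).mp h.2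
  rcases List.mem_append.mp hx with hx | hx
  · exact h1.1 (key a) (List.mem_map_of_mem hx) (fun e => ha (ck_eq_two.mp e))
  · exact h2.1 (key a) (List.mem_map_of_mem hx) (fun e => ha (ck_eq_two.mp e))

theorem T1.zero (h : T1 c g) (hx : a ∈ g) (ha : a.1.1.1 ≠ .Lb) : a.2.val = 0 :=
  h.2.1 (key a) (List.mem_map_of_mem hx) (fun e => ha (ck_eq_two.mp e))

theorem T2.lok (h : T2 c d (u ++ a :: b :: v)) : LOK a b := by
  obtain ⟨g₁, g₂, e, k1, -, hl⟩ := split2 h.ck_eq
  obtain ⟨h1, h2⟩ := (lab2_append hl).mp (e ▸ h.2)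
  rcases split_pair e with ⟨v', rfl, -⟩ | ⟨rfl, rfl⟩ | ⟨u', -, rfl⟩
  · exact h1.lok
  · refine ⟨h.zero (by simp), h.zero (by simp), fun ha => ?_⟩
    rw [last_E k1] at ha
    cases ha
  · exact h2.lok

theorem last_letter {g' : List (Sk m)} {o : Option Bool} (h : g.map Prod.fst = g' ++ [eSk o])
    (h0 : ∀ a ∈ g, a.1.1.1 ≠ .Lb → a.2.val = 0) : ∃ g'', g = g'' ++ [(eSk o, 0)] := by
  obtain ⟨g₁, g₂, rfl, -, h2⟩ := List.map_eq_append_iff.mp h
  obtain ⟨y, rfl, hy⟩ := List.map_eq_singleton_iff.mp h2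
  refine ⟨g₁, ?_⟩
  have : y.2.val = 0 := h0 y (by simp) (by rw [hy]; cases o <;> simp [eSk])
  rw [show y = (eSk o, 0) from Prod.ext hy (Fin.ext (by simpa using this))]

theorem T1.last (hm : m0 ≤ m) (h : T1 c g) : ∃ g' o, g = g' ++ [(eSk o, 0)] := by
  obtain ⟨g', o, e⟩ := h.1.last hm
  obtain ⟨g'', e'⟩ := last_letter e fun a ha => h.zero ha
  exact ⟨g'', o, e'⟩

theorem T2.last (hm : m0 ≤ m) (h : T2 c d g) : ∃ g', g = g' ++ [(eSk none, 0)] := by
  obtain ⟨g', e⟩ := h.1.last hm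
  exact last_letter e fun a ha => h.zero ha

theorem UE_eSk (o : Option Bool) : UE (eSk o : Sk m).1 := by
  cases o <;> simp [eSk, UE, pos]

theorem T1.conn (hm : m0 ≤ m) (h : T1 c g) : (mach m).Eqv g (rootL c) := by
  obtain ⟨w, h1, h2, h3⟩ := lift_back hm h.1
  refine h3.trans (root_conn hm h1 ?_)
  have hw : T1sk c (w.map Prod.fst) := h1 ▸ Relation.ReflTransGen.refl
  have k := hw.map_ck
  rw [List.map_map] at k
  rw [key_eq (k.trans h.ck_eq.symm) h2]
  exact h.2

theorem rootSk_ck (c : Ltr (17 * m)) : (rootSk c).map (fun x => ck x.1.1) = ckSeg m :=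
  T1sk.map_ck (c := c) Relation.ReflTransGen.refl

theorem T2.conn (hm : m0 ≤ m) (h : T2 c d g) : (mach m).Eqv g (rootL c ++ rootL d) := by
  obtain ⟨w, h1, h2, h3⟩ := lift_back hm h.1.reach
  obtain ⟨w₁, w₂, rfl, e1, e2⟩ := List.map_eq_append_iff.mp h1
  have k : (w₁ ++ w₂).map (fun x => ck x.1.1.1) = ckSeg m ++ ckSeg m := by
    have := congrArg (List.map (fun x : Sk m => ck x.1.1)) h1
    rwa [List.map_map, List.map_append (l₁ := rootSk c), rootSk_ck, rootSk_ck] at this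
  have hl : w₁.length = 2 * m + 2 := by
    have := congrArg List.length (rootSk_ck c)
    rw [← e1] at this
    simpa [ckSeg_length] using this
  have hk := h.2
  rw [← key_eq (k.trans h.ck_eq.symm) h2, lab2_append hl] at hk
  exact h3.trans ((root_conn hm e1 hk.1).append (root_conn hm e2 hk.2))

omit [NeZero m] in
theorem key_fwd (h : Fwd a.1 b.1 a'.1 b'.1) (h1 : a'.2 = a.2) (h2 : b'.2 = b.2) :
    (u ++ a' :: b' :: v).map key = (u ++ a :: b :: v).map key := by
  simp [key, h.ck_eq.1, h.ck_eq.2.1, h1, h2]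

omit [NeZero m] in
theorem key_commit (h : Commit a.1 b.1 a'.1 b'.1) (h1 : a'.2 = a.2) (h2 : b'.2 = b.2) :
    (u ++ a' :: b' :: v).map key = (u ++ a :: b :: v).map key := by
  obtain ⟨kp, t, -, -, e2, e3, e4⟩ := h
  simp [key, e2, e3, e4, h1, h2]

omit [NeZero m] in
theorem fwdW_map (h : Fwd a.1 b.1 a'.1 b'.1) :
    FwdW ((u ++ a :: b :: v).map Prod.fst) ((u ++ a' :: b' :: v).map Prod.fst) :=
  ⟨u.map Prod.fst, v.map Prod.fst, a.1, b.1, a'.1, b'.1, h, by simp, by simp⟩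

/-- A swap in either direction. -/
def IsSwap (a b a' b' : Ltr m) : Prop :=
  a.1.1.1 = .Lb ∧ b.1.1.1 = .Lb ∧ a'.1 = a.1 ∧ b'.1 = b.1 ∧ a'.2 = b.2 ∧ b'.2 = a.2

omit [NeZero m] in
theorem sym_cases (hm : m0 ≤ m) (h : (mach m).Sym a b a' b') :
    (Fwd a.1 b.1 a'.1 b'.1 ∧ a'.2 = a.2 ∧ b'.2 = b.2) ∨
    (Fwd a'.1 b'.1 a.1 b.1 ∧ a.2 = a'.2 ∧ b.2 = b'.2) ∨
    (Commit a.1 b.1 a'.1 b'.1 ∧ a'.2 = a.2 ∧ b'.2 = b.2) ∨
    (Commit a'.1 b'.1 a.1 b.1 ∧ a.2 = a'.2 ∧ b.2 = b'.2) ∨ IsSwap a b a' b' := by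
  rcases h with h | h
  · rcases (step_iff hm _ _ _ _).mp h with h | h | h
    · exact Or.inl h
    · exact Or.inr (Or.inr (Or.inl h))
    · exact Or.inr (Or.inr (Or.inr (Or.inr h)))
  · rcases (step_iff hm _ _ _ _).mp h with h | h | ⟨h1, h2, h3, h4, h5, h6⟩
    · exact Or.inr (Or.inl h)
    · exact Or.inr (Or.inr (Or.inr (Or.inl h)))
    · exact Or.inr (Or.inr (Or.inr (Or.inr
        ⟨h3 ▸ h1, h4 ▸ h2, h3.symm, h4.symm, h6.symm, h5.symm⟩)))

omit [NeZero m] in
theorem IsSwap.labK (h : IsSwap a b a' b') (hl : LabK ((u ++ a :: b :: v).map key)) :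
    LabK ((u ++ a' :: b' :: v).map key) := by
  obtain ⟨h1, h2, h3, h4, h5, h6⟩ := h
  have ka : key a = (2, a.2) := by simp [key, h1, ck]
  have kb : key b = (2, b.2) := by simp [key, h2, ck]
  have ka' : key a' = (2, b.2) := by simp [key, h3, h1, ck, h5]
  have kb' : key b' = (2, a.2) := by simp [key, h4, h2, ck, h6]
  simp only [List.map_append, List.map_cons, ka, kb, ka', kb'] at hl ⊢
  exact hl.swap

omit [NeZero m] in
theorem IsSwap.fst (h : IsSwap a b a' b') :
    (u ++ a' :: b' :: v).map Prod.fst = (u ++ a :: b :: v).map Prod.fst := by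
  simp [h.2.2.1, h.2.2.2.1]

theorem T1.no_v (h : T1 c g) (hx : a ∈ g) {β : Bool} {kp : KP}
    (ha : a.1.1 = (.Lb, .hd (vState β kp))) : False := by
  rcases h.1.head_state (List.mem_map_of_mem hx) (q := vState β kp) (by rw [ha]) with e | ⟨β', e⟩
  · simp [vState] at e
  · simp [vState] at e

theorem T1.step (hm : m0 ≤ m) (h : T1 c (u ++ a :: b :: v)) (hs : (mach m).Sym a b a' b') :
    T1 c (u ++ a' :: b' :: v) := by
  rcases sym_cases hm hs with ⟨f, h1, h2⟩ | ⟨f, h1, h2⟩ | ⟨f, -, -⟩ | ⟨f, -, -⟩ | f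
  · exact ⟨h.1.tail (fwdW_map f), key_fwd f h1 h2 ▸ h.2⟩
  · exact ⟨h.1.back (fwdW_map f), (key_fwd f h1 h2).symm ▸ h.2⟩
  · obtain ⟨kp, t, -, -, e, -⟩ := f
    exact (h.no_v (a := b) (by simp) e).elim
  · obtain ⟨kp, t, -, -, -, -, e⟩ := f
    exact (h.no_v (a := b) (by simp) (by rw [e])).elim
  · exact ⟨f.fst ▸ h.1, f.labK h.2⟩

omit [NeZero m] in
theorem val_sl (c d c' d' : Ltr m) (τ τ' : Fin m) (i : Fin 4) :
    val c d c' d' τ τ' (sl false false i) = num c i ∧ val c d c' d' τ τ' (sl true false i) = num d i ∧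
    val c d c' d' τ τ' (sl false true i) = num c' i ∧
    val c d c' d' τ τ' (sl true true i) = num d' i := ⟨rfl, rfl, rfl, rfl⟩

theorem commit_closed (hm : m0 ≤ m) {u v : List (Sk m)} {y : Sk m} {β : Bool} {kp : KP}
    (hk : kp.1 = true) (h : T2sk c d (u ++ y :: v)) (hy : y.1 = (.Lb, .hd (vState β kp))) :
    ∃ c' d', (mach (17 * m)).Sym c d c' d' ∧
      T2sk c' d' (u ++ ((.Lb, .hd (vState (!β) kp)), y.2) :: v) := by
  obtain ⟨ν, hν, hh, hc, hd, rfl, rfl, rfl⟩ := h.sound hm hy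
  obtain ⟨c₁, d₁, c₂, d₂, τ, τ', rfl⟩ := holds_decode hν hh
  cases β
  · obtain rfl : c₁ = c := num_inj (funext hc)
    obtain rfl : d₁ = d := num_inj (funext hd)
    exact ⟨c₂, d₂, Or.inl ⟨kp, τ, τ', hk, hh⟩,
      T2sk.complete hm hν hh (fun _ => rfl) (fun _ => rfl)⟩
  · obtain rfl : c₂ = c := num_inj (funext hc)
    obtain rfl : d₂ = d := num_inj (funext hd)
    exact ⟨c₁, d₁, Or.inr ⟨kp, τ, τ', hk, hh⟩,
      T2sk.complete hm hν hh (fun _ => rfl) (fun _ => rfl)⟩

theorem T2.step (hm : m0 ≤ m) (h : T2 c d (u ++ a :: b :: v)) (hs : (mach m).Sym a b a' b') :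
    T2 c d (u ++ a' :: b' :: v) ∨ (∃ g₁ g₂, T1 c g₁ ∧ T1 d g₂ ∧ u ++ a' :: b' :: v = g₁ ++ g₂) ∨
      ∃ c' d', (mach (17 * m)).Sym c d c' d' ∧ T2 c' d' (u ++ a' :: b' :: v) := by
  rcases sym_cases hm hs with ⟨f, h1, h2⟩ | ⟨f, h1, h2⟩ | ⟨f, h1, h2⟩ | ⟨f, h1, h2⟩ | f
  · exact Or.inl ⟨T2sk.step _ _ h.1 (fwdW_map f), key_fwd f h1 h2 ▸ h.2⟩
  · have hk : Lab2 ((u ++ a' :: b' :: v).map key) := (key_fwd f h1 h2).symm ▸ h.2
    rcases h.1.back (fwdW_map f) with h' | ⟨g₁, hg, e⟩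
    · exact Or.inl ⟨h', hk⟩
    · obtain ⟨w₁, w₂, e', rfl, e2⟩ := List.map_eq_append_iff.mp e
      have hl : w₁.length = 2 * m + 2 := by
        simpa [ckSeg_length] using congrArg List.length hg.map_ck
      rw [e', lab2_append hl] at hk
      exact Or.inr (Or.inl ⟨w₁, w₂, ⟨hg, hk.1⟩, ⟨e2 ▸ Relation.ReflTransGen.refl, hk.2⟩, e'⟩)
  · have hk := key_commit (u := u) (v := v) f h1 h2
    obtain ⟨kp, t, hkp, -, e2, e3, e4⟩ := f
    have h0 := h.1
    rw [show (u ++ a :: b :: v).map Prod.fst = (u.map Prod.fst ++ [a.1]) ++ b.1 :: v.map Prod.fst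
      by simp] at h0
    obtain ⟨c', d', hs', h'⟩ := commit_closed hm hkp h0 e2
    refine Or.inr (Or.inr ⟨c', d', hs', ?_, hk ▸ h.2⟩)
    simpa [e3, e4] using h'
  · have hk := key_commit (u := u) (v := v) f h1 h2
    obtain ⟨kp, t, hkp, -, e2, e3, e4⟩ := f
    have h0 := h.1
    rw [show (u ++ a :: b :: v).map Prod.fst = (u.map Prod.fst ++ [a.1]) ++ b.1 :: v.map Prod.fst
      by simp] at h0
    obtain ⟨c', d', hs', h'⟩ := commit_closed hm hkp h0 (by rw [e4])
    refine Or.inr (Or.inr ⟨c', d', hs', ?_, hk.symm ▸ h.2⟩)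
    have e5 : b'.1 = ((.Lb, .hd (vState false kp)), b.1.2) := by
      rw [e4]; exact Prod.ext e2 rfl
    simpa [e3, e5] using h'
  · refine Or.inl ⟨f.fst ▸ h.1, ?_⟩
    obtain ⟨g₁, g₂, e, k1, -, hl⟩ := split2 h.ck_eq
    obtain ⟨h1, h2⟩ := (lab2_append hl).mp (e ▸ h.2)
    rcases split_pair e with ⟨v', rfl, rfl⟩ | ⟨rfl, rfl⟩ | ⟨u', rfl, rfl⟩
    · rw [show u ++ a' :: b' :: (v' ++ g₂) = (u ++ a' :: b' :: v') ++ g₂ by simp,
        lab2_append (by simpa using hl)]
      exact ⟨f.labK h1, h2⟩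
    · have := f.1
      rw [last_E k1] at this
      cases this
    · rw [List.append_assoc, lab2_append hl]
      exact ⟨h1, f.labK h2⟩

/-- A rule across an unlocked boundary is the lock move. -/
theorem cross_lock (hm : m0 ≤ m) {o : Option Bool} (hs : (mach m).Sym (eSk o, 0) b a' b') :
    Fwd (eSk o) b.1 a'.1 b'.1 ∧ a'.2 = 0 ∧ b'.2 = b.2 ∧ IsLock (eSk o) b.1 a'.1 b'.1 := by
  rcases sym_cases hm hs with ⟨f, h1, h2⟩ | ⟨f, -, -⟩ | ⟨f, -, -⟩ | ⟨f, -, -⟩ | f
  · exact ⟨f, h1, h2, f.ue.2.2.2 (UE_eSk o)⟩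
  · exact (f.ue.1 (UE_eSk o)).elim
  · obtain ⟨kp, t, -, e, -⟩ := f
    cases o <;> simp [eSk] at e
  · obtain ⟨kp, t, -, e, -, e', -⟩ := f
    rw [← e'] at e
    cases o <;> simp [eSk] at e
  · have := f.1
    cases o <;> simp [eSk] at this

omit [NeZero m] in
theorem chain_pair {u v : List (Sk m)} {a b : Sk m} (h : (u ++ a :: b :: v).IsChain SOK) :
    SOK a b :=
  (List.isChain_cons_cons.mp h.right_of_append).1

theorem T1.not_forb (hm : m0 ≤ m) (h : T1 c g) : ¬ (mach m).HasForb g := by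
  rintro ⟨u, v, a, b, hf, rfl⟩
  have h0 := h.1
  rw [List.map_append, List.map_cons, List.map_cons] at h0
  rcases (forb_iff hm a b).mp hf with (h1 | h1 | h1 | h1) | h1
  · exact h1 (chain_pair (h0.chain hm))
  · exact h0.not_np h1
  · exact h0.not_wk hm h1
  · obtain ⟨kp, -, -, e⟩ := h1
    exact h.no_v (a := b) (by simp) e
  · exact h1 h.2.lok

theorem T2.forb (hm : m0 ≤ m) (h : T2 c d g) (hf : (mach m).HasForb g) :
    (mach (17 * m)).Forb c d := by
  obtain ⟨u, v, a, b, hf, rfl⟩ := hf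
  have h0 := h.1
  rw [List.map_append, List.map_cons, List.map_cons] at h0
  rcases (forb_iff hm a b).mp hf with (h1 | h1 | h1 | h1) | h1
  · exact (h1 (chain_pair (h0.chain hm))).elim
  · exact (h0.not_np h1).elim
  · obtain ⟨β, e, -⟩ := h1
    exact ((h0.head_state (x := a.1) (by simp)).2 β (by rw [e])).elim
  · obtain ⟨kp, hk, -, e⟩ := h1
    rw [show u.map Prod.fst ++ a.1 :: b.1 :: v.map Prod.fst =
      (u.map Prod.fst ++ [a.1]) ++ b.1 :: v.map Prod.fst by simp] at h0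
    obtain ⟨ν, hν, hh, hc, hd, -⟩ := h0.sound hm e
    obtain ⟨c₁, d₁, c₂, d₂, τ, τ', rfl⟩ := holds_decode hν hh
    obtain rfl : c₁ = c := num_inj (funext hc)
    obtain rfl : d₁ = d := num_inj (funext hd)
    exact ⟨c₂, d₂, kp, τ, τ', hk, hh⟩
  · exact (h1 h.lok).elim

theorem first_facts (hm : m0 ≤ m)
    (h : (∃ c, T1 c (b :: v)) ∨ ∃ c d, T2 c d (b :: v)) :
    UL b.1.1 ∧ (∃ n, SOK b.1 n) ∧ b.2.val = 0 := by
  have hH : UL b.1.1 → b.1.1.1 ≠ .Lb := fun h e => by rw [h.1] at e; cases e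
  rcases h with ⟨c, h⟩ | ⟨c, d, h⟩
  · have hl := h.length_eq
    obtain _ | ⟨n, v⟩ := v
    · simp at hl
    · exact ⟨h.1.first, ⟨n.1, chain_pair (u := []) (h.1.chain hm)⟩,
        h.zero (by simp) (hH h.1.first)⟩
  · have hl := h.length_eq
    obtain _ | ⟨n, v⟩ := v
    · simp at hl; omega
    · exact ⟨h.1.first, ⟨n.1, chain_pair (u := []) (h.1.chain hm)⟩,
        h.zero (by simp) (hH h.1.first)⟩

theorem cross_not_forb (hm : m0 ≤ m)
    (h1 : (∃ c, T1 c (u ++ [a])) ∨ ∃ c d, T2 c d (u ++ [a]))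
    (h2 : (∃ c, T1 c (b :: v)) ∨ ∃ c d, T2 c d (b :: v)) : ¬ (mach m).Forb a b := by
  obtain ⟨o, rfl⟩ : ∃ o, a = (eSk o, 0) := by
    rcases h1 with ⟨c, h⟩ | ⟨c, d, h⟩
    · obtain ⟨g', o, e⟩ := h.last hm
      exact ⟨o, (List.append_singleton_inj.mp e).2⟩
    · obtain ⟨g', e⟩ := h.last hm
      exact ⟨none, (List.append_singleton_inj.mp e).2⟩
  obtain ⟨k1, k2, k3⟩ := first_facts hm h2
  intro hf
  rcases (forb_iff hm _ _).mp hf with h | h
  · exact cross_ok o k1 k2 h
  · refine h ⟨fun _ => by simp, fun _ => k3, fun e => ?_⟩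
    cases o <;> simp [eSk] at e

/-- The verified word of a pattern, with labels. -/
theorem exists_vword (hm : m0 ≤ m) {kp : KP} {c' d' : Ltr (17 * m)} {τ τ' : Fin (17 * m)}
    (hh : Holds (17 * m) kp (val c d c' d' τ τ')) :
    ∃ (u v : List (Ltr m)) (a b : Ltr m) (t : Tape), T2 c d (u ++ a :: b :: v) ∧
      a.1.1 = (.D t, .L1) ∧ b.1 = ((.Lb, .hd (vState false kp)), 0, 0) ∧
      T2sk c' d' ((u ++ a :: (((.Lb, .hd (vState true kp)), 0, 0), b.2) :: v).map Prod.fst) := by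
  have hν := val_lt (m := 17 * m) (by omega) c d c' d' τ τ'
  have t1 := T2sk.complete (β := false) hm hν hh (fun _ => rfl) (fun _ => rfl)
  have t2 := T2sk.complete (β := true) hm hν hh (fun _ => rfl) (fun _ => rfl)
  obtain ⟨u₀, t, a₀, e⟩ := vPre_last (m := m) (val c d c' d' τ τ')
  have hr := t1.reach
  rw [← rootL_fst, ← rootL_fst, ← List.map_append] at hr
  obtain ⟨w, h1, h2, -⟩ := lift_fwd hm hr
  have hT : T2 c d w := by
    refine ⟨h1 ▸ t1, ?_⟩
    have k : w.map (fun x => ck x.1.1.1) = (rootL c ++ rootL d).map (fun x => ck x.1.1.1) := by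
      have k1 := (h1 ▸ t1 : T2sk c d (w.map Prod.fst)).map_ck
      rw [List.map_map] at k1
      have k2 := rootSk_ck c
      have k3 := rootSk_ck d
      rw [← rootL_fst, List.map_map] at k2 k3
      rw [List.map_append]
      exact k1.trans (congrArg₂ _ k2.symm k3.symm)
    have hl : (rootL c).length = 2 * m + 2 := by
      have := congrArg List.length (rootSk_ck c)
      rw [← rootL_fst] at this
      simpa [ckSeg_length] using this
    rw [key_eq k h2, lab2_append hl]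
    exact ⟨rootL_lab c, rootL_lab d⟩
  rw [e, List.append_assoc] at h1
  obtain ⟨u, w₂, rfl, e1, h3⟩ := List.map_eq_append_iff.mp h1
  obtain ⟨a, w₃, rfl, e2, h4⟩ := List.map_eq_cons_iff.mp h3
  obtain ⟨b, v, rfl, e3, e4⟩ := List.map_eq_cons_iff.mp h4
  refine ⟨u, v, a, b, t, hT, by rw [e2], e3, ?_⟩
  rw [e] at t2
  simpa [e1, e2, e4] using t2

theorem sim_step (hm : m0 ≤ m) (h : (mach (17 * m)).Step c d c' d') :
    (mach m).Eqv (rootL c ++ rootL d) (rootL c' ++ rootL d') := by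
  obtain ⟨kp, τ, τ', hk, hh⟩ := h
  obtain ⟨u, v, a, b, t, h1, ea, eb, h2⟩ := exists_vword hm hh
  have hc : Commit a.1 b.1 a.1 (((.Lb, .hd (vState true kp)), 0, 0) : Sk m) :=
    ⟨kp, t, hk, ea, by rw [eb], rfl, by rw [eb]⟩
  have hs : (mach m).Step a b a (((.Lb, .hd (vState true kp)), 0, 0), b.2) :=
    (step_iff hm _ _ _ _).mpr (Or.inr (Or.inl ⟨hc, rfl, rfl⟩))
  have h3 : T2 c' d' (u ++ a :: (((.Lb, .hd (vState true kp)), 0, 0), b.2) :: v) :=
    ⟨h2, key_commit (a' := a) (b' := (((.Lb, .hd (vState true kp)), 0, 0), b.2)) hc rfl rfl ▸ h1.2⟩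
  exact ((h1.conn hm).symm.trans (Sys.Sym.eqv (Or.inl hs) u v)).trans (h3.conn hm)

theorem sim_forb (hm : m0 ≤ m) (h : (mach (17 * m)).Forb c d) :
    ¬ (mach m).Alive (rootL c ++ rootL d) := by
  obtain ⟨c', d', kp, τ, τ', hk, hh⟩ := h
  obtain ⟨u, v, a, b, t, h1, ea, eb, -⟩ := exists_vword hm hh
  intro hal
  refine (hal.of_eqv (h1.conn hm).symm).not_forb ((forb_iff hm _ _).mpr (Or.inl ?_))
  exact Or.inr (Or.inr (Or.inr ⟨kp, hk, by rw [ea]; rfl, by rw [eb]⟩))

omit [NeZero m] in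
theorem alive_pair (hm : m0 ≤ m) (h : (mach m).Alive (u ++ a :: b :: v)) :
    SOK a.1 b.1 ∧ ¬ NP a.1 b.1 ∧ LOK a b := by
  have := h.not_forb
  rw [forb_iff hm] at this
  simp only [ForbSk, not_or, not_not] at this
  exact ⟨this.1.1, this.1.2.1, this.2⟩

theorem labK_of_alive (hm : m0 ≤ m) {y : Ltr m} {p q : List (Ltr m)}
    (hal : (mach m).Alive (y :: (p ++ g ++ q))) (h : g.map (fun x => ck x.1.1.1) = ckSeg m) :
    LabK (g.map key) := by
  constructor
  · intro k hk h2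
    obtain ⟨x, hx, rfl⟩ := List.mem_map.mp hk
    obtain ⟨s, t, rfl⟩ := List.append_of_mem hx
    have hne : y :: (p ++ s) ≠ [] := by simp
    obtain ⟨s', y', e⟩ := List.eq_nil_or_concat (y :: (p ++ s)) |>.resolve_left hne
    have e' : y :: (p ++ (s ++ x :: t) ++ q) = s' ++ y' :: x :: (t ++ q) := by
      have := congrArg (· ++ x :: (t ++ q)) e
      simpa using this
    rw [e'] at hal
    exact (alive_pair hm hal).2.2.2.1 (fun e => h2 (ck_eq_two.mpr e))
  · obtain ⟨p', z, y', rfl, -, hz, hp, hy⟩ := seg_split h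
    rw [filter_zone hz hp hy]
    refine nodup_labels (mach m) (fun s => s.1.1 = .Lb) (mach_swap hm) (mach_forb_eq hm) ?_ hz
    refine Sys.Alive.factor (p := y :: (p ++ p')) (q := y' :: q) ?_
    simpa using hal

theorem parse_word (hm : m0 ≤ m) {y z : Ltr m} (hal : (mach m).Alive (y :: (g ++ [z])))
    (hy : UE y.1.1) (hz : UE z.1.1) (hg : ∀ a ∈ g, ¬ UE a.1.1) :
    (∃ c, T1 c (g ++ [z])) ∨ ∃ c d, T2 c d (g ++ [z]) := by
  obtain _ | ⟨a, g⟩ := g
  · have h0 : SOK y.1 z.1 := (alive_pair (u := []) (v := []) (a := y) (b := z) hm hal).1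
    have h1 : kindAdj y.1.1.1 z.1.1.1 = true := h0.1.1
    rw [hy.1, hz.1] at h1
    cases h1
  · have h0 : SOK y.1 a.1 :=
      (alive_pair (u := []) (v := g ++ [z]) (a := y) (b := a) hm hal).1
    have hs : adjF y.1.1 a.1.1 := h0.1
    have hH : a.1.1.1 = .H := by
      have := hs.1
      rw [hy.1] at this
      revert this
      cases a.1.1.1 <;> intro h <;> first | rfl | cases h
    have ha : UL a.1.1 := by
      refine ⟨hH, ?_⟩
      have := hs.2.2.2.1
      rw [if_pos hy.1] at this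
      rcases hy.2 with e | e <;> rw [e] at this <;> revert this <;>
        cases pos a.1.1.2 <;> simp [posX]
    have hal' : (mach m).Alive (a :: (g ++ [z])) :=
      Sys.Alive.factor (p := [y]) (q := []) (by simpa using hal)
    rcases chain_parse hm hal' ha hz (fun x hx => hg x (by simp [hx])) with ⟨c, h⟩ | ⟨c, d, h⟩
    · refine Or.inl ⟨c, h, ?_⟩
      have k := h.map_ck
      rw [List.map_map] at k
      exact labK_of_alive hm (y := y) (p := []) (q := []) (by simpa using hal) k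
    · refine Or.inr ⟨c, d, h, ?_⟩
      have k := h.map_ck
      rw [List.map_map] at k
      obtain ⟨g₁, g₂, e, k1, k2, hl⟩ := split2 k
      have e' : a :: g ++ [z] = g₁ ++ g₂ := e
      rw [e'] at hal ⊢
      rw [lab2_append hl]
      exact ⟨labK_of_alive hm (y := y) (p := []) (q := g₂) (by simpa using hal) k1,
        labK_of_alive hm (y := y) (p := g₁) (q := []) (by simpa using hal) k2⟩

/-- The simulation. -/
noncomputable def sim (hm : m0 ≤ m) : Sim (mach m) (mach (17 * m)) (Option Bool) where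
  len := 2 * m + 2
  two_le_len := by omega
  T1 := T1
  T2 := T2
  UE y := UE y.1.1
  e o := (eSk o, 0)
  e_inj := by
    intro o o' h
    cases o <;> cases o' <;> simp_all [eSk]
  UE_e := UE_eSk
  root := rootL
  root_mem c := ⟨rootL_fst c ▸ Relation.ReflTransGen.refl, rootL_lab c⟩
  len1 _ _ h := h.length_eq
  len2 _ _ _ h := h.length_eq
  last1 _ _ h := h.last hm
  last2 _ _ _ h := (h.last hm).imp fun _ e => ⟨none, e⟩
  mid2 c d g' y v h hl := by
    have h0 := h.1
    rw [List.map_append, List.map_cons] at h0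
    exact h0.mid (by simpa using hl)
  uniq1 _ _ _ h h' := h.1.uniq hm h'.1
  uniq2 _ _ _ _ _ h h' := h.1.uniq hm h'.1
  conn1 _ _ h := h.conn hm
  conn2 _ _ _ h := h.conn hm
  in1 _ _ _ _ _ _ _ h hs := h.step hm hs
  in2 _ _ _ _ _ _ _ _ h hs := h.step hm hs
  cross11 c d u v a b a' b' h1 h2 hs := by
    obtain ⟨g', o, e⟩ := h1.last hm
    obtain ⟨-, rfl⟩ := List.append_singleton_inj.mp e
    obtain ⟨f, e1, e2, β, -, e3, -⟩ := cross_lock hm hs
    have hr := T1sk.eq_root (a := b.1) (v := v.map Prod.fst) h2.1 (by rw [e3])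
    refine ⟨?_, ?_⟩
    · have := T2sk.lock (c := c) (d := d) (u.map Prod.fst) (v.map Prod.fst) (eSk o) b.1 a'.1 b'.1
        (by simpa using h1.1) hr.symm f
      simpa using this
    · rw [key_fwd (a := (eSk o, 0)) (b := b) f e1 e2,
        show u ++ (eSk o, 0) :: b :: v = (u ++ [(eSk o, 0)]) ++ b :: v by simp,
        lab2_append h1.length_eq]
      exact ⟨h1.2, h2.2⟩
  cross2l c d u v a b a' b' h1 _ hs := by
    obtain ⟨g', e⟩ := h1.last hm
    obtain ⟨-, rfl⟩ := List.append_singleton_inj.mp e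
    obtain ⟨-, -, -, β, e3, -⟩ := cross_lock hm hs
    simp [eSk] at e3
  cross2r c c' d' u v a b a' b' h1 h2 hs := by
    obtain ⟨g', o, e⟩ := h1.last hm
    obtain ⟨-, rfl⟩ := List.append_singleton_inj.mp e
    obtain ⟨-, -, -, β, -, e3, -⟩ := cross_lock hm hs
    exact (h2.1.head_state (x := b.1) (by simp)).1 (by rw [e3])
  forb1 _ _ h := h.not_forb hm
  forb2 _ _ _ h hf := h.forb hm hf
  forbX _ _ _ _ h1 h2 := cross_not_forb hm h1 h2
  simStep _ _ _ _ h := sim_step hm h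
  simForb _ _ h := sim_forb hm h
  parse _ _ _ hal hy hz hg := parse_word hm hal hy hz hg
  bound := alive_bound hm
  UE_alive y z hal hz := by
    obtain ⟨h1, h2, h3⟩ := alive_pair (u := []) (v := []) hm hal
    obtain ⟨o, e⟩ := eq_eSk h1 h2 hz
    refine ⟨o, Prod.ext e (Fin.ext ?_)⟩
    have := h3.2.1 (by rw [hz.1]; simp)
    simpa using this

theorem exists_sim {m : ℕ} [NeZero m] (hm : m0 ≤ m) :
    ∃ h : Sim (mach m) (mach (17 * m)) (Option Bool),
      (∀ c g, h.T1 c g → g.map (fun x => ck x.1.1.1) = ckSeg m) ∧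
      (∀ c d g, h.T2 c d g → g.map (fun x => ck x.1.1.1) = ckSeg m ++ ckSeg m) :=
  ⟨sim hm, fun _ _ h => T1.ck_eq h, fun _ _ _ h => T2.ck_eq h⟩

end Mach

end Vale.Agent.P192
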