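import Vale.Agent.P192.MachLocal

/-!
P192: the explicit word at the end of the verification.
-/

namespace Vale.Agent.P192

namespace Mach

variable {m : ℕ} [NeZero m]

/-- Written data zone of segment `s` with control flag `c`. -/
def dataW (ν : Slot → ℕ) (s : Bool) (c : Ctl) : List (Sk m) :=
  (List.finRange m).map (fun a => ((.D (.wr fun tr => enc m (ν (s, tr)) a.val), c), a, 0))

/-- The part to the left of the head at the end of the verification. -/
def vPre (ν : Slot → ℕ) : List (Sk m) :=
  ((.H, .L0), 0, 0) :: (dataW ν false .L0 ++ (List.replicate m ((.Lb, .L0), 0, 0) ++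
    (((.E, .L0), 0, 0) :: ((.H, .L1), 0, 0) :: dataW ν true .L1)))

/-- The part to the right of the head at the end of the verification. -/
def vPost (m : ℕ) [NeZero m] : List (Sk m) :=
  List.replicate (m - 1) ((.Lb, .R0), 0, 0) ++ [((.E, .R0), 0, 0)]

end Mach

end Vale.Agent.P192
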