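import Vale.Agent.P192.StDefs

/-!
P192, group side, part B0: basic computations in `St K ι`.
-/

namespace Vale.Agent.P192

open scoped commutatorElement Matrix

variable {A : Type} [Ring A] (K : Coef A) {ι κ : Type} [LinearOrder ι] [LinearOrder κ]

theorem x_zero (i j : ι) : x K i j 0 = 1 := by
  by_cases h : Adm K i j 0
  · have := (isFam_x K).add i j 0 0 h h
    rw [add_zero] at this
    exact left_eq_mul.1 this
  · exact x_nadm h

theorem x_mul_self (i j : ι) (a : A) : x K i j a * x K i j a = 1 := by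
  by_cases h : Adm K i j a
  · rw [← (isFam_x K).add i j a a h h, K.two, x_zero]
  · rw [x_nadm h, one_mul]

theorem x_inv (i j : ι) (a : A) : (x K i j a)⁻¹ = x K i j a :=
  inv_eq_of_mul_eq_one_right (x_mul_self K i j a)

theorem x_add {i j : ι} {a b : A} (ha : Adm K i j a) (hb : Adm K i j b) :
    x K i j (a + b) = x K i j a * x K i j b := (isFam_x K).add i j a b ha hb

/-- Unconditional commutation. -/
theorem x_comm {i j k l : ι} (a b : A) (h1 : j ≠ k) (h2 : i ≠ l) :
    Commute (x K i j a) (x K k l b) := by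
  by_cases ha : Adm K i j a
  · by_cases hb : Adm K k l b
    · exact (isFam_x K).comm _ _ _ _ _ _ ha hb h1 h2
    · rw [x_nadm hb]
      exact Commute.one_right _
  · rw [x_nadm ha]
    exact Commute.one_left _

/-- `x i j a * x j l b = x i l (a b) * x j l b * x i j a`. -/
theorem x_swap {i j l : ι} {a b : A} (ha : Adm K i j a) (hb : Adm K j l b) (h : i ≠ l) :
    x K i j a * x K j l b = x K i l (a * b) * x K j l b * x K i j a := by
  rw [← (isFam_x K).bra i j l a b ha hb h, commutatorElement_def]
  group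

/-- `x j l b * x i j a = x i l (a b) * x i j a * x j l b`. -/
theorem x_swap' {i j l : ι} {a b : A} (ha : Adm K i j a) (hb : Adm K j l b) (h : i ≠ l) :
    x K j l b * x K i j a = x K i l (a * b) * x K i j a * x K j l b := by
  rw [mul_assoc, x_swap K ha hb h, ← mul_assoc, ← mul_assoc, x_mul_self, one_mul]

theorem x_mem_gen {P : ι → ι → Prop} {i j : ι} (a : A) (h : P i j) : x K i j a ∈ gen K P := by
  by_cases ha : Adm K i j a
  · exact Subgroup.subset_closure ⟨i, j, a, h, ha, rfl⟩
  · rw [x_nadm ha]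
    exact one_mem _

theorem gen_mono {P Q : ι → ι → Prop} (h : ∀ i j, P i j → Q i j) : gen K P ≤ gen K Q :=
  Subgroup.closure_mono fun _ ⟨i, j, a, h1, h2, h3⟩ => ⟨i, j, a, h i j h1, h2, h3⟩

/-- Left induction over a generated subgroup (generators are involutions). -/
theorem gen_induction {P : ι → ι → Prop} {C : St K ι → Prop} (h1 : C 1)
    (hx : ∀ i j a g, P i j → Adm K i j a → g ∈ gen K P → C g → C (x K i j a * g))
    {g : St K ι} (hg : g ∈ gen K P) : C g := by
  induction hg using Subgroup.closure_induction_left with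
  | one => exact h1
  | mul_left y hy g hg ih =>
    obtain ⟨i, j, a, h2, h3, rfl⟩ := hy
    exact hx i j a g h2 h3 hg ih
  | inv_mul_cancel y hy g hg ih =>
    obtain ⟨i, j, a, h2, h3, rfl⟩ := hy
    rw [x_inv]
    exact hx i j a g h2 h3 hg ih

theorem St.induction {C : St K ι → Prop} (h1 : C 1)
    (hx : ∀ i j a g, Adm K i j a → C g → C (x K i j a * g)) (g : St K ι) : C g :=
  gen_induction K (P := fun _ _ => True) h1 (fun i j a g _ ha _ hg => hx i j a g ha hg)
    (by rw [gen_true]; trivial)

/-- If conjugation by each generator of `gen P` sends each generator of `gen Q` into `gen Q`,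
then `gen P` normalises `gen Q`. -/
theorem gen_normalizes {P Q : ι → ι → Prop}
    (h : ∀ i j a k l b, P i j → Adm K i j a → Q k l → Adm K k l b →
      x K i j a * x K k l b * x K i j a ∈ gen K Q)
    {g s : St K ι} (hg : g ∈ gen K P) (hs : s ∈ gen K Q) : g * s * g⁻¹ ∈ gen K Q := by
  refine gen_induction K (C := fun g => g * s * g⁻¹ ∈ gen K Q) (by simpa using hs) ?_ hg
  intro i j a g hP ha _ ih
  have key : ∀ s ∈ gen K Q, x K i j a * s * (x K i j a)⁻¹ ∈ gen K Q := by
    intro s hs
    refine gen_induction K (C := fun s => x K i j a * s * (x K i j a)⁻¹ ∈ gen K Q)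
      (by simp) ?_ hs
    intro k l b s hQ hb _ ih
    have h1 : x K i j a * x K k l b * (x K i j a)⁻¹ ∈ gen K Q := by
      rw [x_inv]
      exact h i j a k l b hP ha hQ hb
    convert mul_mem h1 ih using 1
    group
  convert key _ ih using 1
  group

/-- Combinatorial form: no opposite roots, and closure under root addition. -/
theorem gen_normalizes' {P Q : ι → ι → Prop}
    (h0 : ∀ i j, P i j → ¬ Q j i)
    (h1 : ∀ i j l, i ≠ l → P i j → Q j l → Q i l) (h2 : ∀ i j l, i ≠ l → Q i j → P j l → Q i l)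
    {g s : St K ι} (hg : g ∈ gen K P) (hs : s ∈ gen K Q) : g * s * g⁻¹ ∈ gen K Q := by
  refine gen_normalizes K (fun i j a k l b hP ha hQ hb => ?_) hg hs
  by_cases e1 : j = k
  · subst e1
    have e2 : i ≠ l := fun e => h0 i j hP (e ▸ hQ)
    rw [x_swap K ha hb e2, mul_assoc, x_mul_self, mul_one]
    exact mul_mem (x_mem_gen K _ (h1 i j l e2 hP hQ)) (x_mem_gen K _ hQ)
  · by_cases e2 : i = l
    · subst e2
      rw [x_swap' K hb ha (Ne.symm e1), mul_assoc, x_mul_self, mul_one]
      exact mul_mem (x_mem_gen K _ (h2 k i j (Ne.symm e1) hQ hP)) (x_mem_gen K _ hQ)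
    · rw [(x_comm K a b e1 e2).eq, mul_assoc, x_mul_self, mul_one]
      exact x_mem_gen K _ hQ

/-- Generators with disjoint linking commute. -/
theorem gen_commute {P Q : ι → ι → Prop}
    (h : ∀ i j k l, P i j → Q k l → j ≠ k ∧ i ≠ l)
    {g s : St K ι} (hg : g ∈ gen K P) (hs : s ∈ gen K Q) : Commute g s := by
  refine gen_induction K (C := fun g => Commute g s) (Commute.one_left _) ?_ hg
  intro i j a g hP _ _ ih
  refine Commute.mul_left ?_ ih
  refine gen_induction K (C := fun s => Commute (x K i j a) s) (Commute.one_right _) ?_ hs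
  intro k l b s hQ _ _ ih
  exact Commute.mul_right (x_comm K a b (h i j k l hP hQ).1 (h i j k l hP hQ).2) ih

theorem smap_comp {μ : Type} [LinearOrder μ] (f : ι ↪o κ) (g : κ ↪o μ) (s : St K ι) :
    smap K g (smap K f s) = smap K (f.trans g) s := by
  have : (smap K g).comp (smap K f) = smap K (f.trans g) := St.hom_ext fun i j a _ => by simp
  exact DFunLike.congr_fun this s

theorem smap_mem_gen (f : ι ↪o κ) {P : ι → ι → Prop} {Q : κ → κ → Prop}
    (h : ∀ i j, P i j → Q (f i) (f j)) {s : St K ι} (hs : s ∈ gen K P) :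
    smap K f s ∈ gen K Q := by
  refine gen_induction K (C := fun s => smap K f s ∈ gen K Q) (by simp) ?_ hs
  intro i j a g hP _ _ ih
  rw [map_mul, smap_x]
  exact mul_mem (x_mem_gen K _ (h i j hP)) ih

theorem smap_injective_of_iso (f : ι ≃o κ) : Function.Injective (smap K f.toOrderEmbedding) := by
  have : (smap K f.symm.toOrderEmbedding).comp (smap K f.toOrderEmbedding) = MonoidHom.id _ :=
    St.hom_ext fun i j a _ => by simp
  exact Function.LeftInverse.injective (g := smap K f.symm.toOrderEmbedding)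
    fun s => DFunLike.congr_fun this s

variable [Fintype ι] [Fintype κ]

theorem pi_mul_inv (g : St K ι) : pi K g * pi K g⁻¹ = 1 := by
  rw [← map_mul, mul_inv_cancel, map_one]

theorem pi_inv_mul (g : St K ι) : pi K g⁻¹ * pi K g = 1 := by
  rw [← map_mul, inv_mul_cancel, map_one]

theorem SB.pi_x_mul_apply {i j : ι} {a : A} (h : Adm K i j a) (g : St K ι) (s t : ι) :
    pi K (x K i j a * g) s t = pi K g s t + if s = i then a * pi K g j t else 0 := by
  rw [map_mul, pi_x K h, add_mul, one_mul, Matrix.add_apply]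
  split_ifs with e
  · rw [e, Matrix.single_mul_apply_same]
  · rw [Matrix.single_mul_apply_of_ne _ _ _ _ _ e]

/-- Entries on and below the diagonal are congruent to the identity modulo `J`. -/
theorem pi_entry_mem (g : St K ι) {s t : ι} (h : ¬ s < t) :
    pi K g s t - (1 : Matrix ι ι A) s t ∈ K.J := by
  induction g using St.induction generalizing s with
  | h1 => simp
  | hx i j a g ha ih =>
    rw [SB.pi_x_mul_apply K ha, add_sub_right_comm]
    refine K.J.add_mem (ih h) ?_
    split_ifs with e
    · subst e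
      rcases ha.2 with h1 | h1
      · have h2 : t < j := lt_of_le_of_lt (not_lt.1 h) h1
        have := ih (not_lt.2 h2.le)
        rw [Matrix.one_apply_ne h2.ne', sub_zero] at this
        exact K.mul_left _ _ this
      · exact K.mul_right _ _ h1
    · exact K.J.zero_mem

theorem pi_row_fixed {o : ι} {g : St K ι} (hg : g ∈ gen K (fun k _ => k ≠ o)) (t : ι) :
    pi K g o t = (1 : Matrix ι ι A) o t := by
  refine gen_induction K (C := fun g => pi K g o t = (1 : Matrix ι ι A) o t) (by simp) ?_ hg
  intro i j a g hP ha _ ih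
  rw [SB.pi_x_mul_apply K ha, if_neg (Ne.symm hP), add_zero, ih]

theorem pi_col_fixed {o : ι} {g : St K ι} (hg : g ∈ gen K (fun _ l => l ≠ o)) (s : ι) :
    pi K g s o = (1 : Matrix ι ι A) s o := by
  refine gen_induction K (C := fun g => ∀ s, pi K g s o = (1 : Matrix ι ι A) s o) (by simp) ?_ hg s
  intro i j a g hP ha _ ih s
  rw [SB.pi_x_mul_apply K ha, ih, ih, Matrix.one_apply_ne hP, mul_zero, ite_self, add_zero]

/-- Support of the matrices of a unipotent subgroup. -/
theorem pi_unip_apply (ρ : ι → ℕ) {g : St K ι} (hg : g ∈ gen K (fun i j => ρ i < ρ j))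
    {s t : ι} (h : ¬ ρ s < ρ t) : pi K g s t = (1 : Matrix ι ι A) s t := by
  refine gen_induction K (C := fun g => ∀ s, ¬ ρ s < ρ t → pi K g s t = (1 : Matrix ι ι A) s t)
    (by simp) ?_ hg s h
  intro i j a g hP ha _ ih s h
  rw [SB.pi_x_mul_apply K ha, ih s h]
  split_ifs with e
  · subst e
    rw [ih j (by omega), Matrix.one_apply_ne (i := j) (j := t) (fun e => h (e ▸ hP)), mul_zero, add_zero]
  · rw [add_zero]

theorem SB.mul_eq_left_of_eq_one' {G : Type} [Monoid G] {a b : G} (h : b = 1) : a * b = a := by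
  rw [h, mul_one]

omit [LinearOrder ι] in
theorem SB.ncp_one {G : Type} [Monoid G] (f : ι → G) (comm) (h : ∀ m, f m = 1) :
    Finset.univ.noncommProd f comm = 1 := by
  rw [Finset.noncommProd_eq_pow_card _ _ _ 1 fun m _ => h m, one_pow]

omit [LinearOrder ι] in
theorem SB.ncp_mul {G : Type} [Monoid G] (f g h : ι → G) (cf cg ch)
    (hc : ∀ m k, Commute (g m) (f k)) (e : ∀ m, h m = f m * g m) :
    Finset.univ.noncommProd h ch =
      Finset.univ.noncommProd f cf * Finset.univ.noncommProd g cg := by
  rw [← Finset.noncommProd_mul_distrib f g cf cg fun m _ k _ _ => hc m k]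
  exact Finset.noncommProd_congr rfl (fun m _ => e m) _

theorem SB.ncp_single {G : Type} [Monoid G] (f : ι → G) (comm) (k : ι)
    (h : ∀ m, m ≠ k → f m = 1) : Finset.univ.noncommProd f comm = f k := by
  rw [← Finset.mul_noncommProd_erase _ (Finset.mem_univ k)]
  exact SB.mul_eq_left_of_eq_one' ((Finset.noncommProd_eq_pow_card _ _ _ 1 fun m hm =>
    h m (Finset.mem_erase.1 hm).1).trans (one_pow _))

theorem row_zero (i : ι) : row K i 0 = 1 :=
  SB.ncp_one _ _ fun m => x_zero K i m

theorem row_add {i : ι} {r r' : ι → A} (hr : RowAdm K i r) (hr' : RowAdm K i r') :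
    row K i (r + r') = row K i r * row K i r' := by
  refine SB.ncp_mul _ _ _ _ _ _ (fun m k => commute_row K i m k _ _) fun m => ?_
  by_cases h : m = i
  · subst h
    simp [hr.1, hr'.1, x_zero]
  · exact x_add K (hr.2 m h) (hr'.2 m h)

theorem row_single {i k : ι} (a : A) : row K i (Pi.single k a) = x K i k a := by
  refine (SB.ncp_single _ _ k fun m hm => ?_).trans (by rw [Pi.single_eq_same])
  rw [Pi.single_eq_of_ne hm, x_zero]

theorem row_mem_gen {P : ι → ι → Prop} {i : ι} {r : ι → A} (h : ∀ m, r m ≠ 0 → P i m) :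
    row K i r ∈ gen K P := by
  refine Subgroup.noncommProd_mem _ _ fun m _ => ?_
  by_cases e : r m = 0
  · rw [e, x_zero]
    exact one_mem _
  · exact x_mem_gen K _ (h m e)

omit [Fintype ι] in
theorem SB.adm_zero {i j : ι} (h : i ≠ j) : Adm K i j 0 := ⟨h, Or.inr K.J.zero_mem⟩

omit [Fintype ι] in
theorem SB.rowAdm_add {i : ι} {r r' : ι → A} (hr : RowAdm K i r) (hr' : RowAdm K i r') :
    RowAdm K i (r + r') :=
  ⟨by simp [hr.1, hr'.1], fun m hm => (hr.2 m hm).add K (hr'.2 m hm)⟩

omit [Fintype ι] in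
theorem SB.rowAdm_single {i k : ι} {a : A} (h : Adm K i k a) : RowAdm K i (Pi.single k a) := by
  refine ⟨Pi.single_eq_of_ne h.1 _, fun m hm => ?_⟩
  by_cases e : m = k
  · rw [e, Pi.single_eq_same]
    exact h
  · rw [Pi.single_eq_of_ne e]
    exact SB.adm_zero K (Ne.symm hm)

theorem SB.vec_induction {o : ι} {Q : ι → A → Prop} (hQ : ∀ m, m ≠ o → Q m 0)
    {C : (ι → A) → Prop} (h0 : C 0)
    (hs : ∀ k a r, k ≠ o → Q k a → (r o = 0 ∧ ∀ m, m ≠ o → Q m (r m)) → C r →
      C (Pi.single k a + r))
    {r : ι → A} (hr : r o = 0 ∧ ∀ m, m ≠ o → Q m (r m)) : C r := by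
  have key : ∀ S : Finset ι, C fun m => if m ∈ S then r m else 0 := by
    intro S
    induction S using Finset.induction_on with
    | empty => simpa [Pi.zero_def] using h0
    | insert k S hk ih =>
      by_cases e : k = o
      · convert ih using 2 with m
        by_cases e' : m = k
        · simp [e', e, hr.1]
        · simp [e']
      · have := hs k (r k) _ e (hr.2 k e) ⟨by simp [hr.1], fun m hm => by
          split_ifs
          · exact hr.2 m hm
          · exact hQ m hm⟩ ih
        convert this using 2 with m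
        by_cases e' : m = k
        · simp [e', hk]
        · simp [e']
  simpa using key Finset.univ

theorem SB.rowAdm_induction {i : ι} {C : (ι → A) → Prop} (h0 : C 0)
    (hs : ∀ k a r, Adm K i k a → RowAdm K i r → C r → C (Pi.single k a + r))
    {r : ι → A} (hr : RowAdm K i r) : C r :=
  SB.vec_induction (o := i) (Q := fun m a => Adm K i m a) (fun _ hm => SB.adm_zero K (Ne.symm hm)) h0
    (fun k a r _ h1 h2 h3 => hs k a r h1 h2 h3) hr

theorem SB.colAdm_induction {j : ι} {C : (ι → A) → Prop} (h0 : C 0)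
    (hs : ∀ k a c, Adm K k j a → ColAdm K j c → C c → C (Pi.single k a + c))
    {c : ι → A} (hc : ColAdm K j c) : C c :=
  SB.vec_induction (o := j) (Q := fun m a => Adm K m j a) (fun _ hm => SB.adm_zero K hm) h0
    (fun k a r _ h1 h2 h3 => hs k a r h1 h2 h3) hc

theorem pi_row {i : ι} {r : ι → A} (hr : RowAdm K i r) :
    pi K (row K i r) = 1 + Matrix.of (fun s t => if s = i then r t else 0) := by
  refine SB.rowAdm_induction K (C := fun r => pi K (row K i r) =
    1 + Matrix.of (fun s t => if s = i then r t else 0)) ?_ ?_ hr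
  · rw [row_zero, map_one]
    ext s t
    simp
  · intro k a r ha hr ih
    rw [row_add K (SB.rowAdm_single K ha) hr, row_single]
    ext s t
    rw [SB.pi_x_mul_apply K ha, ih]
    by_cases e : s = i
    · by_cases e' : t = k
      · simp [e, e', ha.1.symm, add_comm, add_assoc]
      · simp [e, e', ha.1.symm, Matrix.one_apply_ne (Ne.symm e')]
    · simp [e]

theorem RowAdm.add {i : ι} {r r' : ι → A} (hr : RowAdm K i r) (hr' : RowAdm K i r') :
    RowAdm K i (r + r') := SB.rowAdm_add K hr hr'

theorem RowAdm.single {i k : ι} {a : A} (h : Adm K i k a) : RowAdm K i (Pi.single k a) :=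
  SB.rowAdm_single K h

theorem col_zero (j : ι) : col K j 0 = 1 :=
  SB.ncp_one _ _ fun m => x_zero K m j

theorem col_add {j : ι} {c c' : ι → A} (hc : ColAdm K j c) (hc' : ColAdm K j c') :
    col K j (c + c') = col K j c * col K j c' := by
  refine SB.ncp_mul _ _ _ _ _ _ (fun m k => commute_col K j m k _ _) fun m => ?_
  by_cases h : m = j
  · subst h
    simp [hc.1, hc'.1, x_zero]
  · exact x_add K (hc.2 m h) (hc'.2 m h)

theorem col_single {j k : ι} (a : A) : col K j (Pi.single k a) = x K k j a := by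
  refine (SB.ncp_single _ _ k fun m hm => ?_).trans (by rw [Pi.single_eq_same])
  rw [Pi.single_eq_of_ne hm, x_zero]

theorem col_mem_gen {P : ι → ι → Prop} {j : ι} {c : ι → A} (h : ∀ m, c m ≠ 0 → P m j) :
    col K j c ∈ gen K P := by
  refine Subgroup.noncommProd_mem _ _ fun m _ => ?_
  by_cases e : c m = 0
  · rw [e, x_zero]
    exact one_mem _
  · exact x_mem_gen K _ (h m e)

omit [Fintype ι] in
theorem SB.colAdm_add {j : ι} {c c' : ι → A} (hc : ColAdm K j c) (hc' : ColAdm K j c') :
    ColAdm K j (c + c') :=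
  ⟨by simp [hc.1, hc'.1], fun m hm => (hc.2 m hm).add K (hc'.2 m hm)⟩

omit [Fintype ι] in
theorem SB.colAdm_single {j k : ι} {a : A} (h : Adm K k j a) : ColAdm K j (Pi.single k a) := by
  refine ⟨Pi.single_eq_of_ne h.1.symm _, fun m hm => ?_⟩
  by_cases e : m = k
  · rw [e, Pi.single_eq_same]
    exact h
  · rw [Pi.single_eq_of_ne e]
    exact SB.adm_zero K hm

theorem pi_col {j : ι} {c : ι → A} (hc : ColAdm K j c) :
    pi K (col K j c) = 1 + Matrix.of (fun s t => if t = j then c s else 0) := by
  refine SB.colAdm_induction K (C := fun c => pi K (col K j c) =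
    1 + Matrix.of (fun s t => if t = j then c s else 0)) ?_ ?_ hc
  · rw [col_zero, map_one]
    ext s t
    simp
  · intro k a c ha hc ih
    rw [col_add K (SB.colAdm_single K ha) hc, col_single]
    ext s t
    rw [SB.pi_x_mul_apply K ha, ih]
    by_cases e : t = j
    · by_cases e' : s = k
      · simp [e, e', hc.1, add_comm, add_assoc]
      · simp [e, e']
    · simp [e, Matrix.one_apply_ne (Ne.symm e)]

theorem ColAdm.add {j : ι} {c c' : ι → A} (hc : ColAdm K j c) (hc' : ColAdm K j c') :
    ColAdm K j (c + c') := SB.colAdm_add K hc hc'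

theorem ColAdm.single {j k : ι} {a : A} (h : Adm K k j a) : ColAdm K j (Pi.single k a) :=
  SB.colAdm_single K h

theorem SB.vecMul_single' (r : ι → A) (k l : ι) (b : A) :
    r ᵥ* Matrix.single k l b = Pi.single l (r k * b) := by
  funext t
  by_cases e : t = l
  · simp [Matrix.vecMul, dotProduct, Matrix.single_apply, e]
  · simp [Matrix.vecMul, dotProduct, Ne.symm e, e]

theorem SB.single_mulVec' (c : ι → A) (k l : ι) (b : A) :
    Matrix.single k l b *ᵥ c = Pi.single k (b * c l) := Matrix.single_mulVec k l b c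

theorem SB.conj_row_x {i k l : ι} {b : A} (hb : Adm K k l b) (hl : l ≠ i) {r : ι → A}
    (hr : RowAdm K i r) : RowAdm K i (r ᵥ* pi K (x K k l b)) ∧
      x K k l b * row K i r * (x K k l b)⁻¹ = row K i (r ᵥ* pi K (x K k l b)) := by
  refine SB.rowAdm_induction K (C := fun r => RowAdm K i (r ᵥ* pi K (x K k l b)) ∧
      x K k l b * row K i r * (x K k l b)⁻¹ = row K i (r ᵥ* pi K (x K k l b))) ?_ ?_ hr
  · rw [Matrix.zero_vecMul, row_zero]
    exact ⟨⟨rfl, fun m hm => SB.adm_zero K (Ne.symm hm)⟩, by simp⟩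
  · intro m a r ha hr ih
    have key : RowAdm K i (Pi.single m a ᵥ* pi K (x K k l b)) ∧
        x K k l b * x K i m a * (x K k l b)⁻¹ = row K i (Pi.single m a ᵥ* pi K (x K k l b)) := by
      rw [pi_x K hb, Matrix.vecMul_add, Matrix.vecMul_one, SB.vecMul_single']
      by_cases e : k = m
      · subst e
        have hab := ha.mul K hb (Ne.symm hl)
        rw [Pi.single_eq_same, add_comm, row_add K (SB.rowAdm_single K hab) (SB.rowAdm_single K ha),
          row_single, row_single, x_swap' K ha hb (Ne.symm hl), mul_inv_cancel_right]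
        exact ⟨SB.rowAdm_add K (SB.rowAdm_single K hab) (SB.rowAdm_single K ha), rfl⟩
      · rw [Pi.single_eq_of_ne e, zero_mul, Pi.single_zero, add_zero, row_single,
          (x_comm K b a hl e).eq, mul_inv_cancel_right]
        exact ⟨SB.rowAdm_single K ha, rfl⟩
    rw [Matrix.add_vecMul, row_add K (SB.rowAdm_single K ha) hr, row_add K key.1 ih.1, ← key.2, ← ih.2,
      row_single]
    exact ⟨SB.rowAdm_add K key.1 ih.1, by group⟩

theorem SB.conj_col_x {j k l : ι} {b : A} (hb : Adm K k l b) (hk : k ≠ j) {c : ι → A}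
    (hc : ColAdm K j c) : ColAdm K j (pi K (x K k l b) *ᵥ c) ∧
      x K k l b * col K j c * (x K k l b)⁻¹ = col K j (pi K (x K k l b) *ᵥ c) := by
  refine SB.colAdm_induction K (C := fun c => ColAdm K j (pi K (x K k l b) *ᵥ c) ∧
      x K k l b * col K j c * (x K k l b)⁻¹ = col K j (pi K (x K k l b) *ᵥ c)) ?_ ?_ hc
  · rw [Matrix.mulVec_zero, col_zero]
    exact ⟨⟨rfl, fun m hm => SB.adm_zero K hm⟩, by simp⟩
  · intro m a c ha hc ih
    have key : ColAdm K j (pi K (x K k l b) *ᵥ Pi.single m a) ∧
        x K k l b * x K m j a * (x K k l b)⁻¹ = col K j (pi K (x K k l b) *ᵥ Pi.single m a) := by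
      rw [pi_x K hb, Matrix.add_mulVec, Matrix.one_mulVec, SB.single_mulVec']
      by_cases e : l = m
      · subst e
        have hab := hb.mul K ha hk
        rw [Pi.single_eq_same, add_comm, col_add K (SB.colAdm_single K hab) (SB.colAdm_single K ha),
          col_single, col_single, x_swap K hb ha hk, mul_inv_cancel_right]
        exact ⟨SB.colAdm_add K (SB.colAdm_single K hab) (SB.colAdm_single K ha), rfl⟩
      · rw [Pi.single_eq_of_ne e, mul_zero, Pi.single_zero, add_zero, col_single,
          (x_comm K b a e hk).eq, mul_inv_cancel_right]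
        exact ⟨SB.colAdm_single K ha, rfl⟩
    rw [Matrix.mulVec_add, col_add K (SB.colAdm_single K ha) hc, col_add K key.1 ih.1, ← key.2, ← ih.2,
      col_single]
    exact ⟨SB.colAdm_add K key.1 ih.1, by group⟩

/-- Elements not using column `i` act on the row group `i` through the matrix. -/
theorem conj_row {i : ι} {g : St K ι} (hg : g ∈ gen K (fun _ l => l ≠ i)) {r : ι → A}
    (hr : RowAdm K i r) :
    RowAdm K i (r ᵥ* pi K g⁻¹) ∧ g * row K i r * g⁻¹ = row K i (r ᵥ* pi K g⁻¹) := by
  refine gen_induction K (C := fun g => RowAdm K i (r ᵥ* pi K g⁻¹) ∧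
    g * row K i r * g⁻¹ = row K i (r ᵥ* pi K g⁻¹)) (by simpa using hr) ?_ hg
  intro k l b g hl hb _ ih
  obtain ⟨h1, h2⟩ := SB.conj_row_x K hb hl ih.1
  rw [mul_inv_rev, map_mul, ← Matrix.vecMul_vecMul, x_inv, ← h2, ← ih.2, x_inv]
  exact ⟨h1, by simp only [mul_assoc]⟩

/-- Elements not using row `j` act on the column group `j` through the matrix. -/
theorem conj_col {j : ι} {g : St K ι} (hg : g ∈ gen K (fun k _ => k ≠ j)) {c : ι → A}
    (hc : ColAdm K j c) :
    ColAdm K j (pi K g *ᵥ c) ∧ g * col K j c * g⁻¹ = col K j (pi K g *ᵥ c) := by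
  refine gen_induction K (C := fun g => ColAdm K j (pi K g *ᵥ c) ∧
    g * col K j c * g⁻¹ = col K j (pi K g *ᵥ c)) (by simpa using hc) ?_ hg
  intro k l b g hk hb _ ih
  obtain ⟨h1, h2⟩ := SB.conj_col_x K hb hk ih.1
  rw [mul_inv_rev, map_mul, ← Matrix.mulVec_mulVec, ← h2, ← ih.2]
  exact ⟨h1, by simp only [mul_assoc]⟩

/-- The matrix representation is faithful on unipotent subgroups. -/
theorem unip_eq_one (ρ : ι → ℕ) {g : St K ι} (hg : g ∈ gen K (fun i j => ρ i < ρ j))
    (h : pi K g = 1) : g = 1 := by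
  have key : ∀ S : Finset ι, ∀ g ∈ gen K (fun i j => i ∈ S ∧ ρ i < ρ j), pi K g = 1 → g = 1 := by
    intro S
    induction S using Finset.induction_on_min_value ρ with
    | empty =>
      intro g hg _
      exact gen_induction K (C := fun g => g = 1) rfl (fun i j a g hP => absurd hP.1 (by simp)) hg
    | insert o S ho hmin ih =>
      intro g hg h
      have dec : ∃ r u, RowAdm K o r ∧ u ∈ gen K (fun i j => i ∈ S ∧ ρ i < ρ j) ∧
          g = row K o r * u := by
        refine gen_induction K (C := fun g => ∃ r u, RowAdm K o r ∧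
          u ∈ gen K (fun i j => i ∈ S ∧ ρ i < ρ j) ∧ g = row K o r * u)
          ⟨0, 1, ⟨rfl, fun m hm => SB.adm_zero K (Ne.symm hm)⟩, one_mem _, by rw [row_zero, one_mul]⟩
          ?_ hg
        rintro i j a g hP ha - ⟨r, u, hr, hu, rfl⟩
        rcases Finset.mem_insert.1 hP.1 with rfl | hi
        · exact ⟨_, u, SB.rowAdm_add K (SB.rowAdm_single K ha) hr, hu, by
            rw [row_add K (SB.rowAdm_single K ha) hr, row_single, mul_assoc]⟩
        · have hj : j ≠ o := fun e => by
            have := hmin i hi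
            have := hP.2
            rw [e] at this
            omega
          obtain ⟨h1, h2⟩ := SB.conj_row_x K ha hj hr
          exact ⟨_, x K i j a * u, h1, mul_mem (x_mem_gen K _ ⟨hi, hP.2⟩) hu, by
            rw [← h2]
            group⟩
      obtain ⟨r, u, hr, hu, rfl⟩ := dec
      have e1 : pi K (row K o r) = pi K u⁻¹ := by
        rw [← mul_one (pi K (row K o r)), ← pi_mul_inv K u, ← mul_assoc, ← map_mul, h, one_mul]
      have e2 : r = 0 := by
        funext t
        have hu' : u⁻¹ ∈ gen K (fun k _ => k ≠ o) :=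
          gen_mono K (P := fun i j => i ∈ S ∧ ρ i < ρ j) (Q := fun k _ => k ≠ o)
            (fun i _ hi e => ho (e ▸ hi.1)) (inv_mem hu)
        have := pi_row_fixed K hu' t
        rw [← e1, pi_row K hr] at this
        simpa using this
      rw [e2, row_zero, one_mul] at h ⊢
      exact ih u hu h
  exact key Finset.univ g (gen_mono K (fun i _ h => ⟨Finset.mem_univ i, h⟩) hg) h

theorem unip_ext (ρ : ι → ℕ) {g g' : St K ι} (hg : g ∈ gen K (fun i j => ρ i < ρ j))
    (hg' : g' ∈ gen K (fun i j => ρ i < ρ j)) (h : pi K g = pi K g') : g = g' := by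
  rw [← mul_inv_eq_one]
  exact unip_eq_one K ρ (mul_mem hg (inv_mem hg')) (by rw [map_mul, h, pi_mul_inv])

theorem pi_smap_apply (f : ι ↪o κ) (g : St K ι) (i j : ι) :
    pi K (smap K f g) (f i) (f j) = pi K g i j := by
  induction g using St.induction generalizing i with
  | h1 => simp [Matrix.one_apply]
  | hx k l a g ha ih =>
    rw [map_mul, smap_x, SB.pi_x_mul_apply K ((adm_map K f k l a).2 ha), SB.pi_x_mul_apply K ha, ih, ih]
    simp

theorem pi_smap_apply_off (f : ι ↪o κ) (g : St K ι) {s t : κ}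
    (h : s ∉ Set.range f ∨ t ∉ Set.range f) : pi K (smap K f g) s t = (1 : Matrix κ κ A) s t := by
  induction g using St.induction generalizing s with
  | h1 => simp
  | hx k l a g ha ih =>
    rw [map_mul, smap_x, SB.pi_x_mul_apply K ((adm_map K f k l a).2 ha), ih h]
    split_ifs with e
    · have ht : t ∉ Set.range f := h.resolve_left fun h => h ⟨k, e.symm⟩
      rw [ih (Or.inr ht), Matrix.one_apply_ne (i := f l) fun e => ht ⟨l, e⟩, mul_zero, add_zero]
    · rw [add_zero]

theorem pi_smap_eq_one_iff (f : ι ↪o κ) (g : St K ι) : pi K (smap K f g) = 1 ↔ pi K g = 1 := by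
  constructor
  · intro h
    ext i j
    rw [← pi_smap_apply K f, h]
    simp [Matrix.one_apply]
  · intro h
    ext s t
    by_cases hs : s ∈ Set.range f
    · by_cases ht : t ∈ Set.range f
      · obtain ⟨i, rfl⟩ := hs
        obtain ⟨j, rfl⟩ := ht
        rw [pi_smap_apply, h]
        simp [Matrix.one_apply]
      · exact pi_smap_apply_off K f g (Or.inr ht)
    · exact pi_smap_apply_off K f g (Or.inl hs)

end Vale.Agent.P192
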