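import Vale.Agent.P192.StBasic

/-!
P192, StCover auxiliary file 1: unipotent subgroups, block elements and the maps induced by a
ring homomorphism into matrices.
-/

namespace Vale.Agent.P192.Cover

open scoped commutatorElement Matrix

variable {A : Type} [Ring A] (K : Coef A) {ι κ : Type} [LinearOrder ι] [LinearOrder κ]

theorem gen_split {P : κ → κ → Prop} (hP : ∀ s t s' t', P s t → P s' t' → t ≠ s')
    (c : κ → κ → Prop) {g : St K κ} (hg : g ∈ gen K P) :
    ∃ g1 ∈ gen K (fun s t => P s t ∧ c s t), ∃ g2 ∈ gen K (fun s t => P s t ∧ ¬ c s t),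
      g = g1 * g2 := by
  refine gen_induction K (C := fun g => ∃ g1 ∈ gen K (fun s t => P s t ∧ c s t),
    ∃ g2 ∈ gen K (fun s t => P s t ∧ ¬ c s t), g = g1 * g2) ⟨1, one_mem _, 1, one_mem _, by simp⟩
    ?_ hg
  rintro i j a g hij _ _ ⟨g1, h1, g2, h2, rfl⟩
  by_cases hc : c i j
  · exact ⟨x K i j a * g1, mul_mem (x_mem_gen K a ⟨hij, hc⟩) h1, g2, h2, by rw [mul_assoc]⟩
  · refine ⟨g1, h1, x K i j a * g2, mul_mem (x_mem_gen K a ⟨hij, hc⟩) h2, ?_⟩
    have : Commute (x K i j a) g1 :=
      gen_commute K (P := P) (Q := fun s t => P s t ∧ c s t)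
        (fun s t s' t' h h' => ⟨hP _ _ _ _ h h'.1, (hP _ _ _ _ h'.1 h).symm⟩)
        (x_mem_gen K a hij) h1
    rw [← mul_assoc, this.eq, mul_assoc]

variable [Fintype ι] [Fintype κ]

theorem pi_gen_apply {P : κ → κ → Prop} (htr : ∀ a b c, P a b → P b c → P a c) {g : St K κ}
    (hg : g ∈ gen K P) : ∀ s t, ¬ P s t → pi K g s t = (1 : Matrix κ κ A) s t := by
  refine gen_induction K (C := fun g => ∀ s t, ¬ P s t → pi K g s t = (1 : Matrix κ κ A) s t)
    (by intro s t _; rw [map_one]) ?_ hg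
  intro i j a g hij ha _ ih s t hst
  rw [map_mul, pi_x K ha, add_mul, one_mul, Matrix.add_apply, ih s t hst]
  by_cases hs : s = i
  · subst hs
    have h1 : ¬ P j t := fun h => hst (htr _ _ _ hij h)
    have h2 : j ≠ t := fun h => hst (h ▸ hij)
    rw [Matrix.single_mul_apply_same, ih j t h1, Matrix.one_apply_ne h2, mul_zero, add_zero]
  · rw [Matrix.single_mul_apply_of_ne _ _ _ _ _ hs, add_zero]

omit [LinearOrder κ] in
open Classical in
theorem exists_rank {P : κ → κ → Prop} (htr : ∀ a b c, P a b → P b c → P a c)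
    (hir : ∀ a, ¬ P a a) : ∃ ρ : κ → ℕ, ∀ s t, P s t → ρ s < ρ t := by
  refine ⟨fun t => (Finset.univ.filter (fun s => P s t)).card, fun s t hst => ?_⟩
  apply Finset.card_lt_card
  rw [Finset.ssubset_iff_of_subset]
  · exact ⟨s, by simpa using hst, by simpa using hir s⟩
  · intro r hr
    simp only [Finset.mem_filter, Finset.mem_univ, true_and] at hr ⊢
    exact htr _ _ _ hr hst

theorem unip_eq {P : κ → κ → Prop} (htr : ∀ a b c, P a b → P b c → P a c)
    (hir : ∀ a, ¬ P a a) {g g' : St K κ} (hg : g ∈ gen K P) (hg' : g' ∈ gen K P)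
    (h : pi K g = pi K g') : g = g' := by
  obtain ⟨ρ, hρ⟩ := exists_rank htr hir
  exact unip_ext K ρ (gen_mono K hρ hg) (gen_mono K hρ hg') h

theorem exists_unip {P : κ → κ → Prop} (htr : ∀ a b c, P a b → P b c → P a c)
    (hir : ∀ a, ¬ P a a) (N : Matrix κ κ A) (hP : ∀ s t, N s t ≠ 0 → P s t)
    (hJ : ∀ s t, ¬ s < t → N s t ∈ K.J) : ∃ g ∈ gen K P, pi K g = 1 + N := by
  obtain ⟨ρ, hρ⟩ := exists_rank htr hir
  have key : ∀ S : Finset κ, ∀ N : Matrix κ κ A, (∀ s t, N s t ≠ 0 → s ∈ S ∧ P s t) →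
      (∀ s t, ¬ s < t → N s t ∈ K.J) → ∃ g ∈ gen K P, pi K g = 1 + N := by
    intro S
    induction S using Finset.induction_on_max_value ρ with
    | empty =>
      intro N h _
      refine ⟨1, one_mem _, ?_⟩
      have : N = 0 := by
        ext s t
        by_contra h0
        simpa using (h s t h0).1
      rw [this, map_one, add_zero]
    | insert a S ha hmax ih =>
      intro N h hJ
      have hN' : ∀ s t, N.updateRow a 0 s t ≠ 0 → s ∈ S ∧ P s t := by
        intro s t hst
        by_cases hs : s = a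
        · subst hs
          simp at hst
        · rw [Matrix.updateRow_ne hs] at hst
          exact ⟨by simpa [hs] using (h s t hst).1, (h s t hst).2⟩
      obtain ⟨g, hg, e⟩ := ih (N.updateRow a 0) hN' (by
        intro s t hst
        by_cases hs : s = a
        · subst hs
          simp
        · rw [Matrix.updateRow_ne hs]
          exact hJ s t hst)
      have hr : RowAdm K a (N a) := by
        refine ⟨?_, fun m hm => ⟨hm.symm, ?_⟩⟩
        · by_contra h0
          exact hir a (h a a h0).2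
        · by_cases hlt : a < m
          · exact Or.inl hlt
          · exact Or.inr (hJ a m hlt)
      refine ⟨row K a (N a) * g, mul_mem (row_mem_gen K fun m hm => (h a m hm).2) hg, ?_⟩
      have h0 : (Matrix.of (fun s t => if s = a then N a t else 0) : Matrix κ κ A) *
          N.updateRow a 0 = 0 := by
        ext s t
        rw [Matrix.mul_apply, Matrix.zero_apply]
        refine Finset.sum_eq_zero fun m _ => ?_
        by_cases h1 : N.updateRow a 0 m t = 0
        · rw [h1, mul_zero]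
        · have h2 := hmax m (hN' m t h1).1
          have h3 : N a m = 0 := by
            by_contra h0
            have := hρ _ _ (h a m h0).2
            omega
          simp [h3]
      rw [map_mul, pi_row K hr, e, add_mul, one_mul, mul_add, mul_one, h0, add_zero, add_assoc]
      congr 1
      ext s t
      by_cases hs : s = a
      · subst hs
        simp
      · simp [hs]
  exact key Finset.univ N (fun s t h => ⟨Finset.mem_univ _, hP s t h⟩) hJ

/-- An index set made of `q` layers, each a copy of `ι`. -/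
structure Lay (ι κ : Type) [LinearOrder ι] [LinearOrder κ] (q : ℕ) where
  e : κ ≃ Fin q × ι
  lt_iff : ∀ s t, s < t ↔ (e s).1 < (e t).1 ∨ ((e s).1 = (e t).1 ∧ (e s).2 < (e t).2)

variable {q : ℕ} (L : Lay ι κ q)

/-- Block matrices. -/
def Lay.Φ (L : Lay ι κ q) : Matrix ι ι (Matrix (Fin q) (Fin q) A) →+* Matrix κ κ A where
  toFun M := Matrix.of fun s t => M (L.e s).2 (L.e t).2 (L.e s).1 (L.e t).1
  map_zero' := by ext s t; simp
  map_add' M N := by ext s t; simp
  map_one' := by
    ext s t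
    simp only [Matrix.of_apply, Matrix.one_apply]
    by_cases h : s = t
    · subst h
      simp
    · rw [if_neg h]
      by_cases h2 : (L.e s).2 = (L.e t).2
      · have : (L.e s).1 ≠ (L.e t).1 := fun h1 => h (L.e.injective (Prod.ext h1 h2))
        simp [h2, this]
      · simp [h2]
  map_mul' M N := by
    ext s t
    simp only [Matrix.of_apply, Matrix.mul_apply, Matrix.sum_apply]
    rw [← Equiv.sum_comp L.e.symm, Fintype.sum_prod_type_right]
    simp

theorem Φ_apply (M : Matrix ι ι (Matrix (Fin q) (Fin q) A)) (s t : κ) :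
    L.Φ M s t = M (L.e s).2 (L.e t).2 (L.e s).1 (L.e t).1 := rfl

theorem Φ_single (i j : ι) (M : Matrix (Fin q) (Fin q) A) (s t : κ) :
    L.Φ (Matrix.single i j M) s t =
      if (L.e s).2 = i ∧ (L.e t).2 = j then M (L.e s).1 (L.e t).1 else 0 := by
  rw [Φ_apply, Matrix.single_apply]
  by_cases h : (L.e s).2 = i ∧ (L.e t).2 = j
  · rw [if_pos h, if_pos ⟨h.1.symm, h.2.symm⟩]
  · rw [if_neg h, if_neg (fun h' => h ⟨h'.1.symm, h'.2.symm⟩)]
    rfl

/-- Admissible block data. -/
def BAdm (i j : ι) (M : Matrix (Fin q) (Fin q) A) : Prop :=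
  i ≠ j ∧ (∀ l l', l' < l → M l l' ∈ K.J) ∧ (i < j ∨ ∀ l, M l l ∈ K.J)

/-- The support of a block. -/
def Supp (i j : ι) (M : Matrix (Fin q) (Fin q) A) (s t : κ) : Prop :=
  (L.e s).2 = i ∧ (L.e t).2 = j ∧ M (L.e s).1 (L.e t).1 ≠ 0

theorem exists_Blk {i j : ι} {M : Matrix (Fin q) (Fin q) A} (h : BAdm K i j M) :
    ∃ g ∈ gen K (Supp L i j M), pi K g = L.Φ (1 + Matrix.single i j M) := by
  rw [map_add, map_one]
  refine exists_unip K (fun a b c h1 h2 => (h.1 (h2.1.symm.trans h1.2.1)).elim)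
    (fun a h1 => h.1 (h1.1.symm.trans h1.2.1)) _ ?_ ?_
  · intro s t hst
    rw [Φ_single] at hst
    split_ifs at hst with h1
    · exact ⟨h1.1, h1.2, hst⟩
    · exact (hst rfl).elim
  · intro s t hst
    rw [Φ_single]
    split_ifs with h1
    · rw [L.lt_iff] at hst
      push Not at hst
      rcases hst.1.lt_or_eq with h2 | h2
      · exact h.2.1 _ _ h2
      · have h3 := hst.2 h2.symm
        rw [h1.1, h1.2] at h3
        rcases h.2.2 with h4 | h4
        · exact absurd h4 (not_lt.2 h3)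
        · rw [h2]; exact h4 _
    · exact zero_mem _

open Classical in
/-- The block element. -/
noncomputable def Blk (i j : ι) (M : Matrix (Fin q) (Fin q) A) : St K κ :=
  if h : BAdm K i j M then (exists_Blk K L h).choose else 1

theorem Blk_mem (i j : ι) (M : Matrix (Fin q) (Fin q) A) :
    Blk K L i j M ∈ gen K (Supp L i j M) := by
  unfold Blk
  split_ifs with h
  · exact (exists_Blk K L h).choose_spec.1
  · exact one_mem _

theorem pi_Blk {i j : ι} {M : Matrix (Fin q) (Fin q) A} (h : BAdm K i j M) :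
    pi K (Blk K L i j M) = L.Φ (1 + Matrix.single i j M) := by
  unfold Blk
  rw [dif_pos h]
  exact (exists_Blk K L h).choose_spec.2

/-- The block root group. -/
def Rt (i j : ι) (s t : κ) : Prop := (L.e s).2 = i ∧ (L.e t).2 = j

theorem Blk_mem' (i j : ι) (M : Matrix (Fin q) (Fin q) A) : Blk K L i j M ∈ gen K (Rt L i j) :=
  gen_mono K (fun _ _ h => ⟨h.1, h.2.1⟩) (Blk_mem K L i j M)

omit [Fintype ι] in
theorem rt_eq {i j : ι} (h : i ≠ j) {g g' : St K κ} (hg : g ∈ gen K (Rt L i j))
    (hg' : g' ∈ gen K (Rt L i j)) (e : pi K g = pi K g') : g = g' :=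
  unip_eq K (fun _ _ _ h1 h2 => (h (h2.1.symm.trans h1.2)).elim)
    (fun _ h1 => h (h1.1.symm.trans h1.2)) hg hg' e

theorem Blk_add {i j : ι} {M N : Matrix (Fin q) (Fin q) A} (hM : BAdm K i j M)
    (hN : BAdm K i j N) (hMN : BAdm K i j (M + N)) :
    Blk K L i j (M + N) = Blk K L i j M * Blk K L i j N := by
  refine rt_eq K L hM.1 (Blk_mem' K L _ _ _) (mul_mem (Blk_mem' K L _ _ _) (Blk_mem' K L _ _ _)) ?_
  rw [map_mul, pi_Blk K L hM, pi_Blk K L hN, pi_Blk K L hMN, ← map_mul]
  congr 1
  have h0 : Matrix.single i j M * Matrix.single i j N = 0 :=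
    Matrix.single_mul_single_of_ne _ _ _ _ hM.1.symm _
  rw [Matrix.single_add, add_mul, mul_add, mul_add, h0]
  simp only [mul_one, one_mul, add_zero]
  abel

theorem Blk_bra {i j l : ι} {M N : Matrix (Fin q) (Fin q) A} (hM : BAdm K i j M)
    (hN : BAdm K j l N) (hMN : BAdm K i l (M * N)) :
    ⁅Blk K L i j M, Blk K L j l N⁆ = Blk K L i l (M * N) := by
  rw [commutatorElement_def, mul_inv_eq_iff_eq_mul, mul_inv_eq_iff_eq_mul]
  have h1 := hM.1
  have h2 := hN.1
  have h3 := hMN.1
  have m1 := gen_mono K (Q := fun s t => Rt L i j s t ∨ Rt L j l s t ∨ Rt L i l s t)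
    (fun _ _ h => Or.inl h) (Blk_mem' K L i j M)
  have m2 := gen_mono K (Q := fun s t => Rt L i j s t ∨ Rt L j l s t ∨ Rt L i l s t)
    (fun _ _ h => Or.inr (Or.inl h)) (Blk_mem' K L j l N)
  have m3 := gen_mono K (Q := fun s t => Rt L i j s t ∨ Rt L j l s t ∨ Rt L i l s t)
    (fun _ _ h => Or.inr (Or.inr h)) (Blk_mem' K L i l (M * N))
  refine unip_eq K ?_ ?_ (mul_mem m1 m2) (mul_mem (mul_mem m3 m2) m1) ?_
  · intro a b c hab hbc
    unfold Rt at *
    grind
  · intro a ha
    unfold Rt at *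
    grind
  · rw [map_mul, map_mul, map_mul, pi_Blk K L hM, pi_Blk K L hN, pi_Blk K L hMN, ← map_mul,
      ← map_mul, ← map_mul]
    congr 1
    have e1 : Matrix.single i j M * Matrix.single j l N = Matrix.single i l (M * N) :=
      Matrix.single_mul_single_same _ _ _ _ _
    have e2 : Matrix.single j l N * Matrix.single i j M = 0 :=
      Matrix.single_mul_single_of_ne _ _ _ _ h3.symm _
    have e3 : Matrix.single i l (M * N) * Matrix.single i j M = 0 :=
      Matrix.single_mul_single_of_ne _ _ _ _ h3.symm _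
    have e4 : Matrix.single i l (M * N) * Matrix.single j l N = 0 :=
      Matrix.single_mul_single_of_ne _ _ _ _ h2.symm _
    simp only [add_mul, mul_add, mul_one, one_mul, e1, e2, e3, e4, add_zero]
    abel

/-- Ring homomorphisms into matrices compatible with the ideal. -/
structure Good (θ : A →+* Matrix (Fin q) (Fin q) A) : Prop where
  off : ∀ a l l', l ≠ l' → θ a l l' ∈ K.J
  mem : ∀ a ∈ K.J, ∀ l l', θ a l l' ∈ K.J

omit [Fintype ι] in
theorem Good.badm {θ : A →+* Matrix (Fin q) (Fin q) A} (hθ : Good K θ) {i j : ι} {a : A}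
    (h : Adm K i j a) : BAdm K i j (θ a) :=
  ⟨h.1, fun l l' hl => hθ.off a l l' hl.ne', h.2.imp id fun ha l => hθ.mem a ha l l⟩

open Classical in
theorem isFam_Blk {θ : A →+* Matrix (Fin q) (Fin q) A} (hθ : Good K θ) :
    IsFam K (fun (i j : ι) (a : A) => if Adm K i j a then Blk K L i j (θ a) else 1) where
  nadm i j a h := if_neg h
  add i j a b ha hb := by
    rw [if_pos ha, if_pos hb, if_pos (ha.add K hb), map_add]
    exact Blk_add K L (hθ.badm K ha) (hθ.badm K hb) (by
      rw [← map_add]; exact hθ.badm K (ha.add K hb))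
  comm i j k l a b ha hb h1 h2 := by
    rw [if_pos ha, if_pos hb]
    exact gen_commute K (fun s t s' t' h h' => ⟨fun e => h1 (by rw [← h.2, ← h'.1, e]),
      fun e => h2 (by rw [← h.1, ← h'.2, e])⟩) (Blk_mem' K L _ _ _) (Blk_mem' K L _ _ _)
  bra i j l a b ha hb h := by
    rw [if_pos ha, if_pos hb, if_pos (ha.mul K hb h), map_mul]
    exact Blk_bra K L (hθ.badm K ha) (hθ.badm K hb) (by
      rw [← map_mul]; exact hθ.badm K (ha.mul K hb h))

/-- The map of Steinberg groups induced by `θ`. -/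
noncomputable def rho {θ : A →+* Matrix (Fin q) (Fin q) A} (hθ : Good K θ) : St K ι →* St K κ :=
  (isFam_Blk K L hθ).lift

theorem rho_x {θ : A →+* Matrix (Fin q) (Fin q) A} (hθ : Good K θ) {i j : ι} {a : A}
    (h : Adm K i j a) : rho K L hθ (x K i j a) = Blk K L i j (θ a) := by
  unfold rho
  rw [IsFam.lift_x, if_pos h]

theorem pi_rho {θ : A →+* Matrix (Fin q) (Fin q) A} (hθ : Good K θ) (g : St K ι) :
    pi K (rho K L hθ g) = L.Φ (θ.mapMatrix (pi K g)) := by
  induction g using St.induction with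
  | h1 => simp
  | hx i j a g ha ih =>
    have e : θ.mapMatrix (1 + Matrix.single i j a) = 1 + Matrix.single i j (θ a) := by
      rw [map_add, map_one]
      congr 1
      refine Matrix.ext fun s t => ?_
      simp only [RingHom.mapMatrix_apply, Matrix.map_apply, Matrix.single_apply]
      split_ifs <;> simp
    rw [map_mul, map_mul, ih, map_mul, map_mul, map_mul, rho_x K L hθ ha,
      pi_Blk K L (hθ.badm K ha), pi_x K ha, e]

/-- Conjugate homomorphisms give conjugate maps. -/
theorem rho_conj {θ θ' : A →+* Matrix (Fin q) (Fin q) A} (hθ : Good K θ) (hθ' : Good K θ')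
    (Pm : Matrix (Fin q) (Fin q) A) (hPm : ∀ l l', l' ≤ l → Pm l l' = (1 : Matrix _ _ A) l l')
    (h : ∀ a, θ a * Pm = Pm * θ' a) :
    ∃ γ : St K κ, ∀ g : St K ι, γ * rho K L hθ' g * γ⁻¹ = rho K L hθ g := by
  have hN : ∀ s t, L.Φ (Matrix.scalar ι (Pm - 1)) s t ≠ 0 →
      (L.e s).2 = (L.e t).2 ∧ (L.e s).1 < (L.e t).1 := by
    intro s t hst
    rw [Φ_apply, Matrix.scalar_apply, Matrix.diagonal_apply] at hst
    split_ifs at hst with h1
    · refine ⟨h1, ?_⟩
      by_contra h2
      rw [Matrix.sub_apply, hPm _ _ (not_lt.1 h2), sub_self] at hst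
      exact hst rfl
    · exact (hst rfl).elim
  obtain ⟨γ, hγ, e⟩ := exists_unip K (P := fun s t => (L.e s).2 = (L.e t).2 ∧ (L.e s).1 < (L.e t).1)
    (fun a b c h1 h2 => ⟨h1.1.trans h2.1, h1.2.trans h2.2⟩) (fun a h1 => lt_irrefl _ h1.2)
    (L.Φ (Matrix.scalar ι (Pm - 1))) hN (by
      intro s t hst
      by_cases h0 : L.Φ (Matrix.scalar ι (Pm - 1)) s t = 0
      · rw [h0]; exact zero_mem _
      · exact absurd ((L.lt_iff s t).2 (Or.inl (hN s t h0).2)) hst)
  have e' : pi K γ = L.Φ (Matrix.scalar ι Pm) := by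
    rw [e, map_sub, map_sub, map_one, map_one, add_sub_cancel]
  refine ⟨γ, fun g => ?_⟩
  have key : (MulAut.conj γ).toMonoidHom.comp (rho K L hθ') = rho K L hθ := by
    apply St.hom_ext
    intro i j a ha
    change γ * rho K L hθ' (x K i j a) * γ⁻¹ = _
    rw [rho_x K L hθ ha, rho_x K L hθ' ha]
    refine rt_eq K L ha.1 (gen_normalizes' K ?_ ?_ ?_ hγ (Blk_mem' K L _ _ _))
      (Blk_mem' K L _ _ _) ?_
    · intro s t h1 h2
      exact ha.1 (by rw [← h2.1, ← h2.2, h1.1])
    · intro s t r _ h1 h2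
      exact ⟨h1.1.trans h2.1, h2.2⟩
    · intro s t r _ h1 h2
      exact ⟨h1.1, h2.1.symm.trans h1.2⟩
    · have : pi K γ * pi K (Blk K L i j (θ' a)) = pi K (Blk K L i j (θ a)) * pi K γ := by
        rw [e', pi_Blk K L (hθ.badm K ha), pi_Blk K L (hθ'.badm K ha), ← map_mul, ← map_mul]
        congr 1
        rw [mul_add, add_mul, mul_one, one_mul]
        congr 1
        refine Matrix.ext fun s t => ?_
        rw [Matrix.scalar_apply, Matrix.diagonal_mul, Matrix.mul_diagonal, Matrix.single_apply,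
          Matrix.single_apply]
        split_ifs
        · exact (h a).symm
        · simp
      rw [map_mul, map_mul, this, mul_assoc, pi_mul_inv, mul_one]
  exact DFunLike.congr_fun key g

end Vale.Agent.P192.Cover
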