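import Vale.Agent.P192.StCoverAux1

/-!
P192, StCover auxiliary file 2: the triangular case and the homomorphisms attached to a matrix
with central entries.
-/

namespace Vale.Agent.P192.Cover

open scoped commutatorElement Matrix

variable {A : Type} [Ring A] (K : Coef A) {ι κ : Type} [LinearOrder ι] [LinearOrder κ]
  {q : ℕ} (L : Lay ι κ q)

/-- The embedding of one layer. -/
def Lay.emb (L : Lay ι κ q) (l : Fin q) : ι ↪o κ :=
  OrderEmbedding.ofStrictMono (fun i => L.e.symm (l, i)) (by
    intro i j h
    rw [L.lt_iff]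
    simp [h])

theorem emb_apply (l : Fin q) (i : ι) : L.emb l i = L.e.symm (l, i) := rfl

theorem smap_emb_mem (l : Fin q) (g : St K ι) :
    smap K (L.emb l) g ∈ gen K (fun s t => (L.e s).1 = l ∧ (L.e t).1 = l) :=
  smap_mem_gen K (L.emb l) (P := fun _ _ => True) (fun i j _ => by simp [emb_apply])
    (by rw [gen_true]; trivial)

theorem emb_comm : Pairwise fun l l' : Fin q => ∀ g h : St K ι,
    Commute (smap K (L.emb l) g) (smap K (L.emb l') h) := by
  intro l l' hl g h
  exact gen_commute K (fun s t s' t' h1 h2 => ⟨fun e => hl (by rw [← h1.2, ← h2.1, e]),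
    fun e => hl (by rw [← h1.1, ← h2.2, e])⟩) (smap_emb_mem K L l g) (smap_emb_mem K L l' h)

/-- The product of all layer embeddings. -/
noncomputable def diagHom : St K ι →* St K κ :=
  (MonoidHom.noncommPiCoprod (N := fun _ : Fin q => St K ι) (fun l => smap K (L.emb l))
    (emb_comm K L)).comp (Pi.constMonoidHom (Fin q) (St K ι))

theorem emb_pair (S : Finset (Fin q)) (g : St K ι) :
    (S : Set (Fin q)).Pairwise (Function.onFun Commute fun l => smap K (L.emb l) g) :=
  fun _ _ _ _ h => emb_comm K L h g g

theorem diagHom_apply (g : St K ι) : diagHom K L g =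
    Finset.univ.noncommProd (fun l => smap K (L.emb l) g) (emb_pair K L _ g) := rfl

theorem diagHom_mem (g : St K ι) : diagHom K L g ∈ gen K (fun s t => (L.e s).1 = (L.e t).1) := by
  rw [diagHom_apply]
  exact Subgroup.noncommProd_mem _ _ fun l _ =>
    gen_mono K (fun s t h => h.1.trans h.2.symm) (smap_emb_mem K L l g)

variable [Fintype ι] [Fintype κ]

omit [Fintype ι] in
theorem badm_scalar {i j : ι} {a : A} (ha : Adm K i j a) :
    BAdm K i j (Matrix.scalar (Fin q) a) := by
  refine ⟨ha.1, fun l l' h => ?_, ha.2.imp id fun h l => ?_⟩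
  · rw [Matrix.scalar_apply, Matrix.diagonal_apply_ne _ h.ne']
    exact zero_mem _
  · rw [Matrix.scalar_apply, Matrix.diagonal_apply_eq]
    exact h

theorem diagHom_x {i j : ι} {a : A} (ha : Adm K i j a) :
    diagHom K L (x K i j a) = Blk K L i j (Matrix.scalar (Fin q) a) := by
  refine rt_eq K L ha.1 ?_ (Blk_mem' K L _ _ _) ?_
  · rw [diagHom_apply]
    refine Subgroup.noncommProd_mem _ _ fun l _ => ?_
    rw [smap_x]
    exact x_mem_gen K a ⟨by simp [emb_apply], by simp [emb_apply]⟩
  · have key : ∀ S : Finset (Fin q), pi K (S.noncommProd (fun l => smap K (L.emb l) (x K i j a))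
        (emb_pair K L S _)) =
        1 + ∑ l ∈ S, Matrix.single (L.emb l i) (L.emb l j) a := by
      intro S
      induction S using Finset.cons_induction with
      | empty => rw [Finset.noncommProd_empty, map_one, Finset.sum_empty, add_zero]
      | cons l S hl ih =>
        rw [Finset.noncommProd_cons, map_mul, ih, smap_x,
          pi_x K ((adm_map K _ _ _ _).2 ha), Finset.sum_cons, add_mul, one_mul, mul_add,
          mul_one, Finset.mul_sum]
        have : ∑ l' ∈ S, Matrix.single (L.emb l i) (L.emb l j) a *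
            Matrix.single (L.emb l' i) (L.emb l' j) a = 0 := by
          refine Finset.sum_eq_zero fun l' _ => Matrix.single_mul_single_of_ne _ _ _ _ ?_ _
          intro e
          have := L.e.symm.injective e
          exact ha.1 (congrArg Prod.snd this).symm
        rw [this]
        abel
    rw [diagHom_apply, key, pi_Blk K L (badm_scalar K ha), map_add, map_one]
    congr 1
    ext s t
    obtain ⟨⟨l, k⟩, rfl⟩ := L.e.symm.surjective s
    obtain ⟨⟨l', k'⟩, rfl⟩ := L.e.symm.surjective t
    rw [Φ_single, Matrix.sum_apply, Finset.sum_eq_single l]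
    · simp only [Matrix.single_apply, emb_apply, Equiv.apply_symm_apply, EmbeddingLike.apply_eq_iff_eq,
        Prod.mk.injEq, true_and, Matrix.scalar_apply, Matrix.diagonal_apply]
      by_cases h1 : k = i
      · by_cases h2 : k' = j
        · simp [h1, h2]
        · simp [h2, Ne.symm h2]
      · simp [h1, Ne.symm h1]
    · intro b _ hb
      simp [emb_apply, hb]
    · simp

theorem rho_tri_aux {θ : A →+* Matrix (Fin q) (Fin q) A} (hθ : Good K θ)
    (h : ∀ a l l', l ≤ l' → θ a l l' = Matrix.scalar (Fin q) a l l') (g : St K ι) :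
    ∃ u ∈ gen K (fun s t => (L.e t).1 < (L.e s).1), rho K L hθ g = u * diagHom K L g := by
    induction g using St.induction with
    | h1 => exact ⟨1, one_mem _, by simp⟩
    | hx i j a g ha ih =>
      obtain ⟨u, hu, e⟩ := ih
      have b1 : BAdm K i j (θ a - Matrix.scalar (Fin q) a) := by
        refine ⟨ha.1, fun l l' hl => ?_, Or.inr fun l => ?_⟩
        · rw [Matrix.sub_apply, Matrix.scalar_apply, Matrix.diagonal_apply_ne _ hl.ne', sub_zero]
          exact hθ.off a l l' hl.ne'
        · rw [Matrix.sub_apply, h a l l le_rfl, sub_self]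
          exact zero_mem _
      have e1 : rho K L hθ (x K i j a) =
          Blk K L i j (θ a - Matrix.scalar (Fin q) a) * diagHom K L (x K i j a) := by
        rw [rho_x K L hθ ha, diagHom_x K L ha, ← Blk_add K L b1 (badm_scalar K ha)
          (by rw [sub_add_cancel]; exact hθ.badm K ha), sub_add_cancel]
      have m1 : Blk K L i j (θ a - Matrix.scalar (Fin q) a) ∈
          gen K (fun s t => (L.e t).1 < (L.e s).1) := by
        refine gen_mono K (fun s t hst => ?_) (Blk_mem K L i j _)
        by_contra hcon
        exact hst.2.2 (by rw [Matrix.sub_apply, h a _ _ (not_lt.1 hcon), sub_self])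
      have m2 := gen_normalizes' K (P := fun s t => (L.e s).1 = (L.e t).1)
        (Q := fun s t => (L.e t).1 < (L.e s).1) (fun s t h1 h2 => h2.ne h1)
        (fun s t r _ h1 h2 => h2.trans_eq h1.symm) (fun s t r _ h1 h2 => h2.symm.trans_lt h1)
        (diagHom_mem K L (x K i j a)) hu
      refine ⟨_, mul_mem m1 m2, ?_⟩
      rw [map_mul, map_mul, e1, e]
      simp only [mul_assoc, inv_mul_cancel_left]

theorem pi_diagHom {z : St K ι} (hz : pi K z = 1) : pi K (diagHom K L z) = 1 := by
  rw [diagHom_apply]
  refine Finset.noncommProd_induction _ _ _ (fun g => pi K g = 1) ?_ (map_one _) ?_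
  · intro g g' h1 h2
    rw [map_mul, h1, h2, mul_one]
  · intro l _
    exact (pi_smap_eq_one_iff K _ _).2 hz

/-- The triangular case. -/
theorem rho_tri {θ : A →+* Matrix (Fin q) (Fin q) A} (hθ : Good K θ)
    (h : ∀ a l l', l ≤ l' → θ a l l' = Matrix.scalar (Fin q) a l l') {z : St K ι}
    (hz : pi K z = 1) (h1 : rho K L hθ z = 1) : diagHom K L z = 1 := by
  obtain ⟨u, hu, e⟩ := rho_tri_aux K L hθ h z
  have p1 := pi_diagHom K L hz
  have p2 : pi K u = pi K (1 : St K κ) := by
    have := congrArg (pi K) e
    rw [h1, map_mul, p1, mul_one] at this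
    exact this.symm
  have hu1 : u = 1 := unip_eq K (P := fun s t => (L.e t).1 < (L.e s).1)
    (fun a b c h1 h2 => lt_trans h2 h1) (fun a h1 => lt_irrefl _ h1) hu (one_mem _) p2
  rw [h1, hu1, one_mul] at e
  exact e.symm

section theta

variable {X : Type} (P : Pres X A)

theorem exists_theta (T : Matrix (Fin q) (Fin q) A)
    (hT : ∀ a, Commute (Matrix.scalar (Fin q) a) T) :
    ∃ θ : A →+* Matrix (Fin q) (Fin q) A,
      ∀ u, θ (P.w u) = T ^ u.length * Matrix.scalar (Fin q) (P.w u) := by
  have hw : ∀ u v a b, P.w (u ++ a :: b :: v) = P.w u * (P.w [a, b] * P.w v) := by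
    intro u v a b
    rw [← P.w_append, ← P.w_append]
    rfl
  obtain ⟨F, hF⟩ := P.lift (Matrix (Fin q) (Fin q) A)
    (fun u => T ^ u.length * Matrix.scalar (Fin q) (P.w u))
    (fun u => by rw [← mul_add, ← map_add, P.K.two, map_zero, mul_zero])
    (fun u v a b a' b' h => by
      simp only [hw, P.w_step a b a' b' h, List.length_append, List.length_cons])
    (fun u v a b h => by
      simp only [hw, P.w_forb a b h, zero_mul, mul_zero, map_zero])
  have hmul : ∀ a b, F (a * b) = F a * F b := by
    intro a b
    induction P.span_top a using AddSubgroup.closure_induction with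
    | mem a ha =>
      obtain ⟨u, rfl⟩ := ha
      induction P.span_top b using AddSubgroup.closure_induction with
      | mem b hb =>
        obtain ⟨v, rfl⟩ := hb
        rw [← P.w_append, hF, hF, hF, P.w_append, map_mul, List.length_append, pow_add,
          mul_assoc, mul_assoc, ← mul_assoc (Matrix.scalar (Fin q) (P.w u)),
          ((hT (P.w u)).pow_right v.length).eq, mul_assoc]
      | zero => simp
      | add b c _ _ h1 h2 => rw [mul_add, map_add, map_add, h1, h2, mul_add]
      | neg b _ h1 => rw [mul_neg, map_neg, map_neg, h1, mul_neg]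
    | zero => simp
    | add a c _ _ h1 h2 => rw [add_mul, map_add, map_add, h1, h2, add_mul]
    | neg a _ h1 => rw [neg_mul, map_neg, map_neg, h1, neg_mul]
  refine ⟨{ F with map_one' := ?_, map_mul' := hmul }, hF⟩
  have := hF []
  rw [P.w_nil] at this
  simpa using this

theorem theta_good {T : Matrix (Fin q) (Fin q) A} {θ : A →+* Matrix (Fin q) (Fin q) A}
    (hθ : ∀ u, θ (P.w u) = T ^ u.length * Matrix.scalar (Fin q) (P.w u)) : Good P.K θ := by
  have h1 : ∀ u, u ≠ [] → ∀ l l', θ (P.w u) l l' ∈ P.K.J := by
    intro u hu l l'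
    rw [hθ, Matrix.scalar_apply, Matrix.mul_diagonal]
    exact P.K.mul_left _ _ (P.w_mem u hu)
  constructor
  · intro a l l' hl
    induction P.span_top a using AddSubgroup.closure_induction with
    | mem a ha =>
      obtain ⟨u, rfl⟩ := ha
      by_cases hu : u = []
      · rw [hu, P.w_nil, map_one, Matrix.one_apply_ne hl]
        exact zero_mem _
      · exact h1 u hu l l'
    | zero => simp
    | add a c _ _ h1 h2 => rw [map_add]; exact add_mem h1 h2
    | neg a _ h1 => rw [map_neg]; exact neg_mem h1
  · intro a ha l l'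
    have := P.span_J a ha
    clear ha
    induction this using AddSubgroup.closure_induction with
    | mem a ha =>
      obtain ⟨u, hu, rfl⟩ := ha
      exact h1 u hu l l'
    | zero => simp
    | add a c _ _ h1 h2 => rw [map_add]; exact add_mem h1 h2
    | neg a _ h1 => rw [map_neg]; exact neg_mem h1

theorem theta_conj {T T' Pm : Matrix (Fin q) (Fin q) A}
    {θ θ' : A →+* Matrix (Fin q) (Fin q) A}
    (hθ : ∀ u, θ (P.w u) = T ^ u.length * Matrix.scalar (Fin q) (P.w u))
    (hθ' : ∀ u, θ' (P.w u) = T' ^ u.length * Matrix.scalar (Fin q) (P.w u))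
    (hPm : ∀ a, Commute (Matrix.scalar (Fin q) a) Pm) (h : Pm * T' = T * Pm) (a : A) :
    θ a * Pm = Pm * θ' a := by
  induction P.span_top a using AddSubgroup.closure_induction with
  | mem a ha =>
    obtain ⟨u, rfl⟩ := ha
    have h2 : Pm * T' ^ u.length = T ^ u.length * Pm := (SemiconjBy.pow_right h u.length).eq
    rw [hθ, hθ', mul_assoc, (hPm _).eq, ← mul_assoc, ← h2, mul_assoc]
  | zero => simp
  | add a c _ _ h1 h2 => rw [map_add, map_add, add_mul, mul_add, h1, h2]
  | neg a _ h1 => rw [map_neg, map_neg, neg_mul, mul_neg, h1]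

theorem pow_tri {T : Matrix (Fin q) (Fin q) A}
    (hT : ∀ l l', l ≤ l' → T l l' = (1 : Matrix (Fin q) (Fin q) A) l l') (n : ℕ) :
    ∀ l l', l ≤ l' → (T ^ n) l l' = (1 : Matrix (Fin q) (Fin q) A) l l' := by
  induction n with
  | zero => intro l l' _; rw [pow_zero]
  | succ n ih =>
    intro l l' hl
    rw [pow_succ, Matrix.mul_apply, Finset.sum_eq_single l]
    · rw [ih l l le_rfl, hT l l' hl, Matrix.one_apply_eq, one_mul]
    · intro m _ hm
      rcases lt_or_gt_of_ne hm with h | h
      · rw [hT m l' (h.le.trans hl), Matrix.one_apply_ne (h.trans_le hl).ne, mul_zero]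
      · rw [ih l m h.le, Matrix.one_apply_ne h.ne, zero_mul]
    · simp

theorem theta_tri {T : Matrix (Fin q) (Fin q) A} {θ : A →+* Matrix (Fin q) (Fin q) A}
    (hθ : ∀ u, θ (P.w u) = T ^ u.length * Matrix.scalar (Fin q) (P.w u))
    (hT : ∀ l l', l ≤ l' → T l l' = (1 : Matrix (Fin q) (Fin q) A) l l') (a : A)
    (l l' : Fin q) (hl : l ≤ l') : θ a l l' = Matrix.scalar (Fin q) a l l' := by
  induction P.span_top a using AddSubgroup.closure_induction with
  | mem a ha =>
    obtain ⟨u, rfl⟩ := ha
    rw [hθ, Matrix.scalar_apply, Matrix.mul_diagonal, pow_tri hT _ l l' hl, Matrix.one_apply,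
      Matrix.diagonal_apply]
    split_ifs <;> simp
  | zero => simp
  | add a c _ _ h1 h2 => rw [map_add, map_add, Matrix.add_apply, Matrix.add_apply, h1, h2]
  | neg a _ h1 => rw [map_neg, map_neg, Matrix.neg_apply, Matrix.neg_apply, h1]

end theta

/-- The cyclic shift. -/
def cyc (A : Type) [Ring A] (q : ℕ) : Matrix (Fin q) (Fin q) A :=
  Matrix.of fun l l' => if l.val = l'.val + 1 ∨ (l.val = 0 ∧ l'.val + 1 = q) then 1 else 0

/-- The unipotent Jordan block. -/
def jor (A : Type) [Ring A] (q : ℕ) : Matrix (Fin q) (Fin q) A :=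
  Matrix.of fun l l' => if l = l' ∨ l.val = l'.val + 1 then 1 else 0

/-- The Pascal matrix. -/
def pas (A : Type) [Ring A] (q : ℕ) : Matrix (Fin q) (Fin q) A :=
  Matrix.of fun l i => ((i.val.choose l.val : ℕ) : A)

theorem commute_scalar {M : Matrix (Fin q) (Fin q) A} (h : ∀ l l' a, Commute a (M l l')) (a : A) :
    Commute (Matrix.scalar (Fin q) a) M := by
  refine Matrix.ext fun l l' => ?_
  rw [Matrix.scalar_apply, Matrix.diagonal_mul, Matrix.mul_diagonal]
  exact (h l l' a).eq

theorem cyc_comm (a : A) : Commute (Matrix.scalar (Fin q) a) (cyc A q) :=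
  commute_scalar (fun l l' a => by
    unfold cyc
    rw [Matrix.of_apply]
    split_ifs
    · exact Commute.one_right a
    · exact Commute.zero_right a) a

theorem jor_comm (a : A) : Commute (Matrix.scalar (Fin q) a) (jor A q) :=
  commute_scalar (fun l l' a => by
    unfold jor
    rw [Matrix.of_apply]
    split_ifs
    · exact Commute.one_right a
    · exact Commute.zero_right a) a

theorem pas_comm (a : A) : Commute (Matrix.scalar (Fin q) a) (pas A q) :=
  commute_scalar (fun _ _ a => (Nat.cast_commute _ a).symm) a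

theorem jor_tri (l l' : Fin q) (h : l ≤ l') : jor A q l l' = (1 : Matrix (Fin q) (Fin q) A) l l' := by
  unfold jor
  rw [Matrix.of_apply, Matrix.one_apply]
  have : ¬ l.val = l'.val + 1 := by
    have : l.val ≤ l'.val := h
    omega
  simp [this]

theorem pas_tri (l l' : Fin q) (h : l' ≤ l) : pas A q l l' = (1 : Matrix (Fin q) (Fin q) A) l l' := by
  unfold pas
  rw [Matrix.of_apply, Matrix.one_apply]
  split_ifs with h1
  · simp [h1]
  · rw [Nat.choose_eq_zero_of_lt (lt_of_le_of_ne h (fun e => h1 (Fin.ext e).symm)), Nat.cast_zero]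

include K in
theorem pas_jor (k : ℕ) (hk : 1 < 2 ^ k) :
    pas A (2 ^ k) * jor A (2 ^ k) = cyc A (2 ^ k) * pas A (2 ^ k) := by
  have hdvd : ∀ l, l ≠ 0 → l ≠ 2 ^ k → (((2 ^ k).choose l : ℕ) : A) = 0 := by
    intro l h0 h1
    obtain ⟨c, hc⟩ := Nat.prime_two.dvd_choose_pow h0 h1
    rw [hc, Nat.cast_mul, Nat.cast_ofNat, two_mul, K.two]
  generalize 2 ^ k = q at hk hdvd
  refine Matrix.ext fun l i => ?_
  have hL : (pas A q * jor A q) l i =
      ((i.val.choose l.val : ℕ) : A) + if i.val + 1 < q then (((i.val + 1).choose l.val : ℕ) : A)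
        else 0 := by
    rw [Matrix.mul_apply]
    split_ifs with h
    · rw [Finset.sum_eq_add i ⟨i.val + 1, h⟩]
      · simp [pas, jor]
      · intro e
        have := congrArg Fin.val e
        simp at this
      · intro c _ hc
        have : ¬ c.val = i.val + 1 := fun e => hc.2 (Fin.ext e)
        simp [jor, hc.1, this]
      · simp
      · simp
    · rw [Finset.sum_eq_single i]
      · simp [pas, jor]
      · intro c _ hc
        have : ¬ c.val = i.val + 1 := by have := c.2; omega
        simp [jor, hc, this]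
      · simp
  have hR : (cyc A q * pas A q) l i =
      ((i.val.choose (if l.val = 0 then q - 1 else l.val - 1) : ℕ) : A) := by
    have hl := l.2
    rw [Matrix.mul_apply, Finset.sum_eq_single
      (⟨if l.val = 0 then q - 1 else l.val - 1, by split_ifs <;> omega⟩ : Fin q)]
    · have : l.val = (if l.val = 0 then q - 1 else l.val - 1) + 1 ∨
          (l.val = 0 ∧ (if l.val = 0 then q - 1 else l.val - 1) + 1 = q) := by
        split_ifs <;> omega
      simp only [cyc, pas, Matrix.of_apply, if_pos this, one_mul]
    · intro c _ hc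
      have : ¬ (l.val = c.val + 1 ∨ (l.val = 0 ∧ c.val + 1 = q)) := by
        intro h
        apply hc
        apply Fin.ext
        change c.val = if l.val = 0 then q - 1 else l.val - 1
        split_ifs <;> omega
      simp only [cyc, Matrix.of_apply, if_neg this, zero_mul]
    · simp
  rw [hL, hR]
  have hl := l.2
  have hi := i.2
  by_cases h0 : l.val = 0
  · rw [if_pos h0, h0, Nat.choose_zero_right, Nat.choose_zero_right]
    split_ifs with h
    · rw [K.two, Nat.choose_eq_zero_of_lt (by omega), Nat.cast_zero]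
    · have : i.val = q - 1 := by omega
      rw [this, Nat.choose_self, add_zero]
  · rw [if_neg h0]
    obtain ⟨m, hm⟩ := Nat.exists_eq_succ_of_ne_zero h0
    rw [hm, Nat.succ_sub_one]
    have hp : (((i.val + 1).choose (m + 1) : ℕ) : A) =
        (i.val.choose m : ℕ) + (i.val.choose (m + 1) : ℕ) := by
      rw [Nat.choose_succ_succ, Nat.cast_add]
    split_ifs with h
    · rw [hp, add_left_comm, K.two, add_zero]
    · have e : i.val + 1 = q := by omega
      rw [e, hdvd _ (by omega) (by omega)] at hp
      rw [add_zero]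
      have := K.two ((i.val.choose m : ℕ) : A)
      exact add_left_cancel (hp.symm.trans this.symm)

end Vale.Agent.P192.Cover
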