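import Vale.Agent.P192.StBasic

/-!
P192, group side, part B1: rank one formula, torus elements, Gauss decomposition, central kernel.
-/

namespace Vale.Agent.P192

open scoped commutatorElement Matrix

variable {A : Type} [Ring A] (K : Coef A) {ι : Type} [LinearOrder ι] [Fintype ι]

namespace StDiag

omit [Fintype ι] in
theorem adm_mul {i j : ι} {a : A} (h : Adm K i j a) (p q : A) : Adm K i j (p * a * q) :=
  ⟨h.1, h.2.imp id fun h => K.mul_right _ _ (K.mul_left _ _ h)⟩

omit [Fintype ι] in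
theorem adm_mul_left {i j : ι} {a : A} (h : Adm K i j a) (p : A) : Adm K i j (p * a) := by
  simpa using adm_mul K h p 1

omit [Fintype ι] in
theorem adm_mul_right {i j : ι} {a : A} (h : Adm K i j a) (q : A) : Adm K i j (a * q) := by
  simpa using adm_mul K h 1 q

theorem pi_inv_diag {t : St K ι} {u : ι → Aˣ} (h : pi K t = Matrix.diagonal fun i => (u i : A)) :
    pi K t⁻¹ = Matrix.diagonal fun i => (((u i)⁻¹ : Aˣ) : A) := by
  have h1 : (Matrix.diagonal fun i => (((u i)⁻¹ : Aˣ) : A)) * pi K t = 1 := by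
    rw [h, Matrix.diagonal_mul_diagonal]
    simp
  rw [← one_mul (pi K t⁻¹), ← h1, mul_assoc, pi_mul_inv, mul_one]

end StDiag

open StDiag

theorem isDiag_one : IsDiag K (1 : St K ι) 1 := ⟨by simp, fun i j a _ => by simp⟩

theorem IsDiag.mul {t t' : St K ι} {u u' : ι → Aˣ} (h : IsDiag K t u) (h' : IsDiag K t' u') :
    IsDiag K (t * t') (u * u') := by
  refine ⟨by rw [map_mul, h.1, h'.1, Matrix.diagonal_mul_diagonal]; rfl, fun i j a ha => ?_⟩
  have : t * t' * x K i j a * (t * t')⁻¹ = t * (t' * x K i j a * t'⁻¹) * t⁻¹ := by group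
  rw [this, h'.2 i j a ha, h.2 i j _ (adm_mul K ha _ _)]
  simp [mul_assoc]

theorem IsDiag.inv {t : St K ι} {u : ι → Aˣ} (h : IsDiag K t u) : IsDiag K t⁻¹ u⁻¹ := by
  refine ⟨pi_inv_diag K h.1, fun i j a ha => ?_⟩
  have h1 := h.2 i j _ (adm_mul K ha ((u i)⁻¹ : Aˣ) (u j))
  simp only [mul_assoc, Units.mul_inv_cancel_left, Units.mul_inv, mul_one] at h1
  rw [← h1]
  simp [mul_assoc]

theorem IsDiag.conj_gen {t : St K ι} {u : ι → Aˣ} (h : IsDiag K t u) {P : ι → ι → Prop}
    {s : St K ι} (hs : s ∈ gen K P) : t * s * t⁻¹ ∈ gen K P := by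
  refine gen_induction K (C := fun s => t * s * t⁻¹ ∈ gen K P) (by simp) ?_ hs
  intro i j a g hP ha _ hg
  have : t * (x K i j a * g) * t⁻¹ = (t * x K i j a * t⁻¹) * (t * g * t⁻¹) := by group
  rw [this, h.2 i j a ha]
  exact mul_mem (x_mem_gen K _ hP) hg

theorem IsDiag.conj_row {t : St K ι} {u : ι → Aˣ} (h : IsDiag K t u) {i : ι} {r : ι → A}
    (hr : RowAdm K i r) :
    RowAdm K i (fun m => u i * r m * ((u m)⁻¹ : Aˣ)) ∧
      t * row K i r * t⁻¹ = row K i (fun m => u i * r m * ((u m)⁻¹ : Aˣ)) := by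
  refine ⟨⟨by simp [hr.1], fun m hm => adm_mul K (hr.2 m hm) _ _⟩, ?_⟩
  refine (Finset.map_noncommProd _ _ _ (MulAut.conj t).toMonoidHom).trans ?_
  refine Finset.noncommProd_congr rfl (fun m _ => ?_) _
  change t * x K i m (r m) * t⁻¹ = x K i m (u i * r m * ((u m)⁻¹ : Aˣ))
  by_cases hm : m = i
  · rw [hm, hr.1, mul_zero, zero_mul, x_zero, mul_one, mul_inv_cancel]
  · exact h.2 i m _ (hr.2 m hm)

namespace StDiag

/-- The torus element of the rank one formula. -/
def HH (i j : ι) (a b : A) (w : Aˣ) : St K ι :=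
  x K j i (b * (w⁻¹ : Aˣ)) * x K i j a * x K j i b * x K i j ((w⁻¹ : Aˣ) * a)

omit [Fintype ι] in
theorem HH_spec (i j : ι) (a b : A) (w : Aˣ) :
    x K i j a * x K j i b = x K j i (b * (w⁻¹ : Aˣ)) * HH K i j a b w * x K i j ((w⁻¹ : Aˣ) * a) := by
  unfold HH
  simp only [← mul_assoc, x_mul_self, one_mul]
  rw [mul_assoc _ _ (x K i j ((w⁻¹ : Aˣ) * a)), x_mul_self, mul_one]

omit [Fintype ι] in
theorem unit_left {i j : ι} {a b : A} (ha : Adm K i j a) (hb : Adm K j i b) :
    ∃ w : Aˣ, (w : A) = 1 + a * b := by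
  have : a * b ∈ K.J := by
    rcases ha.2 with h | h
    · exact K.mul_left _ _ (hb.2.resolve_left h.not_gt)
    · exact K.mul_right _ _ h
  exact K.unit _ this

theorem swap_inv {a b : A} {w w' : Aˣ} (hw : (w : A) = 1 + a * b) (hw' : (w' : A) = 1 + b * a) :
    a * (w'⁻¹ : Aˣ) = (w⁻¹ : Aˣ) * a := by
  rw [Units.mul_inv_eq_iff_eq_mul, mul_assoc, Units.eq_inv_mul_iff_mul_eq, hw, hw']
  noncomm_ring

include K in
theorem inv_eq {a b : A} {w w' : Aˣ} (hw : (w : A) = 1 + a * b) (hw' : (w' : A) = 1 + b * a) :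
    ((w'⁻¹ : Aˣ) : A) = 1 + b * (w⁻¹ : Aˣ) * a := by
  rw [mul_assoc, ← swap_inv hw hw', ← mul_assoc, ← Units.mul_inv w', ← add_mul, hw', add_assoc,
    K.two, add_zero, one_mul]

theorem pi_HH {i j : ι} {a b : A} (ha : Adm K i j a) (hb : Adm K j i b) {w w' : Aˣ}
    (hw : (w : A) = 1 + a * b) (hw' : (w' : A) = 1 + b * a) :
    pi K (HH K i j a b w) = Matrix.diagonal fun s =>
      ((Function.update (Function.update (1 : ι → Aˣ) i w) j w'⁻¹ s : Aˣ) : A) := by
  have hij := ha.1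
  have e1 : (1 + Matrix.single j i (b * (w⁻¹ : Aˣ))) * (1 + Matrix.single i j a) *
      (1 + Matrix.single j i b) = 1 + Matrix.single i i (a * b) + Matrix.single i j a +
        Matrix.single j j (b * (w⁻¹ : Aˣ) * a) := by
    have : Matrix.single j i (b * (w⁻¹ : Aˣ)) + Matrix.single j i (b * (w⁻¹ : Aˣ) * a * b) +
        Matrix.single j i b = 0 := by
      rw [← Matrix.single_add, ← Matrix.single_add, mul_assoc _ a b, ← mul_one_add, ← hw,
        Units.inv_mul_cancel_right, K.two, Matrix.single_zero]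
    simp only [add_mul, mul_add, one_mul, mul_one, Matrix.single_mul_single_same,
      Matrix.single_mul_single_of_ne _ _ _ _ hij]
    refine Eq.trans ?_ ((congrArg (_ + ·) this).trans (add_zero _))
    abel
  have e2 : (1 + Matrix.single i i (a * b) + Matrix.single i j a +
        Matrix.single j j (b * (w⁻¹ : Aˣ) * a)) * (1 + Matrix.single i j ((w⁻¹ : Aˣ) * a)) =
      1 + Matrix.single i i (a * b) + Matrix.single j j (b * (w⁻¹ : Aˣ) * a) := by
    have : Matrix.single i j ((w⁻¹ : Aˣ) * a) + Matrix.single i j (a * b * ((w⁻¹ : Aˣ) * a)) +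
        Matrix.single i j a = 0 := by
      rw [← Matrix.single_add, ← Matrix.single_add, ← one_add_mul, ← hw,
        Units.mul_inv_cancel_left, K.two, Matrix.single_zero]
    simp only [add_mul, mul_add, one_mul, mul_one, Matrix.single_mul_single_same,
      Matrix.single_mul_single_of_ne _ _ _ _ hij.symm]
    refine Eq.trans ?_ ((congrArg (_ + ·) this).trans (add_zero _))
    abel
  unfold HH
  rw [map_mul, map_mul, map_mul, pi_x K ha, pi_x K hb, pi_x K (adm_mul_right K hb _),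
    pi_x K (adm_mul_left K ha _), e1, e2]
  ext s t
  simp only [Matrix.add_apply, Matrix.one_apply, Matrix.single_apply, Matrix.diagonal_apply]
  by_cases hst : s = t
  · subst hst
    by_cases h1 : j = s
    · subst h1
      simp [hij, inv_eq K hw hw']
    · by_cases h2 : i = s
      · subst h2
        simp [h1, hij, hw]
      · simp [h1, h2, Ne.symm h1, Ne.symm h2]
  · have h1 : ∀ k, ¬ (k = s ∧ k = t) := fun k h => hst (h.1.symm.trans h.2)
    simp [hst, h1]

/-- The rank one formula holds for the pair `i, j`. -/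
def DD (i j : ι) : Prop := ∀ (a b : A) (w : Aˣ), Adm K i j a → Adm K j i b → (w : A) = 1 + a * b →
  ∃ u, IsDiag K (HH K i j a b w) u

theorem DD_refl (i : ι) : DD K i i := fun _ _ _ h => absurd rfl h.1

theorem DD_symm {i j : ι} (h : DD K i j) : DD K j i := by
  intro b a w' hb ha hw'
  obtain ⟨w, hw⟩ := unit_left K ha hb
  obtain ⟨u, hu⟩ := h a b w ha hb hw
  refine ⟨u⁻¹, ?_⟩
  have : HH K j i b a w' = (HH K i j a b w)⁻¹ := by
    unfold HH
    simp only [mul_inv_rev, x_inv, mul_assoc]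
    rw [swap_inv hw hw', swap_inv hw' hw]
  rw [this]
  exact hu.inv K

/-- Every admissible coefficient of `(i, j)` factors through `k`. -/
def Fac (i k j : ι) : Prop :=
  ∀ a, Adm K i j a → ∃ p q, Adm K i k p ∧ Adm K k j q ∧ p * q = a

omit [Fintype ι] in
theorem fac_between {i k j : ι} (h1 : i < k) (h2 : k < j) : Fac K i k j := fun a _ =>
  ⟨a, 1, ⟨h1.ne, Or.inl h1⟩, ⟨h2.ne, Or.inl h2⟩, mul_one a⟩

omit [Fintype ι] in
theorem fac_above {i k j : ι} (h1 : j < i) (h2 : i < k) : Fac K i k j := fun a ha =>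
  ⟨1, a, ⟨h2.ne, Or.inl h2⟩, ⟨(h1.trans h2).ne', Or.inr (ha.2.resolve_left h1.not_gt)⟩, one_mul a⟩

omit [Fintype ι] in
theorem fac_below {i k j : ι} (h1 : j < i) (h2 : k < j) : Fac K i k j := fun a ha =>
  ⟨a, 1, ⟨(h2.trans h1).ne', Or.inr (ha.2.resolve_left h1.not_gt)⟩, ⟨h2.ne, Or.inl h2⟩, mul_one a⟩

theorem act_row {g : St K ι} {u : ι → Aˣ} (h : pi K g = Matrix.diagonal fun i => (u i : A))
    {k : ι} (hg : g ∈ gen K fun _ l => l ≠ k) (hu : u k = 1) {l : ι} {c : A} (hc : Adm K k l c) :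
    g * x K k l c * g⁻¹ = x K k l (u k * c * ((u l)⁻¹ : Aˣ)) := by
  rw [← row_single, (conj_row K hg (RowAdm.single K hc)).2, pi_inv_diag K h, ← row_single, hu]
  congr 1
  funext m
  rw [Matrix.vecMul_diagonal]
  by_cases hm : m = l
  · simp [hm]
  · simp [hm]

theorem act_col {g : St K ι} {u : ι → Aˣ} (h : pi K g = Matrix.diagonal fun i => (u i : A))
    {l : ι} (hg : g ∈ gen K fun k _ => k ≠ l) (hu : u l = 1) {k : ι} {c : A} (hc : Adm K k l c) :
    g * x K k l c * g⁻¹ = x K k l (u k * c * ((u l)⁻¹ : Aˣ)) := by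
  rw [← col_single, (conj_col K hg (ColAdm.single K hc)).2, h, ← col_single, hu]
  congr 1
  funext m
  rw [Matrix.mulVec_diagonal]
  by_cases hm : m = k
  · simp [hm]
  · simp [hm]

omit [Fintype ι] in
theorem act_fac {g : St K ι} {u : ι → Aˣ} {i k j : ι} (hf : Fac K i k j)
    (h1 : ∀ c, Adm K i k c → g * x K i k c * g⁻¹ = x K i k (u i * c * ((u k)⁻¹ : Aˣ)))
    (h2 : ∀ c, Adm K k j c → g * x K k j c * g⁻¹ = x K k j (u k * c * ((u j)⁻¹ : Aˣ)))
    {c : A} (hc : Adm K i j c) : g * x K i j c * g⁻¹ = x K i j (u i * c * ((u j)⁻¹ : Aˣ)) := by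
  obtain ⟨p, q, hp, hq, rfl⟩ := hf c hc
  rw [← (isFam_x K).bra i k j p q hp hq hc.1, conjugate_commutatorElement, h1 p hp, h2 q hq,
    (isFam_x K).bra i k j _ _ (adm_mul K hp _ _) (adm_mul K hq _ _) hc.1]
  simp [mul_assoc]

theorem DD_easy {i j k k' : ι} (h1 : Fac K i k j) (h2 : Fac K j k' i) : DD K i j := by
  intro a b w ha hb hw
  obtain ⟨w', hw'⟩ := unit_left K hb ha
  have hpi := pi_HH K ha hb hw hw'
  have hmem : HH K i j a b w ∈ gen K fun s t => (s = i ∨ s = j) ∧ (t = i ∨ t = j) := by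
    unfold HH
    refine mul_mem (mul_mem (mul_mem ?_ ?_) ?_) ?_ <;> exact x_mem_gen K _ (by simp)
  have hu : ∀ s, s ≠ i → s ≠ j →
      Function.update (Function.update (1 : ι → Aˣ) i w) j w'⁻¹ s = 1 := fun s h h' => by
    simp [h, h']
  have hr : ∀ s, s ≠ i → s ≠ j → ∀ t c, Adm K s t c → _ := fun s h h' t c hc =>
    act_row K hpi (gen_mono K (fun _ _ hh => by
      rintro rfl; exact hh.2.elim h h') hmem) (hu s h h') hc
  have hc : ∀ t, t ≠ i → t ≠ j → ∀ s c, Adm K s t c → _ := fun t h h' s c hc =>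
    act_col K hpi (gen_mono K (fun _ _ hh => by
      rintro rfl; exact hh.1.elim h h') hmem) (hu t h h') hc
  obtain ⟨_, _, hp, hq, -⟩ := h1 a ha
  obtain ⟨_, _, hp', hq', -⟩ := h2 b hb
  refine ⟨_, hpi, fun s t c hst => ?_⟩
  by_cases hsi : s = i
  · by_cases htj : t = j
    · subst hsi htj
      exact act_fac K h1 (hc k hp.1.symm hq.1 s) (hr k hp.1.symm hq.1 t) hst
    · exact hc t (hsi ▸ hst.1.symm) htj s c hst
  · by_cases hsj : s = j
    · by_cases hti : t = i
      · subst hsj hti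
        exact act_fac K h2 (hc k' hq'.1 hp'.1.symm s) (hr k' hq'.1 hp'.1.symm t) hst
      · exact hc t hti (hsj ▸ hst.1.symm) s c hst
    · exact hr s hsi hsj t c hst

theorem ldu_unique (ρ ρ' : ι → ℕ) (hρ : ∀ s t, ρ' s < ρ' t → ¬ ρ s < ρ t) {L t U : St K ι}
    {u : ι → Aˣ} {d : ι → A} (hL : L ∈ gen K fun s t => ρ' s < ρ' t)
    (hU : U ∈ gen K fun s t => ρ s < ρ t) (ht : IsDiag K t u)
    (h : pi K (L * t * U) = Matrix.diagonal d) : L = 1 ∧ U = 1 := by
  have h1 : L = 1 := by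
    refine unip_eq_one K ρ' hL (Matrix.ext fun s s' => ?_)
    by_cases hs : ρ' s < ρ' s'
    · have e : pi K L * pi K t = Matrix.diagonal d * pi K U⁻¹ := by
        rw [← h, ← map_mul, ← map_mul, mul_inv_cancel_right]
      have hne : s ≠ s' := fun e => by simp [e] at hs
      have := congrFun (congrFun e s) s'
      rw [ht.1, Matrix.mul_diagonal, Matrix.diagonal_mul,
        pi_unip_apply K ρ (inv_mem hU) (hρ _ _ hs), Matrix.one_apply_ne hne, mul_zero,
        Units.mul_left_eq_zero] at this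
      rw [this, Matrix.one_apply_ne hne]
    · exact pi_unip_apply K ρ' hL hs
  refine ⟨h1, unip_eq_one K ρ hU (Matrix.ext fun s s' => ?_)⟩
  by_cases hs : ρ s < ρ s'
  · have hne : s ≠ s' := fun e => by simp [e] at hs
    have := congrFun (congrFun h s) s'
    rw [h1, one_mul, map_mul, ht.1, Matrix.diagonal_mul, Matrix.diagonal_apply_ne _ hne,
      Units.mul_right_eq_zero] at this
    rw [this, Matrix.one_apply_ne hne]
  · exact pi_unip_apply K ρ hU hs

/-- The big cell. -/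
def Cell (Q P : ι → ι → Prop) (g : St K ι) : Prop :=
  ∃ L ∈ gen K Q, ∃ t u, IsDiag K t u ∧ ∃ U ∈ gen K P, g = L * t * U

theorem cell_step {Q Q' P : ι → ι → Prop} {p q : ι} (hD : DD K p q) (hP : P p q) (hQ : Q q p)
    (hQ' : ∀ s t, Q' s t → Q s t) (hdec : ∀ s t, Q s t → (s = q ∧ t = p) ∨ Q' s t)
    (hnorm : ∀ g ∈ gen K fun s t => (s = p ∧ t = q) ∨ (s = q ∧ t = p), ∀ L ∈ gen K Q',
      g * L * g⁻¹ ∈ gen K Q')
    {a : A} (ha : Adm K p q a) {g : St K ι} (hg : Cell K Q P g) :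
    Cell K Q P (x K p q a * g) := by
  obtain ⟨L, hL, t, u, ht, U, hU, rfl⟩ := hg
  obtain ⟨c, hc, L', hL', rfl⟩ : ∃ c, Adm K q p c ∧ ∃ L' ∈ gen K Q', L = x K q p c * L' := by
    refine gen_induction K (C := fun L => ∃ c, Adm K q p c ∧ ∃ L' ∈ gen K Q', L = x K q p c * L')
      ⟨0, ⟨ha.1.symm, Or.inr K.J.zero_mem⟩, 1, one_mem _, by rw [x_zero, one_mul]⟩ ?_ hL
    rintro s s' e _ hs he - ⟨c, hc, L', hL', rfl⟩
    rcases hdec s s' hs with ⟨rfl, rfl⟩ | h
    · exact ⟨e + c, he.add K hc, L', hL', by rw [x_add K he hc, mul_assoc]⟩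
    · refine ⟨c, hc, _, mul_mem (hnorm _ (x_mem_gen K c (Or.inr ⟨rfl, rfl⟩)) _
        (x_mem_gen K e h)) hL', ?_⟩
      rw [x_inv]
      simp only [← mul_assoc, x_mul_self, one_mul]
  obtain ⟨w, hw⟩ := unit_left K ha hc
  obtain ⟨v, hv⟩ := hD a c w ha hc hw
  refine ⟨_, mul_mem (x_mem_gen K (c * (w⁻¹ : Aˣ)) hQ) (hv.conj_gen K (gen_mono K hQ' (hnorm _
    (x_mem_gen K ((w⁻¹ : Aˣ) * a) (Or.inl ⟨rfl, rfl⟩)) L' hL'))), _, _, hv.mul K ht, _,
    mul_mem ((ht.inv K).conj_gen K (x_mem_gen K ((w⁻¹ : Aˣ) * a) hP)) hU, ?_⟩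
  rw [← mul_assoc, ← mul_assoc, ← mul_assoc, HH_spec K p q a c w]
  group

theorem DD_tri {i k j : ι} (hf : Fac K i k j) (h1 : DD K i k) (h2 : DD K k j) : DD K i j := by
  intro a b w ha hb hw
  obtain ⟨p, q, hp, hq, rfl⟩ := hf a ha
  have hik := hp.1
  have hkj := hq.1
  have hij := ha.1
  let ρ : ι → ℕ := fun s => if s = i then 0 else if s = k then 1 else 2
  let Q : ι → ι → Prop := fun s t => (s = k ∧ t = i) ∨ (s = j ∧ t = k) ∨ (s = j ∧ t = i)
  have ρi : ρ i = 0 := by simp [ρ]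
  have ρk : ρ k = 1 := by simp [ρ, hik.symm]
  have ρj : ρ j = 2 := by simp [ρ, hij.symm, hkj.symm]
  have s1 : ∀ g, Cell K Q (fun s t => ρ s < ρ t) g →
      Cell K Q (fun s t => ρ s < ρ t) (x K i k p * g) := fun g hg =>
    cell_step K (Q' := fun s t => s = j ∧ (t = k ∨ t = i)) h1 (by simp [ρi, ρk]) (by simp [Q])
      (by grind) (by grind) (fun g hg L hL => gen_normalizes' K (by grind) (by grind) (by grind)
        hg hL) hp hg
  have s2 : ∀ g, Cell K Q (fun s t => ρ s < ρ t) g →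
      Cell K Q (fun s t => ρ s < ρ t) (x K k j q * g) := fun g hg =>
    cell_step K (Q' := fun s t => (s = k ∨ s = j) ∧ t = i) h2 (by simp [ρj, ρk]) (by simp [Q])
      (by grind) (by grind) (fun g hg L hL => gen_normalizes' K (by grind) (by grind) (by grind)
        hg hL) hq hg
  have s0 : Cell K Q (fun s t => ρ s < ρ t) (x K j i b) :=
    ⟨x K j i b, x_mem_gen K b (by simp [Q]), 1, 1, isDiag_one K, 1, one_mem _, by simp⟩
  obtain ⟨L, hL, t, u, ht, U, hU, e⟩ := s1 _ (s2 _ (s1 _ (s2 _ s0)))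
  have e1 : HH K i j (p * q) b w = (x K j i (b * (w⁻¹ : Aˣ)) * L) * t *
      (U * x K i j ((w⁻¹ : Aˣ) * (p * q))) := by
    unfold HH
    rw [← (isFam_x K).bra i k j p q hp hq hij, commutatorElement_def, x_inv, x_inv]
    simp only [mul_assoc] at e ⊢
    rw [← mul_assoc t, ← mul_assoc L, ← e]
    simp only [mul_assoc]
  obtain ⟨w', hw'⟩ := unit_left K hb ha
  have hQ : ∀ s t, Q s t → 2 - ρ s < 2 - ρ t := by
    rintro s t (⟨rfl, rfl⟩ | ⟨rfl, rfl⟩ | ⟨rfl, rfl⟩) <;> simp [ρi, ρk, ρj]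
  obtain ⟨e2, e3⟩ := ldu_unique K ρ (fun s => 2 - ρ s) (fun s t => by omega)
    (gen_mono K hQ (mul_mem (x_mem_gen K _ (by simp [Q])) hL))
    (mul_mem hU (x_mem_gen K _ (by simp [ρi, ρj]))) ht (e1 ▸ pi_HH K ha hb hw hw')
  rw [e1, e2, e3, one_mul, mul_one]
  exact ⟨u, ht⟩

theorem DD_trans {i k j : ι} (h1 : DD K i k) (h2 : DD K k j) : DD K i j := by
  have key : ∀ {i j : ι}, i < j → i ≠ k → j ≠ k → DD K i k → DD K k j → DD K i j := by
    intro i j hij hik hjk h1 h2
    rcases lt_or_gt_of_ne hik with h | h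
    · rcases lt_or_gt_of_ne hjk with h' | h'
      · exact DD_symm K (DD_tri K (fac_above K hij h') (DD_symm K h2) (DD_symm K h1))
      · exact DD_tri K (fac_between K h h') h1 h2
    · exact DD_symm K (DD_tri K (fac_below K hij h) (DD_symm K h2) (DD_symm K h1))
  by_cases hik : i = k
  · exact hik ▸ h2
  by_cases hjk : j = k
  · exact hjk ▸ h1
  rcases lt_trichotomy i j with h | h | h
  · exact key h hik hjk h1 h2
  · exact h ▸ DD_refl K i
  · exact DD_symm K (key h hjk hik (DD_symm K h2) (DD_symm K h1))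

theorem DD_all (h5 : Five ι) (i j : ι) : DD K i j := by
  obtain ⟨a, b, c, d, e, hab, hbc, hcd, hde⟩ := h5
  have hac : DD K a c := DD_easy K (fac_between K hab hbc) (fac_above K (hab.trans hbc) hcd)
  have hce : DD K c e := DD_easy K (fac_between K hcd hde) (fac_below K (hcd.trans hde) hbc)
  have key : ∀ i, DD K i c := by
    intro i
    rcases lt_or_ge i b with h | h
    · exact DD_easy K (fac_between K h hbc) (fac_above K (h.trans hbc) hcd)
    rcases le_or_gt i c with h' | h'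
    · exact DD_trans K (DD_easy K (fac_between K (h'.trans_lt hcd) hde)
        (fac_below K ((h'.trans_lt hcd).trans hde) (hab.trans_le h))) (DD_symm K hce)
    rcases le_or_gt i d with h'' | h''
    · exact DD_trans K (DD_symm K (DD_easy K (fac_between K hab (hbc.trans h'))
        (fac_above K (hab.trans (hbc.trans h')) (h''.trans_lt hde)))) hac
    · exact DD_symm K (DD_easy K (fac_between K hcd h'') (fac_below K h' hbc))
  exact DD_trans K (key i) (DD_symm K (key j))

end StDiag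

/-- The rank one formula. -/
theorem rank_one (h5 : Five ι) {i j : ι} {a b : A} (ha : Adm K i j a) (hb : Adm K j i b) :
    ∃ (t : St K ι) (w w' : Aˣ), (w : A) = 1 + a * b ∧ (w' : A) = 1 + b * a ∧
      IsDiag K t (Function.update (Function.update 1 i w) j w'⁻¹) ∧
      x K i j a * x K j i b = x K j i (b * (w⁻¹ : Aˣ)) * t * x K i j ((w⁻¹ : Aˣ) * a) := by
  obtain ⟨w, hw⟩ := unit_left K ha hb
  obtain ⟨w', hw'⟩ := unit_left K hb ha
  obtain ⟨u, hu⟩ := DD_all K h5 i j a b w ha hb hw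
  refine ⟨_, w, w', hw, hw', ?_, HH_spec K i j a b w⟩
  have : u = Function.update (Function.update (1 : ι → Aˣ) i w) j w'⁻¹ := by
    funext s
    exact Units.ext (congrFun (Matrix.diagonal_injective
      (hu.1.symm.trans (pi_HH K ha hb hw hw'))) s)
  exact this ▸ hu

/-- Gauss decomposition relative to one index. -/
theorem gauss (h5 : Five ι) (T : Set ι) (o : ι) {g : St K ι} (hg : g ∈ gen K (fun k _ => k ∈ T)) :
    ∃ (r : ι → A) (t : St K ι) (u : ι → Aˣ) (s : St K ι), RowAdm K o r ∧ IsDiag K t u ∧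
      s ∈ gen K (fun k _ => k ∈ T ∧ k ≠ o) ∧ g = row K o r * t * s := by
  refine gen_induction K (C := fun g => ∃ (r : ι → A) (t : St K ι) (u : ι → Aˣ) (s : St K ι),
    RowAdm K o r ∧ IsDiag K t u ∧ s ∈ gen K (fun k _ => k ∈ T ∧ k ≠ o) ∧ g = row K o r * t * s)
    ⟨0, 1, 1, 1, ⟨rfl, fun m hm => ⟨hm.symm, Or.inr K.J.zero_mem⟩⟩, isDiag_one K, one_mem _,
      by rw [row_zero, one_mul, one_mul]⟩ ?_ hg
  rintro k l b _ hk hb - ⟨r, t, u, s, hr, ht, hs, rfl⟩
  by_cases hko : k = o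
  · subst hko
    refine ⟨_, t, u, s, (RowAdm.single K hb).add K hr, ht, hs, ?_⟩
    rw [row_add K (RowAdm.single K hb) hr, row_single]
    simp only [mul_assoc]
  by_cases hlo : l = o
  · subst hlo
    have hc := hr.2 k hko
    have hr' := (RowAdm.single K hc).add K hr
    have e : row K l r = x K l k (r k) * row K l (Pi.single k (r k) + r) := by
      rw [row_add K (RowAdm.single K hc) hr, row_single, ← mul_assoc, x_mul_self, one_mul]
    obtain ⟨t', w, w', -, -, ht', e'⟩ := rank_one K h5 hb hc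
    have hm : row K l (Pi.single k (r k) + r) ∈ gen K fun s s' => s = l ∧ s' ≠ k :=
      row_mem_gen K fun m hm => ⟨rfl, by rintro rfl; simp [K.two] at hm⟩
    have hs' := gen_normalizes' K (Q := fun s _ => s = k) (by grind) (by grind) (by grind)
      (inv_mem hm) (x_mem_gen K (j := l) ((w⁻¹ : Aˣ) * b) rfl)
    obtain ⟨hr'', e''⟩ := ht'.conj_row K hr'
    have hb' := RowAdm.single K (adm_mul_right K hc (w⁻¹ : Aˣ))
    refine ⟨_, _, _, _, hb'.add K hr'', ht'.mul K ht, mul_mem ((ht.inv K).conj_gen K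
      (gen_mono K (fun s _ h => h ▸ ⟨hk, hko⟩) hs')) hs, ?_⟩
    rw [row_add K hb' hr'', row_single, ← e'', e, ← mul_assoc, ← mul_assoc, ← mul_assoc, e']
    group
  · obtain ⟨hr', e⟩ := conj_row K (x_mem_gen K (P := fun _ l => l ≠ o) (i := k) b hlo) hr
    refine ⟨_, t, u, _, hr', ht, mul_mem ((ht.inv K).conj_gen K
      (x_mem_gen K (j := l) b ⟨hk, hko⟩)) hs, ?_⟩
    rw [← e]
    group

theorem isDiag_of_pi (h5 : Five ι) {g : St K ι} {d : ι → A} (h : pi K g = Matrix.diagonal d) :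
    ∃ u, IsDiag K g u := by
  have key : ∀ (T : Finset ι) (g : St K ι) (d : ι → A), g ∈ gen K (fun k _ => k ∈ T) →
      pi K g = Matrix.diagonal d → ∃ u, IsDiag K g u := by
    intro T
    induction T using Finset.induction_on with
    | empty =>
      intro g d hg _
      have : g = 1 := gen_induction K (C := fun g => g = 1) rfl
        (fun _ _ _ _ h => absurd h (Finset.notMem_empty _)) hg
      exact ⟨1, this ▸ isDiag_one K⟩
    | insert o T _ ih =>
      intro g d hg h
      obtain ⟨r, t, u, s, hr, ht, hs, rfl⟩ := gauss K h5 (↑(insert o T)) o hg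
      have e : pi K (row K o r) * pi K t = Matrix.diagonal d * pi K s⁻¹ := by
        rw [← h, ← map_mul, ← map_mul, mul_inv_cancel_right]
      have hr0 : r = 0 := by
        funext m
        by_cases hm : m = o
        · rw [hm]; exact hr.1
        have := congrFun (congrFun e o) m
        rw [ht.1, Matrix.mul_diagonal, Matrix.diagonal_mul, pi_row K hr,
          pi_row_fixed K (gen_mono K (fun _ _ h => h.2) (inv_mem hs)),
          Matrix.one_apply_ne' hm, mul_zero, Units.mul_left_eq_zero] at this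
        simpa [Matrix.one_apply_ne' hm] using this
      rw [hr0, row_zero, one_mul] at h ⊢
      obtain ⟨u', hu'⟩ := ih s (fun i => ((u i)⁻¹ : Aˣ) * d i)
        (gen_mono K (fun k _ hk => by simpa [hk.2] using hk.1) hs) (by
          rw [← Matrix.diagonal_mul_diagonal, ← h, ← pi_inv_diag K ht.1, ← map_mul,
            inv_mul_cancel_left])
      exact ⟨_, ht.mul K hu'⟩
  refine key Finset.univ g d ?_ h
  simp only [Finset.mem_univ, gen_true, Subgroup.mem_top]

/-- The kernel of the matrix representation is central. -/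
theorem central_of_pi (h5 : Five ι) {z : St K ι} (h : pi K z = 1) (g : St K ι) : Commute z g := by
  obtain ⟨u, hu⟩ := isDiag_of_pi K h5 (h.trans Matrix.diagonal_one.symm)
  have hu1 : ∀ i, u i = 1 := fun i => Units.ext (congrFun (Matrix.diagonal_injective
    (hu.1.symm.trans (h.trans Matrix.diagonal_one.symm))) i)
  refine St.induction K (C := fun g => Commute z g) (Commute.one_right z) ?_ g
  intro i j a g ha hg
  refine Commute.mul_right ?_ hg
  have := hu.2 i j a ha
  rw [hu1, hu1, inv_one, Units.val_one, one_mul, mul_one, mul_inv_eq_iff_eq_mul] at this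
  exact this

end Vale.Agent.P192
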