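import Vale.Agent.P192.StDefs

/-!
P192, group side, part B2a: a family that satisfies the Steinberg relations not involving the
root `(p, o)` extends to a full family.
-/

namespace Vale.Agent.P192

open scoped commutatorElement

variable {A : Type} [Ring A] (K : Coef A) {κ : Type} [LinearOrder κ]

namespace StExt

theorem hall {G : Type} [Group G] {x y z : G} (h1 : Commute x z) (h2 : Commute ⁅x, y⁆ ⁅y, z⁆) :
    ⁅x, ⁅y, z⁆⁆ = ⁅y, z⁆ * ⁅⁅x, y⁆, z⁆ * ⁅y, z⁆⁻¹ := by
  have e1 : ⁅x, ⁅y, z⁆⁆ = ⁅x, y⁆ * ⁅y, z⁆ * z * ⁅x, y⁆⁻¹ * z⁻¹ * ⁅y, z⁆⁻¹ := by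
    have e2 : z = x * z * x⁻¹ := by rw [h1.eq]; group
    have e3 : ⁅x, y⁆ * ⁅y, z⁆ * z * ⁅x, y⁆⁻¹ * z⁻¹ =
        x * y * (x⁻¹ * z * x) * y⁻¹ * (x⁻¹ * z⁻¹) := by
      simp only [commutatorElement_def]; group
    have e4 : x⁻¹ * z * x = z := by rw [mul_assoc, ← h1.eq]; group
    have e5 : x⁻¹ * z⁻¹ = z⁻¹ * x⁻¹ := h1.inv_inv.eq
    rw [e3, e4, e5]
    simp only [commutatorElement_def]; group
  rw [e1, h2.eq, commutatorElement_def ⁅x, y⁆ z]
  group

theorem comm_bra {G : Type} [Group G] {g x y : G} (h1 : Commute g x) (h2 : Commute g y) :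
    Commute g ⁅x, y⁆ := by
  rw [commutatorElement_def]
  exact ((h1.mul_right h2).mul_right h1.inv_right).mul_right h2.inv_right

theorem bra_mul {G : Type} [Group G] (x x' z : G) :
    ⁅x * x', z⁆ = x * ⁅x', z⁆ * x⁻¹ * ⁅x, z⁆ := by
  simp only [commutatorElement_def]; group

end StExt

open StExt in
theorem extend_fam {G : Type} [Group G] (p o : κ) (hop : o < p)
    (h3 : ∃ a b c : κ, a < b ∧ b < c ∧ c < o) (X : κ → κ → A → G)
    (add : ∀ i j a b, ¬ (i = p ∧ j = o) → Adm K i j a → Adm K i j b →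
      X i j (a + b) = X i j a * X i j b)
    (comm : ∀ i j k l a b, ¬ (i = p ∧ j = o) → ¬ (k = p ∧ l = o) → Adm K i j a → Adm K k l b →
      j ≠ k → i ≠ l → Commute (X i j a) (X k l b))
    (bra : ∀ i j l a b, ¬ (i = p ∧ j = o) → ¬ (j = p ∧ l = o) → ¬ (i = p ∧ l = o) →
      Adm K i j a → Adm K j l b → i ≠ l → ⁅X i j a, X j l b⁆ = X i l (a * b))
    (hbetween : ∀ k, k ≠ p → k ≤ o) :
    ∃ Y : κ → κ → A → G, IsFam K Y ∧
      ∀ i j a, ¬ (i = p ∧ j = o) → Adm K i j a → Y i j a = X i j a := by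
  classical
  obtain ⟨j1, j2, j3, h12, h23, h3o⟩ := h3
  have h2o : j2 < o := h23.trans h3o
  have h1o : j1 < o := h12.trans h2o
  have hpick : ∀ k l : κ, ∃ j, j < o ∧ j ≠ k ∧ j ≠ l := by
    intro k l
    by_cases a1 : j1 ≠ k ∧ j1 ≠ l
    · exact ⟨j1, h1o, a1⟩
    by_cases a2 : j2 ≠ k ∧ j2 ≠ l
    · exact ⟨j2, h2o, a2⟩
    refine ⟨j3, h3o, ?_⟩
    have h13 := h12.trans h23
    rw [not_and_or, not_not, not_not] at a1 a2
    rcases a1 with rfl | rfl <;> rcases a2 with a2 | a2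
    · exact absurd a2 h12.ne'
    · exact ⟨h13.ne', a2 ▸ h23.ne'⟩
    · exact ⟨a2 ▸ h23.ne', h13.ne'⟩
    · exact absurd a2 h12.ne'
  have ap : ∀ j a, j < o → a ∈ K.J → Adm K p j a := fun j a hj ha =>
    ⟨(hj.trans hop).ne', Or.inr ha⟩
  have ao : ∀ j c, j < o → Adm K j o c := fun j c hj => ⟨hj.ne, Or.inl hj⟩
  have np : ∀ j, j < o → ¬ (p = p ∧ j = o) := fun j hj h => hj.ne h.2
  have no : ∀ j l, j < o → ¬ (j = p ∧ l = o) := fun j l hj h => (hj.trans hop).ne h.1
  have hI : ∀ j j' a b c, j < o → j' < o → a ∈ K.J → Adm K j j' b →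
      ⁅X p j a, X j o (b * c)⁆ = ⁅X p j' (a * b), X j' o c⁆ := by
    intro j j' a b c hj hj' ha hb
    have hab := K.mul_right a b ha
    have e1 := bra p j j' a b (np j hj) (no j j' hj) (np j' hj') (ap j a hj ha) hb
      (hj'.trans hop).ne'
    have e2 := bra j j' o b c (no j j' hj) (no j' o hj') (no j o hj) hb (ao j' c hj') hj.ne
    have c1 := comm p j j' o a c (np j hj) (no j' o hj') (ap j a hj ha) (ao j' c hj') hb.1 hop.ne'
    have c2 := comm p j' j o (a * b) (b * c) (np j' hj') (no j o hj) (ap j' _ hj' hab)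
      (ao j _ hj) hb.1.symm hop.ne'
    have c3 := comm j o j' o (b * c) c (no j o hj) (no j' o hj') (ao j _ hj) (ao j' _ hj')
      hj'.ne' hj.ne
    have := hall (y := X j j' b) c1 (by rw [e1, e2]; exact c2)
    rw [e1, e2, (comm_bra c2.symm c3).eq, mul_inv_cancel_right] at this
    exact this
  have hI1 : ∀ j j' a c, j < o → j' < o → a ∈ K.J →
      ⁅X p j a, X j o c⁆ = ⁅X p j' a, X j' o c⁆ := by
    intro j j' a c hj hj' ha
    rcases lt_trichotomy j j' with h | h | h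
    · simpa using hI j j' a 1 c hj hj' ha ⟨h.ne, Or.inl h⟩
    · rw [h]
    · simpa using (hI j' j a 1 c hj' hj ha ⟨h.ne, Or.inl h⟩).symm
  obtain ⟨Z, hZ⟩ : ∃ Z : A → G, ∀ j a c, j < o → a ∈ K.J → ⁅X p j a, X j o c⁆ = Z (a * c) := by
    refine ⟨fun a => ⁅X p j2 a, X j2 o 1⁆, fun j a c hj ha => ?_⟩
    rw [hI1 j j1 a c hj h1o ha]
    simpa using hI j1 j2 a c 1 h1o h2o ha ⟨h12.ne, Or.inl h12⟩
  have hZ1 : ∀ j a, j < o → a ∈ K.J → Z a = ⁅X p j a, X j o 1⁆ := fun j a hj ha => by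
    rw [hZ j a 1 hj ha, mul_one]
  have hZc : ∀ k l a b, a ∈ K.J → ¬ (k = p ∧ l = o) → Adm K k l b → k ≠ o → l ≠ p →
      Commute (X k l b) (Z a) := by
    intro k l a b ha hkl hb hk hl
    obtain ⟨j, hj, hjk, hjl⟩ := hpick k l
    rw [hZ1 j a hj ha]
    exact comm_bra (comm k l p j b a hkl (np j hj) hb (ap j a hj ha) hl hjk.symm)
      (comm k l j o b 1 hkl (no j o hj) hb (ao j 1 hj) hjl.symm hk)
  have hZa : ∀ a b, a ∈ K.J → b ∈ K.J → Z (a + b) = Z a * Z b := by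
    intro a b ha hb
    rw [add_comm, hZ1 j1 _ h1o (K.J.add_mem hb ha),
      add p j1 b a (np j1 h1o) (ap j1 b h1o hb) (ap j1 a h1o ha), bra_mul, ← hZ1 j1 a h1o ha,
      ← hZ1 j1 b h1o hb,
      (hZc p j1 a b ha (np j1 h1o) (ap j1 b h1o hb) hop.ne' (h1o.trans hop).ne).eq,
      mul_inv_cancel_right]
  have hJ : ∀ a, Adm K p o a → a ∈ K.J := fun a ha => ha.2.resolve_left (not_lt.2 hop.le)
  have hlt : ∀ j, j ≠ p → j ≠ o → j < o := fun j h1 h2 => lt_of_le_of_ne (hbetween j h1) h2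
  refine ⟨fun i j a => if Adm K i j a then (if i = p ∧ j = o then Z a else X i j a) else 1,
    ⟨fun i j a h => if_neg h, ?_, ?_, ?_⟩, fun i j a h1 h2 => by simp only [if_pos h2, if_neg h1]⟩
  · intro i j a b ha hb
    simp only [if_pos ha, if_pos hb, if_pos (ha.add K hb)]
    by_cases h : i = p ∧ j = o
    · simp only [if_pos h]
      obtain ⟨rfl, rfl⟩ := h
      exact hZa a b (hJ a ha) (hJ b hb)
    · simp only [if_neg h]
      exact add i j a b h ha hb
  · intro i j k l a b ha hb h1 h2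
    simp only [if_pos ha, if_pos hb]
    by_cases h : i = p ∧ j = o <;> by_cases h' : k = p ∧ l = o
    · simp only [if_pos h, if_pos h']
      obtain ⟨rfl, rfl⟩ := h
      obtain ⟨rfl, rfl⟩ := h'
      change Z a * Z b = Z b * Z a
      rw [← hZa a b (hJ a ha) (hJ b hb), ← hZa b a (hJ b hb) (hJ a ha), add_comm]
    · simp only [if_pos h, if_neg h']
      obtain ⟨rfl, rfl⟩ := h
      exact (hZc k l a b (hJ a ha) h' hb h1.symm h2.symm).symm
    · simp only [if_neg h, if_pos h']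
      obtain ⟨rfl, rfl⟩ := h'
      exact hZc i j b a (hJ b hb) h ha h2 h1
    · simp only [if_neg h, if_neg h']
      exact comm i j k l a b h h' ha hb h1 h2
  · intro i j l a b ha hb h1
    simp only [if_pos ha, if_pos hb, if_pos (ha.mul K hb h1)]
    by_cases h : i = p ∧ l = o
    · have hj : j < o := hlt j (h.1 ▸ ha.1.symm) (h.2 ▸ hb.1)
      simp only [if_pos h]
      rw [if_neg (fun h' : i = p ∧ j = o => hj.ne h'.2), if_neg (no j l hj)]
      obtain ⟨rfl, rfl⟩ := h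
      exact hZ j a b hj (ha.2.resolve_left (not_lt.2 (hj.trans hop).le))
    simp only [if_neg h]
    by_cases h' : i = p ∧ j = o
    · rw [if_pos h', if_neg (fun h2 : j = p ∧ l = o => hop.ne (h'.2.symm.trans h2.1))]
      obtain ⟨rfl, rfl⟩ := h'
      have hl : l < j := hlt l h1.symm hb.1.symm
      have haJ := hJ a ha
      have hbJ : b ∈ K.J := hb.2.resolve_left (not_lt.2 hl.le)
      obtain ⟨m, hm, hml, -⟩ := hpick l l
      have hmb : Adm K m l b := ⟨hml, Or.inr hbJ⟩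
      have e2 := bra m j l 1 b (no m j hm) (fun h2 => hop.ne h2.1) (no m l hm) (ao m 1 hm) hb hml
      rw [one_mul] at e2
      have c1 := comm i m j l a b (np m hm) (fun h2 => hop.ne h2.1) (ap m a hm haJ) hb hm.ne h1
      have := hall (y := X m j 1) c1 (by
        rw [e2, ← hZ1 m a hm haJ]
        exact (hZc m l a b haJ (no m l hm) hmb hm.ne h1.symm).symm)
      rw [e2, ← hZ1 m a hm haJ,
        bra i m l a b (np m hm) (no m l hm) h (ap m a hm haJ) hmb h1] at this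
      have c2 := comm m l i l b (a * b) (no m l hm) h hmb (ha.mul K hb h1) h1.symm hml
      have e3 : ⁅Z a, X j l b⁆ = (X m l b)⁻¹ * X i l (a * b) * X m l b := by
        rw [this]; group
      rw [e3, mul_assoc, ← c2.eq, inv_mul_cancel_left]
    rw [if_neg h']
    by_cases h'' : j = p ∧ l = o
    · rw [if_pos h'']
      obtain ⟨rfl, rfl⟩ := h''
      have hi : i < l := hlt i ha.1 h1
      have hbJ := hJ b hb
      obtain ⟨m, hm, hmi, -⟩ := hpick i i
      have hab : Adm K i m (a * b) := ha.mul K (ap m b hm hbJ) hmi.symm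
      have e1 := bra i j m a b h' (np m hm) (no i m hi) ha (ap m b hm hbJ) hmi.symm
      have c1 := comm i j m l a 1 h' (no m l hm) ha (ao m 1 hm) (hm.trans hop).ne' h1
      have := hall (y := X j m b) c1 (by
        rw [e1, ← hZ1 m b hm hbJ]
        exact hZc i m b _ hbJ (no i m hi) hab h1 (hm.trans hop).ne)
      rw [e1, ← hZ1 m b hm hbJ,
        bra i m l (a * b) 1 (no i m hi) (no m l hm) h hab (ao m 1 hm) h1, mul_one,
        ← (hZc i l b (a * b) hbJ h (ao i _ hi) h1 hop.ne).eq, mul_inv_cancel_right] at this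
      exact this
    · rw [if_neg h'']
      exact bra i j l a b h' h'' h ha hb h1

end Vale.Agent.P192
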