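import Vale.Agent.P192.StStabAux

/-!
P192, auxiliary file for injective stability: the moves in coordinates and the new generators.
-/

namespace Vale.Agent.P192

open scoped commutatorElement Matrix

namespace Stab

variable {A : Type} [Ring A] (K : Coef A) {ι : Type} [LinearOrder ι] [Fintype ι]
  {o : ι} (ho : ∀ k, k ≤ o)

/-- The root elements in the new column. -/
noncomputable def cp (k : ι) (b : A) : E K ι := ⟨Pi.single k b, 1⟩

theorem move_one {e : E K ι} {c c' : A} {r r' : ι → A} {t : St K ι} {u : ι → Aˣ}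
    (ht : IsDiag K t u) (h : e * yy K o c r = yy K o c' r') (γ : St K ι) :
    e • pt K ho c r t γ = pt K ho c' r' t γ := by
  rw [move K ho ht (one_mem _) (by rw [h, mul_one])]
  simp [one_c, one_g, cc_eq_zero K o (one_mem _), ← Pi.zero_def, col_zero]

theorem move_i {c : A} {r : ι → A} {t : St K ι} {u : ι → Aˣ} (ht : IsDiag K t u)
    (hr : RowAdm K o r) {l : ι} {b : A} (hb : Adm K o l b) (γ : St K ι) :
    inr K (x K o l b) • pt K ho c r t γ = pt K ho c (r + Pi.single l b) t γ := by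
  refine move_one K ho ht ?_ γ
  rw [inr_apply, yy, yy, mk_mul_mk, zero_add,
    mulVec_single_o K o (x_mem_gen K b hb.1.symm), add_comm r,
    row_add K (RowAdm.single K hb) hr, row_single]

theorem vecMul_x {k l : ι} {b : A} (hb : Adm K k l b) (r : ι → A) :
    r ᵥ* pi K (x K k l b) = r + Pi.single l (r k * b) := by
  rw [pi_x K hb, Matrix.vecMul_add, Matrix.vecMul_one]
  congr 1
  ext m
  by_cases hm : m = l
  · subst hm; simp [Matrix.vecMul, dotProduct, Matrix.single_apply]
  · simp [Matrix.vecMul, dotProduct, hm, Ne.symm hm]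

theorem rowAdm_ii {r : ι → A} (hr : RowAdm K o r) {k l : ι} {b : A} (hb : Adm K k l b)
    (hl : l ≠ o) : RowAdm K o (r + Pi.single l (r k * b)) := by
  have := (conj_row K (x_mem_gen K (P := fun _ l => l ≠ o) (i := k) b hl) hr).1
  rwa [x_inv, vecMul_x K hb] at this

theorem move_ii {c : A} {r : ι → A} {t : St K ι} {u : ι → Aˣ} (ht : IsDiag K t u)
    (hr : RowAdm K o r) {k l : ι} {b : A} (hb : Adm K k l b) (hk : k ≠ o) (hl : l ≠ o)
    (γ : St K ι) :
    inr K (x K k l b) • pt K ho c r t γ =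
      pt K ho c (r + Pi.single l (r k * b)) t (x K k l b * γ) := by
  have hx : x K k l b ∈ gen K (fun _ l => l ≠ o) := x_mem_gen K b hl
  have hS : inr K (x K k l b) ∈ Sh K o := ⟨rfl, x_mem_gen K b hk⟩
  have h2 := (conj_row K hx hr).2
  rw [x_inv, vecMul_x K hb] at h2
  rw [move K ho ht hS (c' := c) (r' := r + Pi.single l (r k * b))]
  · simp [inr_apply, cc_eq_zero K o hx, ← Pi.zero_def, col_zero]
  · rw [inr_apply, yy, yy, mk_mul_mk, mk_mul_mk, zero_add, mulVec_single_o K o hx,
      Matrix.mulVec_zero, add_zero, ← h2, mul_assoc, x_mul_self, mul_one]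

theorem move_iii_o {c : A} {r : ι → A} {t : St K ι} {u : ι → Aˣ} (ht : IsDiag K t u)
    (b : A) (γ : St K ι) : cp K o b • pt K ho c r t γ = pt K ho (c + b) r t γ := by
  refine move_one K ho ht ?_ γ
  rw [cp, yy, yy, mk_mul_mk, map_one, Matrix.one_mulVec, one_mul, add_comm, Pi.single_add]

theorem move_iii {c : A} {r : ι → A} {t : St K ι} {u : ι → Aˣ} (ht : IsDiag K t u)
    (hr : RowAdm K o r) {k : ι} (hk : k ≠ o) (b : A) (γ : St K ι) :
    cp K k b • pt K ho c r t γ =
      pt K ho (c + r k * b) r t (x K k o (b * ((u o)⁻¹ : Aˣ)) * γ) := by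
  have hS : cp K k b ∈ Sh K o := ⟨by simp [cp, hk.symm], one_mem _⟩
  rw [move K ho ht hS (c' := c + r k * b) (r' := r)]
  · congr 2
    rw [← col_single, cp]
    simp only [cc_eq_zero K o (one_mem _), mul_one]
    congr 1
    ext m
    by_cases hm : m = k
    · subst hm; simp
    · simp [hm]
  · rw [cp, yy, yy, mk_mul_mk, mk_mul_mk, map_one, Matrix.one_mulVec, one_mul, mul_one,
      pi_row_mulVec K hr, dotProduct_single, Pi.single_add]
    congr 1
    have := vtwo K (Pi.single o (r k * b) : ι → A)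
    calc (Pi.single k b + Pi.single o c : ι → A)
        = Pi.single k b + Pi.single o c + (Pi.single o (r k * b) + Pi.single o (r k * b)) := by
          rw [this, add_zero]
      _ = _ := by abel

include ho in
omit [Fintype ι] in
theorem rowAdm_iv {r : ι → A} (hr : RowAdm K o r) {k : ι} (hk : k ≠ o) (hrk : r k = 0) (b : A) :
    RowAdm K k (fun m => b * r m) := by
  refine ⟨by simp [hrk], fun m hm => ⟨hm.symm, ?_⟩⟩
  by_cases hmo : m = o
  · subst hmo; exact Or.inl (lt_of_le_of_ne (ho k) hk)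
  · exact Or.inr (K.mul_left _ _ ((hr.2 m hmo).2.resolve_left (not_lt.2 (ho m))))

theorem move_iv {c : A} {r : ι → A} {t : St K ι} {u : ι → Aˣ} (ht : IsDiag K t u)
    (hr : RowAdm K o r) {k : ι} (hk : k ≠ o) (hrk : r k = 0) (b : A) (γ : St K ι) :
    inr K (x K k o b) • pt K ho c r t γ =
      pt K ho c r t (x K k o (b * c * ((u o)⁻¹ : Aˣ)) * row K k (fun m => b * r m) * γ) := by
  have hb := adm_o K ho hk b
  have hbr := rowAdm_iv K ho hr hk hrk b
  have hρ : row K k (fun m => b * r m) ∈ gen K (fun _ l => l ≠ o) :=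
    row_mem_gen K fun m hm h => hm (by rw [h, hr.1, mul_zero])
  have hS : (E.mk (Pi.single k (b * c)) (x K k o b * row K k (fun m => b * r m)) : E K ι) ∈
      Sh K o := ⟨by simp [hk.symm], mul_mem (x_mem_gen K b hk) (row_mem_gen K fun _ _ => hk)⟩
  have hrow : row K o r ∈ gen K (fun _ l => l ≠ k) :=
    row_mem_gen K fun m hm h => hm (by rw [h, hrk])
  have h2 := (conj_row K (inv_mem hrow) (RowAdm.single K hb)).2
  have h3 : Pi.single o b ᵥ* pi K (row K o r) = Pi.single o b + fun m => b * r m := by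
    rw [pi_row K hr, Matrix.vecMul_add, Matrix.vecMul_one, Matrix.single_vecMul]
    congr 1
    ext m
    simp [Matrix.row]
  rw [inv_inv, h3, row_add K (RowAdm.single K hb) hbr, row_single] at h2
  rw [move K ho ht hS (c' := c) (r' := r)]
  · congr 2
    have h4 : cc K o (x K k o b * row K k fun m => b * r m) = Pi.single k b := by
      rw [cc_mul, cc_eq_zero K o hρ, Matrix.mulVec_zero, add_zero, cc, pi_x K hb,
        Matrix.add_mulVec, Matrix.one_mulVec, add_sub_cancel_left, Matrix.single_mulVec]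
      simp [Pi.single]
    simp only [h4]
    have h5 : (fun m => (Pi.single k (b * c) : ι → A) m * ((u o)⁻¹ : Aˣ) +
        (Pi.single k b : ι → A) m) = Pi.single k (b * c * ((u o)⁻¹ : Aˣ) + b) := by
      ext m
      by_cases hm : m = k
      · subst hm; simp
      · simp [hm]
    rw [h5, col_single, x_add K (adm_o K ho hk _) hb, mul_assoc, ← mul_assoc (x K k o b),
      x_mul_self, one_mul]
  · rw [inr_apply, yy, mk_mul_mk, mk_mul_mk, zero_add, ← h2, pi_row_mulVec K hr,
      dotProduct_single, hrk, zero_mul, Pi.single_zero, add_zero, pi_x K hb, Matrix.add_mulVec,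
      Matrix.one_mulVec, Matrix.single_mulVec]
    congr 1
    · simp [Pi.single]
    · group

theorem move_diag {c : A} {r : ι → A} {t t' : St K ι} {u' : ι → Aˣ}
    (ht' : IsDiag K t' u') (hr : RowAdm K o r) (γ : St K ι) :
    inr K t' • pt K ho c r t γ =
      pt K ho (u' o * c) (fun m => u' o * r m * ((u' m)⁻¹ : Aˣ)) (t' * t) (t' * γ) := by
  rw [pt, pt, smul_mk]
  congr 1
  · rw [map_mul, ← mul_assoc, ← mul_assoc]
    congr 1
    rw [inr_apply, yy, yy, mk_mul_mk, mk_mul_mk, zero_add, Matrix.mulVec_zero, add_zero,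
      diag_mulVec K ht', ← (ht'.conj_row K hr).2]
    congr 1
    · ext m
      by_cases hm : m = o
      · subst hm; simp
      · simp [hm]
    · group
  · group

variable (h5 : Five ι)

open Classical in
/-- The new generators, as functions. -/
noncomputable def Lf (j : ι) (a : A) (z : Xs K ho) : Xs K ho :=
  let H := pt_surj K ho h5 z
  pt K ho H.choose (H.choose_spec.choose + Pi.single j (H.choose * a))
    H.choose_spec.choose_spec.choose
    (x K o j (H.choose_spec.choose_spec.choose_spec.choose o * a) *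
      H.choose_spec.choose_spec.choose_spec.choose_spec.choose)

theorem Lf_aux (j : ι) (a : A) {t t' γ γ' : St K ι} {u u' : ι → Aˣ} {c c' : A} {r r' : ι → A}
    (hr : RowAdm K o r) (hr' : RowAdm K o r') (ht : IsDiag K t u) (ht' : IsDiag K t' u')
    (h : pt K ho c r t γ = pt K ho c' r' t' γ') :
    pt K ho c' (r' + Pi.single j (c' * a)) t' (x K o j (u' o * a) * γ') =
      pt K ho c (r + Pi.single j (c * a)) t (x K o j (u o * a) * γ) := by
  obtain ⟨rfl, rfl, e3, rfl, e5⟩ := pt_inj K ho hr hr' ht ht' h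
  rw [pt_congr K ho ht ht' e3 e5, e3]

theorem Lf_pt (j : ι) (a : A) {c : A} {r : ι → A} {t : St K ι} {u : ι → Aˣ} (ht : IsDiag K t u)
    (hr : RowAdm K o r) (γ : St K ι) :
    Lf K ho h5 j a (pt K ho c r t γ) =
      pt K ho c (r + Pi.single j (c * a)) t (x K o j (u o * a) * γ) := by
  have H := pt_surj K ho h5 (pt K ho c r t γ)
  obtain ⟨h1, h2, h3⟩ := H.choose_spec.choose_spec.choose_spec.choose_spec.choose_spec
  exact Lf_aux K ho j a hr h1 ht h2 h3

omit [Fintype ι] in
theorem adm_row {j : ι} {a : A} (hj : j ≠ o) (ha : a ∈ K.J) (c : A) : Adm K o j (c * a) :=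
  ⟨hj.symm, Or.inr (K.mul_left _ _ ha)⟩

theorem rowAdm_L {r : ι → A} (hr : RowAdm K o r) {j : ι} {a : A} (hj : j ≠ o) (ha : a ∈ K.J)
    (c : A) : RowAdm K o (r + Pi.single j (c * a)) :=
  hr.add K (RowAdm.single K (adm_row K hj ha c))

theorem Lf_add {j : ι} {a b : A} (hj : j ≠ o) (ha : a ∈ K.J) (hb : b ∈ K.J) (z : Xs K ho) :
    Lf K ho h5 j (a + b) z = Lf K ho h5 j a (Lf K ho h5 j b z) := by
  obtain ⟨c, r, t, u, γ, hr, ht, rfl⟩ := pt_surj K ho h5 z
  rw [Lf_pt K ho h5 j _ ht hr, Lf_pt K ho h5 j _ ht hr,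
    Lf_pt K ho h5 j _ ht (rowAdm_L K hr hj hb c), mul_add, mul_add,
    x_add K (adm_row K hj ha _) (adm_row K hj hb _), Pi.single_add, mul_assoc]
  congr 1
  abel

theorem Lf_zero (j : ι) (z : Xs K ho) : Lf K ho h5 j 0 z = z := by
  obtain ⟨c, r, t, u, γ, hr, ht, rfl⟩ := pt_surj K ho h5 z
  rw [Lf_pt K ho h5 j _ ht hr]
  simp [x_zero]

open Classical in
/-- The new generators, as permutations. -/
noncomputable def L (j : ι) (a : A) : Equiv.Perm (Xs K ho) :=
  if h : j ≠ o ∧ a ∈ K.J then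
    Function.Involutive.toPerm (Lf K ho h5 j a)
      (fun z => by rw [← Lf_add K ho h5 h.1 h.2 h.2, K.two, Lf_zero])
  else 1

theorem L_apply {j : ι} {a : A} (hj : j ≠ o) (ha : a ∈ K.J) (z : Xs K ho) :
    L K ho h5 j a z = Lf K ho h5 j a z := by
  rw [L, dif_pos ⟨hj, ha⟩]; rfl

theorem L_pt {j : ι} {a : A} (hj : j ≠ o) (ha : a ∈ K.J) {c : A} {r : ι → A} {t : St K ι}
    {u : ι → Aˣ} (ht : IsDiag K t u) (hr : RowAdm K o r) (γ : St K ι) :
    L K ho h5 j a (pt K ho c r t γ) =
      pt K ho c (r + Pi.single j (c * a)) t (x K o j (u o * a) * γ) := by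
  rw [L_apply K ho h5 hj ha, Lf_pt K ho h5 j a ht hr]

/-- The action of the parabolic group. -/
noncomputable def act : E K ι →* Equiv.Perm (Xs K ho) := MulAction.toPermHom _ _

theorem act_apply (e : E K ι) (z : Xs K ho) : act K ho e z = e • z := rfl

include h5 in
theorem perm_ext {f g : Equiv.Perm (Xs K ho)}
    (h : ∀ c r t u γ, RowAdm K o r → IsDiag K t u → f (pt K ho c r t γ) = g (pt K ho c r t γ)) :
    f = g := by
  ext z
  obtain ⟨c, r, t, u, γ, hr, ht, rfl⟩ := pt_surj K ho h5 z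
  exact h c r t u γ hr ht

theorem L_add {j : ι} {a b : A} (hj : j ≠ o) (ha : a ∈ K.J) (hb : b ∈ K.J) :
    L K ho h5 j (a + b) = L K ho h5 j a * L K ho h5 j b := by
  ext z
  rw [Equiv.Perm.mul_apply, L_apply K ho h5 hj ha, L_apply K ho h5 hj hb,
    L_apply K ho h5 hj (add_mem ha hb), Lf_add K ho h5 hj ha hb]

theorem L_comm {j l : ι} {a b : A} (hj : j ≠ o) (ha : a ∈ K.J) (hl : l ≠ o) (hb : b ∈ K.J) :
    Commute (L K ho h5 j a) (L K ho h5 l b) := by
  refine perm_ext K ho h5 fun c r t u γ hr ht => ?_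
  rw [Equiv.Perm.mul_apply, Equiv.Perm.mul_apply, L_pt K ho h5 hj ha ht hr,
    L_pt K ho h5 hl hb ht hr, L_pt K ho h5 hj ha ht (rowAdm_L K hr hl hb c),
    L_pt K ho h5 hl hb ht (rowAdm_L K hr hj ha c), ← mul_assoc, ← mul_assoc,
    (commute_row K o j l _ _).eq]
  congr 1
  abel

theorem L_comm_i {j l : ι} {a b : A} (hj : j ≠ o) (ha : a ∈ K.J) (hb : Adm K o l b) :
    Commute (L K ho h5 j a) (act K ho (inr K (x K o l b))) := by
  refine perm_ext K ho h5 fun c r t u γ hr ht => ?_
  rw [Equiv.Perm.mul_apply, Equiv.Perm.mul_apply, act_apply, act_apply, L_pt K ho h5 hj ha ht hr,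
    move_i K ho ht hr hb, move_i K ho ht (rowAdm_L K hr hj ha c) hb,
    L_pt K ho h5 hj ha ht (hr.add K (RowAdm.single K hb))]
  congr 1
  abel

theorem L_comm_ii {j k l : ι} {a b : A} (hj : j ≠ o) (ha : a ∈ K.J) (hb : Adm K k l b)
    (hk : k ≠ o) (hl : l ≠ o) (hjk : j ≠ k) :
    Commute (L K ho h5 j a) (act K ho (inr K (x K k l b))) := by
  refine perm_ext K ho h5 fun c r t u γ hr ht => ?_
  rw [Equiv.Perm.mul_apply, Equiv.Perm.mul_apply, act_apply, act_apply, L_pt K ho h5 hj ha ht hr,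
    move_ii K ho ht hr hb hk hl, move_ii K ho ht (rowAdm_L K hr hj ha c) hb hk hl,
    L_pt K ho h5 hj ha ht (rowAdm_ii K hr hb hl), ← mul_assoc, ← mul_assoc,
    (x_comm K _ _ hjk hl.symm).eq, Pi.add_apply, Pi.single_eq_of_ne hjk.symm, add_zero]
  congr 1
  abel

theorem L_bra {j l : ι} {a b : A} (hj : j ≠ o) (ha : a ∈ K.J) (hb : Adm K j l b) (hl : l ≠ o) :
    L K ho h5 j a * act K ho (inr K (x K j l b)) =
      L K ho h5 l (a * b) * act K ho (inr K (x K j l b)) * L K ho h5 j a := by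
  refine perm_ext K ho h5 fun c r t u γ hr ht => ?_
  simp only [Equiv.Perm.mul_apply, act_apply]
  rw [L_pt K ho h5 hj ha ht hr,
    move_ii K ho ht hr hb hj hl, move_ii K ho ht (rowAdm_L K hr hj ha c) hb hj hl,
    L_pt K ho h5 hj ha ht (rowAdm_ii K hr hb hl),
    L_pt K ho h5 hl (K.mul_right _ _ ha) ht (rowAdm_ii K (rowAdm_L K hr hj ha c) hb hl),
    ← mul_assoc (x K o j _), x_swap K (adm_row K hj ha _) hb hl.symm]
  congr 1
  · rw [Pi.add_apply, Pi.single_eq_same, add_mul, Pi.single_add, mul_assoc c a b]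
    have := vtwo K (Pi.single l (c * (a * b)) : ι → A)
    calc r + Pi.single l (r j * b) + Pi.single j (c * a)
        = r + Pi.single l (r j * b) + Pi.single j (c * a) +
          (Pi.single l (c * (a * b)) + Pi.single l (c * (a * b))) := by rw [this, add_zero]
      _ = _ := by abel
  · simp only [mul_assoc]

theorem cp_bra {j k : ι} {a : A} (hj : j ≠ o) (ha : a ∈ K.J) (hkj : k ≠ j) (b : A) :
    act K ho (cp K k b) * L K ho h5 j a =
      act K ho (inr K (x K k j (b * a))) * L K ho h5 j a * act K ho (cp K k b) := by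
  refine perm_ext K ho h5 fun c r t u γ hr ht => ?_
  simp only [Equiv.Perm.mul_apply, act_apply]
  by_cases hk : k = o
  · subst hk
    rw [L_pt K ho h5 hj ha ht hr, move_iii_o K ho ht, move_iii_o K ho ht,
      L_pt K ho h5 hj ha ht hr, move_i K ho ht (rowAdm_L K hr hj ha _) (adm_row K hj ha b)]
    congr 1
    rw [add_mul, Pi.single_add, add_assoc, add_assoc, vtwo K, add_zero]
  · have hba : Adm K k j (b * a) := ⟨hkj, Or.inr (K.mul_left _ _ ha)⟩
    rw [L_pt K ho h5 hj ha ht hr, move_iii K ho ht (rowAdm_L K hr hj ha _) hk,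
      move_iii K ho ht hr hk, L_pt K ho h5 hj ha ht hr,
      move_ii K ho ht (rowAdm_L K hr hj ha _) hba hk hj, ← mul_assoc (x K k o _),
      x_swap K (adm_o K ho hk _) (adm_row K hj ha _) hkj]
    simp only [Pi.add_apply, Pi.single_eq_of_ne hkj, add_zero]
    congr 1
    · rw [add_mul, Pi.single_add, mul_assoc (r k), add_assoc, add_assoc, vtwo K, add_zero]
    · simp only [mul_assoc, Units.inv_mul_cancel_left]

theorem L_comm_diag {j : ι} {a : A} (hj : j ≠ o) (ha : a ∈ K.J) {t' : St K ι} {u' : ι → Aˣ}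
    (ht' : IsDiag K t' u') (hu : u' j = 1) : Commute (L K ho h5 j a) (act K ho (inr K t')) := by
  refine perm_ext K ho h5 fun c r t u γ hr ht => ?_
  simp only [Equiv.Perm.mul_apply, act_apply]
  rw [L_pt K ho h5 hj ha ht hr, move_diag K ho ht' hr,
    move_diag K ho ht' (rowAdm_L K hr hj ha _),
    L_pt K ho h5 hj ha (ht'.mul K ht) (ht'.conj_row K hr).1]
  congr 1
  · ext m
    by_cases hm : m = j
    · subst hm; simp [hu, mul_add, mul_assoc]
    · simp [hm]
  · have := ht'.2 o j _ (adm_row K hj ha (u o))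
    rw [hu] at this
    simp only [inv_one, Units.val_one, mul_one] at this
    rw [Pi.mul_apply, Units.val_mul, mul_assoc (u' o : A), ← this]
    group

theorem L_comm_iv0 {j k : ι} {a : A} (hj : j ≠ o) (ha : a ∈ K.J) (hk : k ≠ o) (hjk : j ≠ k)
    (b : A) {c : A} {r : ι → A} {t : St K ι} {u : ι → Aˣ} (ht : IsDiag K t u)
    (hr : RowAdm K o r) (hrk : r k = 0) (γ : St K ι) :
    L K ho h5 j a (inr K (x K k o b) • pt K ho c r t γ) =
      inr K (x K k o b) • L K ho h5 j a (pt K ho c r t γ) := by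
  have hrk' : (r + Pi.single j (c * a) : ι → A) k = 0 := by
    rw [Pi.add_apply, Pi.single_eq_of_ne hjk.symm, add_zero, hrk]
  rw [move_iv K ho ht hr hk hrk, L_pt K ho h5 hj ha ht hr, L_pt K ho h5 hj ha ht hr,
    move_iv K ho ht (rowAdm_L K hr hj ha _) hk hrk']
  congr 1
  have hA : Adm K k j (b * (c * a)) := ⟨hjk.symm, Or.inr (K.mul_left _ _ (K.mul_left _ _ ha))⟩
  have h1 : (fun m => b * (r + Pi.single j (c * a) : ι → A) m) =
      Pi.single j (b * (c * a)) + fun m => b * r m := by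
    ext m
    by_cases hm : m = j
    · subst hm; simp [mul_add, add_comm]
    · simp [hm]
  have h2 : Commute (x K o j (u o * a)) (row K k (fun m => b * r m)) :=
    gen_commute K (P := fun i l => i = o ∧ l = j) (Q := fun i l => i = k ∧ l ≠ o)
      (by rintro _ _ _ _ ⟨rfl, rfl⟩ ⟨rfl, h⟩; exact ⟨hjk, h.symm⟩) (x_mem_gen K _ ⟨rfl, rfl⟩)
      (row_mem_gen K fun m hm => ⟨rfl, fun h => hm (by rw [h, hr.1, mul_zero])⟩)
  rw [h1, row_add K (RowAdm.single K hA) (rowAdm_iv K ho hr hk hrk b), row_single,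
    ← mul_assoc, ← mul_assoc, x_swap' K (adm_o K ho hk _) (adm_row K hj ha _) hjk.symm]
  simp only [mul_assoc, Units.inv_mul_cancel_left]
  rw [← mul_assoc (x K o j _), h2.eq, ← mul_assoc (x K k j _), (commute_row K k j o _ _).eq]
  simp only [mul_assoc]

theorem L_comm_iv {j k : ι} {a : A} (hj : j ≠ o) (ha : a ∈ K.J) (hk : k ≠ o) (hjk : j ≠ k)
    (b : A) : Commute (L K ho h5 j a) (act K ho (inr K (x K k o b))) := by
  refine perm_ext K ho h5 fun c r t u γ hr ht => ?_
  have he : Adm K o k (r k) := hr.2 k hk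
  have hr0 : RowAdm K o (r + Pi.single k (r k)) := hr.add K (RowAdm.single K he)
  have hr0k : (r + Pi.single k (r k) : ι → A) k = 0 := by simp [K.two]
  have hP : pt K ho c r t γ = act K ho (inr K (x K o k (r k)))
      (pt K ho c (r + Pi.single k (r k)) t γ) := by
    rw [act_apply, move_i K ho ht hr0 he, add_assoc, vtwo K, add_zero]
  obtain ⟨t', w, w', hw, hw', ht', h⟩ := rank_one K h5 (adm_o K ho hk b) he
  have he' : Adm K o k (r k * (w⁻¹ : Aˣ)) :=
    ⟨he.1, Or.inr (K.mul_right _ _ (he.2.resolve_left (not_lt.2 (ho k))))⟩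
  have c1 := L_comm_i K ho h5 hj ha he
  have c2 := L_comm_i K ho h5 hj ha he'
  have c3 := L_comm_diag K ho h5 hj ha ht' (by simp [Function.update_of_ne hj,
    Function.update_of_ne hjk])
  have c4 := L_comm_iv0 K ho h5 hj ha hk hjk ((w⁻¹ : Aˣ) * b) (c := c) ht hr0 hr0k γ
  have h' := congrArg (fun g => act K ho (inr K g)) h
  simp only [map_mul] at h'
  rw [← act_apply, ← act_apply] at c4
  rw [hP, ← Equiv.Perm.mul_apply, ← Equiv.Perm.mul_apply, mul_assoc, h', mul_assoc (act K ho _)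
    (L K ho h5 j a), c1.eq, ← mul_assoc (act K ho (inr K (x K k o b))), h', ← mul_assoc,
    (c2.mul_right c3).eq]
  simp only [Equiv.Perm.mul_apply, c4]

end Stab

end Vale.Agent.P192
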