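import Vale.Agent.P192.StDiag
import Vale.Agent.P192.StExt
import Vale.Agent.P192.StStabAux2

/-!
P192, group side, part B2b: injective stability.
-/

namespace Vale.Agent.P192

open scoped commutatorElement Matrix

namespace Stab

variable {A : Type} [Ring A] (K : Coef A) {ι : Type} [LinearOrder ι] [Fintype ι]
  {o : ι} (ho : ∀ k, k ≤ o) (h5 : Five ι)

/-- The family of permutations indexed by the enlarged index set. -/
noncomputable def Fam : WithTop ι → WithTop ι → A → Equiv.Perm (Xs K ho)
  | none, none, _ => 1
  | none, some j, a => L K ho h5 j a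
  | some i, none, a => act K ho (cp K i a)
  | some i, some j, a => act K ho (inr K (x K i j a))

theorem Fam_top_coe (j : ι) (a : A) : Fam K ho h5 ⊤ (j : WithTop ι) a = L K ho h5 j a := rfl
theorem Fam_coe_top (i : ι) (a : A) : Fam K ho h5 (i : WithTop ι) ⊤ a = act K ho (cp K i a) := rfl
theorem Fam_coe_coe (i j : ι) (a : A) :
    Fam K ho h5 (i : WithTop ι) (j : WithTop ι) a = act K ho (inr K (x K i j a)) := rfl

omit [Fintype ι] in
theorem adm_coe {i j : ι} {a : A} (h : Adm K (i : WithTop ι) (j : WithTop ι) a) : Adm K i j a := by
  simpa [Adm] using h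

omit [Fintype ι] in
theorem adm_top {j : WithTop ι} {a : A} (h : Adm K (⊤ : WithTop ι) j a) : a ∈ K.J :=
  h.2.resolve_left (not_lt.2 le_top)

theorem x_mulVec_single {k l : ι} {b : A} (hb : Adm K k l b) (i : ι) (a : A) :
    pi K (x K k l b) *ᵥ Pi.single i a =
      Pi.single i a + Pi.single k (b * (Pi.single i a : ι → A) l) := by
  rw [pi_x K hb, Matrix.add_mulVec, Matrix.one_mulVec, Matrix.single_mulVec]
  rfl

theorem cp_add (i : ι) (a b : A) : cp K i (a + b) = cp K i a * cp K i b := by
  rw [cp, cp, cp, mk_mul_mk, map_one, Matrix.one_mulVec, mul_one, Pi.single_add]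

theorem cp_comm (i k : ι) (a b : A) : Commute (cp K i a) (cp K k b) := by
  change _ = _
  rw [cp, cp, mk_mul_mk, mk_mul_mk, map_one, Matrix.one_mulVec, Matrix.one_mulVec, add_comm]

theorem cp_comm_x {i k l : ι} (a : A) {b : A} (hb : Adm K k l b) (h : i ≠ l) :
    Commute (cp K i a) (inr K (x K k l b)) := by
  change _ = _
  rw [cp, inr_apply, mk_mul_mk, mk_mul_mk, Matrix.mulVec_zero, x_mulVec_single K hb,
    Pi.single_eq_of_ne h.symm]
  simp

theorem x_bra_cp {i j : ι} {a : A} (ha : Adm K i j a) (b : A) :
    inr K (x K i j a) * cp K j b = cp K i (a * b) * cp K j b * inr K (x K i j a) := by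
  rw [cp, cp, inr_apply, mk_mul_mk, mk_mul_mk, mk_mul_mk, Matrix.mulVec_zero,
    x_mulVec_single K ha, Pi.single_eq_same, map_one, Matrix.one_mulVec]
  simp [add_comm]

theorem bra_of {G : Type} [Group G] {a b c : G} (h : a * b = c * b * a) : ⁅a, b⁆ = c := by
  rw [commutatorElement_def, h]; group

theorem L_comm_x {j k l : ι} {a b : A} (hj : j ≠ o) (ha : a ∈ K.J) (hb : Adm K k l b)
    (hjk : j ≠ k) : Commute (L K ho h5 j a) (act K ho (inr K (x K k l b))) := by
  by_cases hk : k = o
  · subst hk; exact L_comm_i K ho h5 hj ha hb
  · by_cases hl : l = o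
    · subst hl; exact L_comm_iv K ho h5 hj ha hk hjk b
    · exact L_comm_ii K ho h5 hj ha hb hk hl hjk

include h5 in
theorem exists_fam : ∃ Y : WithTop ι → WithTop ι → A → Equiv.Perm (Xs K ho), IsFam K Y ∧
    ∀ (i j : ι) a, Adm K i j a → Y i j a = act K ho (inr K (x K i j a)) := by
  have h3 : ∃ a b c : WithTop ι, a < b ∧ b < c ∧ c < (o : WithTop ι) := by
    obtain ⟨a, b, c, d, -, h1, h2, h3, -⟩ := h5
    exact ⟨a, b, c, by exact_mod_cast h1, by exact_mod_cast h2,
      by exact_mod_cast h3.trans_le (ho d)⟩
  refine (extend_fam K (⊤ : WithTop ι) (o : WithTop ι) (WithTop.coe_lt_top o) h3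
    (Fam K ho h5) ?_ ?_ ?_ ?_).elim ?_
  rotate_right
  · rintro Y ⟨hY, hY'⟩
    refine ⟨Y, hY, fun i j a ha => ?_⟩
    rw [hY' i j a (by simp) (by simpa [Adm] using ha), Fam_coe_coe]
  · intro i j a b hn ha hb
    induction i using WithTop.recTopCoe with
    | top =>
      induction j using WithTop.recTopCoe with
      | top => exact absurd rfl ha.1
      | coe j =>
        simp only [Fam_top_coe]
        exact L_add K ho h5 (by simpa using hn) (adm_top K ha) (adm_top K hb)
    | coe i =>
      induction j using WithTop.recTopCoe with
      | top => simp only [Fam_coe_top, cp_add, map_mul]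
      | coe j => simp only [Fam_coe_coe, x_add K (adm_coe K ha) (adm_coe K hb), map_mul]
  · intro i j k l a b hn hn' ha hb h1 h2
    induction i using WithTop.recTopCoe with
    | top =>
      induction j using WithTop.recTopCoe with
      | top => exact absurd rfl ha.1
      | coe j =>
        induction l using WithTop.recTopCoe with
        | top => exact absurd rfl h2
        | coe l =>
          induction k using WithTop.recTopCoe with
          | top =>
            simp only [Fam_top_coe]
            exact L_comm K ho h5 (by simpa using hn) (adm_top K ha) (by simpa using hn')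
              (adm_top K hb)
          | coe k =>
            simp only [Fam_top_coe, Fam_coe_coe]
            exact L_comm_x K ho h5 (by simpa using hn) (adm_top K ha) (adm_coe K hb)
              (by simpa using h1)
    | coe i =>
      induction k using WithTop.recTopCoe with
      | top =>
        induction j using WithTop.recTopCoe with
        | top => exact absurd rfl h1
        | coe j =>
          induction l using WithTop.recTopCoe with
          | top => exact absurd rfl hb.1
          | coe l =>
            simp only [Fam_top_coe, Fam_coe_coe]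
            exact (L_comm_x K ho h5 (by simpa using hn') (adm_top K hb) (adm_coe K ha)
              (by simpa using h2.symm)).symm
      | coe k =>
        induction j using WithTop.recTopCoe with
        | top =>
          induction l using WithTop.recTopCoe with
          | top =>
            simp only [Fam_coe_top]
            exact (cp_comm K i k a b).map _
          | coe l =>
            simp only [Fam_coe_top, Fam_coe_coe]
            exact (cp_comm_x K a (adm_coe K hb) (by simpa using h2)).map _
        | coe j =>
          induction l using WithTop.recTopCoe with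
          | top =>
            simp only [Fam_coe_top, Fam_coe_coe]
            exact ((cp_comm_x K b (adm_coe K ha) (by simpa using h1.symm)).map _).symm
          | coe l =>
            simp only [Fam_coe_coe]
            exact ((x_comm K a b (by simpa using h1) (by simpa using h2)).map _).map _
  · intro i j l a b hn hn' hn'' ha hb h
    apply bra_of
    induction i using WithTop.recTopCoe with
    | top =>
      induction j using WithTop.recTopCoe with
      | top => exact absurd rfl ha.1
      | coe j =>
        induction l using WithTop.recTopCoe with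
        | top => exact absurd rfl h
        | coe l =>
          simp only [Fam_top_coe, Fam_coe_coe]
          exact L_bra K ho h5 (by simpa using hn) (adm_top K ha) (adm_coe K hb)
            (by simpa using hn'')
    | coe i =>
      induction j using WithTop.recTopCoe with
      | top =>
        induction l using WithTop.recTopCoe with
        | top => exact absurd rfl hb.1
        | coe l =>
          simp only [Fam_top_coe, Fam_coe_coe, Fam_coe_top]
          exact cp_bra K ho h5 (by simpa using hn') (adm_top K hb) (by simpa using h) a
      | coe j =>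
        induction l using WithTop.recTopCoe with
        | top =>
          simp only [Fam_coe_coe, Fam_coe_top, ← map_mul]
          rw [x_bra_cp K (adm_coe K ha)]
        | coe l =>
          simp only [Fam_coe_coe, ← map_mul]
          rw [x_swap K (adm_coe K ha) (adm_coe K hb) (by simpa using h)]
  · intro k hk
    induction k using WithTop.recTopCoe with
    | top => exact absurd rfl hk
    | coe k => exact_mod_cast ho k

include ho h5 in
theorem eq_one_of_smap {g : St K ι} (hg : pi K g = 1)
    (h : smap K (WithTop.coeOrderHom : ι ↪o WithTop ι) g = 1) : g = 1 := by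
  obtain ⟨Y, hY, hY'⟩ := exists_fam K ho h5
  have h1 : hY.lift.comp (smap K (WithTop.coeOrderHom : ι ↪o WithTop ι)) =
      (act K ho).comp (inr K) := by
    refine St.hom_ext fun i j a ha => ?_
    simp only [MonoidHom.comp_apply, smap_x, IsFam.lift_x]
    exact hY' i j a ha
  have h2 : act K ho (inr K g) = 1 := by
    have := DFunLike.congr_fun h1 g
    simp only [MonoidHom.comp_apply, h, map_one] at this
    exact this.symm
  have h3 : mk K ho (inr K g) 1 = mk K ho 1 1 := by
    have := congrArg (fun f : Equiv.Perm (Xs K ho) => f (mk K ho 1 1)) h2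
    simpa [act_apply, smul_mk] using this
  obtain ⟨s, -, h4, h6⟩ := (mk_eq_iff K ho).1 h3
  rw [one_mul] at h4
  subst h4
  have h7 : cc K o g = 0 := by rw [cc, hg, Matrix.one_mulVec, sub_self]
  simpa [sig, inr_apply, h7, col_zero] using h6.symm

end Stab

variable {A : Type} [Ring A] (K : Coef A)

theorem stab_succ (m : ℕ) (hm : 5 ≤ m) :
    Function.Injective (smap K (Fin.castSuccOrderEmb : Fin m ↪o Fin (m + 1))) := by
  rw [injective_iff_map_eq_one]
  intro g hg
  have h5 : Five (Fin m) :=
    ⟨⟨0, by omega⟩, ⟨1, by omega⟩, ⟨2, by omega⟩, ⟨3, by omega⟩, ⟨4, by omega⟩,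
      by simp, by simp, by simp, by simp⟩
  have ho : ∀ k : Fin m, k ≤ ⟨m - 1, by omega⟩ := fun k => by
    rw [Fin.le_def]; have := k.2; simp only; omega
  have hpi : pi K g = 1 := by
    rw [← pi_smap_eq_one_iff K (Fin.castSuccOrderEmb : Fin m ↪o Fin (m + 1)), hg, map_one]
  let e : Fin (m + 1) ↪o WithTop (Fin m) := OrderEmbedding.ofStrictMono
    (fun i => if h : i.1 < m then ((⟨i.1, h⟩ : Fin m) : WithTop (Fin m)) else ⊤) (by
      intro i j hij
      rw [Fin.lt_def] at hij
      have := j.2
      have hi : i.1 < m := by omega
      simp only [hi, dif_pos]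
      split_ifs with hj
      · exact_mod_cast hij
      · exact WithTop.coe_lt_top _)
  refine Stab.eq_one_of_smap K ho h5 hpi ?_
  have he : (Fin.castSuccOrderEmb : Fin m ↪o Fin (m + 1)).trans e = WithTop.coeOrderHom := by
    ext i
    exact dif_pos i.2
  rw [← he, ← smap_comp, hg, map_one]

theorem stab_le {m n : ℕ} (hm : 5 ≤ m) (h : m ≤ n) :
    Function.Injective (smap K (Fin.castLEOrderEmb h)) := by
  induction n, h using Nat.le_induction with
  | base =>
    have : (Fin.castLEOrderEmb (le_refl m)) = (OrderIso.refl (Fin m)).toOrderEmbedding := by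
      ext i; simp
    rw [this]
    exact smap_injective_of_iso K _
  | succ n hn ih =>
    have : Fin.castLEOrderEmb (Nat.le_succ_of_le hn) =
        (Fin.castLEOrderEmb hn).trans (Fin.castSuccOrderEmb : Fin n ↪o Fin (n + 1)) := by
      ext i; simp
    intro g g' hg
    rw [this, ← smap_comp, ← smap_comp] at hg
    exact ih (stab_succ K n (hm.trans hn) hg)

end Vale.Agent.P192
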