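import Vale.Agent.P192.StDiag

/-!
P192, auxiliary file for injective stability: the parabolic group `E`, the subgroup `Sh`, the
homomorphism `sig` and the quotient set `Xs` with its coordinates.
-/

namespace Vale.Agent.P192

open scoped commutatorElement Matrix

namespace Stab

variable {A : Type} [Ring A] (K : Coef A) {ι : Type} [LinearOrder ι] [Fintype ι]

include K in
theorem neg_eq (a : A) : -a = a := by
  rw [neg_eq_iff_add_eq_zero]; exact K.two a

include K in
omit [LinearOrder ι] [Fintype ι] in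
theorem vtwo (r : ι → A) : r + r = 0 := by
  ext m; exact K.two _

/-- The parabolic group: column vectors extended by the Steinberg group. -/
@[ext] structure E (ι : Type) [LinearOrder ι] where
  c : ι → A
  g : St K ι

noncomputable instance : Group (E K ι) where
  mul e e' := ⟨e.c + pi K e.g *ᵥ e'.c, e.g * e'.g⟩
  one := ⟨0, 1⟩
  inv e := ⟨-(pi K e.g⁻¹ *ᵥ e.c), e.g⁻¹⟩
  mul_assoc a b c := by
    apply E.ext
    · change (a.c + pi K a.g *ᵥ b.c) + pi K (a.g * b.g) *ᵥ c.c =
        a.c + pi K a.g *ᵥ (b.c + pi K b.g *ᵥ c.c)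
      rw [map_mul, Matrix.mulVec_add, Matrix.mulVec_mulVec, add_assoc]
    · exact mul_assoc a.g b.g c.g
  one_mul a := by
    apply E.ext
    · change (0 : ι → A) + pi K 1 *ᵥ a.c = a.c
      rw [map_one, Matrix.one_mulVec, zero_add]
    · exact one_mul a.g
  mul_one a := by
    apply E.ext
    · change a.c + pi K a.g *ᵥ 0 = a.c
      rw [Matrix.mulVec_zero, add_zero]
    · exact mul_one a.g
  inv_mul_cancel a := by
    apply E.ext
    · change -(pi K a.g⁻¹ *ᵥ a.c) + pi K a.g⁻¹ *ᵥ a.c = 0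
      rw [neg_add_cancel]
    · exact inv_mul_cancel a.g

theorem mul_c (e e' : E K ι) : (e * e').c = e.c + pi K e.g *ᵥ e'.c := rfl
theorem mul_g (e e' : E K ι) : (e * e').g = e.g * e'.g := rfl
theorem one_c : (1 : E K ι).c = 0 := rfl
theorem one_g : (1 : E K ι).g = 1 := rfl
theorem inv_c (e : E K ι) : (e⁻¹).c = -(pi K e.g⁻¹ *ᵥ e.c) := rfl
theorem inv_g (e : E K ι) : (e⁻¹).g = e.g⁻¹ := rfl

theorem mk_mul_mk (c c' : ι → A) (g g' : St K ι) :
    (E.mk c g : E K ι) * E.mk c' g' = E.mk (c + pi K g *ᵥ c') (g * g') := rfl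

/-- The embedding of the Steinberg group. -/
noncomputable def inr : St K ι →* E K ι where
  toFun g := ⟨0, g⟩
  map_one' := rfl
  map_mul' g g' := by rw [mk_mul_mk, Matrix.mulVec_zero, add_zero]

theorem inr_apply (g : St K ι) : inr K g = E.mk 0 g := rfl

variable (o : ι)

theorem mulVec_o {g : St K ι} (hg : g ∈ gen K (fun k _ => k ≠ o)) (c : ι → A) :
    (pi K g *ᵥ c) o = c o := by
  have : (pi K g *ᵥ c) o = ((1 : Matrix ι ι A) *ᵥ c) o := by
    simp only [Matrix.mulVec, dotProduct]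
    exact Finset.sum_congr rfl fun t _ => by rw [pi_row_fixed K hg t]
  rw [this, Matrix.one_mulVec]

theorem mulVec_single_o {g : St K ι} (hg : g ∈ gen K (fun _ l => l ≠ o)) (a : A) :
    pi K g *ᵥ Pi.single o a = Pi.single o a := by
  ext s
  rw [Matrix.mulVec_single]
  simp only [Matrix.col, Pi.smul_apply, Matrix.transpose_apply, MulOpposite.smul_eq_mul_unop,
    MulOpposite.unop_op]
  rw [pi_col_fixed K hg s, Matrix.one_apply, Pi.single_apply]
  split_ifs <;> simp

/-- The subgroup generated by the roots with row index different from `o` and from the new index. -/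
def Sh : Subgroup (E K ι) where
  carrier := {e | e.c o = 0 ∧ e.g ∈ gen K (fun k _ => k ≠ o)}
  one_mem' := ⟨rfl, one_mem _⟩
  mul_mem' := by
    rintro a b ⟨ha, ha'⟩ ⟨hb, hb'⟩
    refine ⟨?_, mul_mem ha' hb'⟩
    rw [mul_c, Pi.add_apply, mulVec_o K o ha', ha, hb, add_zero]
  inv_mem' := by
    rintro a ⟨ha, ha'⟩
    refine ⟨?_, inv_mem ha'⟩
    rw [inv_c, Pi.neg_apply, mulVec_o K o (inv_mem ha'), ha, neg_zero]

theorem mem_Sh {e : E K ι} : e ∈ Sh K o ↔ e.c o = 0 ∧ e.g ∈ gen K (fun k _ => k ≠ o) := Iff.rfl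

/-- Column `o` of the matrix minus the unit vector. -/
noncomputable def cc (g : St K ι) : ι → A := pi K g *ᵥ Pi.single o 1 - Pi.single o 1

theorem cc_mul (g g' : St K ι) : cc K o (g * g') = cc K o g + pi K g *ᵥ cc K o g' := by
  simp only [cc, map_mul, Matrix.mulVec_sub, Matrix.mulVec_mulVec]
  abel

theorem cc_o {g : St K ι} (hg : g ∈ gen K (fun k _ => k ≠ o)) : cc K o g o = 0 := by
  rw [cc, Pi.sub_apply, mulVec_o K o hg, sub_self]

theorem cc_eq_zero {g : St K ι} (hg : g ∈ gen K (fun _ l => l ≠ o)) : cc K o g = 0 := by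
  rw [cc, mulVec_single_o K o hg, sub_self]

variable {o} (ho : ∀ k, k ≤ o)

include ho in
omit [Fintype ι] in
theorem adm_o {k : ι} (hk : k ≠ o) (a : A) : Adm K k o a := ⟨hk, Or.inl (lt_of_le_of_ne (ho k) hk)⟩

include ho in
omit [Fintype ι] in
theorem colAdm {c : ι → A} (hc : c o = 0) : ColAdm K o c := ⟨hc, fun _ hm => adm_o K ho hm _⟩

variable (o)

/-- Kill the column `o` and rename the new column to `o`. -/
noncomputable def sig (e : E K ι) : St K ι := col K o (e.c + cc K o e.g) * e.g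

variable {o}

include ho in
theorem sig_mul {s s' : E K ι} (hs : s ∈ Sh K o) (hs' : s' ∈ Sh K o) :
    sig K o (s * s') = sig K o s * sig K o s' := by
  have h1 : (s.c + cc K o s.g) o = 0 := by rw [Pi.add_apply, hs.1, cc_o K o hs.2, add_zero]
  have h2 : (s'.c + cc K o s'.g) o = 0 := by rw [Pi.add_apply, hs'.1, cc_o K o hs'.2, add_zero]
  obtain ⟨h3, h4⟩ := conj_col K hs.2 (colAdm K ho h2)
  simp only [sig, mul_c, mul_g, cc_mul]
  have : s.c + pi K s.g *ᵥ s'.c + (cc K o s.g + pi K s.g *ᵥ cc K o s'.g) =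
      (s.c + cc K o s.g) + pi K s.g *ᵥ (s'.c + cc K o s'.g) := by
    rw [Matrix.mulVec_add]; abel
  rw [this, col_add K (colAdm K ho h1) h3, ← h4]
  group

theorem sig_one : sig K o (1 : E K ι) = 1 := by
  simp [sig, one_c, one_g, cc_eq_zero K o (one_mem _), col_zero]

/-- The relation defining the quotient set. -/
def rel (ho : ∀ k, k ≤ o) : Setoid (E K ι × St K ι) where
  r z z' := ∃ s ∈ Sh K o, z.1 = z'.1 * s ∧ z'.2 = sig K o s * z.2
  iseqv := {
    refl z := ⟨1, one_mem _, by simp, by simp [sig_one]⟩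
    symm := by
      rintro z z' ⟨s, hs, h1, h2⟩
      refine ⟨s⁻¹, inv_mem hs, by simp [h1], ?_⟩
      rw [h2, ← mul_assoc, ← sig_mul K ho (inv_mem hs) hs, inv_mul_cancel, sig_one, one_mul]
    trans := by
      rintro z z' z'' ⟨s, hs, h1, h2⟩ ⟨s', hs', h1', h2'⟩
      refine ⟨s' * s, mul_mem hs' hs, by rw [h1, h1', mul_assoc], ?_⟩
      rw [h2', h2, sig_mul K ho hs' hs, mul_assoc] }

/-- The set on which the larger Steinberg group acts. -/
def Xs (ho : ∀ k, k ≤ o) : Type := Quotient (rel K ho)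

/-- The class of a pair. -/
def mk (e : E K ι) (h : St K ι) : Xs K ho := Quotient.mk (rel K ho) (e, h)

theorem mk_eq_iff {e e' : E K ι} {h h' : St K ι} :
    mk K ho e h = mk K ho e' h' ↔ ∃ s ∈ Sh K o, e = e' * s ∧ h' = sig K o s * h :=
  Quotient.eq (r := rel K ho)

theorem mk_mul (e : E K ι) {s : E K ι} (hs : s ∈ Sh K o) (h : St K ι) :
    mk K ho (e * s) h = mk K ho e (sig K o s * h) :=
  (mk_eq_iff K ho).2 ⟨s, hs, rfl, rfl⟩

theorem mk_surj (z : Xs K ho) : ∃ e h, z = mk K ho e h := by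
  obtain ⟨⟨e, h⟩, rfl⟩ := Quotient.exists_rep z
  exact ⟨e, h, rfl⟩

noncomputable instance : MulAction (E K ι) (Xs K ho) where
  smul e z := Quotient.map (sa := rel K ho) (sb := rel K ho) (fun z => (e * z.1, z.2))
    (by
      rintro z z' ⟨s, hs, h1, h2⟩
      exact ⟨s, hs, by simp [h1, mul_assoc], h2⟩) z
  one_smul z := by
    obtain ⟨e, h, rfl⟩ := mk_surj K ho z
    change mk K ho (1 * e) h = _
    rw [one_mul]
  mul_smul a b z := by
    obtain ⟨e, h, rfl⟩ := mk_surj K ho z
    change mk K ho (a * b * e) h = mk K ho (a * (b * e)) h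
    rw [mul_assoc]

theorem smul_mk (a e : E K ι) (h : St K ι) : a • mk K ho e h = mk K ho (a * e) h := rfl

theorem conj_col_diag {t : St K ι} {u : ι → Aˣ} (h : IsDiag K t u) {j : ι} {c : ι → A}
    (hc : ColAdm K j c) :
    t * col K j c * t⁻¹ = col K j (fun m => u m * c m * ((u j)⁻¹ : Aˣ)) := by
  have := Finset.map_noncommProd Finset.univ (fun m => x K m j (c m))
    (fun m _ k _ _ => commute_col K j m k _ _) (MulAut.conj t)
  rw [← MulAut.conj_apply, col, this, col]
  refine Finset.noncommProd_congr rfl (fun m _ => ?_) _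
  rw [MulAut.conj_apply]
  by_cases hm : m = j
  · subst hm
    rw [hc.1, x_zero]; simp [x_zero]
  · exact h.2 m j _ (hc.2 m hm)

theorem diag_mulVec {t : St K ι} {u : ι → Aˣ} (h : IsDiag K t u) (c : ι → A) :
    pi K t *ᵥ c = fun m => u m * c m := by
  ext m; rw [h.1, Matrix.mulVec_diagonal]

variable (o)

/-- The transversal elements. -/
noncomputable def yy (c : A) (r : ι → A) : E K ι := ⟨Pi.single o c, row K o r⟩

variable {o}

/-- Coordinates on the quotient set. -/
noncomputable def pt (c : A) (r : ι → A) (t γ : St K ι) : Xs K ho :=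
  mk K ho (yy K o c r * inr K t) (t⁻¹ * γ)

theorem move {e s : E K ι} {c c' : A} {r r' : ι → A} {t : St K ι} {u : ι → Aˣ}
    (ht : IsDiag K t u) (hs : s ∈ Sh K o) (h : e * yy K o c r = yy K o c' r' * s) (γ : St K ι) :
    e • pt K ho c r t γ =
      pt K ho c' r' t (col K o (fun m => s.c m * ((u o)⁻¹ : Aˣ) + cc K o s.g m) * s.g * γ) := by
  have hti := ht.inv
  have hs' : (inr K t)⁻¹ * s * inr K t ∈ Sh K o := by
    refine ⟨?_, ?_⟩
    · simp only [mul_c, inv_c, inv_g, inr_apply, Matrix.mulVec_zero, neg_zero, zero_add, add_zero]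
      rw [diag_mulVec K hti]
      simp [hs.1]
    · simpa [mul_g, inv_g, inr_apply] using hti.conj_gen K hs.2
  rw [pt, smul_mk, ← mul_assoc, h, pt]
  have e1 : yy K o c' r' * s * inr K t = yy K o c' r' * inr K t * ((inr K t)⁻¹ * s * inr K t) := by
    group
  rw [e1, mk_mul K ho _ hs']
  congr 1
  have h1 : (fun m => s.c m * ((u o)⁻¹ : Aˣ) + cc K o s.g m) o = 0 := by
    simp [hs.1, cc_o K o hs.2]
  have h2 := conj_col_diag K hti
    (colAdm K ho (c := fun m => s.c m * ((u o)⁻¹ : Aˣ) + cc K o s.g m) h1)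
  have h3 : ((inr K t)⁻¹ * s * inr K t).c + cc K o ((inr K t)⁻¹ * s * inr K t).g =
      fun m => (u⁻¹ m : Aˣ) * (s.c m * ((u o)⁻¹ : Aˣ) + cc K o s.g m) * ((u⁻¹ o)⁻¹ : Aˣ) := by
    simp only [mul_c, mul_g, inv_c, inv_g, inr_apply, Matrix.mulVec_zero, neg_zero, zero_add,
      add_zero, cc, map_mul, ← Matrix.mulVec_mulVec]
    simp only [diag_mulVec K hti, diag_mulVec K ht]
    have e2 : (fun m => (u m : A) * (Pi.single o (1 : A) : ι → A) m) = Pi.single o (u o : A) := by
      ext m; by_cases hm : m = o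
      · subst hm; simp
      · simp [hm]
    rw [e2]
    ext m
    simp only [Matrix.mulVec_single, Pi.add_apply, Pi.sub_apply, Matrix.col, Pi.smul_apply,
      Matrix.transpose_apply, MulOpposite.smul_eq_mul_unop, MulOpposite.unop_op, Pi.inv_apply,
      inv_inv, mul_one, mul_add, add_mul, mul_sub, sub_mul, mul_assoc, Units.inv_mul]
    by_cases hm : m = o
    · subst hm; simp
    · simp [hm]
  rw [sig, h3, ← h2]
  simp only [mul_g, inv_g, inr_apply]
  group

theorem row_col_fixed {r : ι → A} (hr : RowAdm K o r) : row K o r ∈ gen K (fun _ l => l ≠ o) :=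
  row_mem_gen K fun _ hm h => hm (h ▸ hr.1)

theorem pi_row_mulVec {r : ι → A} (hr : RowAdm K o r) (d : ι → A) :
    pi K (row K o r) *ᵥ d = d + Pi.single o (r ⬝ᵥ d) := by
  rw [pi_row K hr, Matrix.add_mulVec, Matrix.one_mulVec]
  congr 1
  ext s
  by_cases hs : s = o
  · subst hs; simp [Matrix.mulVec, dotProduct]
  · simp [Matrix.mulVec, dotProduct, hs]

theorem row_inv {i : ι} {r : ι → A} (hr : RowAdm K i r) : (row K i r)⁻¹ = row K i r := by
  rw [inv_eq_iff_mul_eq_one, ← row_add K hr hr, vtwo K, row_zero]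

theorem pt_surj (h5 : Five ι) (z : Xs K ho) :
    ∃ c r t u γ, RowAdm K o r ∧ IsDiag K t u ∧ z = pt K ho c r t γ := by
  obtain ⟨⟨d, g⟩, h, rfl⟩ := mk_surj K ho z
  obtain ⟨r, t, u, s, hr, ht, hs, rfl⟩ := gauss K h5 Set.univ o (g := g)
    (by rw [show (fun k _ => k ∈ Set.univ : ι → ι → Prop) = fun _ _ => True by simp, gen_true]
        trivial)
  have hs' : s ∈ gen K (fun k _ => k ≠ o) := gen_mono K (fun _ _ h => h.2) hs
  set d'' := pi K (row K o r * t)⁻¹ *ᵥ d with hd''
  have hS : (E.mk (d'' - Pi.single o (d'' o)) s : E K ι) ∈ Sh K o := ⟨by simp, hs'⟩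
  refine ⟨u o * d'' o, r, t, u, t * (sig K o (E.mk (d'' - Pi.single o (d'' o)) s) * h), hr, ht, ?_⟩
  rw [pt, inv_mul_cancel_left, ← mk_mul K ho _ hS]
  congr 1
  rw [yy, inr_apply, mk_mul_mk, mk_mul_mk, Matrix.mulVec_zero, add_zero, Matrix.mulVec_sub, hd'',
    Matrix.mulVec_mulVec, pi_mul_inv, Matrix.one_mulVec, map_mul, ← Matrix.mulVec_mulVec,
    ← hd'', diag_mulVec K ht]
  have e2 : (fun m => (u m : A) * (Pi.single o (d'' o) : ι → A) m) = Pi.single o (u o * d'' o) := by
    ext m; by_cases hm : m = o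
    · subst hm; simp
    · simp [hm]
  rw [e2, mulVec_single_o K o (row_col_fixed K hr)]
  congr 1
  abel

theorem pt_congr {t t' : St K ι} {u u' : ι → Aˣ} (ht : IsDiag K t u) (ht' : IsDiag K t' u')
    (hu : u o = u' o) (hg : t'⁻¹ * t ∈ gen K (fun k _ => k ≠ o)) (c : A) (r : ι → A)
    (γ : St K ι) : pt K ho c r t γ = pt K ho c r t' γ := by
  have hS : inr K (t'⁻¹ * t) ∈ Sh K o := ⟨rfl, hg⟩
  have hd := ht'.inv.mul K ht
  have hc : cc K o (t'⁻¹ * t) = 0 := by
    rw [cc, diag_mulVec K hd]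
    ext m; by_cases hm : m = o
    · subst hm; simp [hu]
    · simp [hm]
  rw [pt, pt, show yy K o c r * inr K t = yy K o c r * inr K t' * inr K (t'⁻¹ * t) by
    rw [map_mul, map_inv]; group, mk_mul K ho _ hS]
  simp only [sig, inr_apply, hc, add_zero, col_zero]
  congr 1
  group

theorem pt_inj {t t' γ γ' : St K ι} {u u' : ι → Aˣ} {c c' : A} {r r' : ι → A}
    (hr : RowAdm K o r) (hr' : RowAdm K o r') (ht : IsDiag K t u) (ht' : IsDiag K t' u')
    (h : pt K ho c r t γ = pt K ho c' r' t' γ') :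
    c = c' ∧ r = r' ∧ u o = u' o ∧ γ = γ' ∧ t'⁻¹ * t ∈ gen K (fun k _ => k ≠ o) := by
  obtain ⟨⟨d, g⟩, ⟨hd, hg⟩, h1, h2⟩ := (mk_eq_iff K ho).1 h
  simp only at hd hg
  simp only [yy, inr_apply, mk_mul_mk, Matrix.mulVec_zero, add_zero, E.mk.injEq] at h1
  obtain ⟨h1, h3⟩ := h1
  have hg1 : g = t'⁻¹ * row K o (r' + r) * t := by
    rw [row_add K hr' hr, ← row_inv K hr']
    calc g = (row K o r' * t')⁻¹ * (row K o r' * t' * g) := by group
      _ = _ := by rw [← h3]; group
  have hrow : ∀ m, (((u' o)⁻¹ : Aˣ) : A) * ((1 : Matrix ι ι A) o m + (r' + r) m) * u m =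
      (1 : Matrix ι ι A) o m := by
    intro m
    have := pi_row_fixed K hg m
    rw [hg1, map_mul, map_mul, ht'.inv.1, ht.1, pi_row K (hr'.add K hr), Matrix.mul_diagonal,
      Matrix.diagonal_mul] at this
    simpa using this
  have hrr : r = r' := by
    ext m
    by_cases hm : m = o
    · subst hm; rw [hr.1, hr'.1]
    · have := hrow m
      rw [Matrix.one_apply_ne (Ne.symm hm), zero_add, Units.mul_left_eq_zero,
        Units.mul_right_eq_zero, Pi.add_apply] at this
      rw [← neg_eq K (r m)]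
      exact (neg_eq_of_add_eq_zero_left this)
  have huu : u o = u' o := by
    have := hrow o
    rw [Matrix.one_apply_eq, Pi.add_apply, hr.1, hr'.1, add_zero, add_zero, mul_one] at this
    have h4 : (u' o)⁻¹ * u o = 1 := Units.ext (by simpa using this)
    rw [inv_mul_eq_one] at h4
    exact h4.symm
  subst hrr
  rw [vtwo K, row_zero, mul_one] at hg1
  have hd0 : d = 0 := by
    ext m
    by_cases hm : m = o
    · subst hm; exact hd
    · have := congrFun h1 m
      rw [map_mul, ← Matrix.mulVec_mulVec, pi_row_mulVec K hr, diag_mulVec K ht'] at this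
      have h5 : (u' m : A) * d m = 0 := by simpa [hm] using this.symm
      exact (Units.mul_right_eq_zero _).1 h5
  subst hd0
  have hcc : c = c' := by
    have := congrFun h1 o
    simpa using this
  have hc : cc K o g = 0 := by
    rw [hg1, cc, diag_mulVec K (ht'.inv.mul K ht)]
    ext m; by_cases hm : m = o
    · subst hm; simp [huu]
    · simp [hm]
  refine ⟨hcc, rfl, huu, ?_, hg1 ▸ hg⟩
  rw [sig] at h2
  simp only [hc, add_zero, col_zero, one_mul] at h2
  rw [hg1, mul_assoc, mul_inv_cancel_left] at h2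
  exact (mul_left_cancel h2).symm

end Stab

end Vale.Agent.P192
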