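import Mathlib

/-!
P192, combinatorial side, part A0: length preserving rewriting systems with forbidden pairs,
monomer-dimer weights, the vanishing property, and simulations.
-/

namespace Vale.Agent.P192

/-- A rewriting system on words: two-letter rules and forbidden pairs. -/
structure Sys (α : Type) where
  Step : α → α → α → α → Prop
  Forb : α → α → Prop

namespace Sys

variable {α β : Type} (S : Sys α)

/-- One application of a rule. -/
def One (w w' : List α) : Prop :=
  ∃ u v a b a' b', S.Step a b a' b' ∧ w = u ++ a :: b :: v ∧ w' = u ++ a' :: b' :: v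

/-- The congruence generated by the rules. -/
def Eqv : List α → List α → Prop := Relation.EqvGen S.One

/-- A rule in either direction. -/
def Sym (a b a' b' : α) : Prop := S.Step a b a' b' ∨ S.Step a' b' a b

def HasForb (w : List α) : Prop := ∃ u v a b, S.Forb a b ∧ w = u ++ a :: b :: v

/-- No word of the class contains a forbidden pair. -/
def Alive (w : List α) : Prop := ∀ w', S.Eqv w w' → ¬ S.HasForb w'

variable {S}

theorem Eqv.refl (w : List α) : S.Eqv w w := Relation.EqvGen.refl w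

theorem Eqv.symm {w w' : List α} (h : S.Eqv w w') : S.Eqv w' w := Relation.EqvGen.symm _ _ h

theorem Eqv.trans {w w' w'' : List α} (h : S.Eqv w w') (h' : S.Eqv w' w'') : S.Eqv w w'' :=
  Relation.EqvGen.trans _ _ _ h h'

theorem One.eqv {w w' : List α} (h : S.One w w') : S.Eqv w w' := Relation.EqvGen.rel _ _ h

theorem Sym.eqv {a b a' b' : α} (h : S.Sym a b a' b') (u v : List α) :
    S.Eqv (u ++ a :: b :: v) (u ++ a' :: b' :: v) :=
  h.elim (fun h => One.eqv ⟨u, v, a, b, a', b', h, rfl, rfl⟩)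
    (fun h => (One.eqv ⟨u, v, a', b', a, b, h, rfl, rfl⟩).symm)

theorem Sym.symm {a b a' b' : α} (h : S.Sym a b a' b') : S.Sym a' b' a b := Or.symm h

theorem Eqv.length_eq {w w' : List α} (h : S.Eqv w w') : w.length = w'.length := by
  induction h with
  | rel _ _ h => obtain ⟨u, v, a, b, a', b', -, rfl, rfl⟩ := h; simp
  | refl => rfl
  | symm _ _ _ ih => exact ih.symm
  | trans _ _ _ _ _ ih1 ih2 => exact ih1.trans ih2

theorem Eqv.context {w w' : List α} (h : S.Eqv w w') (p q : List α) :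
    S.Eqv (p ++ w ++ q) (p ++ w' ++ q) := by
  induction h with
  | rel _ _ h =>
    obtain ⟨u, v, a, b, a', b', hs, rfl, rfl⟩ := h
    exact One.eqv ⟨p ++ u, v ++ q, a, b, a', b', hs, by simp, by simp⟩
  | refl => exact Eqv.refl _
  | symm _ _ _ ih => exact ih.symm
  | trans _ _ _ _ _ ih1 ih2 => exact ih1.trans ih2

theorem Eqv.append {w w' z z' : List α} (h : S.Eqv w w') (h' : S.Eqv z z') :
    S.Eqv (w ++ z) (w' ++ z') := by
  have h1 := h.context [] z
  have h2 := h'.context w' []
  simp only [List.nil_append, List.append_nil] at h1 h2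
  exact h1.trans h2

/-- Induction along the congruence: a property closed under rules in both directions. -/
theorem Eqv.induction {C : List α → Prop}
    (hC : ∀ u v a b a' b', S.Sym a b a' b' → C (u ++ a :: b :: v) → C (u ++ a' :: b' :: v))
    {w w' : List α} (h : S.Eqv w w') (hw : C w) : C w' := by
  have : C w ↔ C w' := by
    clear hw
    induction h with
    | rel _ _ h =>
      obtain ⟨u, v, a, b, a', b', hs, rfl, rfl⟩ := h
      exact ⟨hC u v a b a' b' (Or.inl hs), hC u v a' b' a b (Or.inr hs)⟩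
    | refl => exact Iff.rfl
    | symm _ _ _ ih => exact ih.symm
    | trans _ _ _ _ _ ih1 ih2 => exact ih1.trans ih2
  exact this.mp hw

theorem HasForb.context {w : List α} (h : S.HasForb w) (p q : List α) :
    S.HasForb (p ++ w ++ q) := by
  obtain ⟨u, v, a, b, hs, rfl⟩ := h
  exact ⟨p ++ u, v ++ q, a, b, hs, by simp⟩

theorem Alive.of_eqv {w w' : List α} (h : S.Alive w) (e : S.Eqv w w') : S.Alive w' :=
  fun _ e' => h _ (e.trans e')

theorem Alive.factor {p w q : List α} (h : S.Alive (p ++ w ++ q)) : S.Alive w :=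
  fun _ e hf => h _ (e.context p q) (hf.context p q)

theorem Alive.not_forb {u v : List α} {a b : α} (h : S.Alive (u ++ a :: b :: v)) :
    ¬ S.Forb a b := fun hf => h _ (Eqv.refl _) ⟨u, v, a, b, hf, rfl⟩

theorem alive_singleton (a : α) : S.Alive [a] := by
  intro w' e hf
  obtain ⟨u, v, b, c, -, rfl⟩ := hf
  have := e.length_eq
  simp at this
  omega

theorem finite_cls [Finite α] (w : List α) : {w' | S.Eqv w w'}.Finite :=
  (List.finite_length_eq α w.length).subset fun _ h => (Eqv.length_eq h).symm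

variable (S)

/-- The class of a word as a finite set. -/
noncomputable def cls [Finite α] (w : List α) : Finset (List α) := (finite_cls (S := S) w).toFinset

variable {S}

@[simp] theorem mem_cls [Finite α] {w w' : List α} : w' ∈ S.cls w ↔ S.Eqv w w' := by
  simp [cls]

end Sys

/-- Monomer-dimer weight of a word. -/
def wt {α B : Type} [Ring B] (M : α → B) (I : α → α → B) : List α → B
  | [] => 1
  | [a] => M a
  | a :: b :: w => M a * wt M I (b :: w) + I a b * wt M I w

/-- The vanishing property: all monomer-dimer weights with values in `B` sum to zero over every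
long alive class. -/
def Sys.Van {α : Type} [Finite α] (S : Sys α) (B : Type) [Ring B] : Prop :=
  ∃ N : ℕ, ∀ (M : α → B) (I : α → α → B) (w : List α), S.Alive w → N ≤ w.length →
    ∑ w' ∈ S.cls w, wt M I w' = 0

/-- A finite set that is a union of blocks with zero sums has zero sum. -/
theorem sum_eq_zero_of_blocks {γ B : Type} [AddCommMonoid B] (C : Finset γ) (f : γ → B)
    (blk : γ → Finset γ) (h1 : ∀ w ∈ C, w ∈ blk w) (h2 : ∀ w ∈ C, blk w ⊆ C)
    (h3 : ∀ w ∈ C, ∀ w' ∈ blk w, blk w' = blk w) (h4 : ∀ w ∈ C, ∑ w' ∈ blk w, f w' = 0) :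
    ∑ w ∈ C, f w = 0 := by
  classical
  rw [← Finset.sum_fiberwise_of_maps_to (g := blk) (t := C.image blk)
    (fun w hw => Finset.mem_image_of_mem _ hw)]
  refine Finset.sum_eq_zero fun b hb => ?_
  obtain ⟨w, hw, rfl⟩ := Finset.mem_image.mp hb
  rw [← h4 w hw]
  refine Finset.sum_congr ?_ fun _ _ => rfl
  ext w'
  simp only [Finset.mem_filter]
  exact ⟨fun h => h.2 ▸ h1 w' h.1, fun h => ⟨h2 w hw h, h3 w hw w' h⟩⟩

/-- `S` simulates `S'`: letters of `S'` are represented by the words of `T1 c` (length `len`),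
locked pairs of letters by the words of `T2 c d` (length `2 len`); `e : O → α` lists the letters
that end a block. -/
structure Sim {α β : Type} (S : Sys α) (S' : Sys β) (O : Type) where
  len : ℕ
  two_le_len : 2 ≤ len
  T1 : β → List α → Prop
  T2 : β → β → List α → Prop
  UE : α → Prop
  e : O → α
  e_inj : Function.Injective e
  UE_e : ∀ o, UE (e o)
  root : β → List α
  root_mem : ∀ c, T1 c (root c)
  len1 : ∀ c g, T1 c g → g.length = len
  len2 : ∀ c d g, T2 c d g → g.length = 2 * len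
  last1 : ∀ c g, T1 c g → ∃ g' o, g = g' ++ [e o]
  last2 : ∀ c d g, T2 c d g → ∃ g' o, g = g' ++ [e o]
  mid2 : ∀ c d g' y v, T2 c d (g' ++ y :: v) → g'.length + 1 = len → ¬ UE y
  uniq1 : ∀ c c' g, T1 c g → T1 c' g → c = c'
  uniq2 : ∀ c d c' d' g, T2 c d g → T2 c' d' g → c = c' ∧ d = d'
  conn1 : ∀ c g, T1 c g → S.Eqv g (root c)
  conn2 : ∀ c d g, T2 c d g → S.Eqv g (root c ++ root d)
  in1 : ∀ c u v a b a' b', T1 c (u ++ a :: b :: v) → S.Sym a b a' b' → T1 c (u ++ a' :: b' :: v)
  in2 : ∀ c d u v a b a' b', T2 c d (u ++ a :: b :: v) → S.Sym a b a' b' →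
    T2 c d (u ++ a' :: b' :: v) ∨ (∃ g₁ g₂, T1 c g₁ ∧ T1 d g₂ ∧ u ++ a' :: b' :: v = g₁ ++ g₂) ∨
      ∃ c' d', S'.Sym c d c' d' ∧ T2 c' d' (u ++ a' :: b' :: v)
  cross11 : ∀ c d u v a b a' b', T1 c (u ++ [a]) → T1 d (b :: v) → S.Sym a b a' b' →
    T2 c d (u ++ a' :: b' :: v)
  cross2l : ∀ c d u v a b a' b', T2 c d (u ++ [a]) →
    ((∃ c', T1 c' (b :: v)) ∨ ∃ c' d', T2 c' d' (b :: v)) → ¬ S.Sym a b a' b'
  cross2r : ∀ c c' d' u v a b a' b', T1 c (u ++ [a]) → T2 c' d' (b :: v) → ¬ S.Sym a b a' b'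
  forb1 : ∀ c g, T1 c g → ¬ S.HasForb g
  forb2 : ∀ c d g, T2 c d g → S.HasForb g → S'.Forb c d
  forbX : ∀ u v a b, ((∃ c, T1 c (u ++ [a])) ∨ ∃ c d, T2 c d (u ++ [a])) →
    ((∃ c, T1 c (b :: v)) ∨ ∃ c d, T2 c d (b :: v)) → ¬ S.Forb a b
  simStep : ∀ c d c' d', S'.Step c d c' d' → S.Eqv (root c ++ root d) (root c' ++ root d')
  simForb : ∀ c d, S'.Forb c d → ¬ S.Alive (root c ++ root d)
  parse : ∀ y g z, S.Alive (y :: (g ++ [z])) → UE y → UE z → (∀ a ∈ g, ¬ UE a) →
    (∃ c, T1 c (g ++ [z])) ∨ ∃ c d, T2 c d (g ++ [z])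
  bound : ∃ N : ℕ, ∀ w, S.Alive w → (∀ a ∈ w, ¬ UE a) → w.length ≤ N
  UE_alive : ∀ y z, S.Alive [y, z] → UE z → ∃ o, z = e o

end Vale.Agent.P192
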